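import Vale.Agent.P265.Coh

/-! Averaging over the cyclic group of order six. -/

namespace Vale.Agent.P265

open Set

namespace AvgM

theorem pb_apply {E E' : Type} (f : E → E') (φ : Co E') (l : List E) :
    pb f φ l = φ (l.map f) := rfl

theorem pb_succ {E : Type} (ι : E → E) (j : ℕ) (φ : Co E) :
    pb ι^[j + 1] φ = pb ι (pb ι^[j] φ) := by
  funext l
  simp only [pb_apply, List.map_map, Function.iterate_succ]

theorem iter_cont {E : Type} [MetricSpace E] {ι : E → E} {A : Set E} (h : Good ι A) (j : ℕ) :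
    ContinuousOn ι^[j] A ∧ MapsTo ι^[j] A A := by
  refine ⟨?_, h.2.1.iterate j⟩
  induction j with
  | zero => exact continuousOn_id
  | succ j ih =>
    rw [Function.iterate_succ]
    exact ih.comp h.2.2.1 h.2.1

/-- The averaging operator. -/
noncomputable def avg {E : Type} (ι : E → E) (ε : K7) : Co E →ₗ[K7] Co E :=
  (6 : K7)⁻¹ • ∑ j ∈ Finset.range 6, (ε⁻¹) ^ j • pb ι^[j]

theorem avg_eq {E : Type} (ι : E → E) (ε : K7) (φ : Co E) :
    avg ι ε φ = (6 : K7)⁻¹ • ∑ j ∈ Finset.range 6, (ε⁻¹) ^ j • pb ι^[j] φ := by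
  simp only [avg, LinearMap.smul_apply, LinearMap.sum_apply]

theorem avg_mem {E : Type} (ι : E → E) (ε : K7) (φ : Co E) (S : Submodule K7 (Co E))
    (h : ∀ j, pb ι^[j] φ ∈ S) : avg ι ε φ ∈ S := by
  rw [avg_eq]
  exact S.smul_mem _ (S.sum_mem fun j _ => S.smul_mem _ (h j))

theorem pow_six {ε : K7} (hε : ε ≠ 0) : ε ^ 6 = 1 :=
  ZMod.pow_card_sub_one_eq_one hε

theorem avg_map {E : Type} [MetricSpace E] {ι : E → E} {ε : K7} (hε : ε ≠ 0) (A : Set E)
    (φ : Co E) (l : List E) (h : Good ι A) (hl : ∀ x ∈ l, x ∈ A) :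
    avg ι ε φ (l.map ι) = ε * avg ι ε φ l := by
  have h6 : l.map ι^[6] = l := by
    conv_rhs => rw [← List.map_id l]
    exact List.map_congr_left fun x hx => h.2.2.2 x (hl x hx)
  have hi : (ε⁻¹) ^ 6 = 1 := by rw [inv_pow, pow_six hε, inv_one]
  have key : ∀ j, pb ι^[j] φ (l.map ι) = pb ι^[j + 1] φ l := fun j => by
    rw [pb_succ]; rfl
  have e1 : ∑ j ∈ Finset.range 6, (ε⁻¹) ^ j * pb ι^[j] φ (l.map ι) =
      ε * ∑ j ∈ Finset.range 6, (ε⁻¹) ^ (j + 1) * pb ι^[j + 1] φ l := by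
    rw [Finset.mul_sum]
    refine Finset.sum_congr rfl fun j _ => ?_
    rw [key, pow_succ]
    field_simp
  have e2 : ∑ j ∈ Finset.range 6, (ε⁻¹) ^ (j + 1) * pb ι^[j + 1] φ l =
      ∑ j ∈ Finset.range 6, (ε⁻¹) ^ j * pb ι^[j] φ l := by
    have a := Finset.sum_range_succ' (fun j => (ε⁻¹) ^ j * pb ι^[j] φ l) 6
    have b := Finset.sum_range_succ (fun j => (ε⁻¹) ^ j * pb ι^[j] φ l) 6
    have c : (ε⁻¹) ^ 6 * pb ι^[6] φ l = (ε⁻¹) ^ 0 * pb ι^[0] φ l := by
      rw [hi, pb_apply, pb_apply, h6]; simp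
    rw [a, c] at b
    exact add_right_cancel b
  rw [avg_eq]
  simp only [Pi.smul_apply, Finset.sum_apply, smul_eq_mul]
  rw [e1, e2]; ring

end AvgM

open AvgM in
theorem avgS (hB : StmtBas) : StmtAvg := by
  intro E _ ι ε hε
  obtain ⟨-, h2, -, -, -, -, h7, h8, -⟩ := hB E
  refine ⟨avg ι ε, fun φ => ?_, fun A n hA φ hφ => ?_, fun A φ l hA hl => avg_map hε A φ l hA hl,
    fun A B n hA hB' hBA => ?_⟩
  · rw [avg_eq, avg_eq, map_smul, map_sum]
    simp only [map_smul, h2]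
  · exact avg_mem ι ε φ _ fun j => h7 E A A _ n hA.1 (iter_cont hA j).1 (iter_cont hA j).2 φ hφ
  · have hP : ∀ j, PMap A B A B ι^[j] := fun j =>
      ⟨(iter_cont hA j).1, (iter_cont hA j).2, (iter_cont hB' j).2⟩
    have hp := fun j => h8 E A B A B ι^[j] n hA.1 hB'.1 hBA (hP j)
    refine ⟨fun φ hφ => ⟨avg_mem ι ε φ _ fun j => (hp j).1 φ hφ, ?_⟩,
      fun φ hφ => avg_mem ι ε φ _ fun j => (hp j).2 φ hφ, fun φ hφ => ?_⟩
    · refine Submodule.mem_sup_right ⟨1, one_pos, fun l _ hs => ?_⟩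
      have := avg_map hε A φ l hA hs.1
      simp only [LinearMap.sub_apply, LinearMap.smul_apply, LinearMap.id_apply, Pi.sub_apply,
        Pi.smul_apply, smul_eq_mul, pb_apply, this, sub_self]
    · have h1 : pb ι φ - ε • φ ∈ Bd A B n := hφ.2
      have hj : ∀ j, pb ι^[j] φ - ε ^ j • φ ∈ Bd A B n := by
        intro j
        induction j with
        | zero =>
          have : pb ι^[0] φ - ε ^ 0 • φ = 0 := by
            funext l; simp [pb_apply]
          rw [this]; exact Submodule.zero_mem _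
        | succ j ih =>
          have e : pb ι^[j + 1] φ - ε ^ (j + 1) • φ =
              pb ι^[1] (pb ι^[j] φ - ε ^ j • φ) + ε ^ j • (pb ι φ - ε • φ) := by
            rw [pb_succ, Function.iterate_one, map_sub, map_smul, smul_sub, smul_smul, pow_succ]
            abel
          rw [e]
          exact Submodule.add_mem _ ((hp 1).2 _ ih) (Submodule.smul_mem _ _ h1)
      have e : avg ι ε φ - φ =
          (6 : K7)⁻¹ • ∑ j ∈ Finset.range 6, (ε⁻¹) ^ j • (pb ι^[j] φ - ε ^ j • φ) := by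
        have h6 : (6 : K7) ≠ 0 := by decide
        have e3 : ∀ j, (ε⁻¹) ^ j • (pb ι^[j] φ - ε ^ j • φ) = (ε⁻¹) ^ j • pb ι^[j] φ - φ := by
          intro j
          rw [smul_sub, smul_smul, ← mul_pow, inv_mul_cancel₀ hε, one_pow, one_smul]
        simp only [e3]
        rw [Finset.sum_sub_distrib, smul_sub, ← avg_eq, Finset.sum_const, Finset.card_range,
          ← Nat.cast_smul_eq_nsmul K7, smul_smul]
        have : (6 : K7)⁻¹ * ((6 : ℕ) : K7) = 1 := by
          rw [Nat.cast_ofNat, inv_mul_cancel₀ h6]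
        rw [this, one_smul]
      rw [e]
      exact Submodule.smul_mem _ _ (Submodule.sum_mem _ fun j _ => Submodule.smul_mem _ _ (hj j))

end Vale.Agent.P265
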