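import Vale.Agent.P265.M.Cube

/-! From the sup norm cube to Euclidean balls of arbitrary radii. -/

namespace Vale.Agent.P265

open Set Metric

namespace BallM

variable {V W : Type} [NormedAddCommGroup V] [NormedSpace ℝ V] [NormedAddCommGroup W]
  [NormedSpace ℝ W]

theorem exists_clamp (T : V ≃L[ℝ] W) {r S : ℝ} (hr : 0 < r) (hS : 0 < S) :
    ∃ a : V → ℝ, Continuous a ∧ (∀ u, 0 < a u) ∧ (∀ u, ‖a u • T u‖ ≤ S) ∧
      ∀ u, r ≤ ‖u‖ → ‖a u • T u‖ = S := by
  set C : ℝ := ‖(T.symm : W →L[ℝ] V)‖ + 1 with hC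
  have hC0 : 0 < C := by positivity
  have hm : 0 < r / C := by positivity
  have hpos : ∀ u, 0 < max ‖T u‖ (r / C) := fun u => lt_max_of_lt_right hm
  have hn : ∀ u, ‖(S / max ‖T u‖ (r / C)) • T u‖ = S * (‖T u‖ / max ‖T u‖ (r / C)) := fun u => by
    rw [norm_smul, Real.norm_of_nonneg (div_pos hS (hpos u)).le]; ring
  refine ⟨fun u => S / max ‖T u‖ (r / C), ?_, fun u => div_pos hS (hpos u), fun u => ?_,
    fun u hu => ?_⟩
  · exact continuous_const.div (T.continuous.norm.max continuous_const) fun u => (hpos u).ne'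
  · rw [hn]
    exact mul_le_of_le_one_right hS.le ((div_le_one (hpos u)).2 (le_max_left _ _))
  · have h1 : ‖u‖ ≤ C * ‖T u‖ := by
      have := (T.symm : W →L[ℝ] V).le_opNorm (T u)
      simp only [ContinuousLinearEquiv.coe_coe, ContinuousLinearEquiv.symm_apply_apply] at this
      nlinarith [norm_nonneg (T u)]
    have h2 : r / C ≤ ‖T u‖ := by
      rw [div_le_iff₀ hC0]; linarith
    rw [hn, max_eq_left h2, div_self (hm.trans_le h2).ne', mul_one]

theorem htp_radial {E : Type} [MetricSpace E] (A : Set E) {r R : ℝ} (c : V → ℝ)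
    (hc : Continuous c) (h0 : ∀ u, 0 ≤ c u) (h1 : ∀ u, ‖c u • u‖ ≤ R)
    (h2 : ∀ u, r ≤ ‖u‖ → r ≤ ‖c u • u‖) (F : E × V → E × V) (hF : ∀ p, F p = (p.1, c p.2 • p.2)) :
    Htp (A ×ˢ closedBall (0 : V) R) (A ×ˢ (closedBall (0 : V) R \ ball 0 r))
      (A ×ˢ closedBall (0 : V) R) (A ×ˢ (closedBall (0 : V) R \ ball 0 r)) F id := by
  have hn : ∀ t ∈ Icc (0 : ℝ) 1, ∀ u : V,
      ‖((1 - t) * c u + t) • u‖ = (1 - t) * ‖c u • u‖ + t * ‖u‖ := fun t ht u => by
    have := h0 u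
    have h3 : 0 ≤ 1 - t := sub_nonneg.2 ht.2
    rw [norm_smul, norm_smul, Real.norm_of_nonneg this,
      Real.norm_of_nonneg (add_nonneg (mul_nonneg h3 this) ht.1)]
    ring
  have hup : ∀ t ∈ Icc (0 : ℝ) 1, ∀ u ∈ closedBall (0 : V) R,
      ((1 - t) * c u + t) • u ∈ closedBall (0 : V) R := fun t ht u hu => by
    rw [mem_closedBall_zero_iff] at hu ⊢
    rw [hn t ht]
    have h3 : 0 ≤ 1 - t := sub_nonneg.2 ht.2
    nlinarith [mul_le_mul_of_nonneg_left (h1 u) h3, mul_le_mul_of_nonneg_left hu ht.1]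
  refine ⟨fun t p => (p.1, ((1 - t) * c p.2 + t) • p.2), ?_, fun t ht => ⟨?_, ?_⟩, ?_, ?_⟩
  · apply Continuous.continuousOn
    fun_prop
  · exact fun p hp => ⟨hp.1, hup t ht _ hp.2⟩
  · refine fun p hp => ⟨hp.1, hup t ht _ hp.2.1, ?_⟩
    have hu := hp.2.2
    rw [mem_ball_zero_iff, not_lt] at hu ⊢
    rw [hn t ht]
    have h3 : 0 ≤ 1 - t := sub_nonneg.2 ht.2
    nlinarith [mul_le_mul_of_nonneg_left (h2 _ hu) h3, mul_le_mul_of_nonneg_left hu ht.1]
  · intro p _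
    simp [hF]
  · intro p _
    simp

theorem pmap_clamp {E : Type} [MetricSpace E] (A : Set E) (T : V ≃L[ℝ] W) {r R s S : ℝ}
    (hs : s ≤ S) (a : V → ℝ) (ha : Continuous a) (h1 : ∀ u, ‖a u • T u‖ ≤ S)
    (h2 : ∀ u, r ≤ ‖u‖ → ‖a u • T u‖ = S) :
    PMap (A ×ˢ closedBall (0 : V) R) (A ×ˢ (closedBall (0 : V) R \ ball 0 r))
      (A ×ˢ closedBall (0 : W) S) (A ×ˢ (closedBall (0 : W) S \ ball 0 s))
      (fun p => (p.1, a p.2 • T p.2)) := by
  refine ⟨?_, fun p hp => ⟨hp.1, mem_closedBall_zero_iff.2 (h1 _)⟩,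
    fun p hp => ⟨hp.1, mem_closedBall_zero_iff.2 (h1 _), ?_⟩⟩
  · apply Continuous.continuousOn
    fun_prop
  · have hu := hp.2.2
    rw [mem_ball_zero_iff, not_lt] at hu ⊢
    rw [h2 _ hu]; exact hs

theorem radial_comp (T : V ≃L[ℝ] W) (a : V → ℝ) (b : W → ℝ) (u : V) :
    b (a u • T u) • T.symm (a u • T u) = (b (a u • T u) * a u) • u := by
  rw [map_smul, T.symm_apply_apply, smul_smul]

theorem gen (hE : StmtEqv) [ProperSpace V] [ProperSpace W] {E : Type} [MetricSpace E]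
    (ι : E → E) (ε : K7) (A : Set E) (hA : Good ι A) (T : V ≃L[ℝ] W) {r R s S : ℝ}
    (hr : 0 < r) (hR : r ≤ R) (hs : 0 < s) (hS : s ≤ S) (n : ℕ) :
    hd (Prod.map ι id) ε (A ×ˢ closedBall (0 : V) R) (A ×ˢ (closedBall (0 : V) R \ ball 0 r)) n =
    hd (Prod.map ι id) ε (A ×ˢ closedBall (0 : W) S) (A ×ˢ (closedBall (0 : W) S \ ball 0 s)) n := by
  obtain ⟨a, ac, a0, a1, a2⟩ := exists_clamp T hr (hs.trans_le hS)
  obtain ⟨b, bc, b0, b1, b2⟩ := exists_clamp T.symm hs (hr.trans_le hR)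
  have gW : Good (Prod.map ι id) (A ×ˢ closedBall (0 : W) S) :=
    CubeM.good_prod hA (isCompact_closedBall _ _)
  have gW' : Good (Prod.map ι id) (A ×ˢ (closedBall (0 : W) S \ ball 0 s)) :=
    CubeM.good_prod hA ((isCompact_closedBall _ _).diff isOpen_ball)
  have hf := pmap_clamp (R := R) A T hS a ac a1 a2
  have hg := pmap_clamp (R := S) A T.symm hR b bc b1 b2
  refine hE _ _ _ _ ε _ _ _ _ _ _ (CubeM.good_prod hA (isCompact_closedBall _ _))
    (CubeM.good_prod hA ((isCompact_closedBall _ _).diff isOpen_ball))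
    (prod_mono_right sdiff_subset) gW gW' (prod_mono_right sdiff_subset) hf hg ?_ ?_ ?_ n
  · refine htp_radial A (fun u => b (a u • T u) * a u) (by fun_prop)
      (fun u => (mul_pos (b0 _) (a0 _)).le) (fun u => ?_) (fun u hu => ?_) _ fun p => ?_
    · rw [← radial_comp]; exact b1 _
    · rw [← radial_comp, b2 _ (by rw [a2 u hu]; exact hS)]; exact hR
    · simp only [Function.comp_apply, radial_comp]
  · have rc := radial_comp T.symm b a
    simp only [ContinuousLinearEquiv.symm_symm] at rc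
    refine htp_radial A (fun v => a (b v • T.symm v) * b v) (by fun_prop)
      (fun u => (mul_pos (a0 _) (b0 _)).le) (fun u => ?_) (fun u hu => ?_) _ fun p => ?_
    · rw [← rc]; exact a1 _
    · rw [← rc, a2 _ (by rw [b2 u hu]; exact hR)]; exact hS
    · simp only [Function.comp_apply, rc]
  · exact CubeM.htp_eq ⟨gW.2.2.1.comp hf.1 hf.2.1, gW.2.1.comp hf.2.1, gW'.2.1.comp hf.2.2⟩ rfl

end BallM

theorem ballS (hE : StmtEqv) (hC : StmtCube) : StmtBall := by
  intro E _ ι ε A c q r R hε hA hc hr hR n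
  rw [← hC E ι ε A c q hε hA hc n]
  exact BallM.gen hE ι ε A hA (EuclideanSpace.equiv (Fin q) ℝ) hr hR.le (by norm_num)
    (by norm_num) n

end Vale.Agent.P265
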