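import Vale.Agent.P265.Ex

/-! The middle band of the genus two surface. -/

namespace Vale.Agent.P265

open Set Complex

namespace BandM

theorem good_empty {E : Type} [MetricSpace E] (ι : E → E) : Good ι (∅ : Set E) :=
  ⟨isCompact_empty, mapsTo_empty _ _, continuousOn_empty _, fun _ h => h.elim⟩

theorem good_id {E : Type} [MetricSpace E] {A : Set E} (h : IsCompact A) : Good id A :=
  ⟨h, mapsTo_id _, continuousOn_id, fun x _ => by simp⟩

theorem htp_refl {E : Type} [MetricSpace E] (A B : Set E) : Htp A B A B id id :=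
  ⟨fun _ x => x, continuous_snd.continuousOn, fun _ _ => ⟨mapsTo_id _, mapsTo_id _⟩,
    fun _ _ => rfl, fun _ _ => rfl⟩

theorem slab_mono {u v u' v' : ℝ} (hu : u' ≤ u) (hv : v ≤ v') : slab u v ⊆ slab u' v' :=
  fun _ hp => ⟨hp.1, hu.trans hp.2.1, hp.2.2.trans hv⟩

theorem conv_mem {a b x c t : ℝ} (ht : t ∈ Icc (0 : ℝ) 1) (hx : a ≤ x ∧ x ≤ b)
    (hc : a ≤ c ∧ c ≤ b) : a ≤ (1 - t) * x + t * c ∧ (1 - t) * x + t * c ≤ b := by
  obtain ⟨h0, h1⟩ := ht
  constructor <;> nlinarith [hx.1, hx.2, hc.1, hc.2]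

section
variable {B : ℂ × ℝ → VS} {θ : VS → ℂ}

/-- The homotopy pushing the height to `c`. -/
def push (B : ℂ × ℝ → VS) (θ : VS → ℂ) (c : ℝ) {E : Type} (t : ℝ) (q : VS × E) : VS × E :=
  (B (θ q.1, (1 - t) * q.1.2.2 + t * c), q.2)

theorem push_cont {E : Type} [MetricSpace E] (Z : Set E)
    (hB : ContinuousOn B (Metric.sphere 0 1 ×ˢ Icc (-1 / 2) (1 / 2)))
    (hθ : ContinuousOn θ (slab (-1 / 2) (1 / 2)))
    (hn : ∀ p ∈ slab (-1 / 2) (1 / 2), ‖θ p‖ = 1)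
    {u v c : ℝ} (hu : -1 / 2 ≤ u) (hv : v ≤ 1 / 2) (hc : -1 / 2 ≤ c ∧ c ≤ 1 / 2) :
    ContinuousOn (fun q : ℝ × (VS × E) => push B θ c q.1 q.2) (Icc 0 1 ×ˢ (slab u v ×ˢ Z)) := by
  unfold push
  refine ContinuousOn.prodMk ?_ (by fun_prop)
  refine hB.comp (ContinuousOn.prodMk ?_ (by fun_prop)) ?_
  · exact hθ.comp (f := fun q : ℝ × (VS × E) => q.2.1) (by fun_prop)
      (fun q hq => slab_mono hu hv hq.2.1)
  · intro q hq
    have hs := slab_mono hu hv hq.2.1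
    exact ⟨by simpa using hn _ hs, conv_mem hq.1 hs.2 hc⟩

theorem push_maps {E : Type} (Z : Set E)
    (hq : ∀ q ∈ Metric.sphere (0 : ℂ) 1 ×ˢ Icc (-1 / 2 : ℝ) (1 / 2), B q ∈ Sig ∧ (B q).2.2 = q.2)
    (hn : ∀ p ∈ slab (-1 / 2) (1 / 2), ‖θ p‖ = 1)
    {u v c : ℝ} (hu : -1 / 2 ≤ u) (hv : v ≤ 1 / 2) (hc : u ≤ c ∧ c ≤ v) {t : ℝ}
    (ht : t ∈ Icc (0 : ℝ) 1) : MapsTo (push B θ c t) (slab u v ×ˢ Z) (slab u v ×ˢ Z) := by
  intro q hq'
  have hs := slab_mono hu hv hq'.1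
  have hm := conv_mem ht hq'.1.2 hc
  have := hq (θ q.1, (1 - t) * q.1.2.2 + t * c)
    ⟨by simpa using hn _ hs, hu.trans hm.1, hm.2.trans hv⟩
  refine ⟨⟨this.1, ?_⟩, hq'.2⟩
  change u ≤ (B _).2.2 ∧ (B _).2.2 ≤ v
  rw [this.2]
  exact hm

end

end BandM

open BandM

theorem bandS (hE : StmtEqv) (hZ : StmtZero) (hC : StmtCirc) (hG : StmtSG) (hP : StmtPar) :
    StmtBand := by
  intro E _ Z z hZc hz
  obtain ⟨B, θ, τ, hB, hθ, hq, hp⟩ := hP
  obtain ⟨-, -, -, -, -, -, -, -, -, hgood, -⟩ := hG E Z hZc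
  have hn : ∀ p ∈ slab (-1 / 2) (1 / 2), ‖θ p‖ = 1 := fun p h => (hp p h).1
  have hq' : ∀ q ∈ Metric.sphere (0 : ℂ) 1 ×ˢ Icc (-1 / 2 : ℝ) (1 / 2),
      B q ∈ Sig ∧ (B q).2.2 = q.2 := fun q h => ⟨(hq q h).1, (hq q h).2.1⟩
  have hA' : IsCompact (Z ×ˢ Metric.sphere (0 : ℂ) 1) := hZc.prod (isCompact_sphere _ _)
  refine ⟨fun u v hu huv hv => ?_, ?_⟩
  · have key : ∀ (ε : K7) (n : ℕ), hd (Prod.map gS id) ε (slab u v ×ˢ Z) ∅ n =
        hd id ε (Z ×ˢ Metric.sphere (0 : ℂ) 1) ∅ n := by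
      intro ε
      refine hE (VS × E) (E × ℂ) (Prod.map gS id) id ε (slab u v ×ˢ Z) ∅
        (Z ×ˢ Metric.sphere (0 : ℂ) 1) ∅ (fun q => (q.2, θ q.1)) (fun r => (B (r.2, u), r.1))
        (hgood u v) (good_empty _) (empty_subset _) (good_id hA') (good_empty _) (empty_subset _)
        ⟨?_, ?_, mapsTo_empty _ _⟩ ⟨?_, ?_, mapsTo_empty _ _⟩ ?_ ?_ ?_
      · refine ContinuousOn.prodMk (by fun_prop) ?_
        exact hθ.comp (f := fun q : VS × E => q.1) (by fun_prop)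
          (fun q hq => slab_mono hu hv hq.1)
      · intro q hq
        exact ⟨hq.2, by simpa using hn _ (slab_mono hu hv hq.1)⟩
      · refine ContinuousOn.prodMk ?_ (by fun_prop)
        exact hB.comp (f := fun r : E × ℂ => (r.2, u)) (by fun_prop)
          (fun r hr => ⟨hr.2, hu, huv.trans hv⟩)
      · intro r hr
        have := hq' (r.2, u) ⟨hr.2, hu, huv.trans hv⟩
        refine ⟨⟨this.1, ?_⟩, hr.1⟩
        change u ≤ (B _).2.2 ∧ (B _).2.2 ≤ v
        rw [this.2]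
        exact ⟨le_rfl, huv⟩
      · refine ⟨fun t => push B θ u (1 - t), ?_, fun t ht => ⟨?_, mapsTo_empty _ _⟩, ?_, ?_⟩
        · have h := push_cont Z hB hθ hn hu hv (c := u) ⟨hu, huv.trans hv⟩
          refine h.comp (f := fun q : ℝ × (VS × E) => (1 - q.1, q.2)) (by fun_prop) ?_
          intro q hq
          exact ⟨⟨by linarith [hq.1.2], by linarith [hq.1.1]⟩, hq.2⟩
        · exact push_maps Z hq' hn hu hv ⟨le_rfl, huv⟩ ⟨by linarith [ht.2], by linarith [ht.1]⟩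
        · intro q _
          simp [push]
        · intro q hq
          have := (hp q.1 (slab_mono hu hv hq.1)).2.1
          simp [push, this]
      · refine ⟨fun _ r => r, continuous_snd.continuousOn,
          fun _ _ => ⟨mapsTo_id _, mapsTo_empty _ _⟩, ?_, fun _ _ => rfl⟩
        intro r hr
        have := (hq (r.2, u) ⟨hr.2, hu, huv.trans hv⟩).2.2
        simp only [Function.comp_apply] at this ⊢
        rw [this]
      · refine ⟨fun t q => (q.2, exp ((1 - t) * τ * I) * θ q.1), ?_,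
          fun t _ => ⟨?_, mapsTo_empty _ _⟩, ?_, ?_⟩
        · refine ContinuousOn.prodMk (by fun_prop) (ContinuousOn.mul (by fun_prop) ?_)
          exact hθ.comp (f := fun q : ℝ × (VS × E) => q.2.1) (by fun_prop)
            (fun q hq => slab_mono hu hv hq.2.1)
        · intro q hq
          refine ⟨hq.2, ?_⟩
          have h1 := hn _ (slab_mono hu hv hq.1)
          have h2 : ‖exp ((1 - t) * τ * I)‖ = 1 := by
            have := Complex.norm_exp_ofReal_mul_I ((1 - t) * τ)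
            simpa using this
          simp [h1, h2]
        · intro q hq
          have := (hp q.1 (slab_mono hu hv hq.1)).2.2
          simp [this]
        · intro q _
          simp
    refine ⟨fun n => ?_, fun n => ?_⟩
    · rw [key]
      exact hC E Z z hZc hz n
    · rw [key]
      exact (hZ (E × ℂ) id 3 _ ∅ hA' isCompact_empty (empty_subset _)).2.1 (htp_refl _ _)
        (by decide) n
  · have hsub : slab (-1 / 2) (-1 / 4) ×ˢ Z ⊆ slab (-1 / 2) (1 / 2) ×ˢ Z :=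
      prod_mono (slab_mono le_rfl (by norm_num)) subset_rfl
    refine (hZ (VS × E) (Prod.map gS id) 1 _ _ (hgood _ _).1 (hgood _ _).1 hsub).1
      (push B θ (-1 / 2) 1) ⟨push B θ (-1 / 2), ?_, fun t ht => ⟨?_, ?_⟩, ?_, fun _ _ => rfl⟩ ?_
    · exact push_cont Z hB hθ hn le_rfl le_rfl ⟨le_rfl, by norm_num⟩
    · exact push_maps Z hq' hn le_rfl le_rfl ⟨le_rfl, by norm_num⟩ ht
    · exact push_maps Z hq' hn le_rfl (by norm_num) ⟨le_rfl, by norm_num⟩ ht
    · intro q hq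
      have := (hp q.1 hq.1).2.1
      simp [push, this]
    · intro q hq0
      have := hq' (θ q.1, (1 - 1) * q.1.2.2 + 1 * (-1 / 2))
        ⟨by simpa using hn _ hq0.1, by norm_num, by norm_num⟩
      refine ⟨⟨this.1, ?_⟩, hq0.2⟩
      change -1 / 2 ≤ (B _).2.2 ∧ (B _).2.2 ≤ -1 / 4
      rw [this.2]
      norm_num

end Vale.Agent.P265
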