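import Vale.Agent.P265.Coh

namespace Vale.Agent.P265

open Set

namespace BasM

variable {E : Type}

theorem dd_sub (φ ψ : Co E) (l : List E) : dd (φ - ψ) l = dd φ l - dd ψ l :=
  congrFun ((dL E).map_sub φ ψ) l

theorem dd_dd (l : List E) : ∀ φ : Co E, dd (dd φ) l = 0 := by
  induction l with
  | nil => intro φ; rfl
  | cons x l ih =>
    intro φ
    have h : (fun m => dd φ (x :: m)) = φ - dd fun m => φ (x :: m) := rfl
    rw [dd, h, dd_sub, ih]; ring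

theorem dd_map {E' : Type} (f : E → E') (l : List E) :
    ∀ φ : Co E', dd (fun m => φ (m.map f)) l = dd φ (l.map f) := by
  induction l with
  | nil => intro φ; rfl
  | cons x l ih =>
    intro φ
    rw [dd, List.map_cons, dd, ← ih]; rfl

theorem dd_zero (l : List E) : ∀ φ : Co E,
    (∀ m : List E, m.Sublist l → m.length + 1 = l.length → φ m = 0) → dd φ l = 0 := by
  induction l with
  | nil => intro φ _; rfl
  | cons x l ih =>
    intro φ h
    rw [dd, h l (List.sublist_cons_self x l) rfl,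
      ih _ fun m hm hl => h _ (hm.cons_cons x) (by simp [hl]), sub_zero]

variable [MetricSpace E]

theorem mono {A B : Set E} (n : ℕ) (h : B ⊆ A) : Nul A n ≤ Nul B n :=
  fun _ ⟨δ, hδ, hφ⟩ => ⟨δ, hδ, fun l hl hs => hφ l hl ⟨fun x hx => h (hs.1 x hx), hs.2⟩⟩

theorem d_nul (A : Set E) (n : ℕ) : ∀ φ ∈ Nul A (n - 1), dL E φ ∈ Nul A n :=
  fun φ ⟨δ, hδ, hφ⟩ => ⟨δ, hδ, fun l hl hs => dd_zero l φ fun m hm hm' => hφ m (by omega)
    ⟨fun x hx => hs.1 x (hm.subset hx), fun x hx y hy => hs.2 x (hm.subset hx) y (hm.subset hy)⟩⟩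

theorem nul0 (A B : Set E) : Nul B 0 ≤ Nul A 0 := fun _ ⟨δ, hδ, hφ⟩ => ⟨δ, hδ, fun l hl _ => by
  obtain rfl := List.length_eq_zero_iff.1 hl
  exact hφ [] rfl ⟨by simp, by simp⟩⟩

theorem pb_nul {E' : Type} [MetricSpace E'] {A : Set E} {A' : Set E'} {f : E → E'} (n : ℕ)
    (hA : IsCompact A) (hf : ContinuousOn f A) (hm : MapsTo f A A') :
    ∀ φ ∈ Nul A' n, pb f φ ∈ Nul A n := by
  rintro φ ⟨δ, hδ, hφ⟩
  obtain ⟨η, hη, h⟩ := Metric.uniformContinuousOn_iff.1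
    (hA.uniformContinuousOn_of_continuous hf) δ hδ
  refine ⟨η, hη, fun l hl hs => hφ (l.map f) (by simpa using hl) ⟨?_, ?_⟩⟩
  · simp only [List.mem_map]
    rintro _ ⟨x, hx, rfl⟩
    exact hm (hs.1 x hx)
  · simp only [List.mem_map]
    rintro _ ⟨x, hx, rfl⟩ _ ⟨y, hy, rfl⟩
    exact h x (hs.1 x hx) y (hs.1 y hy) (hs.2 x hx y hy)

end BasM

open BasM in
theorem basS : StmtBas := by
  intro E _
  have h1 : ∀ φ : Co E, dL E (dL E φ) = 0 := fun φ => funext fun l => dd_dd l φ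
  have h2 : ∀ (E' : Type) (f : E → E') (φ : Co E'), dL E (pb f φ) = pb f (dL E' φ) :=
    fun E' f φ => funext fun l => dd_map f l φ
  refine ⟨h1, h2, fun A B n => mono n, d_nul, fun A B n h => sup_le ?_ fun φ hφ => ?_,
    fun ι ε A B => ?_, fun E' _ A A' f n => pb_nul n, fun E' _ A B A' B' f n hA hB h hf => ⟨?_, ?_⟩,
    fun E' A f g n φ h => ⟨1, one_pos, fun l _ hs => ?_⟩⟩
  · rintro _ ⟨φ, hφ, rfl⟩
    exact ⟨d_nul B n φ hφ, by simp [h1]⟩
  · exact ⟨mono n h hφ, d_nul A (n + 1) φ hφ⟩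
  · have : (Ze ι ε A B 0).map (Bd A B 0).mkQ = ⊥ := by
      rw [eq_bot_iff, Submodule.map_le_iff_le_comap, Submodule.comap_bot, Submodule.ker_mkQ]
      exact fun φ hφ => Submodule.mem_sup_right (nul0 A B hφ.1.1)
    rw [hd, this, rank_bot]
  · rintro φ ⟨a, b⟩
    refine ⟨pb_nul n hB (hf.1.mono h) hf.2.2 φ a, ?_⟩
    have := pb_nul (n + 1) hA hf.1 hf.2.1 _ b
    rwa [← h2] at this
  · intro φ hφ
    obtain ⟨_, ⟨ψ, hψ, rfl⟩, ν, hν, rfl⟩ := Submodule.mem_sup.1 hφ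
    rw [map_add, ← h2]
    exact Submodule.add_mem_sup ⟨_, pb_nul _ hB (hf.1.mono h) hf.2.2 ψ hψ, rfl⟩
      (pb_nul n hA hf.1 hf.2.1 ν hν)
  · have : l.map f = l.map g := List.map_congr_left fun x hx => h (hs.1 x hx)
    change φ (l.map f) - φ (l.map g) = 0
    rw [this, sub_self]

end Vale.Agent.P265
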