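import Vale.Agent.P265.Geo

namespace Vale.Agent.P265

open Set Topology
open scoped Manifold ContDiff

namespace Br1M

variable {n : ℕ} {V : Type} [NormedAddCommGroup V] [NormedSpace ℝ V] {S : Set V}

theorem symm_ev (p : Patch (Eu n) S) (x₀ : S) {u : Eu n} (hu : u ∈ p.U) :
    (fun w => ((p.chart x₀).symm w : V)) =ᶠ[𝓝 u] p.P :=
  Filter.eventually_of_mem (p.oU.mem_nhds hu) fun _ hw => p.chart_symm x₀ hw

theorem memU (h : Atl (Eu n) S) (x : S) : (h.pt x).L x ∈ (h.pt x).U :=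
  (h.pt x).mL ⟨x.2, h.mem_pt x⟩

theorem man (h : Atl (Eu n) S) : letI := h.cs; IsManifold 𝓘(ℝ, Eu n) ∞ S := by
  letI := h.cs
  refine isManifold_of_contDiffOn _ _ _ ?_
  rintro e e' ⟨x, rfl⟩ ⟨y, rfl⟩
  simp only [mfld_simps]
  have h1 : ContDiffOn ℝ ∞ ((h.pt y).L ∘ (h.pt x).P) (((h.pt x).chart x).target ∩
      ((h.pt x).chart x).symm ⁻¹' ((h.pt y).chart y).source) := by
    refine (h.pt y).sL.comp ((h.pt x).sP.mono fun u hu => hu.1) fun u hu => ?_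
    rw [← (h.pt x).chart_symm x hu.1]
    exact hu.2
  refine h1.congr fun u hu => ?_
  simp only [Function.comp]
  rw [← (h.pt x).chart_symm x hu.1]
  rfl

theorem smooth (h : Atl (Eu n) S) :
    letI := h.cs; ContMDiff 𝓘(ℝ, Eu n) 𝓘(ℝ, V) ∞ (Subtype.val : S → V) := by
  letI := h.cs
  intro x
  rw [contMDiffAt_iff]
  refine ⟨continuous_subtype_val.continuousAt, ?_⟩
  simp only [mfld_simps]
  have h1 : ContDiffAt ℝ ∞ (h.pt x).P ((h.pt x).L x) :=
    (h.pt x).sP.contDiffAt ((h.pt x).oU.mem_nhds (memU h x))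
  exact (h1.congr_of_eventuallyEq (symm_ev (h.pt x) x (memU h x))).contDiffWithinAt

theorem dP (p : Patch (Eu n) S) {u : Eu n} (hu : u ∈ p.U) : HasFDerivAt p.P (fderiv ℝ p.P u) u :=
  ((p.sP.contDiffAt (p.oU.mem_nhds hu)).differentiableAt (by simp)).hasFDerivAt

theorem hasJ (h : Atl (Eu n) S) (x : S) :
    letI := h.cs; HasMFDerivAt 𝓘(ℝ, Eu n) 𝓘(ℝ, V) (Subtype.val : S → V) x (h.J x) := by
  letI := h.cs
  refine ⟨continuous_subtype_val.continuousAt, ?_⟩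
  simp only [mfld_simps, writtenInExtChartAt]
  exact ((dP (h.pt x) (memU h x)).congr_of_eventuallyEq
    (symm_ev (h.pt x) x (memU h x))).hasFDerivWithinAt

theorem lift (h : Atl (Eu n) S) {W M : Type} [NormedAddCommGroup W] [NormedSpace ℝ W]
    [TopologicalSpace M] [ChartedSpace W M] (f : M → S) (m : M) (A : W →L[ℝ] V)
    (hA : HasMFDerivAt 𝓘(ℝ, W) 𝓘(ℝ, V) (Subtype.val ∘ f) m A) : letI := h.cs
    MDifferentiableAt 𝓘(ℝ, W) 𝓘(ℝ, Eu n) f m ∧
      ∀ a : W, h.J (f m) (mfderiv 𝓘(ℝ, W) 𝓘(ℝ, Eu n) f m a) = A a := by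
  letI := h.cs
  haveI := man h
  have hc : ContinuousAt f m := Topology.IsInducing.subtypeVal.continuousAt_iff.2 hA.continuousAt
  have hL : DifferentiableAt ℝ (h.pt (f m)).L (f m) :=
    ((h.pt (f m)).sL.contDiffAt ((h.pt (f m)).oO.mem_nhds (h.mem_pt (f m)))).differentiableAt
      (by simp)
  have hd : MDifferentiableAt 𝓘(ℝ, W) 𝓘(ℝ, Eu n) f m := by
    rw [mdifferentiableAt_iff_target]
    exact ⟨hc, MDifferentiableAt.comp (f := Subtype.val ∘ f) (g := (h.pt (f m)).L) m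
      hL.mdifferentiableAt hA.mdifferentiableAt⟩
  refine ⟨hd, fun a => ?_⟩
  have h1 := (hasJ h (f m)).comp m hd.hasMFDerivAt
  have h2 := hasMFDerivAt_unique h1 hA
  exact congrArg (fun B : W →L[ℝ] V => B a) h2

end Br1M

open Br1M

theorem br1S (hT : StmtTan) : StmtBr1 := by
  intro n V _ _ S h
  letI := h.cs
  refine ⟨man h, smooth h, hasJ h, fun x => ?_, fun γ v t hγ => ?_, fun x u hu v => ?_,
    fun f f' A x hf hx hA => ?_⟩
  · obtain ⟨h1, h2, -⟩ := (hT V (Eu n) S).1 (h.pt x) x ⟨x.2, h.mem_pt x⟩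
    exact ⟨h1.symm, Function.LeftInverse.injective h2⟩
  · obtain ⟨h1, h2⟩ := lift h γ t _ hγ.hasFDerivAt.hasMFDerivAt
    exact ⟨h1, (h2 1).trans (by simp)⟩
  · exact (lift h (chartAt (Eu n) x).symm u _ ((dP (h.pt x) hu).congr_of_eventuallyEq
      (symm_ev (h.pt x) x hu)).hasMFDerivAt).2 v
  · have e : Subtype.val ∘ f = f' ∘ Subtype.val := funext hf
    have h1 : HasMFDerivAt 𝓘(ℝ, Eu n) 𝓘(ℝ, V) (Subtype.val ∘ f) x (A.comp (h.J x)) := by
      rw [e]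
      exact hasMFDerivWithinAt_univ.1
        (hA.hasMFDerivWithinAt.comp x (hasJ h x).hasMFDerivWithinAt fun y _ => y.2)
    obtain ⟨h2, h3⟩ := lift h f x _ h1
    refine ⟨h2, fun v => ?_⟩
    have h4 := h3 v
    rw [congrArg h.J hx] at h4
    exact h4

end Vale.Agent.P265
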