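import Vale.Agent.P265.Geo

namespace Vale.Agent.P265

open Set Topology
open scoped Manifold ContDiff

namespace Br2M

variable {V D : Type} [NormedAddCommGroup V] [NormedSpace ℝ V] [NormedAddCommGroup D]
  [NormedSpace ℝ D]

theorem frm_cons (τ : Tr V) (l : List (Tr V)) (x u v : V) : frm (τ :: l) x u v =
    τ.1 x * w2 (fderiv ℝ τ.2.1 x) (fderiv ℝ τ.2.2 x) u v + frm l x u v := by simp [frm]

theorem dfrm_cons (τ : Tr V) (l : List (Tr V)) (x u v w : V) : dfrm (τ :: l) x u v w =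
    w3 (fderiv ℝ τ.1 x) (fderiv ℝ τ.2.1 x) (fderiv ℝ τ.2.2 x) u v w + dfrm l x u v w := by
  simp [dfrm]

/-- the form as a continuous bilinear map -/
noncomputable def FB (l : List (Tr V)) (x : V) : V →L[ℝ] V →L[ℝ] ℝ :=
  (l.map fun τ => τ.1 x • ((fderiv ℝ τ.2.1 x).smulRight (fderiv ℝ τ.2.2 x) -
    (fderiv ℝ τ.2.2 x).smulRight (fderiv ℝ τ.2.1 x))).sum

theorem FB_apply (l : List (Tr V)) (x u v : V) : FB l x u v = frm l x u v := by
  induction l with
  | nil => simp [FB, frm]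
  | cons τ l ih =>
    rw [frm_cons, ← ih]
    simp [FB, w2]
    left; ring

theorem frm_self (l : List (Tr V)) (x u : V) : frm l x u u = 0 := by
  induction l with
  | nil => simp [frm]
  | cons τ l ih => rw [frm_cons, ih]; simp [w2]

def SmAt (l : List (Tr D)) (u : D) : Prop :=
  ∀ τ ∈ l, ContDiffAt ℝ ∞ τ.1 u ∧ ContDiffAt ℝ ∞ τ.2.1 u ∧ ContDiffAt ℝ ∞ τ.2.2 u

theorem cd_ev {g : D → ℝ} {u : D} (hg : ContDiffAt ℝ ∞ g u) (b : D) :
    ContDiffAt ℝ ∞ (fun y => fderiv ℝ g y b) u :=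
  (hg.fderiv_right (m := ∞) le_rfl).clm_apply contDiffAt_const

theorem cd_term {f g k : D → ℝ} {u : D} (hf : ContDiffAt ℝ ∞ f u) (hg : ContDiffAt ℝ ∞ g u)
    (hk : ContDiffAt ℝ ∞ k u) (b c : D) :
    ContDiffAt ℝ ∞ (fun y => f y * w2 (fderiv ℝ g y) (fderiv ℝ k y) b c) u :=
  hf.mul (((cd_ev hg b).mul (cd_ev hk c)).sub ((cd_ev hg c).mul (cd_ev hk b)))

theorem cd_frm {l : List (Tr D)} {u : D} (h : SmAt l u) (b c : D) :
    ContDiffAt ℝ ∞ (fun y => frm l y b c) u := by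
  induction l with
  | nil => simpa [frm] using contDiffAt_const
  | cons τ l ih =>
    simp only [frm_cons]
    obtain ⟨h1, h2, h3⟩ := h τ List.mem_cons_self
    exact (cd_term h1 h2 h3 b c).add (ih fun σ hσ => h σ (List.mem_cons_of_mem _ hσ))

theorem d_ev {g : D → ℝ} {u : D} (hg : ContDiffAt ℝ ∞ g u) (b : D) :
    HasFDerivAt (fun y => fderiv ℝ g y b) ((fderiv ℝ (fderiv ℝ g) u).flip b) u := by
  have h : HasFDerivAt (fderiv ℝ g) (fderiv ℝ (fderiv ℝ g) u) u :=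
    ((hg.fderiv_right (m := ∞) le_rfl).differentiableAt (by simp)).hasFDerivAt
  simpa using h.clm_apply (hasFDerivAt_const b u)

theorem d_term {f g k : D → ℝ} {u : D} (hf : ContDiffAt ℝ ∞ f u) (hg : ContDiffAt ℝ ∞ g u)
    (hk : ContDiffAt ℝ ∞ k u) (a b c : D) :
    fderiv ℝ (fun y => f y * w2 (fderiv ℝ g y) (fderiv ℝ k y) b c) u a =
      fderiv ℝ f u a * w2 (fderiv ℝ g u) (fderiv ℝ k u) b c + f u *
        (fderiv ℝ (fderiv ℝ g) u a b * fderiv ℝ k u c + fderiv ℝ g u b * fderiv ℝ (fderiv ℝ k) u a c -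
        (fderiv ℝ (fderiv ℝ g) u a c * fderiv ℝ k u b +
          fderiv ℝ g u c * fderiv ℝ (fderiv ℝ k) u a b)) := by
  have h := (hf.differentiableAt (by simp)).hasFDerivAt.mul
    (((d_ev hg b).mul (d_ev hk c)).sub ((d_ev hg c).mul (d_ev hk b)))
  have h2 : fderiv ℝ (fun y => f y * w2 (fderiv ℝ g y) (fderiv ℝ k y) b c) u = _ := h.fderiv
  rw [h2]
  simp [w2]
  ring

theorem cyc {l : List (Tr D)} {u : D} (h : SmAt l u) (a b c : D) :
    fderiv ℝ (fun y => frm l y b c) u a + fderiv ℝ (fun y => frm l y c a) u b +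
      fderiv ℝ (fun y => frm l y a b) u c = dfrm l u a b c := by
  induction l with
  | nil => simp [frm, dfrm]
  | cons τ l ih =>
    obtain ⟨h1, h2, h3⟩ := h τ List.mem_cons_self
    have h' : SmAt l u := fun σ hσ => h σ (List.mem_cons_of_mem _ hσ)
    have e : ∀ a b c : D, fderiv ℝ (fun y => frm (τ :: l) y b c) u a =
        fderiv ℝ (fun y => τ.1 y * w2 (fderiv ℝ τ.2.1 y) (fderiv ℝ τ.2.2 y) b c) u a +
          fderiv ℝ (fun y => frm l y b c) u a := fun a b c => by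
      simp only [frm_cons]
      rw [fderiv_fun_add ((cd_term h1 h2 h3 b c).differentiableAt (by simp))
        ((cd_frm h' b c).differentiableAt (by simp))]
      rfl
    have s2 : ∀ v w, fderiv ℝ (fderiv ℝ τ.2.1) u v w = fderiv ℝ (fderiv ℝ τ.2.1) u w v :=
      h2.isSymmSndFDerivAt (by simp; exact WithTop.coe_le_coe.2 le_top)
    have s3 : ∀ v w, fderiv ℝ (fderiv ℝ τ.2.2) u v w = fderiv ℝ (fderiv ℝ τ.2.2) u w v :=
      h3.isSymmSndFDerivAt (by simp; exact WithTop.coe_le_coe.2 le_top)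
    rw [e, e, e, dfrm_cons, ← ih h', d_term h1 h2 h3, d_term h1 h2 h3, d_term h1 h2 h3,
      s2 b a, s2 c a, s2 c b, s3 b a, s3 c a, s3 c b]
    unfold w3
    ring

theorem lift_cons (P : D → V) (τ : Tr V) (l : List (Tr V)) :
    liftL P (τ :: l) = (τ.1 ∘ P, τ.2.1 ∘ P, τ.2.2 ∘ P) :: liftL P l := rfl

theorem smAt_lift {l : List (Tr V)} (hl : SmL l) {P : D → V} {u : D} (hP : ContDiffAt ℝ ∞ P u) :
    SmAt (liftL P l) u := by
  intro σ hσ
  obtain ⟨τ, hτ, rfl⟩ := List.mem_map.1 hσ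
  obtain ⟨h1, h2, h3⟩ := hl τ hτ
  exact ⟨h1.contDiffAt.comp u hP, h2.contDiffAt.comp u hP, h3.contDiffAt.comp u hP⟩

theorem chain {g : V → ℝ} (hg : ContDiff ℝ ∞ g) {P : D → V} {u : D} (hP : ContDiffAt ℝ ∞ P u) :
    fderiv ℝ (g ∘ P) u = (fderiv ℝ g (P u)).comp (fderiv ℝ P u) :=
  fderiv_comp u (hg.differentiable (by simp) _) (hP.differentiableAt (by simp))

theorem frm_lift {l : List (Tr V)} (hl : SmL l) {P : D → V} {u : D} (hP : ContDiffAt ℝ ∞ P u)
    (a b c : D) : frm (liftL P l) u b c = frm l (P u) (fderiv ℝ P u b) (fderiv ℝ P u c) ∧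
      dfrm (liftL P l) u a b c =
        dfrm l (P u) (fderiv ℝ P u a) (fderiv ℝ P u b) (fderiv ℝ P u c) := by
  induction l with
  | nil => simp [frm, dfrm, liftL]
  | cons τ l ih =>
    obtain ⟨h1, h2, h3⟩ := hl τ List.mem_cons_self
    obtain ⟨i1, i2⟩ := ih fun σ hσ => hl σ (List.mem_cons_of_mem _ hσ)
    rw [lift_cons, frm_cons, frm_cons, dfrm_cons, dfrm_cons, i1, i2]
    simp only [chain h1 hP, chain h2 hP, chain h3 hP]
    exact ⟨rfl, rfl⟩

end Br2M

open Br2M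

theorem br2S (hT : StmtTan) (h1 : StmtBr1) : StmtBr2 := by
  intro n V _ _ S h l hl
  letI := h.cs
  obtain ⟨-, -, -, b4, -, b6, -⟩ := h1 n V S h
  have e : ∀ (x : S) (v w : Eu n), (FB l x).bilinearComp (h.J x) (h.J x) v w =
      frm l x (h.J x v) (h.J x w) := fun x v w => by
    rw [ContinuousLinearMap.bilinearComp_apply, FB_apply]
  have cP : ∀ (x : S), ∀ u ∈ (h.pt x).U, ContDiffAt ℝ ∞ (h.pt x).P u := fun x u hu =>
    (h.pt x).sP.contDiffAt ((h.pt x).oU.mem_nhds hu)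
  have loc : ∀ (x : S) (v w : Eu n), ∀ u ∈ (h.pt x).U,
      locForm (fun x : S => (FB l x).bilinearComp (h.J x) (h.J x)) x v w u =
        frm (liftL (h.pt x).P l) u v w := fun x v w u hu => by
    rw [(frm_lift hl.1 (cP x u hu) v v w).1, ← b6 x u hu v, ← b6 x u hu w,
      ← (h.pt x).chart_symm x hu]
    exact e _ _ _
  refine ⟨fun x => (FB l x).bilinearComp (h.J x) (h.J x), e, fun x v => ?_, fun x v hv => ?_,
    fun x v w => ?_, fun x u hu a b c => ?_⟩
  · rw [e, frm_self]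
  · have h0 : h.J x v = 0 := hl.2.2 x x.2 _ ((b4 x).1 ▸ mem_range_self v) fun w hw => by
      rw [← (b4 x).1] at hw
      obtain ⟨w, rfl⟩ := hw
      rw [← e]; exact hv w
    exact (b4 x).2 (h0.trans (map_zero _).symm)
  · exact ContDiffOn.congr (fun u hu =>
      (cd_frm (smAt_lift hl.1 (cP x u hu)) v w).contDiffWithinAt) (loc x v w)
  · have ev : ∀ v w : Eu n,
        fderiv ℝ (locForm (fun x : S => (FB l x).bilinearComp (h.J x) (h.J x)) x v w) u =
        fderiv ℝ (fun y => frm (liftL (h.pt x).P l) y v w) u := fun v w =>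
      Filter.EventuallyEq.fderiv_eq (Filter.eventually_of_mem ((h.pt x).oU.mem_nhds hu) (loc x v w))
    rw [ev, ev, ev, cyc (smAt_lift hl.1 (cP x u hu)), (frm_lift hl.1 (cP x u hu) a b c).2]
    have hm := (h.pt x).mP hu
    have ht := ((hT V (Eu n) S).1 (h.pt x) _ hm).1
    rw [(h.pt x).LP u hu] at ht
    exact hl.2.1 _ hm.1 _ (ht ▸ mem_range_self a) _ (ht ▸ mem_range_self b) _
      (ht ▸ mem_range_self c)

end Vale.Agent.P265
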