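import Vale.Agent.P265.Geo

namespace Vale.Agent.P265

open Set Topology
open scoped Manifold ContDiff

theorem br3S (h1 : StmtBr1) (h2 : StmtBr2) : StmtBr3 := by
  intro n N V _ _ S h l hS hH
  let _ := h.cs
  obtain ⟨H, φ, ⟨f1, f2, f3⟩, nd, hc⟩ := hH
  obtain ⟨Ω, hΩ, sy⟩ := h2 n V S h l hS
  obtain ⟨-, b2, b3, b4, b5, -, b7⟩ := h1 n V S h
  refine ⟨Ω, fun t x => H t x, fun t x => ⟨φ t x, ((f3 x x.2).2 t).1⟩, sy,
    ⟨fun q => ?_, fun t => funext fun x => f2 t x x.2, funext fun x => Subtype.ext (f3 x x.2).1,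
      fun x t => ?_⟩, fun x hx => ?_, ?_⟩
  · have c : ContMDiff (𝓘(ℝ, ℝ).prod 𝓘(ℝ, Eu n)) 𝓘(ℝ, ℝ × V) ∞ fun q : ℝ × S => (q.1, (q.2 : V)) :=
      contMDiff_fst.prodMk_space (b2.comp contMDiff_snd)
    exact ContDiffAt.comp_contMDiffAt (f := fun q : ℝ × S => (q.1, (q.2 : V))) (x := q)
      (f1 q.1 q.2 q.2.2) (c q)
  · obtain ⟨m, v, hv, hw⟩ := (f3 x x.2).2 t
    obtain ⟨a, b⟩ := b5 (fun s => ⟨φ s x, ((f3 x x.2).2 s).1⟩) v t hv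
    refine ⟨a, fun w => ?_⟩
    have d : DifferentiableAt ℝ (H t) (φ t x) :=
      ((f1 t _ m).comp (φ t x) (contDiffAt_const.prodMk contDiffAt_id)).differentiableAt (by simp)
    have e := (d.hasFDerivAt.hasMFDerivAt.comp (⟨φ t x, m⟩ : S) (b3 ⟨φ t x, m⟩)).mfderiv
    refine (hΩ _ _ _).trans (((congrArg (fun z => frm l (φ t x) z (h.J ⟨φ t x, m⟩ w)) b).trans
      (hw _ ((b4 ⟨φ t x, m⟩).1 ▸ mem_range_self w))).trans ?_)
    exact (congrArg (fun A => A w) e).symm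
  · obtain ⟨A, a1, a2⟩ := nd x x.2 (congrArg Subtype.val hx)
    obtain ⟨c1, c2⟩ := b7 (fun x => ⟨φ 1 x, ((f3 x x.2).2 1).1⟩) (φ 1) A x (fun _ => rfl) hx a1
    refine ⟨c1, fun v hv => (b4 x).2 ?_⟩
    rw [map_zero]
    refine a2 _ ((b4 x).1 ▸ mem_range_self v) ?_
    exact (c2 v).symm.trans (congrArg (h.J x) hv)
  · refine le_trans (le_of_eq ?_) hc
    rw [← Subtype.val_injective.encard_image]
    congr 1
    ext x
    exact ⟨fun ⟨y, a, b⟩ => b ▸ ⟨y.2, congrArg Subtype.val a⟩,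
      fun ⟨a, b⟩ => ⟨⟨x, a⟩, Subtype.ext b, rfl⟩⟩

end Vale.Agent.P265
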