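import Vale.Agent.P265.Ex

/-! The two caps of the genus two surface. -/

namespace Vale.Agent.P265

open Set Complex

namespace CapM

theorem good_empty {E : Type} [MetricSpace E] (ι : E → E) : Good ι (∅ : Set E) :=
  ⟨isCompact_empty, mapsTo_empty _ _, continuousOn_empty _, fun _ h => h.elim⟩

theorem htp_eq {E E' : Type} [MetricSpace E] [MetricSpace E'] {A : Set E} {A' : Set E'}
    {f g : E → E'} (hf : ContinuousOn f A) (hm : MapsTo f A A') (h : EqOn f g A) :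
    Htp A ∅ A' ∅ f g :=
  ⟨fun _ x => f x, hf.comp (f := fun q : ℝ × E => q.2) continuous_snd.continuousOn
    (fun _ hq => hq.2), fun _ _ => ⟨hm, mapsTo_empty _ _⟩, fun _ _ => rfl, h⟩

theorem piece_mono {u v u' v' : ℝ} (hu : u' ≤ u) (hv : v ≤ v') : piece u v ⊆ piece u' v' :=
  fun _ hp => ⟨hp.1, hu.trans hp.2.1, hp.2.2.trans hv⟩

theorem re_bd {p : VS} (hp : p ∈ Sig) : -1 ≤ (xiS p).re ∧ (xiS p).re ≤ 1 := by
  have h := hp.2
  rw [normSq_apply] at h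
  constructor <;> nlinarith [sq_nonneg (xiS p).im, sq_nonneg p.2.2, sq_nonneg ((xiS p).re - 1),
    sq_nonneg ((xiS p).re + 1)]

theorem union_eq : piece (-1 / 4) 1 ∪ piece (-1) (1 / 4) = slab (1 / 4) 1 := by
  ext p
  constructor
  · rintro (h | h) <;> exact h.1
  · intro h
    have hb := re_bd h.1
    by_cases h1 : -1 / 4 ≤ (xiS p).re
    · exact Or.inl ⟨h, h1, hb.2⟩
    · exact Or.inr ⟨h, hb.1, by push Not at h1; linarith⟩

theorem inter_eq : piece (-1 / 4) 1 ∩ piece (-1) (1 / 4) = piece (-1 / 4) (1 / 4) := by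
  ext p
  constructor
  · rintro ⟨h1, h2⟩
    exact ⟨h1.1, h1.2.1, h2.2.2⟩
  · intro h
    exact ⟨piece_mono le_rfl (by norm_num) h, piece_mono (by norm_num) le_rfl h⟩

theorem cont_xi : Continuous fun p : VS => (xiS p).re := by
  unfold xiS
  fun_prop

/-- The reflection of the height. -/
def rf {E : Type} (q : VS × E) : VS × E := ((q.1.1, q.1.2.1, -q.1.2.2), q.2)

theorem rf_maps {E : Type} (Z : Set E) {u v u' v' : ℝ} (hu : u' = -v) (hv : v' = -u) :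
    MapsTo (rf (E := E)) (slab u v ×ˢ Z) (slab u' v' ×ˢ Z) := by
  intro q hq
  obtain ⟨⟨⟨h1, h2⟩, h3, h4⟩, h5⟩ := hq
  refine ⟨⟨⟨h1, ?_⟩, ?_, ?_⟩, h5⟩
  · simpa [rf, xiS] using h2
  · simp only [rf]; linarith
  · simp only [rf]; linarith

theorem sh_zero : sh 0 = 0 := by
  funext n
  cases n <;> rfl

end CapM

open CapM

theorem capS (hT : StmtTri2) (hE : StmtEqv) (hZ : StmtZero) (hX : StmtExc) (hG : StmtSG)
    (h2 : StmtU2) (h3 : StmtU3) (h23 : StmtU23) : StmtCap := by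
  intro E _ Z z hZc hz
  obtain ⟨-, -, -, -, -, -, -, -, -, hgs, hgp, ⟨p0, hp0⟩, -⟩ := hG E Z hZc
  obtain ⟨a1, a3⟩ := h2 E Z z hZc hz
  obtain ⟨b1, b3⟩ := h3 E Z z hZc hz
  obtain ⟨c1, c3⟩ := h23 E Z z hZc hz
  set ι : VS × E → VS × E := Prod.map gS id with hι
  have hun : piece (-1 / 4) 1 ×ˢ Z ∪ piece (-1) (1 / 4) ×ˢ Z = slab (1 / 4) 1 ×ˢ Z := by
    rw [← union_prod, union_eq]
  have hin : piece (-1 / 4) 1 ×ˢ Z ∩ piece (-1) (1 / 4) ×ˢ Z = piece (-1 / 4) (1 / 4) ×ˢ Z := by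
    rw [← inter_prod, inter_eq]
  have exc : ∀ (ε : K7) (n : ℕ), hd ι ε (slab (1 / 4) 1 ×ˢ Z) (piece (-1) (1 / 4) ×ˢ Z) n =
      hd ι ε (piece (-1 / 4) 1 ×ˢ Z) (piece (-1 / 4) (1 / 4) ×ˢ Z) n := by
    intro ε n
    rw [← hun, ← hin]
    refine hX (VS × E) ι ε _ _ {q | -1 / 4 < (xiS q.1).re} {q | (xiS q.1).re < 1 / 4}
      (hgp _ _) (hgp _ _) (isOpen_lt continuous_const (cont_xi.comp continuous_fst))
      (isOpen_lt (cont_xi.comp continuous_fst) continuous_const) ?_ ?_ ?_ n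
    · intro q _
      by_cases h : -1 / 4 < (xiS q.1).re
      · exact Or.inl h
      · refine Or.inr ?_
        change (xiS q.1).re < 1 / 4
        push Not at h
        linarith
    · rw [hun]
      rintro q ⟨hq, hq'⟩
      exact ⟨⟨hq.1, le_of_lt hq', (re_bd hq.1.1).2⟩, hq.2⟩
    · rw [hun]
      rintro q ⟨hq, hq'⟩
      exact ⟨⟨hq.1, (re_bd hq.1.1).1, le_of_lt hq'⟩, hq.2⟩
  have s23 : piece (-1 / 4) (1 / 4) ×ˢ Z ⊆ piece (-1 / 4) 1 ×ˢ Z :=
    prod_mono (piece_mono le_rfl (by norm_num)) subset_rfl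
  have s2 : piece (-1) (1 / 4) ×ˢ Z ⊆ slab (1 / 4) 1 ×ˢ Z :=
    prod_mono (fun _ h => h.1) subset_rfl
  have e1 : (1 : K7) ≠ 0 := by decide
  have e3 : (3 : K7) ≠ 0 := by decide
  have T3 := fun ε hε => hT (VS × E) ι ε (piece (-1 / 4) 1 ×ˢ Z) (piece (-1 / 4) (1 / 4) ×ˢ Z) ∅
    hε (hgp _ _) (hgp _ _) (good_empty _) (empty_subset _) s23
  have TC := fun ε hε => hT (VS × E) ι ε (slab (1 / 4) 1 ×ˢ Z) (piece (-1) (1 / 4) ×ˢ Z) ∅
    hε (hgs _ _) (hgp _ _) (good_empty _) (empty_subset _) s2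
  have r1 : HasDim ι 1 (piece (-1 / 4) 1 ×ˢ Z) (piece (-1 / 4) (1 / 4) ×ˢ Z) (sh 0) := by
    refine (T3 1 e1).2.2.2.2.2 z 0 b1 (by simpa using c1) fun n => ?_
    rw [← hz n]
    refine (hZ (VS × E) ι 1 _ _ (hgp _ _).1 (hgp _ _).1 s23).2.2.2 E Z Prod.snd
      (fun e => (p0, e)) hZc ⟨by fun_prop, fun q hq => hq.2, mapsTo_empty _ _⟩
      ⟨by fun_prop, fun e he => ⟨hp0, he⟩, mapsTo_empty _ _⟩ (fun _ _ => rfl) (fun _ _ => rfl) n
  have d1 : HasDim ι 1 (slab (1 / 4) 1 ×ˢ Z) ∅ z := by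
    intro n
    rw [(TC 1 e1).2.1 (fun m => by rw [exc, r1 m, sh_zero]) n, a1 n]
  have d3 : HasDim ι 3 (slab (1 / 4) 1 ×ˢ Z) ∅ (sh z) := by
    intro n
    rw [(TC 3 e3).2.2.1 a3 n, exc]
    cases n with
    | zero =>
      have h0 : ∀ A B : Set (VS × E), hd ι 3 A B 0 = 0 := by
        intro A B
        have : (Ze ι 3 A B 0).map (Bd A B 0).mkQ = ⊥ := by
          rw [eq_bot_iff]
          rintro _ ⟨φ, hφ, rfl⟩
          rw [Submodule.mem_bot, Submodule.mkQ_apply, Submodule.Quotient.mk_eq_zero]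
          obtain ⟨δ, hδ, h⟩ := hφ.1.1
          refine Submodule.mem_sup_right ⟨δ, hδ, fun l hl _ => h l hl ?_⟩
          have : l = [] := List.length_eq_zero_iff.mp hl
          subst this
          exact ⟨by simp, by simp⟩
        unfold hd
        rw [this]
        simp
      rw [h0]
      simp [sh]
    | succ n =>
      rw [(T3 3 e3).2.2.2.1 b3 n, c3 n]
      rfl
  have refl : ∀ (ε : K7) (n : ℕ), hd ι ε (slab (-1) (-1 / 4) ×ˢ Z) ∅ n =
      hd ι ε (slab (1 / 4) 1 ×ˢ Z) ∅ n := by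
    intro ε
    have hc : Continuous (rf (E := E)) := by
      unfold rf
      fun_prop
    have m1 : MapsTo (rf (E := E)) (slab (-1) (-1 / 4) ×ˢ Z) (slab (1 / 4) 1 ×ˢ Z) :=
      rf_maps Z (by norm_num) (by norm_num)
    have m2 : MapsTo (rf (E := E)) (slab (1 / 4) 1 ×ˢ Z) (slab (-1) (-1 / 4) ×ˢ Z) :=
      rf_maps Z (by norm_num) (by norm_num)
    refine hE (VS × E) (VS × E) ι ι ε _ ∅ _ ∅ rf rf (hgs _ _) (good_empty _) (empty_subset _)
      (hgs _ _) (good_empty _) (empty_subset _) ⟨hc.continuousOn, m1, mapsTo_empty _ _⟩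
      ⟨hc.continuousOn, m2, mapsTo_empty _ _⟩ ?_ ?_ ?_
    · exact htp_eq (hc.comp hc).continuousOn (m2.comp m1) fun q _ => by simp [rf]
    · exact htp_eq (hc.comp hc).continuousOn (m1.comp m2) fun q _ => by simp [rf]
    · exact htp_eq (hc.comp_continuousOn (hgs _ _).2.2.1) (m1.comp (hgs _ _).2.1)
        fun q _ => by simp [rf, hι, gS]
  exact ⟨d1, d3, fun n => by rw [refl, d1 n], fun n => by rw [refl, d3 n]⟩

end Vale.Agent.P265
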