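import Vale.Agent.P265.M.Bas

namespace Vale.Agent.P265

open Set

namespace CircM

theorem good_id {E : Type} [MetricSpace E] {A : Set E} (hA : IsCompact A) : Good id A :=
  ⟨hA, mapsTo_id _, continuousOn_id, fun x _ => by simp⟩

theorem htp_const {E F : Type} [MetricSpace E] [MetricSpace F] {A B : Set E} {A' B' : Set F}
    {f g : E → F} (hf : PMap A B A' B' f) (hfg : EqOn f g A) : Htp A B A' B' f g := by
  refine ⟨fun _ => f, ?_, fun _ _ => ⟨hf.2.1, hf.2.2⟩, fun _ _ => rfl, hfg⟩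
  exact hf.1.comp continuousOn_snd fun q hq => hq.2

theorem mem_S {w : ℂ} : w ∈ Metric.sphere (0 : ℂ) 1 ↔ w.re ^ 2 + w.im ^ 2 = 1 := by
  rw [mem_sphere_zero_iff_norm, ← sq_eq_sq₀ (norm_nonneg w) zero_le_one, Complex.sq_norm,
    Complex.normSq_apply]
  constructor <;> intro h <;> nlinarith

/-- the big arc -/
def K : Set ℂ := Metric.sphere 0 1 ∩ {w | w.re ≤ 0 ∨ 1 / 2 ≤ |w.im|}
/-- the right half -/
def Rt : Set ℂ := Metric.sphere 0 1 ∩ {w | 0 ≤ w.re}

theorem cK : IsCompact K := (isCompact_sphere _ _).inter_right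
  ((isClosed_le Complex.continuous_re continuous_const).union
    (isClosed_le continuous_const Complex.continuous_im.abs))

theorem cR : IsCompact Rt := (isCompact_sphere _ _).inter_right
  (isClosed_le continuous_const Complex.continuous_re)

theorem m1 : (-1 : ℂ) ∈ K := ⟨by simp, Or.inl (by simp)⟩

/-- chord towards `-1` -/
def vv (t : ℝ) (w : ℂ) : ℂ := (t : ℂ) * w - ((1 - t : ℝ) : ℂ)

theorem vv_ne {t : ℝ} (ht : t ∈ Icc (0 : ℝ) 1) {w : ℂ} (hw : w ∈ K) : vv t w ≠ 0 := by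
  intro h
  have h1 := congrArg Complex.re h
  have h2 := congrArg Complex.im h
  simp [vv] at h1 h2
  have h3 := mem_S.1 hw.1
  obtain ⟨a, b⟩ := ht
  rcases h2 with h2 | h2
  · rw [h2] at h1; norm_num at h1
  · rcases hw.2 with h4 | h4
    · have : t * w.re ≤ 0 := mul_nonpos_of_nonneg_of_nonpos a h4
      have h5 : t = 1 := by linarith
      rw [h5] at h1
      rw [h2] at h3
      have : w.re = 0 := by linarith
      rw [this] at h3; norm_num at h3
    · rw [h2] at h4; norm_num at h4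

theorem vv_mem {t : ℝ} (ht : t ∈ Icc (0 : ℝ) 1) {w : ℂ} (hw : w ∈ K) :
    vv t w / (‖vv t w‖ : ℂ) ∈ K := by
  have h0 : 0 < ‖vv t w‖ := norm_pos_iff.2 (vv_ne ht hw)
  refine ⟨by rw [mem_sphere_zero_iff_norm, norm_div, Complex.norm_real, norm_norm, div_self h0.ne'],
    ?_⟩
  simp only [mem_setOf_eq, Complex.div_ofReal_re, Complex.div_ofReal_im]
  have e1 : (vv t w).re = t * w.re - (1 - t) := by simp [vv]
  have e2 : (vv t w).im = t * w.im := by simp [vv]
  obtain ⟨a, b⟩ := ht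
  by_cases h : (vv t w).re ≤ 0
  · exact Or.inl (div_nonpos_of_nonpos_of_nonneg h h0.le)
  · right
    push Not at h
    have h3 := mem_S.1 hw.1
    have h4 : 0 < t * w.re := by linarith
    have h5 : 1 / 2 ≤ |w.im| := by
      rcases hw.2 with h5 | h5
      · exact absurd (mul_nonpos_of_nonneg_of_nonpos a h5) (not_le.2 h4)
      · exact h5
    have h6 : ‖vv t w‖ ≤ t := by
      refine (sq_le_sq₀ h0.le a).1 ?_
      rw [Complex.sq_norm, Complex.normSq_apply, e2]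
      have h7 : (vv t w).re ≤ t * w.re := by linarith
      have h8 : (vv t w).re * (vv t w).re ≤ (t * w.re) * (t * w.re) :=
        mul_le_mul h7 h7 h.le h4.le
      have h9 : t ^ 2 = t ^ 2 * (w.re ^ 2 + w.im ^ 2) := by rw [h3, mul_one]
      nlinarith
    rw [abs_div, abs_of_pos h0, le_div_iff₀ h0, e2, abs_mul, abs_of_nonneg a]
    nlinarith

/-- parametrisation of the right half -/
noncomputable def pa (t : ℝ) : ℂ := ⟨Real.sqrt (1 - t ^ 2), t⟩

theorem pa_cont : Continuous pa := by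
  have : pa = fun t : ℝ => ((Real.sqrt (1 - t ^ 2) : ℝ) : ℂ) + (t : ℂ) * Complex.I := by
    funext t; apply Complex.ext <;> simp [pa]
  rw [this]; fun_prop

theorem pa_mem {t : ℝ} (ht : |t| ≤ 1) : pa t ∈ Rt := by
  refine ⟨mem_S.2 ?_, Real.sqrt_nonneg _⟩
  have : 0 ≤ 1 - t ^ 2 := by have := abs_le.1 ht; nlinarith
  simp only [pa]
  rw [Real.sq_sqrt this]; ring

theorem pa_im {w : ℂ} (hw : w ∈ Rt) : pa w.im = w := by
  have h := mem_S.1 hw.1
  apply Complex.ext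
  · simp only [pa]
    rw [show 1 - w.im ^ 2 = w.re ^ 2 by linarith]
    exact Real.sqrt_sq hw.2
  · rfl

theorem im_le {w : ℂ} (hw : w ∈ Metric.sphere (0 : ℂ) 1) : |w.im| ≤ 1 := by
  have h := mem_S.1 hw
  rw [abs_le]; constructor <;> nlinarith [sq_nonneg w.re]

theorem im_half {w : ℂ} (hw : w ∈ Rt ∩ K) : 1 / 2 ≤ |w.im| := by
  rcases hw.2.2 with h | h
  · have h1 := mem_S.1 hw.1.1
    have h2 : w.re = 0 := le_antisymm h hw.1.2
    rw [h2] at h1
    have : |w.im| ^ 2 = 1 := by rw [sq_abs]; linarith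
    nlinarith [abs_nonneg w.im]
  · exact h

end CircM

open CircM

theorem circS (hT : StmtTri2) (hE : StmtEqv) (hZ : StmtZero) (hX : StmtExc) (hS : StmtSusp) :
    StmtCirc := by
  intro E _ Z z cZ hz
  have gZ : Good id Z := good_id cZ
  have g0 : ∀ {F : Type} [MetricSpace F], Good id (∅ : Set F) := good_id isCompact_empty
  have gX : Good id (Z ×ˢ Metric.sphere (0 : ℂ) 1) := good_id (cZ.prod (isCompact_sphere _ _))
  have gB : Good id (Z ×ˢ K) := good_id (cZ.prod cK)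
  have gR : Good id (Z ×ˢ Rt) := good_id (cZ.prod cR)
  have sB : Z ×ˢ K ⊆ Z ×ˢ Metric.sphere (0 : ℂ) 1 := prod_mono_right inter_subset_left
  have ps : PMap Z ∅ (Z ×ˢ K) ∅ (fun x => (x, (-1 : ℂ))) :=
    ⟨by fun_prop, fun x hx => ⟨hx, m1⟩, mapsTo_empty _ _⟩
  have hB : HasDim id 1 (Z ×ˢ K) ∅ z := by
    intro n
    rw [← hz n]
    have pf : PMap (Z ×ˢ K) ∅ Z ∅ Prod.fst := ⟨continuousOn_fst, fun p hp => hp.1, mapsTo_empty _ _⟩
    refine hE (E × ℂ) E id id 1 _ _ Z ∅ Prod.fst (fun x => (x, -1)) gB g0 (empty_subset _) gZ g0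
      (empty_subset _) pf ps ?_ ?_ ?_ n
    · refine ⟨fun t p => (p.1, vv t p.2 / (‖vv t p.2‖ : ℂ)), ?_, fun t ht =>
        ⟨fun p hp => ⟨hp.1, vv_mem ht hp.2⟩, mapsTo_empty _ _⟩, ?_, ?_⟩
      · have hv : Continuous fun q : ℝ × E × ℂ => vv q.1 q.2.2 := by unfold vv; fun_prop
        refine ContinuousOn.prodMk (by fun_prop) (hv.continuousOn.div
          (Complex.continuous_ofReal.comp hv.norm).continuousOn ?_)
        intro q hq
        exact Complex.ofReal_ne_zero.2 (norm_ne_zero_iff.2 (vv_ne hq.1 hq.2.2))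
      · intro p _
        simp [vv]
      · intro p hp
        have : ‖p.2‖ = 1 := mem_sphere_zero_iff_norm.1 hp.2.1
        simp [vv, this]
    · exact htp_const ⟨continuousOn_id, mapsTo_id _, mapsTo_id _⟩ fun _ _ => rfl
    · exact htp_const pf fun _ _ => rfl
  have eU : Z ×ˢ Rt ∪ Z ×ˢ K = Z ×ˢ Metric.sphere (0 : ℂ) 1 := by
    rw [← prod_union]
    congr 1
    ext w
    constructor
    · rintro (h | h) <;> exact h.1
    · intro h
      rcases le_total 0 w.re with h1 | h1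
      · exact Or.inl ⟨h, h1⟩
      · exact Or.inr ⟨h, Or.inl h1⟩
  have eI : Z ×ˢ Rt ∩ Z ×ˢ K = Z ×ˢ (Rt ∩ K) := by rw [prod_inter_prod, inter_self]
  have hA : HasDim id 1 (Z ×ˢ Metric.sphere (0 : ℂ) 1) (Z ×ˢ K) (sh z) := by
    intro n
    rcases n with _ | n
    · rw [(basS (E × ℂ)).2.2.2.2.2.1]; simp [sh]
    have h1 := hS E id 1 Z ∅ one_ne_zero gZ g0 (empty_subset _) n
    rw [Prod.map_id, empty_prod, empty_union, hz n] at h1
    have cT : IsCompact {t : ℝ | 1 / 2 ≤ |t| ∧ |t| ≤ 1} :=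
      (isCompact_Icc (a := (-1 : ℝ)) (b := 1)).of_isClosed_subset
        ((isClosed_le continuous_const continuous_abs).inter
          (isClosed_le continuous_abs continuous_const)) fun t ht => abs_le.1 ht.2
    have oU : IsOpen {p : E × ℂ | p.2.re < 0 ∨ 1 / 2 < |p.2.im|} :=
      (isOpen_lt (f := fun p : E × ℂ => p.2.re) (by fun_prop) continuous_const).union
        (isOpen_lt (g := fun p : E × ℂ => |p.2.im|) continuous_const (by fun_prop))
    rw [← eU, hX (E × ℂ) id 1 _ _ {p | 0 < p.2.re} {p | p.2.re < 0 ∨ 1 / 2 < |p.2.im|} gR gB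
      (isOpen_lt continuous_const (by fun_prop))
      oU
      ?_ ?_ ?_ (n + 1), eI]
    · have pf : PMap (Z ×ˢ Rt) (Z ×ˢ (Rt ∩ K)) (Z ×ˢ Icc (-1 : ℝ) 1)
          (Z ×ˢ {t : ℝ | 1 / 2 ≤ |t| ∧ |t| ≤ 1}) fun p => (p.1, p.2.im) :=
        ⟨by fun_prop, fun p hp => ⟨hp.1, abs_le.1 (im_le hp.2.1)⟩,
          fun p hp => ⟨hp.1, im_half hp.2, im_le hp.2.1.1⟩⟩
      have pg : PMap (Z ×ˢ Icc (-1 : ℝ) 1) (Z ×ˢ {t : ℝ | 1 / 2 ≤ |t| ∧ |t| ≤ 1}) (Z ×ˢ Rt)
          (Z ×ˢ (Rt ∩ K)) fun p => (p.1, pa p.2) :=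
        ⟨(continuous_fst.prodMk (pa_cont.comp continuous_snd)).continuousOn,
          fun p hp => ⟨hp.1, pa_mem (abs_le.2 hp.2)⟩,
          fun p hp => ⟨hp.1, pa_mem hp.2.2, (pa_mem hp.2.2).1, Or.inr hp.2.1⟩⟩
      refine (hE (E × ℂ) (E × ℝ) id id 1 _ _ _ _ _ _ gR (good_id (cZ.prod (cR.inter cK)))
        (prod_mono_right inter_subset_left) (good_id (cZ.prod isCompact_Icc))
        (good_id (cZ.prod cT)) (prod_mono_right fun t ht => abs_le.1 ht.2) pf pg ?_ ?_ ?_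
        (n + 1)).trans h1
      · exact htp_const ⟨pg.1.comp pf.1 pf.2.1, pg.2.1.comp pf.2.1, pg.2.2.comp pf.2.2⟩
          fun p hp => Prod.ext rfl (pa_im hp.2)
      · exact htp_const ⟨continuousOn_id, mapsTo_id _, mapsTo_id _⟩ fun _ _ => rfl
      · exact htp_const pf fun _ _ => rfl
    · rw [eU]
      intro p hp
      rcases lt_trichotomy 0 p.2.re with h | h | h
      · exact Or.inl h
      · have h1 := mem_S.1 hp.2
        rw [← h] at h1
        have : |p.2.im| ^ 2 = 1 := by rw [sq_abs]; linarith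
        exact Or.inr (Or.inr (by nlinarith [abs_nonneg p.2.im]))
      · exact Or.inr (Or.inl h)
    · rw [eU]
      exact fun p hp => ⟨hp.1.1, hp.1.2, (le_of_lt hp.2 : 0 ≤ p.2.re)⟩
    · rw [eU]
      exact fun p hp => ⟨hp.1.1, hp.1.2, hp.2.imp le_of_lt le_of_lt⟩
  rw [add_comm]
  refine (hT (E × ℂ) id 1 _ _ ∅ one_ne_zero gX gB g0 (empty_subset _) sB).2.2.2.2.1 _ _ hA hB ?_
  intro n
  rw [← hz n]
  exact (hZ (E × ℂ) id 1 _ _ gX.1 gB.1 sB).2.2.2 E Z Prod.fst (fun x => (x, -1)) cZ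
    ⟨continuousOn_fst, fun p hp => hp.1, mapsTo_empty _ _⟩ ps (fun _ _ => rfl) (fun _ _ => rfl) n

end Vale.Agent.P265
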