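import Vale.Agent.P265.M.SG

namespace Vale.Agent.P265

open Set Topology Complex
open scoped ContDiff ComplexConjugate

noncomputable section

namespace CovEM

open SGM

theorem loc {E W : Type} [MetricSpace E] [MetricSpace W] {π : E → W} {ι : E → E} {U : Set W} {s : W → E}
    {κ : E → ℂ} {ζ : ℂ} (hζ : IsPrimitiveRoot ζ 6) (hπ : Continuous π) (hκ : Continuous κ)
    (h0 : ∀ e, κ e ≠ 0) (h1 : ∀ e, κ (ι e) = ζ * κ e) (h2 : ∀ e, π (ι e) = π e) (hU : IsOpen U)
    (hs : ContinuousOn s U) (h3 : ∀ u, π (s u) = u) (h4 : ∀ e, ∃ j < 6, e = ι^[j] (s (π e))) :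
    CovLoc π ι 6 U s := by
  have a : ∀ j e, κ (ι^[j] e) = ζ ^ j * κ e := fun j e => by
    induction j with
    | zero => simp
    | succ j ih =>
      rw [Function.iterate_succ_apply', h1, ih]
      ring
  have b : ∀ j e, π (ι^[j] e) = π e := fun j e => by
    induction j with
    | zero => rfl
    | succ j ih => rw [Function.iterate_succ_apply', h2, ih]
  refine ⟨hU, hs, fun u _ => h3 u, fun e _ => h4 e, fun j hj j' hj' u _ u' _ h => ?_, ?_⟩
  · have e := congrArg π h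
    rw [b, b, h3, h3] at e
    subst e
    have e := congrArg κ h
    rw [a, a] at e
    exact hζ.pow_inj hj hj' (mul_right_cancel₀ (h0 _) e)
  · have c : ContinuousOn (fun e => κ e / κ (s (π e))) (π ⁻¹' U) :=
      hκ.continuousOn.div (hκ.comp_continuousOn (hs.comp hπ.continuousOn fun _ h => h)) fun e _ => h0 _
    convert c.isOpen_inter_preimage (hU.preimage hπ)
      ((finite_Ioo 0 6).image fun j : ℕ => ζ ^ j).isClosed.isOpen_compl using 1
    ext e
    constructor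
    · rintro ⟨u, hu, rfl⟩
      refine ⟨by simpa [h3] using hu, ?_⟩
      rintro ⟨j, hj, e⟩
      simp only [h3, div_self (h0 _)] at e
      exact hζ.pow_ne_one_of_pos_of_lt hj.1.ne' hj.2 e
    · rintro ⟨hu, h⟩
      obtain ⟨j, hj, e1⟩ := h4 e
      refine ⟨π e, hu, ?_⟩
      rcases j.eq_zero_or_pos with rfl | hj0
      · exact e1.symm
      · refine absurd ⟨j, ⟨hj0, hj⟩, ?_⟩ h
        have := congrArg κ e1
        rw [a] at this
        simp only [this, mul_div_cancel_right₀ _ (h0 _)]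

theorem c3 : conj om ^ 3 = 1 := by rw [← map_pow, om3, map_one]

theorem no : ‖om‖ = 1 := by
  refine (pow_eq_one_iff_of_nonneg (norm_nonneg _) three_ne_zero).1 ?_
  rw [← norm_pow, om3, norm_one]

theorem co : conj om * om = 1 := by
  rw [conj_mul', no]
  simp

theorem prim : IsPrimitiveRoot (-conj om) 6 := by
  have a : conj om ≠ 1 := fun h => om1 (by simpa [h] using co)
  have b : conj om ^ 2 + conj om + 1 = 0 :=
    mul_left_cancel₀ (sub_ne_zero.2 a) (by linear_combination c3)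
  have c := c3
  generalize conj om = z at a b c
  refine IsPrimitiveRoot.mk_of_lt _ (by norm_num) (by linear_combination (z ^ 3 + 1) * c) fun l h1 h2 h => ?_
  interval_cases l
  · exact one_ne_zero (α := ℂ) (by linear_combination b + z * h)
  · exact a (by linear_combination c - z * h)
  · exact two_ne_zero (α := ℂ) (by linear_combination -h - c)
  · exact a (by linear_combination h - z * c)
  · exact one_ne_zero (α := ℂ) (by linear_combination z ^ 2 * (h + z ^ 2 * c + b) - c)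

theorem it (j : ℕ) (e : VE) : ioE^[j] e = (((-1) ^ j * e.1.1, om ^ j * e.1.2.1, e.1.2.2),
    ((e.2.1.1, (-1) ^ j * e.2.1.2), conj om ^ j * e.2.2)) := by
  induction j with
  | zero => simp
  | succ j ih =>
    rw [Function.iterate_succ_apply', ih]
    simp only [ioE, gS, Prod.mk.injEq, true_and, and_true]
    refine ⟨⟨?_, ?_⟩, ?_, ?_⟩ <;> ring

theorem n1 {z : ℂ} {n : ℕ} (hn : n ≠ 0) (h : normSq (z ^ n) = 1) : ‖z‖ = 1 := by
  rw [normSq_eq_norm_sq, norm_pow, ← pow_mul] at h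
  exact (pow_eq_one_iff_of_nonneg (norm_nonneg _) (by omega)).1 h

theorem nz {z : ℂ} (h : ‖z‖ = 1) : z ≠ 0 := fun e => by simp [e] at h

/-- local root -/
def rt (n : ℕ) (r z : ℂ) : ℂ := r * (z / r ^ n) ^ (n⁻¹ : ℂ)

theorem rt_pow {n : ℕ} (hn : n ≠ 0) {r : ℂ} (h : r ≠ 0) (z : ℂ) : rt n r z ^ n = z := by
  rw [rt, mul_pow, cpow_nat_inv_pow _ hn, mul_div_cancel₀ _ (pow_ne_zero n h)]

/-- local section -/
def sec (a b : ℂ) (w : VX × VY) : VE := ((ca w.1 / rt 2 a (cal w.1), cb w.1 / rt 3 b (cbe w.1), cx w.1),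
  ((w.2, rt 2 a (cal w.1)), rt 3 b (cbe w.1)))

theorem sec_mem {a b : ℂ} (ha : a ≠ 0) (hb : b ≠ 0) {w : VX × VY} (h : w ∈ SM) : sec a b w ∈ Et := by
  obtain ⟨⟨h1, h2, h3, h4⟩, h5⟩ := h
  have e1 := rt_pow two_ne_zero ha (cal w.1)
  have e2 := rt_pow three_ne_zero hb (cbe w.1)
  have i : ∀ z : ℂ, normSq z = 1 → z⁻¹ = conj z := fun z h => by simp [inv_def, h]
  have e3 : (ca w.1 / rt 2 a (cal w.1)) ^ 2 = conj (cal w.1) * ca w.1 ^ 2 := by
    rw [div_pow, e1, div_eq_inv_mul, i _ h1]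
  have e4 : (cb w.1 / rt 3 b (cbe w.1)) ^ 3 = conj (cbe w.1) * cb w.1 ^ 3 := by
    rw [div_pow, e2, div_eq_inv_mul, i _ h2]
  refine ⟨⟨?_, ?_⟩, ⟨h5, ?_⟩, ?_⟩
  · simp only [sec, e3, e4, h3]
  · simp only [sec, xiS, e3]
    exact h4
  · exact mem_sphere_zero_iff_norm.2 (n1 two_ne_zero (e1.symm ▸ h1))
  · exact mem_sphere_zero_iff_norm.2 (n1 three_ne_zero (e2.symm ▸ h2))

end CovEM

open CovEM SGM

theorem covES (_hG : StmtSG) : StmtCovE := by
  have na : ∀ e ∈ Et, ‖e.2.1.2‖ = 1 := fun e h => mem_sphere_zero_iff_norm.1 h.2.1.2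
  have nb : ∀ e ∈ Et, ‖e.2.2‖ = 1 := fun e h => mem_sphere_zero_iff_norm.1 h.2.2
  have hι : MapsTo ioE Et Et := fun e h => ⟨g_mem h.1, ⟨h.2.1.1, by simpa [ioE] using na e h⟩, by
    simp [ioE, nb e h, no]⟩
  have hπ : MapsTo piE Et SM := fun e h => by
    have a : conj e.2.1.2 * e.2.1.2 = 1 := by rw [conj_mul', na e h]; simp
    have b : conj e.2.2 * e.2.2 = 1 := by rw [conj_mul', nb e h]; simp
    have c : conj (e.2.1.2 ^ 2) * (e.2.1.2 * e.1.1) ^ 2 = e.1.1 ^ 2 := by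
      rw [map_pow, ← mul_pow, ← mul_assoc, a, one_mul]
    have d : conj (e.2.2 ^ 3) * (e.2.2 * e.1.2.1) ^ 3 = e.1.2.1 ^ 3 := by
      rw [map_pow, ← mul_pow, ← mul_assoc, b, one_mul]
    refine ⟨⟨?_, ?_, ?_, ?_⟩, h.2.1.1⟩
    · simp only [piE, cal, normSq_eq_norm_sq, norm_pow, na e h, one_pow]
    · simp only [piE, cbe, normSq_eq_norm_sq, norm_pow, nb e h, one_pow]
    · simp only [piE, c, d]
      exact h.1.1
    · simp only [piE, xi, c]
      exact h.1.2
  have c1 : Continuous (hπ.restrict piE Et SM) := Continuous.restrict hπ (by unfold piE; fun_prop)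
  have c2 : ∀ e, hπ.restrict piE Et SM (hι.restrict ioE Et Et e) = hπ.restrict piE Et SM e := fun e => by
    refine Subtype.ext ?_
    simp only [MapsTo.val_restrict_apply, piE, ioE, gS, Prod.mk.injEq, true_and, and_true]
    refine ⟨by ring, by linear_combination e.1.2.2 * e.1.1.2.1 * co, by ring, ?_⟩
    rw [mul_pow, c3, one_mul]
  refine ⟨hι, hπ, c1, Continuous.restrict hι (by unfold ioE gS; fun_prop), c2, fun e => Subtype.ext ?_,
    by norm_num, dvd_rfl, fun w => ?_⟩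
  · rw [MapsTo.coe_iterate_restrict, it, show 6 = 3 * 2 from rfl, pow_mul om, pow_mul (conj om), om3, c3]
    norm_num
  obtain ⟨a, ha⟩ := IsAlgClosed.exists_pow_nat_eq (cal w.1.1) two_pos
  obtain ⟨b, hb⟩ := IsAlgClosed.exists_pow_nat_eq (cbe w.1.1) three_pos
  have a0 := nz (n1 two_ne_zero (ha.symm ▸ w.2.1.1))
  have b0 := nz (n1 three_ne_zero (hb.symm ▸ w.2.1.2.1))
  have ra : ∀ u : SM, rt 2 a (cal u.1.1) ≠ 0 := fun u => nz (na _ (sec_mem a0 b0 u.2))
  have rb : ∀ u : SM, rt 3 b (cbe u.1.1) ≠ 0 := fun u => nz (nb _ (sec_mem a0 b0 u.2))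
  refine ⟨{u | cal u.1.1 / a ^ 2 ∈ slitPlane ∧ cbe u.1.1 / b ^ 3 ∈ slitPlane},
    fun u => ⟨sec a b u.1, sec_mem a0 b0 u.2⟩, ⟨?_, ?_⟩,
    loc (κ := fun e => e.1.2.1.2 * e.1.2.2) prim c1 (by fun_prop)
      (fun e => mul_ne_zero (nz (na _ e.2)) (nz (nb _ e.2))) (fun e => ?_) c2
      ((isOpen_slitPlane.preimage (by fun_prop)).inter (isOpen_slitPlane.preimage (by fun_prop)))
      ?_ (fun u => Subtype.ext ?_) fun e => ?_⟩
  · rw [← ha, div_self (pow_ne_zero 2 a0)]
    exact one_mem_slitPlane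
  · rw [← hb, div_self (pow_ne_zero 3 b0)]
    exact one_mem_slitPlane
  · simp only [MapsTo.val_restrict_apply, ioE]
    ring
  · have k1 : ContinuousOn (fun u : SM => rt 2 a (cal u.1.1))
        {u | cal u.1.1 / a ^ 2 ∈ slitPlane ∧ cbe u.1.1 / b ^ 3 ∈ slitPlane} :=
      continuousOn_const.mul (ContinuousOn.cpow_const (by fun_prop) fun u h => h.1)
    have k2 : ContinuousOn (fun u : SM => rt 3 b (cbe u.1.1))
        {u | cal u.1.1 / a ^ 2 ∈ slitPlane ∧ cbe u.1.1 / b ^ 3 ∈ slitPlane} :=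
      continuousOn_const.mul (ContinuousOn.cpow_const (by fun_prop) fun u h => h.2)
    rw [IsInducing.subtypeVal.continuousOn_iff]
    exact ((ContinuousOn.div (by fun_prop) k1 fun u _ => ra u).prodMk
      ((ContinuousOn.div (by fun_prop) k2 fun u _ => rb u).prodMk (by fun_prop))).prodMk
      ((ContinuousOn.prodMk (by fun_prop) k1).prodMk k2)
  · simp only [MapsTo.val_restrict_apply, piE, sec, rt_pow two_ne_zero a0, rt_pow three_ne_zero b0,
      mul_div_cancel₀ _ (ra u), mul_div_cancel₀ _ (rb u)]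
  · have r1 := ra (hπ.restrict piE Et SM e)
    have r2 := rb (hπ.restrict piE Et SM e)
    simp only [MapsTo.val_restrict_apply, piE] at r1 r2
    have e1 := rt_pow two_ne_zero a0 (e.1.2.1.2 ^ 2)
    have e2 := rt_pow three_ne_zero b0 (e.1.2.2 ^ 3)
    have s2 : (e.1.2.1.2 / rt 2 a (e.1.2.1.2 ^ 2)) ^ 2 = 1 := by
      rw [div_pow, e1, div_self (pow_ne_zero 2 (nz (na _ e.2)))]
    have s3 : (e.1.2.2 / rt 3 b (e.1.2.2 ^ 3)) ^ 3 = 1 := by
      rw [div_pow, e2, div_self (pow_ne_zero 3 (nz (nb _ e.2)))]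
    obtain ⟨j, hj, h⟩ := prim.eq_pow_of_pow_eq_one
      (ξ := e.1.2.1.2 / rt 2 a (e.1.2.1.2 ^ 2) * (e.1.2.2 / rt 3 b (e.1.2.2 ^ 3))) (by
        rw [mul_pow, show 6 = 2 * 3 from rfl, pow_mul, s2, mul_comm 2, pow_mul _ 3, s3]
        simp)
    have f1 : (-1) ^ j = e.1.2.1.2 / rt 2 a (e.1.2.1.2 ^ 2) := by
      have := congrArg (· ^ 3) h
      simp only [mul_pow, s3] at this
      rw [← pow_mul, mul_comm j, pow_mul, neg_pow, c3, pow_succ (_ / _), s2] at this
      norm_num at this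
      exact this
    have f2 : conj om ^ j = e.1.2.2 / rt 3 b (e.1.2.2 ^ 3) := by
      have := congrArg (· ^ 4) h
      simp only [mul_pow] at this
      rw [← pow_mul, mul_comm j, pow_mul, neg_pow, pow_succ (conj om), c3, pow_succ (e.1.2.2 / _), s3,
        show 4 = 2 * 2 from rfl, pow_mul (_ / _), s2] at this
      norm_num at this
      exact this
    have f3 : om ^ j * conj om ^ j = 1 := by rw [← mul_pow, mul_comm, co, one_pow]
    refine ⟨j, hj, Subtype.ext ?_⟩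
    rw [MapsTo.coe_iterate_restrict, it]
    simp only [MapsTo.val_restrict_apply, piE, sec]
    rw [mul_div_right_comm, mul_div_right_comm e.1.2.2, ← f1, ← f2, ← mul_assoc, ← mul_assoc, f3, ← mul_pow,
      f1, f2, div_mul_cancel₀ _ r1, div_mul_cancel₀ _ r2]
    simp

end

end Vale.Agent.P265
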