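import Vale.Agent.P265.Coh

namespace Vale.Agent.P265

open Set Metric

namespace CubeM

variable {E E' : Type} [MetricSpace E] [MetricSpace E']

theorem htp_eq {A B : Set E} {A' B' : Set E'} {f g : E → E'} (h : PMap A B A' B' g) (e : f = g) :
    Htp A B A' B' f g :=
  ⟨fun _ => g, h.1.comp continuousOn_snd fun _ hq => hq.2, fun _ _ => h.2, fun _ _ => by rw [e],
    fun _ _ => rfl⟩

theorem homeo (hE : StmtEqv) {ι : E → E} {ι' : E' → E'} (ε : K7) {A B : Set E} {A' B' : Set E'}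
    (f : E → E') (g : E' → E) (g1 : Good ι A) (g2 : Good ι B) (s : B ⊆ A) (g3 : Good ι' A')
    (g4 : Good ι' B') (s' : B' ⊆ A') (hf : PMap A B A' B' f) (hg : PMap A' B' A B g)
    (e1 : g ∘ f = id) (e2 : f ∘ g = id) (e3 : f ∘ ι = ι' ∘ f) (n : ℕ) :
    hd ι ε A B n = hd ι' ε A' B' n :=
  hE E E' ι ι' ε A B A' B' f g g1 g2 s g3 g4 s' hf hg
    (htp_eq ⟨continuousOn_id, mapsTo_id _, mapsTo_id _⟩ e1)
    (htp_eq ⟨continuousOn_id, mapsTo_id _, mapsTo_id _⟩ e2)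
    (htp_eq ⟨g3.2.2.1.comp hf.1 hf.2.1, g3.2.1.comp hf.2.1, g4.2.1.comp hf.2.2⟩ e3) n

theorem good_prod {ι : E → E} {A : Set E} (h : Good ι A) {K : Set E'} (hK : IsCompact K) :
    Good (Prod.map ι id) (A ×ˢ K) :=
  ⟨h.1.prod hK, fun _ hp => ⟨h.2.1 hp.1, hp.2⟩, h.2.2.1.prodMap continuousOn_id, fun p hp => by
    rw [Prod.map_iterate, Function.iterate_id]
    exact Prod.ext (h.2.2.2 _ hp.1) rfl⟩

theorem good_sub {ι : E → E} {A B : Set E} (h : Good ι A) (s : B ⊆ A) (c : IsCompact B)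
    (m : MapsTo ι B B) : Good ι B :=
  ⟨c, m, h.2.2.1.mono s, fun x hx => h.2.2.2 x (s hx)⟩

theorem mem_cb {q : ℕ} {x : Fin q → ℝ} : x ∈ closedBall (0 : Fin q → ℝ) 1 ↔ ∀ i, |x i| ≤ 1 := by
  rw [mem_closedBall_zero_iff, pi_norm_le_iff_of_nonneg zero_le_one]
  rfl

theorem mem_b {q : ℕ} {x : Fin q → ℝ} : x ∈ ball (0 : Fin q → ℝ) (1 / 2) ↔ ∀ i, |x i| < 1 / 2 := by
  rw [mem_ball_zero_iff, pi_norm_lt_iff (by norm_num)]
  rfl

end CubeM

open CubeM in
theorem cubeS (hE : StmtEqv) (hS : StmtSusp) (hB : StmtBas) : StmtCube := by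
  intro E _ ι ε A c q hε hA hc
  have gA : ∀ q, Good (Prod.map ι id) (A ×ˢ closedBall (0 : Fin q → ℝ) 1) := fun q =>
    good_prod hA (isCompact_closedBall _ _)
  have gB : ∀ q, Good (Prod.map ι id) (A ×ˢ (closedBall (0 : Fin q → ℝ) 1 \ ball 0 (1 / 2))) :=
    fun q => good_prod hA ((isCompact_closedBall _ _).diff isOpen_ball)
  have sB : ∀ q, A ×ˢ (closedBall (0 : Fin q → ℝ) 1 \ ball 0 (1 / 2)) ⊆
      A ×ˢ closedBall (0 : Fin q → ℝ) 1 := fun q => prod_mono_right sdiff_subset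
  induction q with
  | zero =>
    intro n
    rw [Function.iterate_zero, id, ← hc n]
    exact homeo hE ε Prod.fst (fun x => (x, 0)) (gA 0) (gB 0) (sB 0) hA
      (good_sub hA (empty_subset _) isCompact_empty (mapsTo_empty _ _)) (empty_subset _)
      ⟨continuousOn_fst, fun _ hp => hp.1, fun _ hp => hp.2.2 (mem_b.2 fun i => i.elim0)⟩
      ⟨by fun_prop, fun _ hp => ⟨hp, mem_cb.2 fun i => i.elim0⟩, mapsTo_empty _ _⟩
      (funext fun p => Prod.ext rfl (Subsingleton.elim _ _)) rfl rfl n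
  | succ q ih =>
    intro n
    rw [Function.iterate_succ_apply']
    cases n with
    | zero => exact (hB _).2.2.2.2.2.1 _ _ _ _
    | succ n =>
      have cJ : IsCompact {t : ℝ | 1 / 2 ≤ |t| ∧ |t| ≤ 1} :=
        (isCompact_Icc (a := -1) (b := 1)).of_isClosed_subset
          ((isClosed_le continuous_const continuous_abs).inter
            (isClosed_le continuous_abs continuous_const)) fun t ht => abs_le.1 ht.2
      have g1 := good_prod (gA q) (isCompact_Icc (a := (-1 : ℝ)) (b := 1))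
      have g2 := good_prod (gB q) (isCompact_Icc (a := (-1 : ℝ)) (b := 1))
      have g3 := good_prod (gA q) cJ
      have s := union_subset (prod_mono_left (t := Icc (-1 : ℝ) 1) (sB q))
        (prod_mono_right (s := A ×ˢ closedBall (0 : Fin q → ℝ) 1)
          (fun t ht => abs_le.1 ht.2 : {t : ℝ | 1 / 2 ≤ |t| ∧ |t| ≤ 1} ⊆ Icc (-1 : ℝ) 1))
      refine (homeo hE ε (fun p : E × (Fin (q + 1) → ℝ) => ((p.1, Fin.tail p.2), p.2 0))
        (fun p : (E × (Fin q → ℝ)) × ℝ => (p.1.1, (Fin.cons p.2 p.1.2 : Fin (q + 1) → ℝ)))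
        (gA _) (gB _) (sB _) g1 (good_sub g1 s (g2.1.union g3.1) (g2.2.1.union_union g3.2.1)) s
        ⟨by unfold Fin.tail; fun_prop, fun p hp => ?_, fun p hp => ?_⟩
        ⟨by fun_prop, fun p hp => ?_, fun p hp => ?_⟩
        (funext fun p => Prod.ext rfl (Fin.cons_self_tail p.2)) (funext fun p => rfl) rfl (n + 1)).trans
        ((hS _ _ ε _ _ hε (gA q) (gB q) (sB q) n).trans (ih n))
      · exact ⟨⟨hp.1, mem_cb.2 fun i => mem_cb.1 hp.2 i.succ⟩, abs_le.1 (mem_cb.1 hp.2 0)⟩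
      · have a := mem_cb.1 hp.2.1
        by_cases h : 1 / 2 ≤ |p.2 0|
        · exact Or.inr ⟨⟨hp.1, mem_cb.2 fun i => a i.succ⟩, h, a 0⟩
        · exact Or.inl ⟨⟨hp.1, mem_cb.2 fun i => a i.succ, fun h' => hp.2.2
            (mem_b.2 (Fin.forall_fin_succ.2 ⟨not_le.1 h, mem_b.1 h'⟩))⟩, abs_le.1 (a 0)⟩
      · exact ⟨hp.1.1, mem_cb.2 (Fin.forall_fin_succ.2 ⟨abs_le.2 hp.2, mem_cb.1 hp.1.2⟩)⟩
      · have a := s hp
        refine ⟨a.1.1, mem_cb.2 (Fin.forall_fin_succ.2 ⟨abs_le.2 a.2, mem_cb.1 a.1.2⟩), fun h => ?_⟩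
        have b := Fin.forall_fin_succ.1 (mem_b.1 h)
        rcases hp with hp | hp
        · exact hp.1.2.2 (mem_b.2 b.2)
        · exact absurd b.1 (not_lt.2 hp.2.1)

end Vale.Agent.P265
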