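import Vale.Agent.P265.Mor

namespace Vale.Agent.P265

namespace DiagM

theorem core (D : Type) [NormedAddCommGroup D] [NormedSpace ℝ D] [FiniteDimensional ℝ D]
    (Q : QuadraticForm ℝ D) (hQ : (QuadraticMap.associated (R := ℝ) Q).SeparatingLeft) :
    ∃ (l μ : ℕ) (T : D ≃L[ℝ] Eu l × Eu μ), ∀ z, Q z = qf (T z) := by
  classical
  obtain ⟨w, hw, ⟨φ⟩⟩ := Q.equivalent_one_neg_one_weighted_sum_squared hQ
  let n := Module.finrank ℝ D
  let p : Fin n → Prop := fun i => w i = -1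
  let l := Fintype.card {i // p i}
  let μ := Fintype.card {i // ¬ p i}
  let e1 := (Fintype.equivFin {i // p i}).symm
  let e2 := (Fintype.equivFin {i // ¬ p i}).symm
  let e : Fin l ⊕ Fin μ ≃ Fin n := (Equiv.sumCongr e1 e2).trans (Equiv.sumCompl p)
  let L : D ≃ₗ[ℝ] Eu l × Eu μ := φ.toLinearEquiv.trans ((LinearEquiv.funCongrLeft ℝ ℝ e).trans
    ((LinearEquiv.sumArrowLequivProdArrow (Fin l) (Fin μ) ℝ ℝ).trans
      ((WithLp.linearEquiv 2 ℝ (Fin l → ℝ)).symm.prodCongr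
        (WithLp.linearEquiv 2 ℝ (Fin μ → ℝ)).symm)))
  refine ⟨l, μ, L.toContinuousLinearEquiv, fun z => ?_⟩
  rw [← φ.map_app z, QuadraticMap.weightedSumSquares_apply, ← e.sum_comp, Fintype.sum_sum_type]
  have h1 : ∀ i, (L z).1 i = φ z (e (Sum.inl i)) := fun _ => rfl
  have h2 : ∀ i, (L z).2 i = φ z (e (Sum.inr i)) := fun _ => rfl
  have w1 : ∀ i, w (e (Sum.inl i)) = -1 := fun i => (e1 i).2
  have w2 : ∀ i, w (e (Sum.inr i)) = 1 := fun i => (hw _).resolve_left (e2 i).2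
  show _ = -‖(L z).1‖ ^ 2 + ‖(L z).2‖ ^ 2
  rw [EuclideanSpace.real_norm_sq_eq, EuclideanSpace.real_norm_sq_eq, ← Finset.sum_neg_distrib]
  congr 1
  · exact Finset.sum_congr rfl fun i _ => by rw [h1, w1, smul_eq_mul]; ring
  · exact Finset.sum_congr rfl fun i _ => by rw [h2, w2, smul_eq_mul]; ring

end DiagM

theorem diagS : StmtDiag := by
  refine ⟨fun D _ _ _ B hs hn => ?_, fun k Q hQ =>
    DiagM.core _ Q (QuadraticMap.nondegenerate_associated_iff.mpr hQ).1⟩
  let B' : LinearMap.BilinForm ℝ D := LinearMap.mk₂ ℝ (fun u v => (1 / 2 : ℝ) * B u v)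
    (fun a b c => by simp [mul_add]) (fun a b c => by simp; ring)
    (fun a b c => by simp [mul_add]) (fun a b c => by simp; ring)
  have hB : ∀ u v, B' u v = (1 / 2 : ℝ) * B u v := fun _ _ => rfl
  have ha : QuadraticMap.associated (R := ℝ) (LinearMap.BilinMap.toQuadraticMap B') = B' :=
    QuadraticMap.associated_left_inverse ℝ fun x y => by rw [hB, hB, hs]
  obtain ⟨l, μ, T, hT⟩ := DiagM.core D (LinearMap.BilinMap.toQuadraticMap B') (by
    rw [ha]
    intro x hx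
    refine hn x ?_
    ext y
    have := hx y
    rw [hB] at this
    simpa using this)
  refine ⟨l, μ, T, fun u => ?_⟩
  rw [← hT, LinearMap.BilinMap.toQuadraticMap_apply, hB]; ring

end Vale.Agent.P265
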