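import Vale.Agent.P265.Coh

namespace Vale.Agent.P265

open Set

namespace EqvM

theorem rank_le {V V' : Type} [AddCommGroup V] [Module K7 V] [AddCommGroup V'] [Module K7 V']
    (S T : Submodule K7 V) (S' T' : Submodule K7 V') (g : V →ₗ[K7] V')
    (h1 : ∀ x ∈ S, g x ∈ S') (h2 : ∀ x ∈ S, g x ∈ T' → x ∈ T) :
    Module.rank K7 (S.map T.mkQ) ≤ Module.rank K7 (S'.map T'.mkQ) := by
  set k : S →ₗ[K7] V ⧸ T := T.mkQ ∘ₗ S.subtype with hk
  set h : S →ₗ[K7] V' ⧸ T' := T'.mkQ ∘ₗ g ∘ₗ S.subtype with hh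
  have e1 : S.map T.mkQ = LinearMap.range k := by
    rw [hk, LinearMap.range_comp, Submodule.range_subtype]
  have e2 : LinearMap.range h ≤ S'.map T'.mkQ := by
    rintro _ ⟨x, rfl⟩
    exact ⟨g x, h1 x x.2, rfl⟩
  have e3 : LinearMap.ker h ≤ LinearMap.ker k := by
    intro x hx
    have hx' : g x ∈ T' := by
      simpa [hh, Submodule.Quotient.mk_eq_zero] using hx
    have := h2 x x.2 hx'
    simpa [hk, Submodule.Quotient.mk_eq_zero] using this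
  rw [e1, ← (LinearMap.quotKerEquivRange k).rank_eq]
  refine le_trans ?_ (Submodule.rank_mono e2)
  rw [← (LinearMap.quotKerEquivRange h).rank_eq]
  exact LinearMap.rank_le_of_surjective (Submodule.factor e3) (Submodule.factor_surjective e3)

theorem pb_pb {E E' E'' : Type} (f : E → E') (g : E' → E'') (φ : Co E'') :
    pb f (pb g φ) = pb (g ∘ f) φ := by
  funext l
  simp [pb, LinearMap.funLeft_apply, List.map_map]

theorem pb_id {E : Type} (φ : Co E) : pb id φ = φ := by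
  funext l
  simp [pb, LinearMap.funLeft_apply]

theorem mem_Ze {E : Type} [MetricSpace E] (ι : E → E) (ε : K7) (A B : Set E) (n : ℕ) (φ : Co E) :
    φ ∈ Ze ι ε A B n ↔ φ ∈ Zc A B n ∧ pb ι φ - ε • φ ∈ Bd A B n := by
  simp [Ze]

end EqvM

open EqvM

theorem eqvS (hB : StmtBas) (hH : StmtHtp) : StmtEqv := by
  intro E E' _ _ ι ι' ε A B A' B' f g hA hBB hBA hA' hB' hBA' hf hg H1 H2 H3 n
  have pι : PMap A B A B ι := ⟨hA.2.2.1, hA.2.1, hBB.2.1⟩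
  have pι' : PMap A' B' A' B' ι' := ⟨hA'.2.2.1, hA'.2.1, hB'.2.1⟩
  obtain ⟨fZ, fB⟩ := (hB E).2.2.2.2.2.2.2.1 E' A B A' B' f n hA.1 hBB.1 hBA hf
  obtain ⟨gZ, gB⟩ := (hB E').2.2.2.2.2.2.2.1 E A' B' A B g n hA'.1 hB'.1 hBA' hg
  obtain ⟨-, iB⟩ := (hB E).2.2.2.2.2.2.2.1 E A B A B ι n hA.1 hBB.1 hBA pι
  obtain ⟨iZ', -⟩ := (hB E').2.2.2.2.2.2.2.1 E' A' B' A' B' ι' n hA'.1 hB'.1 hBA' pι'
  have K1 : ∀ ψ ∈ Zc A B n, pb f (pb g ψ) - ψ ∈ Bd A B n := by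
    intro ψ hψ
    have := hH E E A B A B _ _ n hA.1 hBB.1 hBA hBA H1 ψ hψ
    rwa [pb_id, ← pb_pb] at this
  have K2 : ∀ φ ∈ Zc A' B' n, pb g (pb f φ) - φ ∈ Bd A' B' n := by
    intro φ hφ
    have := hH E' E' A' B' A' B' _ _ n hA'.1 hB'.1 hBA' hBA' H2 φ hφ
    rwa [pb_id, ← pb_pb] at this
  have K3 : ∀ φ ∈ Zc A' B' n, pb ι (pb f φ) - pb f (pb ι' φ) ∈ Bd A B n := by
    intro φ hφ
    have := hH E E' A B A' B' _ _ n hA.1 hBB.1 hBA hBA' H3 φ hφ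
    rwa [← pb_pb, ← pb_pb] at this
  have If : ∀ φ ∈ Zc A' B' n, pb f φ ∈ Bd A B n → φ ∈ Bd A' B' n := by
    intro φ hφ h
    have := Submodule.sub_mem _ (gB _ h) (K2 φ hφ)
    simpa using this
  have Ig : ∀ ψ ∈ Zc A B n, pb g ψ ∈ Bd A' B' n → ψ ∈ Bd A B n := by
    intro ψ hψ h
    have := Submodule.sub_mem _ (fB _ h) (K1 ψ hψ)
    simpa using this
  apply le_antisymm
  · refine rank_le _ _ _ _ (pb g) ?_ ?_
    · intro ψ hψ
      rw [mem_Ze] at hψ ⊢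
      obtain ⟨hz, he⟩ := hψ
      refine ⟨gZ ψ hz, If _ (Submodule.sub_mem _ (iZ' _ (gZ ψ hz))
        (Submodule.smul_mem _ _ (gZ ψ hz))) ?_⟩
      have a1 := K3 _ (gZ ψ hz)
      have a2 := iB _ (K1 ψ hz)
      have a3 := Submodule.smul_mem _ ε (K1 ψ hz)
      have a4 := Submodule.sub_mem _ (Submodule.add_mem _ (Submodule.sub_mem _ a2 a1) he) a3
      have e : pb f (pb ι' (pb g ψ) - ε • pb g ψ) =
          pb ι (pb f (pb g ψ) - ψ) - (pb ι (pb f (pb g ψ)) - pb f (pb ι' (pb g ψ))) +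
            (pb ι ψ - ε • ψ) - ε • (pb f (pb g ψ) - ψ) := by
        simp only [map_sub, map_smul, smul_sub]
        abel
      rw [e]; exact a4
    · intro ψ hψ h
      exact Ig ψ ((mem_Ze ..).1 hψ).1 h
  · refine rank_le _ _ _ _ (pb f) ?_ ?_
    · intro φ hφ
      rw [mem_Ze] at hφ ⊢
      obtain ⟨hz, he⟩ := hφ
      refine ⟨fZ φ hz, ?_⟩
      have a4 := Submodule.add_mem _ (K3 φ hz) (fB _ he)
      have e : pb ι (pb f φ) - ε • pb f φ =
          pb ι (pb f φ) - pb f (pb ι' φ) + pb f (pb ι' φ - ε • φ) := by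
        simp only [map_sub, map_smul]
        abel
      rw [e]; exact a4
    · intro φ hφ h
      exact If φ ((mem_Ze ..).1 hφ).1 h

end Vale.Agent.P265
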