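import Vale.Agent.P265.Coh

/-! Excision. -/

namespace Vale.Agent.P265

open Set

namespace ExcM

theorem rank_quot {M : Type} [AddCommGroup M] [Module K7 M] (S T : Submodule K7 M) :
    Module.rank K7 (S.map T.mkQ) = Module.rank K7 (S ⧸ T.comap S.subtype) := by
  have e := (T.mkQ ∘ₗ S.subtype).quotKerEquivRange
  rw [LinearMap.ker_comp, Submodule.ker_mkQ, LinearMap.range_comp, Submodule.range_subtype] at e
  exact e.rank_eq.symm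

theorem rank_eq {M : Type} [AddCommGroup M] [Module K7 M] {S T S' T' : Submodule K7 M}
    (h1 : S ≤ S') (h2 : T ≤ T') (h3 : ∀ x ∈ S, x ∈ T' → x ∈ T)
    (h4 : ∀ x ∈ S', ∃ y ∈ S, x - y ∈ T') :
    Module.rank K7 (S.map T.mkQ) = Module.rank K7 (S'.map T'.mkQ) := by
  have e : S'.map T'.mkQ = S.map T'.mkQ := by
    refine le_antisymm ?_ (Submodule.map_mono h1)
    rintro _ ⟨x, hx, rfl⟩
    obtain ⟨y, hy, h⟩ := h4 x hx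
    exact ⟨y, hy, ((Submodule.Quotient.eq _).2 h).symm⟩
  have e' : T.comap S.subtype = T'.comap S.subtype :=
    le_antisymm (Submodule.comap_mono h2) fun x hx => h3 x x.2 hx
  rw [e, rank_quot, rank_quot, e']

variable {E : Type} [MetricSpace E]

theorem nul_inter {A₁ A₂ : Set E} {n : ℕ} {φ : Co E} (h : φ ∈ Nul (A₁ ∩ A₂) n) :
    ∃ φ₁ ∈ Nul A₁ n, ∃ φ₂ ∈ Nul A₂ n, φ = φ₁ + φ₂ := by
  classical
  obtain ⟨δ, hδ, h⟩ := h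
  refine ⟨fun l => if ∀ x ∈ l, x ∈ A₂ then φ l else 0, ⟨δ, hδ, fun l hl hs => ?_⟩,
    fun l => if ∀ x ∈ l, x ∈ A₂ then 0 else φ l, ⟨δ, hδ, fun l _ hs => if_pos hs.1⟩,
    funext fun l => ?_⟩
  · exact ite_eq_right_iff.2 fun k => h l hl ⟨fun x hx => ⟨hs.1 x hx, k x hx⟩, hs.2⟩
  · rw [Pi.add_apply]; split_ifs <;> simp

theorem nul_union {A₁ A₂ U₁ U₂ : Set E} (hc : IsCompact (A₁ ∪ A₂)) (o1 : IsOpen U₁)
    (o2 : IsOpen U₂) (hU : A₁ ∪ A₂ ⊆ U₁ ∪ U₂) (h1 : (A₁ ∪ A₂) ∩ U₁ ⊆ A₁)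
    (h2 : (A₁ ∪ A₂) ∩ U₂ ⊆ A₂) {n : ℕ} {φ : Co E} (k1 : φ ∈ Nul A₁ n) (k2 : φ ∈ Nul A₂ n) :
    φ ∈ Nul (A₁ ∪ A₂) n := by
  obtain ⟨δ, hδ, h⟩ := lebesgue_number_lemma_of_metric (c := fun b : Bool => cond b U₁ U₂) hc
    (fun b => by cases b <;> assumption) fun x hx => (hU hx).elim
      (fun k => mem_iUnion.2 ⟨true, k⟩) fun k => mem_iUnion.2 ⟨false, k⟩
  obtain ⟨δ₁, d1, k1⟩ := k1
  obtain ⟨δ₂, d2, k2⟩ := k2
  refine ⟨min δ (min δ₁ δ₂), lt_min hδ (lt_min d1 d2), fun l hl hs => ?_⟩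
  have s1 : ∀ x ∈ l, ∀ y ∈ l, dist x y < δ₁ := fun x hx y hy =>
    (hs.2 x hx y hy).trans_le ((min_le_right _ _).trans (min_le_left _ _))
  have s2 : ∀ x ∈ l, ∀ y ∈ l, dist x y < δ₂ := fun x hx y hy =>
    (hs.2 x hx y hy).trans_le ((min_le_right _ _).trans (min_le_right _ _))
  cases l with
  | nil => exact k1 _ hl ⟨by simp, s1⟩
  | cons x l =>
    obtain ⟨b, hb⟩ := h x (hs.1 x List.mem_cons_self)
    have k : ∀ y ∈ x :: l, y ∈ cond b U₁ U₂ := fun y hy =>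
      hb ((hs.2 y hy x List.mem_cons_self).trans_le (min_le_left _ _))
    cases b
    · exact k2 _ hl ⟨fun y hy => h2 ⟨hs.1 y hy, k y hy⟩, s2⟩
    · exact k1 _ hl ⟨fun y hy => h1 ⟨hs.1 y hy, k y hy⟩, s1⟩

end ExcM

open ExcM in
theorem excS (hB : StmtBas) : StmtExc := by
  intro E _ ι ε A₁ A₂ U₁ U₂ g1 g2 o1 o2 hU h1 h2 n
  obtain ⟨-, -, mono, dn, -, -, pn, -⟩ := hB E
  have un : ∀ {n : ℕ} {φ : Co E}, φ ∈ Nul A₁ n → φ ∈ Nul A₂ n → φ ∈ Nul (A₁ ∪ A₂) n :=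
    nul_union (g1.1.union g2.1) o1 o2 hU h1 h2
  have bd : Bd (A₁ ∪ A₂) A₂ n ≤ Bd A₁ (A₁ ∩ A₂) n :=
    sup_le_sup (Submodule.map_mono (mono _ _ _ inter_subset_right)) (mono _ _ _ subset_union_left)
  have inj : ∀ φ ∈ Nul A₂ n, φ ∈ Bd A₁ (A₁ ∩ A₂) n → φ ∈ Bd (A₁ ∪ A₂) A₂ n := by
    intro φ hφ h
    obtain ⟨_, ⟨ψ, hψ, rfl⟩, ν, hν, rfl⟩ := Submodule.mem_sup.1 h
    obtain ⟨ψ₁, p1, ψ₂, p2, rfl⟩ := nul_inter hψ
    refine Submodule.mem_sup.2 ⟨_, ⟨ψ₂, p2, rfl⟩, dL E ψ₁ + ν,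
      un (add_mem (dn _ _ _ p1) hν) ?_, by rw [map_add]; abel⟩
    have := sub_mem hφ (dn _ _ _ p2)
    rwa [map_add, show dL E ψ₁ + dL E ψ₂ + ν - dL E ψ₂ = dL E ψ₁ + ν by abel] at this
  have eg : ∀ {A : Set E}, Good ι A → ∀ φ ∈ Nul A n,
      (pb ι - ε • LinearMap.id : Co E →ₗ[K7] Co E) φ ∈ Nul A n := fun g φ h =>
    sub_mem (pn E _ _ ι n g.1 g.2.2.1 g.2.1 φ h) (Submodule.smul_mem _ _ h)
  refine rank_eq (inf_le_inf (inf_le_inf (mono _ _ _ inter_subset_right)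
    (Submodule.comap_mono (mono _ _ _ subset_union_left))) (Submodule.comap_mono bd)) bd
    (fun φ h => inj φ h.1.1) ?_
  rintro φ ⟨⟨z1, z2⟩, z3⟩
  obtain ⟨φ₁, p1, φ₂, p2, rfl⟩ := nul_inter z1
  refine ⟨φ₂, ⟨⟨p2, un ?_ (dn _ (n + 1) _ p2)⟩, inj _ (eg g2 _ p2) ?_⟩, ?_⟩
  · have := sub_mem (Submodule.mem_comap.1 z2) (dn _ (n + 1) _ p1)
    rwa [map_add, add_sub_cancel_left] at this
  · have := sub_mem (Submodule.mem_comap.1 z3) (Submodule.mem_sup_right (eg g1 _ p1))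
    rwa [map_add, add_sub_cancel_left] at this
  · rw [add_sub_cancel_right]
    exact Submodule.mem_sup_right p1

end Vale.Agent.P265
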