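import Vale.Agent.P265.Ex

namespace Vale.Agent.P265

open Set Complex
open scoped ContDiff ComplexConjugate

namespace F0M

theorem cre {f : VX → ℂ} (h : ContDiff ℝ ∞ f) : ContDiff ℝ ∞ fun p => (f p).re :=
  reCLM.contDiff.comp h

theorem cim {f : VX → ℂ} (h : ContDiff ℝ ∞ f) : ContDiff ℝ ∞ fun p => (f p).im :=
  imCLM.contDiff.comp h

theorem cns {f : VX → ℂ} (h : ContDiff ℝ ∞ f) : ContDiff ℝ ∞ fun p => normSq (f p) := by
  simp only [normSq_apply]
  exact ((cre h).mul (cre h)).add ((cim h).mul (cim h))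

theorem sa : ContDiff ℝ ∞ ca := contDiff_fst
theorem sb : ContDiff ℝ ∞ cb := contDiff_snd.fst
theorem sx : ContDiff ℝ ∞ cx := contDiff_snd.snd.fst

theorem sxi : ContDiff ℝ ∞ xi :=
  ((conjCLE.contDiff.comp contDiff_snd.snd.snd.fst).mul (sa.pow 2)).sub contDiff_const

theorem k1 {p : VX} (h : p ∈ XX) : cal p * (xi p + 1 / 2) = ca p ^ 2 := by
  have := mul_conj (cal p)
  rw [h.1] at this
  rw [xi]
  push_cast at this
  linear_combination ca p ^ 2 * this

theorem k2 {p : VX} (h : p ∈ XX) : cbe p * (xi p - 1 / 2) = cb p ^ 3 := by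
  have := mul_conj (cbe p)
  rw [h.2.1] at this
  rw [xi]
  push_cast at this
  linear_combination cb p ^ 3 * this + cbe p * h.2.2.1

theorem pos {p : VX} (h : p ∈ XX) : 0 < normSq (ca p) + normSq (cb p) := by
  have a := normSq_nonneg (ca p)
  have b := normSq_nonneg (cb p)
  by_contra c
  have := h.2.2.1
  rw [normSq_eq_zero.1 (show normSq (ca p) = 0 by linarith),
    normSq_eq_zero.1 (show normSq (cb p) = 0 by linarith)] at this
  simp at this

theorem sq2 {p : VX} (h : p ∈ XX) : fX p ^ 2 ≤ 2 ∧ (fX p ^ 2 = 2 ↔ ca p = cb p ∧ (ca p).im = 0) := by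
  have := pos h
  rw [fX, nr, div_pow, Real.sq_sqrt this.le, div_le_iff₀ this, div_eq_iff this.ne',
    Complex.ext_iff, normSq_apply, normSq_apply]
  generalize (ca p).re = a, (ca p).im = b, (cb p).re = c, (cb p).im = d
  refine ⟨by nlinarith [sq_nonneg (a - c)], fun e => ?_, ?_⟩
  · have b0 : b = 0 := by nlinarith [sq_nonneg (a - c), sq_nonneg b, sq_nonneg d]
    have d0 : d = 0 := by nlinarith [sq_nonneg (a - c), sq_nonneg b, sq_nonneg d]
    subst b0 d0
    exact ⟨⟨by nlinarith [sq_nonneg (a - c)], rfl⟩, rfl⟩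
  · rintro ⟨⟨rfl, rfl⟩, rfl⟩; ring

theorem lt25 {p : VX} (h : p ∈ XX) (e : ‖ca p‖ = ‖cb p‖) : |(xi p).re| < 2 / 5 := by
  have e1 := congrArg normSq (k1 h)
  have e2 := congrArg normSq (k2 h)
  have e3 := h.2.2.2
  rw [map_mul, map_pow, h.1, one_mul, normSq_apply] at e1
  rw [map_mul, map_pow, h.2.1, one_mul, normSq_apply, normSq_eq_norm_sq, ← e,
    ← normSq_eq_norm_sq] at e2
  rw [normSq_apply] at e3
  have s0 := normSq_nonneg (ca p)
  simp only [add_re, add_im, sub_re, sub_im] at e1 e2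
  norm_num at e1 e2
  generalize normSq (ca p) = s, (xi p).re = t, (xi p).im = y, cx p = x at *
  rw [abs_lt]
  constructor <;> by_contra c <;> rw [not_lt] at c
  · have : s ≤ 1 := by nlinarith [sq_nonneg x]
    nlinarith [mul_nonneg (sq_nonneg s) (sub_nonneg.2 this)]
  · nlinarith [mul_nonneg s0 (sq_nonneg (s - 2 / 3)), sq_nonneg (s - 2 / 3)]

theorem sf {p : VX} (h : p ∈ XX) : ContDiffAt ℝ ∞ fX p :=
  ((cre sa).add (cre sb)).contDiffAt.div
    (((cns sa).add (cns sb)).contDiffAt.sqrt (pos h).ne') (Real.sqrt_pos.2 (pos h)).ne'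

end F0M

open F0M in
theorem f0S (hX : StmtXAtl) : StmtF0 := by
  have r2 : (0 : ℝ) < √2 := by positivity
  have q2 : √2 ^ 2 = (2 : ℝ) := Real.sq_sqrt zero_le_two
  refine ⟨fun p h => ?_, ?_⟩
  · have n0 : 0 < nr p := Real.sqrt_pos.2 (pos h)
    obtain ⟨s1, s2⟩ := sq2 h
    have sg : ca p = cb p → fX p * nr p = 2 * (ca p).re := fun e => by
      rw [fX, div_mul_cancel₀ _ n0.ne', ← e]; ring
    refine ⟨n0, Real.abs_le_sqrt s1, sf h, ⟨fun e => ?_, fun ⟨a, b, c⟩ => ?_⟩,
      ⟨fun e => ?_, fun ⟨a, b, c⟩ => ?_⟩, lt25 h, fun t => ?_, k1 h, k2 h⟩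
    · obtain ⟨a, b⟩ := s2.1 (by rw [e, q2])
      exact ⟨a, b, by nlinarith [sg a, mul_pos r2 n0]⟩
    · have : 0 < fX p := (mul_pos_iff_of_pos_right n0).1 (by rw [sg a]; linarith)
      exact (pow_left_inj₀ this.le r2.le two_ne_zero).1 ((s2.2 ⟨a, b⟩).trans q2.symm)
    · obtain ⟨a, b⟩ := s2.1 (by rw [e, neg_sq, q2])
      exact ⟨a, b, by nlinarith [sg a, mul_pos r2 n0]⟩
    · have : 0 < -fX p := (mul_pos_iff_of_pos_right n0).1 (by rw [neg_mul, sg a]; linarith)
      exact neg_eq_iff_eq_neg.1 ((pow_left_inj₀ this.le r2.le two_ne_zero).1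
        (by rw [neg_sq, s2.2 ⟨a, b⟩, q2]))
    · have e3 := h.2.2.2
      rw [normSq_apply] at e3
      rw [abs_le] at t
      have z : 0 < cx p ^ 2 + (xi p).im ^ 2 := by nlinarith [t.1, t.2]
      refine ⟨fun e => ?_, fun e => ?_, z, sx.contDiffAt.div
        (((sx.pow 2).add ((cim sxi).pow 2)).contDiffAt.sqrt z.ne') (Real.sqrt_pos.2 z).ne'⟩
      · have : xi p = -(1 / 2) := by rw [xi, e]; ring
        rw [this] at t
        norm_num at t
      · have : xi p = 1 / 2 := by
          have := h.2.2.1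
          rw [e] at this
          rw [xi]; linear_combination this
        rw [this] at t
        norm_num at t
  · have K : IsCompact (XX ∩ {p | 2 / 5 ≤ |(xi p).re|}) :=
      hX.1.inter_right (isClosed_le continuous_const (cre sxi).continuous.abs)
    obtain ⟨a, a0, ha⟩ := K.exists_forall_le' (f := fun p => √2 - |fX p|) (a := 0)
      (continuousOn_const.sub (ContinuousOn.abs fun p h =>
        (sf h.1).continuousAt.continuousWithinAt)) fun p h => by
      refine sub_pos.2 (lt_of_le_of_ne (Real.abs_le_sqrt (sq2 h.1).1) fun e => ?_)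
      have := (sq2 h.1).2.1 (by rw [← sq_abs, e, q2])
      exact absurd (lt25 h.1 (by rw [this.1])) (not_lt.2 h.2)
    refine ⟨min 1 (a / 2), lt_min one_pos (by linarith), min_le_left _ _, fun p h e => ?_⟩
    by_contra c
    have := ha p ⟨h, not_lt.1 c⟩
    have := min_le_right 1 (a / 2)
    linarith

end Vale.Agent.P265
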