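import Vale.Agent.P265.Ex

/-! The eight critical points of `fX` with `x = h = 0`. -/

namespace Vale.Agent.P265

open Set Topology Complex Asymptotics Filter
open scoped ComplexConjugate

namespace F2M

theorem notO (val c k : ℝ → ℝ) (k' : ℝ) (h : ∀ᶠ t in 𝓝 (0 : ℝ), val t = c t * k t)
    (hc : ContinuousAt c 0) (hc0 : c 0 ≠ 0) (hk : HasDerivAt k k' 0) (hk0 : k 0 = 0)
    (hk' : k' ≠ 0) : ¬ val =o[𝓝 0] (fun t : ℝ => t) := by
  intro ho
  have h1 : (fun t => (c t)⁻¹) =O[𝓝 0] (fun _ : ℝ => (1 : ℝ)) := (hc.inv₀ hc0).isBigO_one ℝ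
  have h2 := h1.mul_isLittleO ho
  have h3 : HasDerivAt k 0 0 := by
    rw [hasDerivAt_iff_isLittleO_nhds_zero]
    refine h2.congr' ?_ (Eventually.of_forall fun t => one_mul t)
    filter_upwards [h, hc.eventually_ne hc0] with t h4 h5
    rw [h4, inv_mul_cancel_left₀ h5]
    simp [hk0]
  exact hk' (hk.unique h3)

theorem wit (hX : StmtXAtl) {Φ : VX → ℝ} {v : VX} (γ w : ℝ → VX) (c k : ℝ → ℝ) (k' : ℝ)
    (hΦ : Φ =ᶠ[𝓝 (γ 0)] fun q => √2 + fX q) (hγ : HasDerivAt γ v 0) (hw : ContinuousAt w 0)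
    (h : ∀ᶠ t in 𝓝 (0 : ℝ), γ t ∈ XX ∧ tanX (γ t) (w t) ∧ fderiv ℝ fX (γ t) (w t) = c t * k t)
    (hc : ContinuousAt c 0) (hc0 : c 0 ≠ 0) (hk : HasDerivAt k k' 0) (hk0 : k 0 = 0)
    (hk' : k' ≠ 0) : ∃ (γ' w : ℝ → VX) (c : ℝ), γ' 0 = γ 0 ∧ HasDerivAt γ' v 0 ∧
      (∀ᶠ t in 𝓝 (0 : ℝ), γ' t ∈ XX ∧ w t ∈ Tan XX (γ' t) ∧ ‖w t‖ ≤ c) ∧
      ¬ (fun t => fderiv ℝ Φ (γ' t) (w t)) =o[𝓝 0] (fun t : ℝ => t) := by
  refine ⟨γ, w, ‖w 0‖ + 1, rfl, hγ, ?_, notO _ c k k' ?_ hc hc0 hk hk0 hk'⟩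
  · filter_upwards [h, hw.norm.eventually (gt_mem_nhds (lt_add_one ‖w 0‖))] with t h1 h2
    exact ⟨h1.1, by rw [hX.2.2 _ h1.1]; exact h1.2.1, h2.le⟩
  · filter_upwards [h, hγ.continuousAt.eventually (hΦ.fderiv (𝕜 := ℝ))] with t h1 h2
    rw [h2, fderiv_const_add, h1.2.2]

theorem sgn (x y : ℝ) (n : ℕ) (hn : n ≠ 0) (he : Even n) (h : x ^ n = y ^ n) (hs : 0 < x ↔ 0 < y) :
    x = y := by
  by_cases hx : 0 < x
  · exact (pow_left_inj₀ hx.le (hs.1 hx).le hn).1 h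
  · have hy : ¬ 0 < y := fun h => hx (hs.2 h)
    have := (pow_left_inj₀ (neg_nonneg.2 (not_lt.1 hx)) (neg_nonneg.2 (not_lt.1 hy)) hn).1
      (by rw [he.neg_pow, he.neg_pow, h])
    linarith

theorem data (h0 : StmtF0) {p : VX} (hp : p ∈ S8) :
    (xi p).re ^ 2 = 1 ∧ (ca p).re ^ 4 = ((xi p).re + 1 / 2) ^ 2 ∧
      (cb p).re ^ 6 = ((xi p).re - 1 / 2) ^ 2 := by
  obtain ⟨hX, ha, hb, hx, hh⟩ := hp
  obtain ⟨-, -, -, -, -, -, -, e1, e2⟩ := h0.1 p hX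
  obtain ⟨n1, n2, -, n4⟩ := hX
  have f1 := congrArg normSq e1
  have f2 := congrArg normSq e2
  rw [map_mul, n1, map_pow, normSq_apply, normSq_apply] at f1
  rw [map_mul, n2, map_pow, normSq_apply, normSq_apply] at f2
  rw [normSq_apply, hx, hh] at n4
  simp only [add_re, add_im, sub_re, sub_im, ha, hb, hh, one_div, inv_re, inv_im, re_ofNat,
    im_ofNat, normSq_ofNat] at f1 f2
  refine ⟨by linarith, by nlinarith, by nlinarith⟩

theorem card (h0 : StmtF0) : S8.encard ≤ 8 := by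
  have h := Set.encard_le_encard_of_injOn (s := S8) (t := (univ : Set (Bool × Bool × Bool)))
    (f := fun p => (decide (0 < (xi p).re), decide (0 < (ca p).re), decide (0 < (cb p).re)))
    (mapsTo_univ _ _) ?_
  · simpa using h
  intro p hp q hq e
  simp only [Prod.mk.injEq, decide_eq_decide] at e
  obtain ⟨p1, p2, p3⟩ := data h0 hp
  obtain ⟨q1, q2, q3⟩ := data h0 hq
  have t := sgn _ _ 2 (by norm_num) (by decide) (p1.trans q1.symm) e.1
  have a := sgn _ _ 4 (by norm_num) (by decide) (by rw [p2, q2, t]) e.2.1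
  have b := sgn _ _ 6 (by norm_num) (by decide) (by rw [p3, q3, t]) e.2.2
  have ex : xi p = xi q := Complex.ext t (hp.2.2.2.2.trans hq.2.2.2.2.symm)
  have ea : ca p = ca q := Complex.ext a (hp.2.1.trans hq.2.1.symm)
  have eb : cb p = cb q := Complex.ext b (hp.2.2.1.trans hq.2.2.1.symm)
  obtain ⟨-, -, -, -, -, -, -, e1, e2⟩ := h0.1 p hp.1
  obtain ⟨-, -, -, -, -, -, -, f1, f2⟩ := h0.1 q hq.1
  have n1 : xi q + 1 / 2 ≠ 0 := fun h => by
    have := congrArg re h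
    simp at this
    nlinarith
  have n2 : xi q - 1 / 2 ≠ 0 := fun h => by
    have := congrArg re h
    simp at this
    nlinarith
  rw [ex, ea, ← f1] at e1
  rw [ex, eb, ← f2] at e2
  exact Prod.ext ea (Prod.ext eb (Prod.ext (hp.2.2.2.1.trans hq.2.2.2.1.symm)
    (Prod.ext (mul_right_cancel₀ n1 e1) (mul_right_cancel₀ n2 e2))))

theorem imcc (z : ℂ) (h1 : z + 1 / 2 ≠ 0) (h2 : z - 1 / 2 ≠ 0) :
    (I * z * (1 / (2 * (z + 1 / 2)) - 1 / (3 * (z - 1 / 2)))).re =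
      -(1 / (4 * normSq (z + 1 / 2)) + 1 / (6 * normSq (z - 1 / 2))) * z.im := by
  have e : I * z * (1 / (2 * (z + 1 / 2)) - 1 / (3 * (z - 1 / 2))) =
      I * (1 / 6 - (1 / 4 : ℝ) * (z + 1 / 2)⁻¹ - (1 / 6 : ℝ) * (z - 1 / 2)⁻¹) := by
    push_cast
    generalize hu : z + 1 / 2 = u at h1
    generalize hw : z - 1 / 2 = w at h2
    have e1 : I * z * (1 / (2 * u)) = I * (1 / 2 - 1 / 4 * u⁻¹) := by
      rw [show z = u - 1 / 2 by rw [← hu]; ring]; field_simp; ring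
    have e2 : I * z * (1 / (3 * w)) = I * (1 / 3 + 1 / 6 * w⁻¹) := by
      rw [show z = w + 1 / 2 by rw [← hw]; ring]; field_simp; ring
    rw [mul_sub, e1, e2]; ring
  rw [e, I_mul_re, sub_im, sub_im, im_ofReal_mul, im_ofReal_mul, inv_im, inv_im]
  simp
  ring

theorem lin (L : VX →L[ℝ] ℝ) {γ : ℝ → VX} {v : VX} (h : HasDerivAt γ v 0) :
    HasDerivAt (fun t => L (γ t)) (L v) 0 := L.hasFDerivAt.comp_hasDerivAt 0 h

theorem dA {γ : ℝ → VX} {v : VX} (h : HasDerivAt γ v 0) :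
    HasDerivAt (fun t => (ca (γ t)).im) (ca v).im 0 :=
  lin (imCLM.comp (ContinuousLinearMap.fst ℝ _ _)) h

theorem dB {γ : ℝ → VX} {v : VX} (h : HasDerivAt γ v 0) :
    HasDerivAt (fun t => (cb (γ t)).im) (cb v).im 0 :=
  lin (imCLM.comp ((ContinuousLinearMap.fst ℝ _ _).comp (ContinuousLinearMap.snd ℝ _ _))) h

theorem dX {γ : ℝ → VX} {v : VX} (h : HasDerivAt γ v 0) :
    HasDerivAt (fun t => cx (γ t)) (cx v) 0 :=
  lin ((ContinuousLinearMap.fst ℝ _ _).comp ((ContinuousLinearMap.snd ℝ _ _).comp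
    (ContinuousLinearMap.snd ℝ _ _))) h

theorem cnr : Continuous nr := by unfold nr; fun_prop
theorem cxi : Continuous xi := by unfold xi; fun_prop

end F2M

open F2M in
theorem f2S (_hT : StmtTan) (hX : StmtXAtl) (h0 : StmtF0) (h1 : StmtF1) (hR : StmtRC) :
    StmtF2 := by
  refine ⟨card h0, fun p hp Φ hΦ v hv _ hv0 => ?_⟩
  obtain ⟨d1, d2, d3⟩ := data h0 hp
  obtain ⟨hpX, ha, hb, hx, hh⟩ := hp
  obtain ⟨nr0, -, -, -, -, nab, -⟩ := h0.1 p hpX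
  have hv' : tanX p v := by rw [hX.2.2 p hpX] at hv; exact hv
  have cn := cnr
  have cx' := cxi
  by_cases ia : (ca v).im ≠ 0
  · obtain ⟨γ, rfl, hγ, hS⟩ := hv
    have cγ := hγ.continuousAt
    refine wit hX γ (fun t => e1 (γ t)) (fun t => -(nr (γ t))⁻¹) (fun t => (ca (γ t)).im) _ hΦ hγ
      (by unfold e1; fun_prop) ?_ (by fun_prop (disch := exact nr0.ne'))
      (neg_ne_zero.2 (inv_ne_zero nr0.ne'))
      (dA hγ) ha ia
    filter_upwards [hS] with t ht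
    obtain ⟨-, g1, -, -, -, g2, -⟩ := h1 _ ht
    exact ⟨ht, g1, by rw [g2]; ring⟩
  by_cases ib : (cb v).im ≠ 0
  · obtain ⟨γ, rfl, hγ, hS⟩ := hv
    have cγ := hγ.continuousAt
    refine wit hX γ (fun t => e2 (γ t)) (fun t => -(nr (γ t))⁻¹) (fun t => (cb (γ t)).im) _ hΦ hγ
      (by unfold e2; fun_prop) ?_ (by fun_prop (disch := exact nr0.ne'))
      (neg_ne_zero.2 (inv_ne_zero nr0.ne'))
      (dB hγ) hb ib
    filter_upwards [hS] with t ht
    obtain ⟨-, -, g1, -, -, -, g2, -⟩ := h1 _ ht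
    exact ⟨ht, g1, by rw [g2]; ring⟩
  rw [not_not] at ia ib
  have t1 : (xi p).re + 1 / 2 ≠ 0 := fun h => by nlinarith
  have t2 : (xi p).re - 1 / 2 ≠ 0 := fun h => by nlinarith
  have ar : (ca p).re ≠ 0 := fun h => by
    rw [h] at d2
    exact t1 (pow_eq_zero_iff two_ne_zero |>.1 (by rw [← d2]; norm_num))
  have br : (cb p).re ≠ 0 := fun h => by
    rw [h] at d3
    exact t2 (pow_eq_zero_iff two_ne_zero |>.1 (by rw [← d3]; norm_num))
  have a0 : ca p ≠ 0 := fun h => ar (by rw [h]; rfl)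
  have b0 : cb p ≠ 0 := fun h => br (by rw [h]; rfl)
  have ab : (cb p).re - (ca p).re ≠ 0 := fun h => by
    have e : ca p = cb p := Complex.ext (by linarith) (ha.trans hb.symm)
    have := nab (by rw [e])
    rw [abs_lt] at this
    nlinarith [this.1, this.2]
  have n1 : xi p + 1 / 2 ≠ 0 := fun h => t1 (by simpa using congrArg re h)
  have n2 : xi p - 1 / 2 ≠ 0 := fun h => t2 (by simpa using congrArg re h)
  have pre : ((cb p).re - (ca p).re) * (ca p).re * (cb p).re / nr p ^ 3 ≠ 0 :=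
    div_ne_zero (mul_ne_zero (mul_ne_zero ab ar) br) (pow_ne_zero 3 nr0.ne')
  obtain ⟨γ, n, rfl, hγ, hn0, hn, hS⟩ := hR p hpX v a0 b0 ha hb hv' ia ib
  have cγ := hγ.continuousAt
  have n3 : nr (γ 0) ^ 3 ≠ 0 := pow_ne_zero 3 nr0.ne'
  have ea : ∀ᶠ t in 𝓝 (0 : ℝ), ca (γ t) ≠ 0 :=
    ContinuousAt.eventually_ne (g := fun t => ca (γ t)) (by fun_prop) a0
  have eb : ∀ᶠ t in 𝓝 (0 : ℝ), cb (γ t) ≠ 0 :=
    ContinuousAt.eventually_ne (g := fun t => cb (γ t)) (by fun_prop) b0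
  have a2 : 2 * ca (γ 0) ≠ 0 := mul_ne_zero two_ne_zero a0
  have b3 : 3 * cb (γ 0) ^ 2 ≠ 0 := mul_ne_zero three_ne_zero (pow_ne_zero 2 b0)
  by_cases ih : (dxi (γ 0) v).im ≠ 0
  · have A0 : 0 < normSq (xi (γ 0) + 1 / 2) := normSq_pos.2 n1
    have B0 : 0 < normSq (xi (γ 0) - 1 / 2) := normSq_pos.2 n2
    have A4 : 4 * normSq (xi (γ 0) + 1 / 2) ≠ 0 := by positivity
    have B6 : 6 * normSq (xi (γ 0) - 1 / 2) ≠ 0 := by positivity
    have nn : n 0 ≠ 0 := by rw [hn0]; exact one_ne_zero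
    refine wit hX γ (fun t => lft (γ t) (I * xi (γ t)) 0)
      (fun t => ((cb (γ t)).re - (ca (γ t)).re) * (ca (γ t)).re * (cb (γ t)).re / nr (γ t) ^ 3 *
        (-(1 / (4 * normSq (xi (γ t) + 1 / 2)) + 1 / (6 * normSq (xi (γ t) - 1 / 2))) *
          ((dxi (γ 0) v).im / n t))) (fun t => t) 1 hΦ hγ
      (by unfold lft; fun_prop (disch := assumption)) ?_ (by fun_prop (disch := assumption))
      (mul_ne_zero pre (mul_ne_zero (neg_ne_zero.2 (by positivity)) (div_ne_zero ih nn)))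
      (hasDerivAt_id 0) rfl one_ne_zero
    filter_upwards [hS, ea, eb,
      ContinuousAt.eventually_ne (g := fun t => xi (γ t) + 1 / 2) (by fun_prop) n1,
      ContinuousAt.eventually_ne (g := fun t => xi (γ t) - 1 / 2) (by fun_prop) n2]
      with t ht ta tb m1 m2
    obtain ⟨ht, -, hξ, -, ra, rb⟩ := ht
    obtain ⟨-, -, -, -, -, -, -, g, -⟩ := h1 _ ht
    obtain ⟨g1, -, g2⟩ := g (I * xi (γ t)) 0 ta tb (by simp; ring)
    refine ⟨ht, g1, ?_⟩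
    have e : (xi (γ t)).im = (dxi (γ 0) v).im / n t * t := by
      rw [hξ, div_ofReal_im, add_im, hh, im_ofReal_mul]; ring
    rw [g2 ra rb, cc, imcc _ m1 m2, e]
    ring
  by_cases ix : cx v ≠ 0
  · have c0 : (cc (γ 0)).re ≠ 0 := by
      have e : xi (γ 0) = ((xi (γ 0)).re : ℂ) := Complex.ext rfl (by simp [hh])
      rw [cc, e]
      rcases sq_eq_one_iff.mp d1 with h | h <;> rw [h] <;> norm_num
    have m2 : 2 * (xi (γ 0) + 1 / 2) ≠ 0 := mul_ne_zero two_ne_zero n1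
    have m3 : 3 * (xi (γ 0) - 1 / 2) ≠ 0 := mul_ne_zero three_ne_zero n2
    refine wit hX γ (fun t => lft (γ t) (-(cx (γ t) : ℂ)) (xi (γ t)).re)
      (fun t => ((cb (γ t)).re - (ca (γ t)).re) * (ca (γ t)).re * (cb (γ t)).re / nr (γ t) ^ 3 *
        -(cc (γ t)).re) (fun t => cx (γ t)) _ hΦ hγ
      (by unfold lft; fun_prop (disch := assumption)) ?_
      (by unfold cc; fun_prop (disch := assumption))
      (mul_ne_zero pre (neg_ne_zero.2 c0))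
      (dX hγ) hx ix
    filter_upwards [hS, ea, eb] with t ht ta tb
    obtain ⟨ht, -, -, -, ra, rb⟩ := ht
    obtain ⟨-, -, -, -, -, -, -, g, -⟩ := h1 _ ht
    obtain ⟨g1, -, g2⟩ := g (-(cx (γ t) : ℂ)) (xi (γ t)).re ta tb (by simp; ring)
    refine ⟨ht, g1, ?_⟩
    rw [g2 ra rb, neg_mul, neg_re, re_ofReal_mul]
    ring
  rw [not_not] at ih ix
  obtain ⟨-, -, -, -, -, -, -, -, g, -⟩ := h1 _ hpX
  refine absurd (g v a0 b0 ha hb hv' (Complex.ext ?_ ih) ix ia ib) hv0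
  have e := hv'.2.2.2
  rw [hx, mul_re, conj_re, conj_im, hh, ih] at e
  have t0 : (xi (γ 0)).re ≠ 0 := fun h => by rw [h] at d1; norm_num at d1
  exact (mul_eq_zero.1 (by linarith : (xi (γ 0)).re * (dxi (γ 0) v).re = 0)).resolve_left t0

end Vale.Agent.P265
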