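import Vale.Agent.P265.Ex

namespace Vale.Agent.P265

open Set Topology Complex
open scoped ContDiff ComplexConjugate

namespace F3M

theorem dbd : ∃ M : ℝ, 0 ≤ M ∧ ∀ s ∈ Icc (0 : ℝ) 2, |deriv Real.smoothTransition s| ≤ M := by
  have hc : Continuous (deriv Real.smoothTransition) :=
    (Real.smoothTransition.contDiff (n := 1)).continuous_deriv le_rfl
  obtain ⟨C, hC⟩ := (isCompact_Icc (a := (0 : ℝ)) (b := 2)).exists_bound_of_continuousOn
    hc.continuousOn
  exact ⟨max C 0, le_max_right _ _, fun s hs => (hC s hs).trans (le_max_left _ _)⟩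

theorem mX_abs (p : VX) : |mX p| ≤ 1 := by
  rw [mX, abs_div, abs_of_nonneg (Real.sqrt_nonneg _)]
  refine div_le_one_of_le₀ ?_ (Real.sqrt_nonneg _)
  refine Real.abs_le_sqrt ?_
  nlinarith [sq_nonneg (xi p).im]

theorem fd_Phi (η ε : ℝ) (p : VX) (hf : DifferentiableAt ℝ fX p) (hm : DifferentiableAt ℝ mX p)
    (u : VX) : fderiv ℝ (PhiF η ε) p u =
      (1 + ε * (deriv Real.smoothTransition ((fX p - (√2 - η)) / (η / 2)) / (η / 2)) * mX p) *
        fderiv ℝ fX p u +
      ε * Real.smoothTransition ((fX p - (√2 - η)) / (η / 2)) * fderiv ℝ mX p u := by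
  have h1 := hf.hasFDerivAt
  have h2 := hm.hasFDerivAt
  have hs : HasDerivAt Real.smoothTransition
      (deriv Real.smoothTransition ((fX p - (√2 - η)) / (η / 2))) ((fX p - (√2 - η)) / (η / 2)) :=
    ((Real.smoothTransition.contDiff (n := 1)).differentiable (by norm_num) _).hasDerivAt
  have h3 : HasFDerivAt (fun q => (fX q - (√2 - η)) / (η / 2)) ((η / 2)⁻¹ • fderiv ℝ fX p) p := by
    have := (h1.sub_const (√2 - η)).const_smul (η / 2)⁻¹
    refine this.congr_of_eventuallyEq (Filter.Eventually.of_forall fun q => ?_)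
    simp only [Pi.smul_apply, smul_eq_mul]
    rw [div_eq_inv_mul]
  have h4 := hs.comp_hasFDerivAt p h3
  have h5 := (h1.const_add (√2)).add ((h4.const_mul ε).mul h2)
  have h6 : HasFDerivAt (PhiF η ε) _ p := h5
  rw [h6.fderiv]
  simp only [add_apply, smul_apply, smul_eq_mul, Function.comp]
  rw [div_eq_mul_inv (deriv _ _)]
  ring

end F3M

open F3M in
theorem f3S (h0 : StmtF0) (h1 : StmtF1) (hW : StmtW0) : StmtF3 := by
  intro η hη hη1 hsm
  obtain ⟨M, hM0, hM⟩ := dbd
  have hε0 : 0 < min 1 (η / (4 * (M + 1))) := lt_min one_pos (by positivity)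
  refine ⟨min 1 (η / (4 * (M + 1))), hε0, min_le_left _ _, ?_⟩
  have hε2 : min 1 (η / (4 * (M + 1))) ≤ η / (4 * (M + 1)) := min_le_right _ _
  generalize min 1 (η / (4 * (M + 1))) = ε at hε0 hε2
  intro p hp hfp hcr
  obtain ⟨hnr, habs, hcf, hiff, -, -, hre, -, -⟩ := h0.1 p hp
  have ht : |(xi p).re| < 2 / 5 := hsm p hp (hfp.trans (le_abs_self _))
  obtain ⟨-, -, hpos, hcm⟩ := hre ht.le
  obtain ⟨hdm, hWt, hWf, hWm, hDp, -, -⟩ := hW p hp ht.le
  have hlast := (h1 p hp).2.2.2.2.2.2.2.2.2.2
  have hfd := fd_Phi η ε p (hcf.differentiableAt (by simp)) (hcm.differentiableAt (by simp))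
  have hle : fX p ≤ √2 := (le_abs_self _).trans habs
  set s := (fX p - (√2 - η)) / (η / 2) with hs
  have hs0 : s ∈ Icc (0 : ℝ) 2 := by
    constructor
    · exact div_nonneg (by linarith) (by linarith)
    · rw [hs, div_le_iff₀ (by linarith)]
      linarith
  have hκ : 0 < 1 + ε * (deriv Real.smoothTransition s / (η / 2)) * mX p := by
    have a1 : |ε * (deriv Real.smoothTransition s / (η / 2)) * mX p| ≤ ε * (M / (η / 2)) * 1 := by
      rw [abs_mul, abs_mul, abs_div, abs_of_pos hε0, abs_of_pos (by linarith : 0 < η / 2)]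
      have := hM s hs0
      have := mX_abs p
      gcongr
    have a2 : ε * (M / (η / 2)) * 1 ≤ 1 / 2 := by
      have a3 : ε * (4 * (M + 1)) ≤ η := by
        rwa [le_div_iff₀ (by positivity)] at hε2
      rw [mul_one, ← mul_div_assoc, div_le_iff₀ (by linarith)]
      nlinarith
    have := neg_abs_le (ε * (deriv Real.smoothTransition s / (η / 2)) * mX p)
    linarith
  have hsq : 0 < √(cx p ^ 2 + (xi p).im ^ 2) := Real.sqrt_pos.2 hpos
  have hor : Real.smoothTransition s = 0 ∨ (xi p).im = 0 := by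
    have h := hcr _ hWt
    rw [hfd, hWf, hWm, mul_zero, zero_add] at h
    rcases mul_eq_zero.1 h with h | h
    · exact Or.inl ((mul_eq_zero.1 h).resolve_left hε0.ne')
    · right
      rw [div_eq_zero_iff] at h
      rcases h with h | h
      · have := (mul_eq_zero.1 h).resolve_right hDp.ne'
        linarith
      · exact absurd h (pow_pos hsq 3).ne'
  have hdf : ∀ u, tanX p u → fderiv ℝ fX p u = 0 := by
    intro u hu
    have h := hcr u hu
    rw [hfd] at h
    have h2 : ε * Real.smoothTransition s * fderiv ℝ mX p u = 0 := by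
      rcases hor with h' | h'
      · rw [h']; ring
      · rw [hdm, h']; ring
    rw [h2, add_zero] at h
    exact (mul_eq_zero.1 h).resolve_left hκ.ne'
  obtain ⟨hai, hbi, -, -, hab⟩ := hlast hdf
  have hab' : ca p = cb p := by
    rcases hab with h | ⟨h, h'⟩
    · exact h
    · rw [h, h'] at hpos
      norm_num at hpos
  have h2 : (1 : ℝ) < √2 := by
    rw [Real.lt_sqrt (by norm_num)]
    norm_num
  have hfpos : 0 < fX p := by linarith
  have hapos : 0 < (ca p).re := by
    rw [fX, ← hab'] at hfpos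
    have := (div_pos_iff_of_pos_right hnr).1 hfpos
    linarith
  have hf2 : fX p = √2 := hiff.2 ⟨hab', hai, hapos⟩
  have hs2 : s = 2 := by
    rw [hs, hf2]
    field_simp
    ring
  have hone : Real.smoothTransition s = 1 := Real.smoothTransition.one_of_one_le (by linarith)
  refine ⟨hp, hab', hai, hapos, ?_⟩
  rcases hor with h | h
  · rw [hone] at h
    norm_num at h
  · exact h

end Vale.Agent.P265
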