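import Vale.Agent.P265.M.RC

/-! The two critical points over the maximum set. -/

namespace Vale.Agent.P265

open Set Topology Filter Complex Asymptotics
open scoped ContDiff ComplexConjugate

namespace F4M

theorem notO {F c k : ℝ → ℝ} {k' : ℝ} (hc : ContinuousAt c 0) (c0 : c 0 ≠ 0)
    (hk : HasDerivAt k k' 0) (k0 : k 0 = 0) (hk' : k' ≠ 0)
    (hF : ∀ᶠ t in 𝓝 (0 : ℝ), F t = c t * k t) : ¬ F =o[𝓝 0] fun t : ℝ => t := fun h => by
  have h1 : Tendsto (fun t => F t / t) (𝓝[≠] 0) (𝓝 0) :=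
    h.tendsto_div_nhds_zero.mono_left nhdsWithin_le_nhds
  have h2 : Tendsto (fun t => c t * slope k 0 t) (𝓝[≠] 0) (𝓝 (c 0 * k')) :=
    (hc.tendsto.mono_left nhdsWithin_le_nhds).mul (hasDerivAt_iff_tendsto_slope.1 hk)
  refine mul_ne_zero c0 hk' (tendsto_nhds_unique (h2.congr' ?_) h1)
  filter_upwards [hF.filter_mono nhdsWithin_le_nhds] with t ht
  rw [ht, slope_def_field, k0, sub_zero, sub_zero, mul_div_assoc]

theorem nd (hX : StmtXAtl) {Φ : VX → ℝ} {p v : VX} {γ w : ℝ → VX} {c k : ℝ → ℝ} {k' : ℝ}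
    (h0 : γ 0 = p) (hd : HasDerivAt γ v 0) (hw : ContinuousAt w 0) (hc : ContinuousAt c 0)
    (c0 : c 0 ≠ 0) (hk : HasDerivAt k k' 0) (k0 : k 0 = 0) (hk' : k' ≠ 0)
    (h : ∀ᶠ t in 𝓝 (0 : ℝ), γ t ∈ XX ∧ tanX (γ t) (w t) ∧ fderiv ℝ Φ (γ t) (w t) = c t * k t) :
    ∃ (γ w : ℝ → VX) (c : ℝ), γ 0 = p ∧ HasDerivAt γ v 0 ∧
      (∀ᶠ t in 𝓝 (0 : ℝ), γ t ∈ XX ∧ w t ∈ Tan XX (γ t) ∧ ‖w t‖ ≤ c) ∧
      ¬ (fun t => fderiv ℝ Φ (γ t) (w t)) =o[𝓝 0] (fun t : ℝ => t) := by
  refine ⟨γ, w, ‖w 0‖ + 1, h0, hd, ?_, notO hc c0 hk k0 hk' (h.mono fun _ h => h.2.2)⟩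
  filter_upwards [h, hw.norm.eventually (ge_mem_nhds (lt_add_one _))] with t a b
  exact ⟨a.1, by rw [hX.2.2 _ a.1]; exact a.2.1, b⟩

theorem cxi : Continuous xi := by unfold xi; fun_prop
theorem cnr : Continuous nr := by unfold nr; fun_prop

theorem facts (h0 : StmtF0) {p : VX} (hp : p ∈ Stwo) :
    |(xi p).re| < 2 / 5 ∧ cal p = 1 ∧ cbe p = -1 ∧ (ca p).re ^ 2 = (xi p).re + 1 / 2 ∧
      (ca p).re ^ 3 = 1 / 2 - (xi p).re ∧ cx p ^ 2 = 1 - (xi p).re ^ 2 := by
  obtain ⟨hx, hab, ai, ar, hi⟩ := hp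
  obtain ⟨-, -, -, -, -, h6, -, h8, h9⟩ := h0.1 p hx
  have ht := h6 (by rw [hab])
  obtain ⟨t1, t2⟩ := abs_lt.1 ht
  obtain ⟨p1, p2, -, p4⟩ := hx
  rw [← hab] at h9
  have a1 := congrArg re h8
  have a2 := congrArg im h8
  have b1 := congrArg re h9
  have b2 := congrArg im h9
  simp [pow_succ, ai, hi] at a1 a2 b1 b2
  have a3 : (cal p).im = 0 := a2.resolve_right (by linarith)
  have b3 : (cbe p).im = 0 := b2.resolve_right (by linarith)
  simp only [normSq_apply, a3, b3, hi, mul_zero, add_zero] at p1 p2 p4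
  have q2 := mul_pos ar ar
  have q3 := mul_pos q2 ar
  have a4 : (cal p).re = 1 := by
    rcases mul_self_eq_one_iff.1 p1 with h | h
    · exact h
    · rw [h] at a1; linarith
  have b4 : (cbe p).re = -1 := by
    rcases mul_self_eq_one_iff.1 p2 with h | h
    · rw [h] at b1; linarith
    · exact h
  rw [a4] at a1
  rw [b4] at b1
  exact ⟨ht, Complex.ext a4 a3, Complex.ext (by simpa using b4) (by simpa using b3),
    by linarith, by linarith, by linarith⟩

theorem card (h0 : StmtF0) : Stwo.encard ≤ 2 := by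
  have := Set.encard_le_encard_of_injOn (s := Stwo) (t := (univ : Set Bool))
    (f := fun p => decide (0 < cx p)) (mapsTo_univ _ _) fun p hp q hq h => by
      obtain ⟨-, a1, a2, a3, a4, a5⟩ := facts h0 hp
      obtain ⟨-, b1, b2, b3, b4, b5⟩ := facts h0 hq
      have u := hp.2.2.2.1
      have v := hq.2.2.2.1
      have e1 : (ca p).re = (ca q).re := by
        have : ((ca p).re - (ca q).re) * ((ca p).re + (ca q).re + (ca p).re ^ 2 +
          (ca p).re * (ca q).re + (ca q).re ^ 2) = 0 := by linear_combination a3 + a4 - b3 - b4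
        exact sub_eq_zero.1 ((mul_eq_zero.1 this).resolve_right (by positivity))
      have e2 : ca p = ca q := Complex.ext e1 (hp.2.2.1.trans hq.2.2.1.symm)
      have e3 : cx p ^ 2 = cx q ^ 2 := by
        have : (xi p).re = (xi q).re := by rw [e1] at a3; linarith
        rw [a5, b5, this]
      have e4 : cx p = cx q := by
        simp only [decide_eq_decide] at h
        rcases sq_eq_sq_iff_eq_or_eq_neg.1 e3 with g | g
        · exact g
        · by_cases k : 0 < cx p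
          · have := h.1 k; linarith
          · have k' : ¬ 0 < cx q := fun k' => k (h.2 k')
            linarith
      exact Prod.ext e2 (Prod.ext (hp.2.1.symm.trans (e2.trans hq.2.1))
        (Prod.ext e4 (Prod.ext (a1.trans b1.symm) (a2.trans b2.symm))))
  refine this.trans ?_
  rw [Set.encard_univ]
  simp

theorem split (h0 : StmtF0) {p : VX} (hp : p ∈ Stwo) {ε : ℝ} {Φ : VX → ℝ}
    (hΦ : Φ =ᶠ[𝓝 p] fun q => √2 + fX q + ε * mX q) {γ : ℝ → VX} (g0 : γ 0 = p)
    (hc : ContinuousAt γ 0) : ∀ᶠ t in 𝓝 (0 : ℝ), γ t ∈ XX → |(xi (γ t)).re| ≤ 2 / 5 ∧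
      ∀ w, fderiv ℝ Φ (γ t) w = fderiv ℝ fX (γ t) w + ε * fderiv ℝ mX (γ t) w := by
  have t : Tendsto γ (𝓝 0) (𝓝 p) := g0 ▸ hc.tendsto
  have h1 : ∀ᶠ q in 𝓝 p, |(xi q).re| < 2 / 5 :=
    (Complex.continuous_re.comp cxi).abs.continuousAt.eventually (gt_mem_nhds (facts h0 hp).1)
  filter_upwards [t.eventually (hΦ.fderiv (𝕜 := ℝ)), t.eventually h1] with s a b hs
  refine ⟨b.le, fun w => ?_⟩
  obtain ⟨-, -, d1, -, -, -, d2, -⟩ := h0.1 _ hs
  have e1 := (d1.differentiableAt (by simp)).hasFDerivAt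
  have e2 := ((d2 b.le).2.2.2.differentiableAt (by simp)).hasFDerivAt
  rw [a, ((e1.const_add √2).fun_add (e2.const_mul ε)).fderiv]
  simp

end F4M

open F4M RCM in
theorem f4S (hT : StmtTan) (hX : StmtXAtl) (h0 : StmtF0) (h1 : StmtF1) (hW : StmtW0)
    (hR : StmtRC) : StmtF4 := by
  refine ⟨card h0, fun p hp ε Φ hε hΦ v hv _ v0 => ?_⟩
  obtain ⟨ft, fa, fb, f2, f3, fx⟩ := facts h0 hp
  obtain ⟨hx, hab, ai, ar, hi⟩ := id hp
  have bi : (cb p).im = 0 := hab ▸ ai
  have n0 := (h0.1 p hx).1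
  obtain ⟨a0, b0, s0, -⟩ := (h0.1 p hx).2.2.2.2.2.2.1 ft.le
  have tv : tanX p v := by rwa [hX.2.2 p hx] at hv
  by_cases c1 : (ca v).im ≠ 0
  · obtain ⟨γ, g0, hd, he⟩ := hv
    have hc := hd.continuousAt
    refine nd hX (w := fun t => e1 (γ t)) (c := fun t => -1 / nr (γ t)) g0 hd
      (by unfold e1; fun_prop) (continuousAt_const.div (cnr.continuousAt.comp hc)
        (by rw [g0]; exact n0.ne')) (by rw [g0]; exact div_ne_zero (by norm_num) n0.ne')
      (dim (show HasDerivAt (fun t => ca (γ t)) (ca v) 0 from hd.fst)) (by rw [g0]; exact ai) c1 ?_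
    filter_upwards [he, split h0 hp hΦ g0 hc] with t a b
    obtain ⟨-, r1, -, r2, -, r3, -⟩ := h1 _ a
    refine ⟨a, r1, ?_⟩
    rw [(b a).2, r3, (hW _ a (b a).1).1, r2]
    simp [e1, cx]; ring
  by_cases c2 : (cb v).im ≠ 0
  · obtain ⟨γ, g0, hd, he⟩ := hv
    have hc := hd.continuousAt
    refine nd hX (w := fun t => e2 (γ t)) (c := fun t => -1 / nr (γ t)) g0 hd
      (by unfold e2; fun_prop) (continuousAt_const.div (cnr.continuousAt.comp hc)
        (by rw [g0]; exact n0.ne')) (by rw [g0]; exact div_ne_zero (by norm_num) n0.ne')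
      (dim (show HasDerivAt (fun t => cb (γ t)) (cb v) 0 from hd.snd.fst)) (by rw [g0]; exact bi)
      c2 ?_
    filter_upwards [he, split h0 hp hΦ g0 hc] with t a b
    obtain ⟨-, -, r1, -, r2, -, r3, -⟩ := h1 _ a
    refine ⟨a, r1, ?_⟩
    rw [(b a).2, r3, (hW _ a (b a).1).1, r2]
    simp [e2, cx]; ring
  rw [not_not] at c1 c2
  obtain ⟨γ, n, g0, hd, m0, hn, he⟩ := hR p hx v a0 b0 ai bi tv c1 c2
  have hc := hd.continuousAt
  have him : ∀ t : ℝ, ((xi p + t * dxi p v) / n t).im = t * (dxi p v).im / n t := fun t => by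
    rw [div_ofReal_im]; simp [hi]
  by_cases c3 : (dxi p v).im ≠ 0
  · obtain ⟨-, -, -, -, D0, cW, cD⟩ := hW p hx ft.le
    have hs : ContinuousAt (fun t => √(cx (γ t) ^ 2 + (xi (γ t)).im ^ 2) ^ 3) 0 := by
      have := cxi.continuousAt.comp hc
      exact (((hc.snd.snd.fst.pow 2).add
        ((Complex.continuous_im.continuousAt.comp this).pow 2)).sqrt).pow 3
    have s1 : √(cx p ^ 2 + (xi p).im ^ 2) ^ 3 ≠ 0 := pow_ne_zero _ (Real.sqrt_pos.2 s0).ne'
    refine nd hX (w := fun t => W0 (γ t)) (k := fun t => t) (c := fun t =>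
      -(ε * (dxi p v).im) * Dp (γ t) / (n t * √(cx (γ t) ^ 2 + (xi (γ t)).im ^ 2) ^ 3)) g0 hd
      (cW.comp_of_eq hc g0)
      (((cD.comp_of_eq hc g0).const_mul _).div (hn.mul hs)
        (by rw [Pi.mul_apply, g0, m0, one_mul]; exact s1))
      (by rw [g0, m0, one_mul]
          exact div_ne_zero (mul_ne_zero (neg_ne_zero.2 (mul_ne_zero hε c3)) D0.ne') s1)
      (hasDerivAt_id 0) rfl one_ne_zero ?_
    filter_upwards [he, split h0 hp hΦ g0 hc] with t a b
    obtain ⟨-, r1, r2, r3, -⟩ := hW _ a.1 (b a.1).1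
    refine ⟨a.1, r1, ?_⟩
    rw [(b a.1).2, r2, r3]
    generalize √(cx (γ t) ^ 2 + (xi (γ t)).im ^ 2) ^ 3 = s
    rw [a.2.2.1, him]
    ring
  rw [not_not] at c3
  obtain ⟨t1, t2⟩ := abs_lt.1 ft
  have x0 : cx p ≠ 0 := fun h => by simp [h, hi] at s0
  have ex : xi p = ((xi p).re : ℂ) := Complex.ext rfl (by simpa using hi)
  have N1 : xi p + 1 / 2 ≠ 0 := fun h => by
    have := congrArg re h; simp at this; linarith
  have N2 : xi p - 1 / 2 ≠ 0 := fun h => by
    have := congrArg re h; simp at this; linarith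
  have ccp : 0 < (cc p).re := by
    have : cc p = ((1 / (2 * ((xi p).re + 1 / 2)) + 1 / (3 * (1 / 2 - (xi p).re)) : ℝ) : ℂ) := by
      rw [cc]; push_cast; rw [← ex, ← neg_sub (xi p), mul_neg, div_neg]; ring
    rw [this, ofReal_re]
    have u1 : 0 < (xi p).re + 1 / 2 := by linarith
    have u2 : 0 < 1 / 2 - (xi p).re := by linarith
    positivity
  have cξ := cxi.continuousAt.comp hc
  have ccc : ContinuousAt (fun t => cc (γ t)) 0 := by
    unfold cc
    exact (continuousAt_const.div ((cξ.add continuousAt_const).const_mul _)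
      (by rw [← g0] at N1; exact mul_ne_zero two_ne_zero N1)).sub
      (continuousAt_const.div ((cξ.sub continuousAt_const).const_mul _)
      (by rw [← g0] at N2; exact mul_ne_zero three_ne_zero N2))
  have k' : (cb v).re - (ca v).re ≠ 0 := fun h => v0 <| by
    obtain ⟨q1, q2, q3, q4⟩ := id tv
    have q5 := congrArg re q3
    have q6 : (dxi p v).re = 2 * (ca p).re * (ca v).re := by
      rw [fa] at q1
      simp at q1
      simp [dxi, fa, pow_succ, ai, c1, q1]
    rw [fb] at q2 q5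
    rw [← hab] at q5
    simp at q2
    simp [pow_succ, ai, c2, q2] at q5
    have q7 : (ca v).re = 0 := by
      have : (ca v).re * ((ca p).re * (2 + 3 * (ca p).re)) = 0 := by
        have e : (cb v).re = (ca v).re := by linarith
        rw [e, q6] at q5
        linarith
      exact (mul_eq_zero.1 this).resolve_right (by positivity)
    have q8 : dxi p v = 0 := Complex.ext (by simp [q6, q7]) c3
    rw [q8] at q4
    simp only [mul_zero, zero_re, zero_add] at q4
    exact (h1 p hx).2.2.2.2.2.2.2.2.1 v a0 b0 ai bi tv q8 ((mul_eq_zero.1 q4).resolve_left x0) c1 c2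
  have ca' : ContinuousAt (fun t => ca (γ t)) 0 := hc.fst
  have cb' : ContinuousAt (fun t => cb (γ t)) 0 := hc.snd.fst
  have cx' : ContinuousAt (fun t => cx (γ t)) 0 := hc.snd.snd.fst
  have cx'' : ContinuousAt (fun t => ((-cx (γ t) : ℝ) : ℂ)) 0 :=
    Complex.continuous_ofReal.continuousAt.comp cx'.neg
  refine nd hX (w := fun t => lft (γ t) (-cx (γ t) : ℝ) (xi (γ t)).re)
    (k := fun t => (cb (γ t)).re - (ca (γ t)).re) (c := fun t =>
      (ca (γ t)).re * (cb (γ t)).re / nr (γ t) ^ 3 * (((-cx (γ t) : ℝ) : ℂ) * cc (γ t)).re) g0 hd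
    ?_ ?_ ?_ ((dre (show HasDerivAt (fun t => cb (γ t)) (cb v) 0 from hd.snd.fst)).fun_sub
      (dre (show HasDerivAt (fun t => ca (γ t)) (ca v) 0 from hd.fst))) (by rw [g0, hab, sub_self])
    k' ?_
  · unfold lft
    exact ((hc.snd.snd.snd.fst.mul cx'').div (ca'.const_mul _)
      (by rw [g0]; exact mul_ne_zero two_ne_zero a0)).prodMk
      (((hc.snd.snd.snd.snd.mul cx'').div ((cb'.pow 2).const_mul _)
      (by rw [← g0] at b0; exact mul_ne_zero three_ne_zero (pow_ne_zero _ b0))).prodMk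
      ((Complex.continuous_re.continuousAt.comp cξ).prodMk continuousAt_const))
  · exact (((Complex.continuous_re.continuousAt.comp ca').mul
      (Complex.continuous_re.continuousAt.comp cb')).div ((cnr.continuousAt.comp hc).pow 3)
      (by rw [← g0] at n0; exact pow_ne_zero _ n0.ne')).mul
      (Complex.continuous_re.continuousAt.comp (cx''.mul ccc))
  · rw [g0, ← hab, re_ofReal_mul]
    exact mul_ne_zero (by positivity) (mul_ne_zero (neg_ne_zero.2 x0) ccp.ne')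
  · filter_upwards [he, split h0 hp hΦ g0 hc] with t a b
    have hz : (xi (γ t)).im = 0 := by rw [a.2.2.1, him, c3]; simp
    obtain ⟨u1, u2, -⟩ := (h0.1 _ a.1).2.2.2.2.2.2.1 (b a.1).1
    obtain ⟨r1, -, r2⟩ := (h1 _ a.1).2.2.2.2.2.2.2.1 (-cx (γ t) : ℝ) (xi (γ t)).re u1 u2
      (by simp; ring)
    refine ⟨a.1, r1, ?_⟩
    rw [(b a.1).2, r2 a.2.2.2.2.1 a.2.2.2.2.2, (hW _ a.1 (b a.1).1).1, hz]
    ring

end Vale.Agent.P265
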