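import Vale.Agent.P265.Mor

namespace Vale.Agent.P265

open Set Topology

namespace FaceM

variable {k l μ : ℕ}

/-- scale the positive coordinates -/
noncomputable def sc (T : Eu k ≃L[ℝ] Eu l × Eu μ) (s : ℝ) (z : Eu k) : Eu k :=
  T.symm ((T z).1, s • (T z).2)

theorem sc_one (T : Eu k ≃L[ℝ] Eu l × Eu μ) (z : Eu k) : sc T 1 z = z := by simp [sc]

theorem T_sc (T : Eu k ≃L[ℝ] Eu l × Eu μ) (s : ℝ) (z : Eu k) :
    T (sc T s z) = ((T z).1, s • (T z).2) := by simp [sc]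

theorem sc_cont (T : Eu k ≃L[ℝ] Eu l × Eu μ) : Continuous fun q : ℝ × Eu k => sc T q.1 q.2 := by
  unfold sc; fun_prop

theorem norm_sc {s : ℝ} (hs : s ∈ Icc (0 : ℝ) 1) (u : Eu μ) : ‖s • u‖ ≤ ‖u‖ := by
  rw [norm_smul, Real.norm_of_nonneg hs.1]
  exact mul_le_of_le_one_left (norm_nonneg u) hs.2

theorem sc_box {T : Eu k ≃L[ℝ] Eu l × Eu μ} {ρ' ρ s : ℝ} (hs : s ∈ Icc (0 : ℝ) 1) {z : Eu k}
    (hz : z ∈ box T ρ' ρ) : sc T s z ∈ box T ρ' ρ := by
  refine ⟨?_, ?_⟩ <;> rw [T_sc]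
  · exact hz.1
  · exact (norm_sc hs _).trans hz.2

theorem sc_le (T : Eu k ≃L[ℝ] Eu l × Eu μ) {s : ℝ} (hs : s ∈ Icc (0 : ℝ) 1) (z : Eu k) :
    qf (T (sc T s z)) ≤ qf (T z) := by
  rw [T_sc]
  have := pow_le_pow_left₀ (norm_nonneg _) (norm_sc hs (T z).2) 2
  unfold qf
  simp only
  linarith

theorem sc_lt (T : Eu k ≃L[ℝ] Eu l × Eu μ) {s : ℝ} (h0 : 0 ≤ s) (h1 : s < 1) {z : Eu k}
    (hz : (T z).2 ≠ 0) : qf (T (sc T s z)) < qf (T z) := by
  rw [T_sc]
  have h2 : ‖s • (T z).2‖ < ‖(T z).2‖ := by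
    rw [norm_smul, Real.norm_of_nonneg h0]
    exact mul_lt_of_lt_one_left (norm_pos_iff.2 hz) h1
  have := pow_lt_pow_left₀ h2 (norm_nonneg _) two_ne_zero
  unfold qf
  simp only
  linarith

theorem box_compact (T : Eu k ≃L[ℝ] Eu l × Eu μ) (ρ' ρ : ℝ) : IsCompact (box T ρ' ρ) := by
  have : box T ρ' ρ = T.toHomeomorph ⁻¹' (Metric.closedBall 0 ρ' ×ˢ Metric.closedBall 0 ρ) := by
    ext z; simp [box]
  rw [this, Homeomorph.isCompact_preimage]
  exact (isCompact_closedBall _ _).prod (isCompact_closedBall _ _)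

theorem good_prod {E F : Type} [MetricSpace E] [MetricSpace F] {ι : E → E} {A : Set E}
    (hA : Good ι A) {K : Set F} (hK : IsCompact K) : Good (Prod.map ι (id : F → F)) (A ×ˢ K) := by
  refine ⟨hA.1.prod hK, fun p hp => ⟨hA.2.1 hp.1, hp.2⟩, ?_, ?_⟩
  · exact hA.2.2.1.prodMap continuousOn_id
  · rintro ⟨x, t⟩ hp
    rw [Prod.map_iterate, Prod.map_apply, hA.2.2.2 x hp.1, Function.iterate_id]
    rfl

theorem htp_const {E F : Type} [MetricSpace E] [MetricSpace F] {A B : Set E} {A' B' : Set F}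
    {f g : E → F} (hf : PMap A B A' B' f) (hfg : EqOn f g A) : Htp A B A' B' f g := by
  refine ⟨fun _ => f, ?_, fun _ _ => ⟨hf.2.1, hf.2.2⟩, fun _ _ => rfl, hfg⟩
  exact hf.1.comp continuousOn_snd fun q hq => hq.2

end FaceM

open FaceM

theorem faceS : StmtFace := by
  intro E _ k l μ T ρ' ρ G e hG he _ N hN
  have hne : ∀ᶠ y : E × Eu k in 𝓝 e, (T y.2).2 ≠ 0 :=
    (by fun_prop : Continuous fun y : E × Eu k => (T y.2).2).continuousAt.eventually_ne he
  let Φ : ℝ × (E × Eu k) → E × Eu k := fun q => (q.2.1, sc T (1 - q.1) q.2.2)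
  have cΦ : Continuous Φ := (continuous_fst.comp continuous_snd).prodMk
    ((sc_cont T).comp (f := fun q : ℝ × (E × Eu k) => (1 - q.1, q.2.2)) (by fun_prop))
  have Φ0 : ∀ y, Φ (0, y) = y := fun y => by simp [Φ, sc_one]
  have hV : Φ ⁻¹' (N ∩ {y | G y = qf (T y.2) ∧ (T y.2).2 ≠ 0}) ∈ 𝓝 ((0 : ℝ), e) :=
    cΦ.continuousAt.preimage_mem_nhds (by rw [Φ0]; exact Filter.inter_mem hN (hG.and hne))
  obtain ⟨r, r0, hr⟩ := Metric.mem_nhds_iff.1 hV
  let β : E × Eu k → ℝ := fun y => min 1 (max 0 (r - dist y e)) / 2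
  have cβ : Continuous β := by fun_prop
  have β0 : ∀ y, 0 ≤ β y := fun y => by positivity
  have β1 : ∀ y, β y ≤ 1 / 2 := fun y => by
    have := min_le_left 1 (max 0 (r - dist y e))
    simp only [β]; linarith
  have β2 : ∀ y, β y < r := fun y => by
    have h1 := min_le_right 1 (max 0 (r - dist y e))
    have h2 : max 0 (r - dist y e) ≤ r := max_le r0.le (by linarith [dist_nonneg (x := y) (y := e)])
    simp only [β]; linarith
  have key : ∀ t ∈ Icc (0 : ℝ) 1, ∀ y, 0 < t * β y →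
      y ∈ N ∧ Φ (t * β y, y) ∈ N ∧ G (Φ (t * β y, y)) < G y := by
    intro t ht y hp
    have hb : t * β y ≤ β y := mul_le_of_le_one_left (β0 y) ht.2
    have hd : dist y e < r := by
      by_contra hc
      have : β y = 0 := by
        simp only [β]
        rw [max_eq_left (by linarith)]; simp
      rw [this, mul_zero] at hp
      exact lt_irrefl _ hp
    have m1 : ((0 : ℝ), y) ∈ Metric.ball ((0 : ℝ), e) r := by
      rw [Metric.mem_ball, Prod.dist_eq, max_lt_iff]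
      exact ⟨by simpa using r0, hd⟩
    have m2 : (t * β y, y) ∈ Metric.ball ((0 : ℝ), e) r := by
      rw [Metric.mem_ball, Prod.dist_eq, max_lt_iff]
      refine ⟨?_, hd⟩
      rw [Real.dist_eq, sub_zero, abs_of_pos hp]
      exact hb.trans_lt (β2 y)
    have a1 := hr m1
    have a2 := hr m2
    rw [mem_preimage, Φ0] at a1
    refine ⟨a1.1, a2.1, ?_⟩
    rw [a1.2.1, a2.2.1]
    exact sc_lt T (by linarith [β1 y]) (by linarith) a1.2.2
  refine ⟨fun t y => Φ (t * β y, y), (cΦ.comp (by fun_prop)).continuousOn,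
    fun y _ => by simp only [zero_mul, Φ0], fun t ht y hy => ⟨⟨trivial, ?_⟩, ?_⟩, ?_⟩
  · have hb : t * β y ≤ β y := mul_le_of_le_one_left (β0 y) ht.2
    have h0 := mul_nonneg ht.1 (β0 y)
    exact sc_box ⟨by linarith [β1 y], by linarith⟩ hy.2
  · rcases (mul_nonneg ht.1 (β0 y)).eq_or_lt with h | h
    · left
      simp only [← h, Φ0]
    · exact Or.inr (key t ht y h)
  · refine (key 1 ⟨zero_le_one, le_rfl⟩ e ?_).2.2
    simp only [β, dist_self, sub_zero, one_mul]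
    have : 0 < min 1 (max 0 r) := lt_min one_pos (lt_max_of_lt_right r0)
    linarith

theorem stabBS (hE : StmtEqv) (hB : StmtBall) : StmtStabB := by
  intro E _ ι ε k l μ T ρ' ρ a z hε hι hρ hρ' ha ha' hz
  have cB := box_compact T ρ' ρ
  have gA := good_prod hι cB
  refine ⟨gA, fun n => ?_⟩
  have r0 : 0 < Real.sqrt (-a) := Real.sqrt_pos.2 (by linarith)
  have r1 : Real.sqrt (-a) < ρ' := (Real.sqrt_lt' hρ').2 ha'
  rw [← hB E ι ε univ z l _ _ hε hι hz r0 r1 n]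
  have cq : Continuous fun z : Eu k => qf (T z) := by unfold qf; fun_prop
  have pf : PMap (univ ×ˢ box T ρ' ρ) (univ ×ˢ (box T ρ' ρ ∩ {z | qf (T z) ≤ a}))
      ((univ : Set E) ×ˢ Metric.closedBall (0 : Eu l) ρ')
      (univ ×ˢ (Metric.closedBall (0 : Eu l) ρ' \ Metric.ball 0 (Real.sqrt (-a))))
      fun p : E × Eu k => (p.1, (T p.2).1) := by
    refine ⟨by fun_prop, fun p hp => ⟨trivial, mem_closedBall_zero_iff.2 hp.2.1⟩,
      fun p hp => ⟨trivial, mem_closedBall_zero_iff.2 hp.2.1.1, ?_⟩⟩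
    rw [mem_ball_zero_iff, not_lt]
    have h1 : -‖(T p.2).1‖ ^ 2 + ‖(T p.2).2‖ ^ 2 ≤ a := hp.2.2
    exact Real.sqrt_le_iff.2 ⟨norm_nonneg _, by nlinarith [sq_nonneg ‖(T p.2).2‖]⟩
  have gB := good_prod hι (cB.inter_right (isClosed_le cq (continuous_const (y := a))))
  refine hE (E × Eu k) (E × Eu l) _ _ ε _ _ _ _ _ (fun p => (p.1, T.symm (p.2, 0))) gA gB
    (prod_mono_right inter_subset_left) (good_prod hι (isCompact_closedBall _ _))
    (good_prod hι ((isCompact_closedBall _ _).diff Metric.isOpen_ball))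
    (prod_mono_right diff_subset) pf ?_ ?_ ?_ ?_ n
  · have hb : ∀ u ∈ Metric.closedBall (0 : Eu l) ρ', T.symm (u, 0) ∈ box T ρ' ρ := fun u hu => by
      refine ⟨?_, ?_⟩ <;> rw [T.apply_symm_apply]
      · exact mem_closedBall_zero_iff.1 hu
      · simpa using hρ.le
    refine ⟨by fun_prop, fun p hp => ⟨trivial, hb _ hp.2⟩,
      fun p hp => ⟨trivial, hb _ hp.2.1, ?_⟩⟩
    have h1 := hp.2.2
    rw [mem_ball_zero_iff, not_lt, Real.sqrt_le_iff] at h1
    simp only [mem_setOf_eq, T.apply_symm_apply, qf, norm_zero]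
    linarith [h1.2]
  · refine ⟨fun t p => (p.1, sc T t p.2), ((continuous_fst.comp continuous_snd).prodMk
      ((sc_cont T).comp (f := fun q : ℝ × (E × Eu k) => (q.1, q.2.2))
        (by fun_prop))).continuousOn, fun t ht => ⟨fun p hp => ⟨trivial, sc_box ht hp.2⟩,
      fun p hp => ⟨trivial, sc_box ht hp.2.1, (sc_le T ht _).trans hp.2.2⟩⟩, ?_, ?_⟩
    · intro p _
      simp [sc]
    · intro p _
      simp [sc_one]
  · refine ⟨fun _ => id, continuousOn_snd, fun _ _ => ⟨mapsTo_id _, mapsTo_id _⟩, ?_,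
      fun _ _ => rfl⟩
    intro p _
    simp
  · exact htp_const ⟨pf.1.comp gA.2.2.1 gA.2.1, pf.2.1.comp gA.2.1, pf.2.2.comp gB.2.1⟩
      fun _ _ => rfl

end Vale.Agent.P265
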