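import Vale.Agent.P265.Ex
import Vale.Agent.P265.Fty

namespace Vale.Agent.P265

open Set Topology
open scoped Manifold ContDiff

/-- The main statement. -/
def Main : Prop :=
  ∃ (M : Type) (_ : TopologicalSpace M) (_ : ChartedSpace (Eu 8) M),
    IsManifold 𝓘(ℝ, Eu 8) ∞ M ∧ T2Space M ∧ CompactSpace M ∧ ConnectedSpace M ∧
    ∃ (Ω : M → Eu 8 →L[ℝ] Eu 8 →L[ℝ] ℝ) (H : ℝ → M → ℝ) (φ : ℝ → M → M),
      IsSymplectic Ω ∧ IsHamFlow Ω H φ ∧ NondegFix 8 (φ 1) ∧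
      {x | φ 1 x = x}.encard ≤ 80 ∧ 88 ≤ stableMorse 8 M ∧ stableMorse 8 M < ⊤

theorem atlSM (hT : StmtTan) (hX : StmtXAtl) (hB : StmtYB) : Atl (Eu 8) SM := by
  have hY : Atl (ℂ × ℂ) YY := by
    intro y hy
    obtain ⟨c, hc⟩ := hB.2.1 y hy
    obtain ⟨p, -, -, -, hO⟩ := hB.2.2 c
    exact ⟨p, by rw [hO]; exact hc⟩
  have h1 : Atl (Eu 4 × (ℂ × ℂ)) SM :=
    ((hT VX (Eu 4) XX).2.2.2.2.2 VY (ℂ × ℂ) YY).1 hX.2.1 hY
  have e : (Eu 4 × (ℂ × ℂ)) ≃L[ℝ] Eu 8 :=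
    ContinuousLinearEquiv.ofFinrankEq (by simp [Module.finrank_prod])
  exact (hT (VX × VY) (Eu 4 × (ℂ × ℂ)) SM).2.2.2.2.1 (Eu 8) e h1

theorem hamSM (hT : StmtTan) (hX : StmtXAtl) (hXC : StmtXC) (hXN : StmtXN) (hA : StmtYA)
    (hB : StmtYB) (hYC : StmtYC) (hYN : StmtYN) (hR : StmtYRot) (hP : StmtProd) (hH : StmtHam)
    (hPhi : StmtPhi) (hV : StmtV) (hG1 : StmtG1) (hG2 : StmtG2) :
    SympData SM (liftL Prod.fst lX ++ liftL Prod.snd lY) ∧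
      HamAmb SM (liftL Prod.fst lX ++ liftL Prod.snd lY) 80 := by
  have sX : SympData XX lX := by
    refine ⟨hXC.1, fun p hp u hu v hv w hw => ?_, fun p hp v hv h => ?_⟩
    · rw [hX.2.2 p hp] at hu hv hw
      exact hXC.2 p hp u v w hu hv hw
    · rw [hX.2.2 p hp] at hv h
      exact hXN p hp v hv h
  have sY : SympData YY lY := ⟨hYC.1, hYC.2.2.2, hYN⟩
  obtain ⟨sM, rM⟩ := hP VX VY XX YY lX lY sX sY
  refine ⟨sM, ?_⟩
  obtain ⟨Φ, η, hΦ⟩ := hPhi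
  obtain ⟨v, hv⟩ := hV Φ η hΦ
  obtain ⟨g1, g2, -, g4⟩ := hG1 Φ η v hΦ hv
  exact hH (VX × VY) (Eu 8) SM _ rhoM (KY ∘ Prod.snd) (GG v) 80 (hX.1.prod hA.1)
    (atlSM hT hX hB) sM (rM rhoY KY hR) g1 (fun x _ => g2 x) g4 (hG2 Φ η v hΦ hv)

theorem finS (hT : StmtTan) (hX : StmtXAtl) (hXC : StmtXC) (hXN : StmtXN) (hA : StmtYA)
    (hB : StmtYB) (hYC : StmtYC) (hYN : StmtYN) (hR : StmtYRot) (hP : StmtProd) (hH : StmtHam)
    (hPhi : StmtPhi) (hV : StmtV) (hG1 : StmtG1) (hG2 : StmtG2) (h1 : StmtBr1) (h3 : StmtBr3)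
    (hL : StmtLower) (hS : StmtSub) (hC : StmtConn) (hTot : StmtTot) (hCov : StmtCovE)
    (hME : StmtME4) : Main := by
  have hAt := atlSM hT hX hB
  obtain ⟨sM, hM⟩ := hamSM hT hX hXC hXN hA hB hYC hYN hR hP hH hPhi hV hG1 hG2
  letI := hAt.cs
  haveI hman : IsManifold 𝓘(ℝ, Eu 8) ∞ SM := (h1 8 (VX × VY) SM hAt).1
  haveI hcS : CompactSpace SM := isCompact_iff_compactSpace.1 (hX.1.prod hA.1)
  obtain ⟨gE, nE, d1, d3⟩ := hTot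
  haveI hcE : CompactSpace Et := isCompact_iff_compactSpace.1 gE.1
  obtain ⟨hι, hπ, hcov⟩ := hCov
  have e1 : HasDim (hι.restrict ioE Et Et) 1 univ ∅ zP := fun n => by
    rw [hS VE ioE 1 Et hι gE nE n]; exact d1 n
  have e3 : HasDim (hι.restrict ioE Et Et) 3 univ ∅ zM := fun n => by
    rw [hS VE ioE 3 Et hι gE nE n]; exact d3 n
  have gU : Good (hι.restrict ioE Et Et) (univ : Set Et) :=
    ⟨isCompact_univ, mapsTo_univ _ _, hcov.2.1.continuousOn, fun x _ => hcov.2.2.2.1 x⟩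
  have hsurj : Function.Surjective (hπ.restrict piE Et SM) := by
    intro w
    obtain ⟨U, s, hw, hU⟩ := hcov.2.2.2.2.2.2 w
    exact ⟨s w, hU.2.2.1 w hw⟩
  have hconn : ConnectedSpace SM :=
    hC Et SM _ _ gU hcov.1 hsurj hcov.2.2.1 (by rw [e1 1]; simp [zP])
  obtain ⟨Ω, H, φ, a1, a2, a3, a4⟩ := h3 8 80 (VX × VY) SM hAt _ sM hM
  exact ⟨SM, inferInstance, hAt.cs, hman, inferInstance, hcS, hconn, Ω, H, φ, a1, a2, a3,
    by exact_mod_cast a4, hL 8 SM Et _ _ hcov e1 e3,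
    hME 8 (VX × VY) SM hAt (hX.1.prod hA.1)⟩

end Vale.Agent.P265
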