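import Vale.Agent.P265.Geo

namespace Vale.Agent.P265

open Set Topology Filter
open scoped ContDiff

theorem flowS (hT : StmtTan) (hA : StmtFlowA) : StmtFlow := by
  intro V D _ _ _ _ _ _ S ξ hS hD hξ hC
  have : CompleteSpace V := FiniteDimensional.complete ℝ V
  have : CompleteSpace D := FiniteDimensional.complete ℝ D
  obtain ⟨K, hK⟩ : ∃ K, LipschitzOnWith K ξ S := by
    refine LocallyLipschitzOn.exists_lipschitzOnWith_of_compact hS fun x hx => ?_
    obtain ⟨ζ, h1, h2⟩ := hC x hx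
    obtain ⟨K, t, ht, h3⟩ := h1.exists_lipschitzOnWith
    refine ⟨K, t ∩ {y | ξ y = ζ y}, inter_mem (mem_nhdsWithin_of_mem_nhds ht) h2,
      fun a ha b hb => ?_⟩
    rw [ha.2, hb.2]
    exact h3 ha.1 hb.1
  refine ⟨⟨K, hK⟩, ?_⟩
  obtain ⟨g, hg, e⟩ := hK.extend_finite_dimension
  obtain ⟨ψ, hψ⟩ := (hA V g _).1 hg
  have key : ∀ x ∈ S, ∀ t, ψ t x ∈ S := fun x hx => by
    obtain ⟨h0, hd⟩ := hψ x (mem_univ _)
    have c : Continuous fun t => ψ t x :=
      continuous_iff_continuousAt.2 fun t => (hd t).2.continuousAt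
    have cl : IsClopen {t | ψ t x ∈ S} := by
      refine ⟨hS.isClosed.preimage c, isOpen_iff_eventually.2 fun t ht => ?_⟩
      obtain ⟨p, hp⟩ := hD _ ht
      obtain ⟨ζ, h1, h2⟩ := hC _ ht
      have hu := p.mL ⟨ht, hp⟩
      have ePL := p.PL _ ⟨ht, hp⟩
      have sP : ∀ u ∈ p.U, ContDiffAt ℝ 1 p.P u := fun u hu =>
        (p.sP.contDiffAt (p.oU.mem_nhds hu)).of_le (by simp)
      have sL : ContDiffAt ℝ 1 (fderiv ℝ p.L) (p.P (p.L (ψ t x))) := by
        rw [ePL]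
        exact (p.sL.contDiffAt (p.oO.mem_nhds hp)).fderiv_right (by norm_cast)
      have w : ContDiffAt ℝ 1 (fun u => fderiv ℝ p.L (p.P u) (ζ (p.P u))) (p.L (ψ t x)) :=
        (sL.comp _ (sP _ hu)).clm_apply (ContDiffAt.comp _ (by rw [ePL]; exact h1) (sP _ hu))
      obtain ⟨α, a0, ε, hε, hα⟩ :=
        w.exists_forall_mem_closedBall_exists_eq_forall_mem_Ioo_hasDerivAt₀ t
      have ev : ∀ᶠ s in 𝓝 t, s ∈ Ioo (t - ε) (t + ε) := Ioo_mem_nhds (by linarith) (by linarith)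
      have cα : Tendsto α (𝓝 t) (𝓝 (p.L (ψ t x))) := a0 ▸ (hα t ev.self_of_nhds).continuousAt
      have eU : ∀ᶠ s in 𝓝 t, α s ∈ p.U := cα (p.oU.mem_nhds hu)
      have cβ : Tendsto (fun s => p.P (α s)) (𝓝 t) (𝓝[S] (ψ t x)) :=
        tendsto_nhdsWithin_iff.2 ⟨ePL ▸ (sP _ hu).continuousAt.tendsto.comp cα,
          eU.mono fun s hs => (p.mP hs).1⟩
      have u := ODE_solution_unique_of_eventually (v := fun _ => g) (s := fun _ => univ)
        (f := fun s => ψ s x) (g := fun s => p.P (α s)) (t₀ := t)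
        (.of_forall fun _ => hg.lipschitzOnWith) (.of_forall fun s => ⟨(hd s).2, trivial⟩)
        (by
          filter_upwards [ev, eU, cβ h2] with s s1 s2 s3
          have m := p.mP s2
          have := (((hT V D S).1 p _ m).2.2 _ (hξ _ m.1))
          rw [p.LP _ s2] at this
          refine ⟨?_, trivial⟩
          rw [← e m.1, ← this, show ξ (p.P (α s)) = ζ (p.P (α s)) from s3]
          exact ((sP _ s2).differentiableAt one_ne_zero).hasFDerivAt.comp_hasDerivAt s (hα s s1))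
        (by rw [a0, ePL])
      filter_upwards [u, eU] with s s1 s2
      exact (show ψ s x = _ from s1) ▸ (p.mP s2).1
    intro t
    exact (cl.eq_univ ⟨0, show ψ 0 x ∈ S by rwa [h0]⟩).ge (mem_univ t)
  exact ⟨ψ, fun x hx => ⟨(hψ x trivial).1, fun t =>
    ⟨key x hx t, e (key x hx t) ▸ ((hψ x trivial).2 t).2⟩⟩⟩

end Vale.Agent.P265
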