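import Vale.Agent.P265.Geo

/-! Global flows of Lipschitz fields and short periodic orbits. -/

namespace Vale.Agent.P265

open Set Topology Filter Metric

namespace FlowAM

variable {V : Type} [NormedAddCommGroup V] [NormedSpace ℝ V] {ξ : V → V} {L : NNReal}

def Sol (ξ : V → V) (f : ℝ → V) (a b : ℝ) : Prop := ∀ t ∈ Ioo a b, HasDerivAt f (ξ (f t)) t

theorem Sol.mono {f : ℝ → V} {a b a' b' : ℝ} (h : Sol ξ f a b) (h1 : a ≤ a') (h2 : b' ≤ b) :
    Sol ξ f a' b' := fun t ht => h t (Ioo_subset_Ioo h1 h2 ht)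

theorem uniq (hL : LipschitzWith L ξ) {f g : ℝ → V} {a b t : ℝ} (ht : t ∈ Ioo a b)
    (hf : Sol ξ f a b) (hg : Sol ξ g a b) (e : f t = g t) : EqOn f g (Ioo a b) :=
  ODE_solution_unique_of_mem_Ioo (v := fun _ => ξ) (s := fun _ => univ)
    (fun _ _ => hL.lipschitzOnWith) ht (fun s hs => ⟨hf s hs, trivial⟩)
    (fun s hs => ⟨hg s hs, trivial⟩) e

theorem loc [CompleteSpace V] (hL : LipschitzWith L ξ) : ∃ δ > (0 : ℝ), ∀ (x : V) (t : ℝ),
    ∃ α : ℝ → V, α t = x ∧ Sol ξ α (t - δ) (t + δ) := by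
  have h0 : (0 : ℝ) < 1 / (L + 1) := by positivity
  refine ⟨1 / (L + 1), h0, fun x t => ?_⟩
  have := IsPicardLindelof.of_time_independent (f := ξ)
    (t₀ := (⟨t, by constructor <;> linarith⟩ : Icc (t - 1 / (L + 1)) (t + 1 / (L + 1))))
    (x₀ := x) (a := ‖ξ x‖₊) (r := 0) (L := (L + 1) * ‖ξ x‖₊) (K := L) (fun y hy => by
      have h1 := hL.dist_le_mul y x
      have h2 : dist y x ≤ ‖ξ x‖ := hy
      have h3 := norm_le_norm_add_norm_sub' (ξ y) (ξ x)
      rw [dist_eq_norm] at h1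
      push_cast
      nlinarith [mul_le_mul_of_nonneg_left h2 L.2]) hL.lipschitzOnWith (by
      simp only [add_sub_cancel_left, sub_sub_cancel, max_self]
      push_cast
      rw [sub_zero]
      exact le_of_eq (by field_simp))
  obtain ⟨α, h1, h2⟩ := this.exists_eq_forall_mem_Icc_hasDerivWithinAt₀
  exact ⟨α, h1, fun s hs => (h2 s (Ioo_subset_Icc_self hs)).hasDerivAt (Icc_mem_nhds hs.1 hs.2)⟩

theorem of_ev {f g : ℝ → V} {t : ℝ} (h : HasDerivAt g (ξ (g t)) t) (e : f =ᶠ[𝓝 t] g) :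
    HasDerivAt f (ξ (f t)) t := by
  rw [e.eq_of_nhds]; exact h.congr_of_eventuallyEq e

theorem glue (hL : LipschitzWith L ξ) {f g : ℝ → V} {a b c d t : ℝ} (hf : Sol ξ f a b)
    (hg : Sol ξ g c d) (h1 : a ≤ c) (h2 : b ≤ d) (ht : t ∈ Ioo c b) (e : f t = g t) :
    ∃ h, Sol ξ h a d ∧ (∀ s < b, h s = f s) ∧ ∀ s, c < s → h s = g s := by
  have u := uniq hL ht (hf.mono h1 le_rfl) (hg.mono le_rfl h2) e
  have e1 : ∀ s < b, (if s < b then f s else g s) = f s := fun s hs => if_pos hs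
  have e2 : ∀ s, c < s → (if s < b then f s else g s) = g s := fun s hs => by
    split_ifs with k
    · exact u ⟨hs, k⟩
    · rfl
  refine ⟨fun s => if s < b then f s else g s, fun s hs => ?_, e1, e2⟩
  by_cases k : s < b
  · exact of_ev (hf s ⟨hs.1, k⟩) ((eventually_lt_nhds k).mono e1)
  · have : c < s := by linarith [ht.1, ht.2]
    exact of_ev (hg s ⟨this, hs.2⟩) ((eventually_gt_nhds this).mono e2)

theorem glob [CompleteSpace V] (hL : LipschitzWith L ξ) (x : V) :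
    ∃ f : ℝ → V, f 0 = x ∧ ∀ t, HasDerivAt f (ξ (f t)) t := by
  obtain ⟨δ, hδ, hl⟩ := loc hL
  have key : ∀ n : ℕ, ∃ f : ℝ → V, f 0 = x ∧ Sol ξ f (-(δ + n * (δ / 2))) (δ + n * (δ / 2)) := by
    intro n
    induction n with
    | zero => simpa using hl x 0
    | succ n ih =>
      obtain ⟨f, h0, hf⟩ := ih
      set T := δ + n * (δ / 2) with hT
      have hT0 : δ ≤ T := by rw [hT]; exact le_add_of_nonneg_right (by positivity)
      obtain ⟨g, g1, g2⟩ := hl (f (T - δ / 2)) (T - δ / 2)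
      obtain ⟨f1, a1, a2, -⟩ := glue hL (c := T - δ) (d := T + δ / 2) (t := T - δ / 2) hf
        (g2.mono (by linarith) (by linarith)) (by linarith) (by linarith)
        ⟨by linarith, by linarith⟩ g1.symm
      obtain ⟨k, k1, k2⟩ := hl (f1 (-T + δ / 2)) (-T + δ / 2)
      obtain ⟨f2, b1, -, b2⟩ := glue hL (a := -T - δ / 2) (b := -T + δ) (t := -T + δ / 2)
        (k2.mono (by linarith) (by linarith)) a1 (by linarith) (by linarith)
        ⟨by linarith, by linarith⟩ k1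
      refine ⟨f2, by rw [b2 0 (by linarith), a2 0 (by linarith), h0], b1.mono ?_ ?_⟩ <;>
        push_cast <;> linarith
  choose F F0 F1 using key
  have big : ∀ t : ℝ, ∃ n : ℕ, t < δ + n * (δ / 2) := fun t => by
    obtain ⟨n, hn⟩ := exists_nat_gt (t / (δ / 2))
    rw [div_lt_iff₀ (by positivity)] at hn
    exact ⟨n, by linarith⟩
  choose N hN using big
  have same : ∀ n m : ℕ, ∀ t, |t| < δ + n * (δ / 2) → |t| < δ + m * (δ / 2) → F n t = F m t := by
    intro n m t h1 h2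
    have p1 : 0 < δ + n * (δ / 2) := by positivity
    have p2 : 0 < δ + m * (δ / 2) := by positivity
    set T := min (δ + n * (δ / 2)) (δ + m * (δ / 2)) with hT
    have h3 := abs_lt.1 (lt_min h1 h2)
    have h4 := lt_min p1 p2
    exact uniq hL (a := -T) (b := T) (t := 0) ⟨by linarith, h4⟩
      ((F1 n).mono (neg_le_neg (min_le_left _ _)) (min_le_left _ _))
      ((F1 m).mono (neg_le_neg (min_le_right _ _)) (min_le_right _ _)) ((F0 n).trans (F0 m).symm) h3
  refine ⟨fun t => F (N |t|) t, F0 _, fun t => of_ev (F1 (N |t|) t (abs_lt.1 (hN _))) ?_⟩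
  filter_upwards [continuous_abs.continuousAt.eventually_lt continuousAt_const (hN |t|)] with s hs
  exact same _ _ s (hN _) hs

theorem per {S : Set V} {γ : ℝ → V} {T : ℝ} (hL : LipschitzOnWith L ξ S) (hS : ∀ t, γ t ∈ S)
    (hd : ∀ t, HasDerivAt γ (ξ (γ t)) t) (hT : 0 < T) (hLT : L * T < 1) (e : γ T = γ 0) :
    ξ (γ 0) = 0 := by
  have c1 : Continuous γ := continuous_iff_continuousAt.2 fun t => (hd t).continuousAt
  have c2 : Continuous fun t => ‖ξ (γ t)‖ := (hL.continuousOn.comp_continuous c1 hS).norm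
  obtain ⟨t0, h0, hM⟩ := (isCompact_Icc (a := 0) (b := T)).exists_isMaxOn
    (nonempty_Icc.2 hT.le) c2.continuousOn
  set M := ‖ξ (γ t0)‖ with hMd
  have M0 : 0 ≤ M := norm_nonneg _
  have a1 : ∀ s ∈ Icc 0 T, ‖ξ (γ s) - ξ (γ t0)‖ ≤ L * (M * T) := fun s hs => by
    have b1 := (convex_Icc 0 T).norm_image_sub_le_of_norm_hasDerivWithin_le
      (fun u _ => (hd u).hasDerivWithinAt) (fun u hu => hM hu) h0 hs
    have b2 : ‖s - t0‖ ≤ T := by
      rw [Real.norm_eq_abs, abs_le]; constructor <;> linarith [hs.1, hs.2, h0.1, h0.2]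
    have b3 := hL.dist_le_mul _ (hS s) _ (hS t0)
    rw [dist_eq_norm, dist_eq_norm] at b3
    exact b3.trans (mul_le_mul_of_nonneg_left (b1.trans (mul_le_mul_of_nonneg_left b2 M0)) L.2)
  have a2 := (convex_Icc 0 T).norm_image_sub_le_of_norm_hasDerivWithin_le
    (f := fun s => γ s - s • ξ (γ t0)) (f' := fun s => ξ (γ s) - ξ (γ t0))
    (fun u _ => by
      simpa using ((hd u).fun_sub ((hasDerivAt_id u).smul_const (ξ (γ t0)))).hasDerivWithinAt)
    a1 (left_mem_Icc.2 hT.le) (right_mem_Icc.2 hT.le)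
  simp only [e, zero_smul, sub_zero, sub_sub_cancel_left, norm_neg, norm_smul, Real.norm_eq_abs,
    abs_of_pos hT] at a2
  have a3 : M ≤ 0 := by
    by_contra k
    have : 0 < T * M := mul_pos hT (not_le.1 k)
    nlinarith
  exact norm_le_zero_iff.1 ((hM (left_mem_Icc.2 hT.le)).trans a3)

end FlowAM

open FlowAM

theorem flowAS : StmtFlowA := by
  intro V _ _ _ ξ L
  refine ⟨fun hL => ?_, fun S γ T h1 h2 h3 h4 h5 h6 => per h1 h2 h3 h4 h5 h6⟩
  choose f f0 f1 using glob hL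
  exact ⟨fun t x => f x t, fun x _ => ⟨f0 x, fun t => ⟨trivial, f1 x t⟩⟩⟩

end Vale.Agent.P265
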