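import Vale.Agent.P265.Ex

namespace Vale.Agent.P265

open Set Complex Topology Filter
open scoped ContDiff

namespace G1m

open ContinuousLinearMap in
noncomputable def B : S2 →L[ℝ] S2 →L[ℝ] ℝ :=
  (mul ℝ ℝ).bilinearComp (reCLM.comp (fst ℝ ℂ ℝ)) (reCLM.comp (fst ℝ ℂ ℝ)) +
    (mul ℝ ℝ).bilinearComp (imCLM.comp (fst ℝ ℂ ℝ)) (imCLM.comp (fst ℝ ℂ ℝ)) +
    (mul ℝ ℝ).bilinearComp (snd ℝ ℂ ℝ) (snd ℝ ℂ ℝ)

theorem ipB (p q : S2) : ip p q = B p q := rfl

theorem sy (p q : S2) : B p q = B q p := by rw [← ipB, ← ipB]; unfold ip; ring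

theorem df {p : S2} (h : B p p = 0) : p = 0 := by
  rw [← ipB, ip] at h
  exact Prod.ext (Complex.ext (by simp only [Prod.fst_zero, zero_re]; nlinarith)
    (by simp only [Prod.fst_zero, zero_im]; nlinarith)) (by simp only [Prod.snd_zero]; nlinarith)

theorem t0 {V : Type} [NormedAddCommGroup V] [NormedSpace ℝ V] {S : Set V} {x : V} (h : x ∈ S) :
    0 ∈ Tan S x := ⟨fun _ => x, rfl, hasDerivAt_const _ _, .of_forall fun _ => h⟩

theorem tp (hT : StmtTan) (x : VX) (y : VY) : Tan SM (x, y) = Tan XX x ×ˢ Tan YY y :=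
  ((hT VX ℝ XX).2.2.2.2.2 VY ℝ YY).2 x y

theorem dG (hY : StmtYFix) {v : VX → S2} {x : VX} (h : ContDiffAt ℝ ∞ v x) (y : VY) (u : VX)
    (w : VY) : fderiv ℝ (GG v) (x, y) (u, w) =
      B (v x) (fderiv ℝ pY y w) + B (fderiv ℝ v x u) (pY y) := by
  have a := (h.differentiableAt (by simp)).hasFDerivAt.comp (x, y)
    (hasFDerivAt_fst (𝕜 := ℝ) (p := (x, y)))
  have b := (hY.1.differentiable (by simp) y).hasFDerivAt.comp (x, y)
    (hasFDerivAt_snd (𝕜 := ℝ) (p := (x, y)))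
  have c : HasFDerivAt (GG v) _ (x, y) := B.hasFDerivAt_of_bilinear a b
  rw [c.fderiv]
  rfl

theorem dP (hT : StmtTan) {Φ : VX → ℝ} {η : ℝ} {v : VX → S2} (hΦ : PhiOK Φ η) (hv : VOK v Φ)
    {x : VX} (hx : x ∈ XX) {u : VX} (hu : u ∈ Tan XX x) :
    fderiv ℝ Φ x u = 2 * B (fderiv ℝ v x u) (v x) := by
  have a := ((hv.1 x hx).differentiableAt (by simp)).hasFDerivAt
  rw [(hT VX ℝ XX).2.2.1 ℝ Φ _ _ _ x
    ((hΦ.2.1 x hx).differentiableAt (by simp)).hasFDerivAt.hasFDerivWithinAt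
    (B.hasFDerivAt_of_bilinear a a).hasFDerivWithinAt hx
    (eventually_nhdsWithin_of_forall fun y hy => (hv.2.1 y hy).symm) u hu, two_mul]
  exact congrArg (· + _) (sy _ _)

end G1m

open G1m in
theorem g1S (hT : StmtTan) (hY : StmtYFix) : StmtG1 := by
  intro Φ η v hΦ hv
  have key : ∀ q ∈ CritFix SM (rhoM 1) (GG v), q.1 ∈ CX Φ ∧ ∃ (c : Bool × Bool) (s : ℝ),
      (s = 1 ∨ s = -1) ∧ q.2 = qY c ((s / √(Φ q.1)) • v q.1) := by
    rintro ⟨x, y⟩ ⟨⟨hx, hy⟩, hf, hc⟩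
    obtain ⟨c, e, he, rfl⟩ := hY.2.2.1 y hy (congrArg Prod.snd hf)
    rw [tp hT] at hc
    obtain ⟨-, -, -, -, y5, -, -, y8, -, y10, -⟩ := id hY
    have he' : B e e = 1 := he
    have a : v x = B e (v x) • e := by
      have o : B e (v x - B e (v x) • e) = 0 := by simp [he']
      have := hc (0, dq c (v x - B e (v x) • e)) ⟨t0 hx, y10 c e _ he o⟩
      rw [dG hY (hv.1 x hx), y8, map_zero, map_zero, zero_apply, add_zero] at this
      refine sub_eq_zero.1 (df ?_)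
      rw [B.map_sub₂, B.map_smul₂, this, o, smul_zero, sub_zero]
    have b : ∀ u ∈ Tan XX x, B (fderiv ℝ v x u) e = 0 := fun u hu => by
      have := hc (u, 0) ⟨hu, t0 hy⟩
      rwa [dG hY (hv.1 x hx), map_zero, map_zero, zero_add, y5] at this
    obtain ⟨l, hl⟩ : ∃ l : ℝ, v x = l • e := ⟨_, a⟩
    have l0 : l ≠ 0 := fun h => by
      obtain ⟨u, hu, n⟩ := hv.2.2 x hx (by rw [hl, h, zero_smul]) e he
      exact n (b u hu)
    have P : Φ x = l ^ 2 := by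
      rw [← hv.2.1 x hx, ipB, hl, B.map_smul₂, map_smul, he', smul_eq_mul, smul_eq_mul]; ring
    refine ⟨⟨hx, lt_of_not_ge fun h => ?_, fun u hu => ?_⟩, c, |l| / l, ?_, ?_⟩
    · have := (hΦ.2.2.1 x hx (by linarith [hΦ.1])).eq_of_nhds
      simp only at h this
      nlinarith [sq_pos_of_ne_zero l0]
    · rw [dP hT hΦ hv hx hu, hl, map_smul, b u hu, smul_zero, mul_zero]
    · rcases abs_choice l with h | h <;> simp [h, l0]
    · have := abs_ne_zero.2 l0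
      simp only
      rw [P, Real.sqrt_sq_eq_abs, hl, smul_smul, show |l| / l / |l| * l = 1 by field_simp, one_smul]
  refine ⟨fun q hq => ?_, fun q => congrArg (ip (v q.1)) (hY.2.1 q.2), key, ?_⟩
  · exact B.isBoundedBilinearMap.contDiff.contDiffAt.comp q
      (((hv.1 _ hq.1).comp q contDiffAt_fst).prodMk (hY.1.contDiffAt.comp q contDiffAt_snd))
  · refine (encard_le_encard (t := (fun r : VX × (Bool × Bool) × Bool =>
      (r.1, qY r.2.1 (((if r.2.2 then 1 else -1) / √(Φ r.1)) • v r.1))) '' (CX Φ ×ˢ univ))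
      fun q hq => ?_).trans ((encard_image_le _ _).trans ?_)
    · obtain ⟨h, c, s, rfl | rfl, e⟩ := key q hq
      · exact ⟨(q.1, c, true), ⟨h, trivial⟩, Prod.ext rfl e.symm⟩
      · exact ⟨(q.1, c, false), ⟨h, trivial⟩, Prod.ext rfl e.symm⟩
    · rw [encard_prod, encard_univ, ENat.card_eq_coe_fintype_card]
      exact (mul_le_mul_left hΦ.2.2.2.2.1 _).trans (by norm_num)

end Vale.Agent.P265
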