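import Vale.Agent.P265.M.G1

namespace Vale.Agent.P265

open Set Complex Topology Filter Asymptotics
open scoped ContDiff

open G1m in
theorem g2S (hT : StmtTan) (hY : StmtYFix) (h1 : StmtG1) : StmtG2 := by
  rintro Φ η v hΦ hv ⟨x, y⟩ hq ⟨u, w⟩ hV hf hne
  obtain ⟨⟨hx, hx1, hx2⟩, c, s, hs, rfl⟩ : x ∈ CX Φ ∧ ∃ (c : Bool × Bool) (s : ℝ),
    (s = 1 ∨ s = -1) ∧ y = qY c ((s / √(Φ x)) • v x) := (h1 Φ η v hΦ hv).2.2.1 _ hq
  obtain ⟨-, -, -, y4, y5, -, y7, y8, y9, y10, y11, y12⟩ := id hY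
  rw [tp hT] at hV
  have s2 : s ^ 2 = 1 := by rcases hs with rfl | rfl <;> norm_num
  have P0 := hΦ.2.2.2.1 x hx hx1
  have un : ∀ z ∈ XX, 0 < Φ z → B ((s / √(Φ z)) • v z) ((s / √(Φ z)) • v z) = 1 :=
    fun z hz h => by
      rw [B.map_smul₂, map_smul, ← ipB, hv.2.1 z hz, smul_eq_mul, smul_eq_mul, ← mul_assoc, ← sq,
        div_pow, s2, Real.sq_sqrt h.le, one_div, inv_mul_cancel₀ h.ne']
  obtain ⟨d, hd, rfl⟩ := y12 c _ ((ipB _ _).trans (un x hx P0)) w hV.2 (congrArg Prod.snd hf)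
  have dv := ((hv.1 x hx).differentiableAt (by simp)).hasFDerivAt
  have dΦ := ((hΦ.2.1 x hx).differentiableAt (by simp)).hasFDerivAt
  by_cases hδ : d - (s / √(Φ x)) • fderiv ℝ v x u = 0
  · have u0 : u ≠ 0 := by
      rintro rfl
      rw [map_zero, smul_zero, sub_zero] at hδ
      exact hne (Prod.ext rfl (by simpa [hδ] using y7 c 0 0))
    obtain ⟨γ, w, k, g0, g1, g2, g3⟩ := hΦ.2.2.2.2.2 x ⟨hx, hx1, hx2⟩ u hV.1 rfl u0
    subst g0
    have a : HasDerivAt (fun t => Φ (γ t)) 0 0 :=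
      (dΦ.comp_hasDerivAt 0 g1).congr_deriv (hx2 u hV.1)
    have ev : ∀ᶠ t in 𝓝 (0 : ℝ), 0 < Φ (γ t) := a.continuousAt.eventually (lt_mem_nhds P0)
    have b := ((hasDerivAt_const (0 : ℝ) s).div (a.sqrt P0.ne')
      (Real.sqrt_pos.2 P0).ne').smul (dv.comp_hasDerivAt 0 g1)
    have b2 : HasDerivAt (fun t => (s / √(Φ (γ t))) • v (γ t)) d 0 :=
      b.congr_deriv (by rw [sub_eq_zero.1 hδ]; simp)
    refine ⟨fun t => (γ t, qY c ((s / √(Φ (γ t))) • v (γ t))), fun t => (w t, 0), k, rfl,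
      g1.prodMk (y9 c _ d 0 b2), ?_, fun h => g3 ?_⟩
    · filter_upwards [g2, ev] with t p1 p2
      have m := y4 c _ ((ipB _ _).trans (un _ p1.1 p2))
      exact ⟨⟨p1.1, m⟩, tp hT _ _ ▸ ⟨p1.2.1, t0 m⟩, by simpa using p1.2.2⟩
    · have o : (fun t => 2 * s * √(Φ (γ t))) =O[𝓝 0] fun _ : ℝ => (1 : ℝ) :=
        (continuousAt_const.mul a.continuousAt.sqrt).tendsto.isBigO_one ℝ
      refine (o.mul_isLittleO h).congr' ?_ (.of_forall fun t => one_mul t)
      filter_upwards [g2, ev] with t p1 p2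
      have := (Real.sqrt_pos.2 p2).ne'
      rw [dG hY (hv.1 _ p1.1), map_zero, map_zero, zero_add, y5, dP hT hΦ hv p1.1 p1.2.1, map_smul,
        smul_eq_mul]
      field_simp
      rw [s2, one_mul]
  · obtain ⟨γ, g0, g1, g2⟩ := id hV.1
    subst g0
    have o1 : B (fderiv ℝ v (γ 0) u) (v (γ 0)) = 0 := by
      linarith [dP hT hΦ hv hx hV.1, hx2 u hV.1]
    obtain ⟨μ, hμ⟩ : ∃ μ, μ = s / √(Φ (γ 0)) := ⟨_, rfl⟩
    have ue := un _ hx P0
    rw [← hμ] at hδ hd ue ⊢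
    obtain ⟨e, he⟩ : ∃ e, e = μ • v (γ 0) := ⟨_, rfl⟩
    obtain ⟨δ, hδ'⟩ : ∃ δ, δ = d - μ • fderiv ℝ v (γ 0) u := ⟨_, rfl⟩
    have hd' : B e d = 0 := he ▸ hd
    have o2 : B e δ = 0 := by
      rw [hδ', map_sub, hd', map_smul, he, B.map_smul₂, sy, o1]; simp
    have μ0 : μ ≠ 0 := by rintro rfl; simp at ue
    have o3 : B (v (γ 0)) δ = 0 := by
      rw [he, B.map_smul₂] at o2
      exact (mul_eq_zero.1 o2).resolve_left μ0
    rw [← he] at ue ⊢
    rw [← hδ'] at hδ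
    have kk : 0 ≤ B d d := by
      rw [← ipB, ip]; nlinarith [sq_nonneg d.1.re, sq_nonneg d.1.im, sq_nonneg d.2]
    have r : HasDerivAt (fun t : ℝ => (√(1 + t ^ 2 * B d d))⁻¹) 0 0 :=
      (((((hasDerivAt_pow 2 (0 : ℝ)).mul_const (B d d)).const_add 1).sqrt (by simp)).inv
        (by simp)).congr_deriv (by simp)
    obtain ⟨E, hE⟩ : ∃ E : ℝ → S2, E = fun t => (√(1 + t ^ 2 * B d d))⁻¹ • (e + t • d) := ⟨_, rfl⟩
    have E0 : E 0 = e := by simp [hE]
    have E1 : HasDerivAt E d 0 :=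
      hE ▸ (r.smul (((hasDerivAt_id (0 : ℝ)).smul_const d).const_add e)).congr_deriv (by simp)
    have E2 : ∀ t, B (E t) (E t) = 1 := fun t => by
      have p : 0 < 1 + t ^ 2 * B d d := by positivity
      simp only [hE, map_smul, map_add, add_apply, smul_apply, smul_eq_mul, ue, hd', sy d e]
      have := (Real.sqrt_pos.2 p).ne'
      field_simp
      rw [Real.sq_sqrt p.le]; ring
    have Z := (((B.hasDerivAt_of_bilinear (fun _ => E1) fun _ => hasDerivAt_const (0 : ℝ) δ).smul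
      E1).const_sub δ)
    have K := B.hasDerivAt_of_bilinear (fun _ => dv.comp_hasDerivAt 0 g1) fun _ => Z
    refine ⟨fun t => (γ t, qY c (E t)), fun t => (0, dq c (δ - B (E t) δ • E t)),
      ‖δ - B (E 0) δ • E 0‖ + 1, by simp only [E0], g1.prodMk (y9 c _ d 0 E1), ?_, fun h => hδ ?_⟩
    · filter_upwards [g2, Z.continuousAt.norm.eventually (gt_mem_nhds (lt_add_one _))] with t p1 p2
      refine ⟨⟨p1, y4 c _ (E2 t)⟩, tp hT _ _ ▸ ⟨t0 p1, y10 c _ _ (E2 t) ?_⟩, ?_⟩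
      · rw [ipB, map_sub, map_smul, E2, smul_eq_mul, mul_one, sub_self]
      · rw [Prod.norm_def, y11, norm_zero]
        exact max_le (by positivity) p2.le
    · have h2 : HasDerivAt (fun t => B (v (γ t)) (δ - B (E t) δ • E t)) 0 0 := by
        rw [hasDerivAt_iff_isLittleO]
        refine h.congr' ?_ (.of_forall fun t => (sub_zero t).symm)
        filter_upwards [g2] with t p1
        rw [dG hY (hv.1 _ p1), y8, E0, o2]
        simp [o3]
      have := h2.unique K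
      simp only [Function.comp, E0, o2, map_zero, zero_smul, zero_add, sub_zero, map_neg, map_smul,
        smul_eq_mul, Pi.smul_apply'] at this
      have q : μ * B (v (γ 0)) e = 1 := by rw [← ue, ← smul_eq_mul, ← B.map_smul₂, ← he]
      refine df ?_
      nth_rewrite 1 [hδ']
      rw [B.map_sub₂, B.map_smul₂, smul_eq_mul]
      linear_combination μ * this - B d δ * q

end Vale.Agent.P265
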