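import Vale.Agent.P265.Geo

namespace Vale.Agent.P265

open Set Topology
open scoped ContDiff

theorem hamS (hT : StmtTan) (hV : StmtVF) (hF : StmtFlow) (hA : StmtHamA) (hB : StmtHamB) :
    StmtHam := by
  intro V D _ _ _ _ _ _ S l ρ K G N hc hat hs hR hG hGg hN hND
  obtain ⟨ξ, hξ, hloc⟩ := hV V D S l G hat hs hG
  obtain ⟨⟨L, hL⟩, ψ, hψ⟩ := hF V D S ξ hc hat (fun x hx => (hξ x hx).1) hloc
  have hsub : ∀ x ∈ S, ∀ u ∈ Tan S x, ∀ v ∈ Tan S x, u - v ∈ Tan S x := by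
    intro x hx u hu v hv
    obtain ⟨p, hp⟩ := hat x hx
    have e := ((hT V D S).1 p x ⟨hx, hp⟩).1
    rw [e] at hu hv ⊢
    obtain ⟨a, rfl⟩ := hu
    obtain ⟨b, rfl⟩ := hv
    exact ⟨a - b, map_sub _ _ _⟩
  obtain ⟨h1, h2, h3⟩ := hA V S l ρ K G ξ ψ L hs hsub hR hG hGg hξ hL hψ
  have gg : ∀ x, ρ 1 (ρ 1 x) = x := fun x => by
    rw [← hR.2.1, one_add_one_eq_two, hR.2.2.1]
  have hfin : (CritFix S (ρ 1) G).Finite :=
    Set.finite_of_encard_le_coe hN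
  obtain ⟨ε, -, h4, h5⟩ := hB V S l (ρ 1) G ξ ψ L hs gg (hR.2.2.2.2.2.1 1) hξ hloc hL hψ h1 h2
    hfin hND
  refine ⟨_, _, h3 ε, ?_, ?_⟩
  · simpa only [mul_one] using h5
  · refine le_trans (Set.encard_le_encard ?_) hN
    simpa only [mul_one] using h4

end Vale.Agent.P265
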