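import Vale.Agent.P265.Geo

namespace Vale.Agent.P265

open Set Topology
open scoped ContDiff

namespace HamAM

variable {V : Type} [NormedAddCommGroup V] [NormedSpace ℝ V]

theorem frm_lin (l : List (Tr V)) (x u v w : V) (c : ℝ) :
    frm l x (u + c • v) w = frm l x u w + c * frm l x v w := by
  induction l with
  | nil => simp [frm]
  | cons τ l ih =>
    simp only [frm, List.map_cons, List.sum_cons] at ih ⊢
    rw [ih]
    simp only [w2, map_add, map_smul, smul_eq_mul]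
    ring

theorem frm_sub (l : List (Tr V)) (x u v w : V) :
    frm l x (u - v) w = frm l x u w - frm l x v w := by
  have := frm_lin l x u v w (-1)
  rw [neg_one_smul, ← sub_eq_add_neg] at this
  rw [this]; ring

theorem tan_map (hT : StmtTan) {S : Set V} (g : V →L[ℝ] V) (hg : MapsTo g S S) {x v : V}
    (hx : x ∈ S) (hv : v ∈ Tan S x) : g v ∈ Tan S (g x) :=
  (hT V V S).2.2.2.1 V S g g x g.hasFDerivWithinAt hx hg v hv

theorem equiv_vf (hT : StmtTan) {S : Set V} {l : List (Tr V)} {g : V →L[ℝ] V} {G : V → ℝ}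
    {ξ : V → V} (hs : SympData S l)
    (hsub : ∀ x ∈ S, ∀ u ∈ Tan S x, ∀ v ∈ Tan S x, u - v ∈ Tan S x) (hgg : ∀ x, g (g x) = x)
    (hg : MapsTo g S S)
    (hf : ∀ x ∈ S, ∀ u ∈ Tan S x, ∀ v ∈ Tan S x, frm l (g x) (g u) (g v) = frm l x u v)
    (hG : ∀ x ∈ S, ContDiffAt ℝ ∞ G x) (hGg : ∀ x ∈ S, G (g x) = G x) (hξ : IsHVF S l G ξ)
    {x : V} (hx : x ∈ S) : ξ (g x) = g (ξ x) := by
  have hgx := hg hx
  rw [← sub_eq_zero]
  refine hs.2.2 (g x) hgx _ (hsub _ hgx _ (hξ _ hgx).1 _ (tan_map hT g hg hx (hξ x hx).1)) ?_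
  intro w hw
  have hw' : g w ∈ Tan S x := by
    have := tan_map hT g hg hgx hw
    rwa [hgg] at this
  have d1 : HasFDerivAt G (fderiv ℝ G (g x)) (g x) :=
    ((hG _ hgx).differentiableAt (by simp)).hasFDerivAt
  have d2 : HasFDerivAt G (fderiv ℝ G x) x := ((hG _ hx).differentiableAt (by simp)).hasFDerivAt
  have e := (hT V V S).2.2.1 ℝ (G ∘ g) G ((fderiv ℝ G (g x)).comp g) (fderiv ℝ G x) x
    (d1.comp x g.hasFDerivAt).hasFDerivWithinAt d2.hasFDerivWithinAt hx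
    (eventually_nhdsWithin_of_forall fun y hy => hGg y hy) (g w) hw'
  have e2 := hf x hx _ (hξ x hx).1 _ hw'
  rw [hgg] at e2
  rw [frm_sub, (hξ _ hgx).2 w hw, e2, (hξ x hx).2 _ hw', ← e]
  simp [hgg]

theorem uniq {S : Set V} {ξ : V → V} {L : NNReal} (hL : LipschitzOnWith L ξ S) {f g : ℝ → V}
    (hf : ∀ t, HasDerivAt f (ξ (f t)) t ∧ f t ∈ S) (hg : ∀ t, HasDerivAt g (ξ (g t)) t ∧ g t ∈ S)
    (h0 : f 0 = g 0) : f = g :=
  ODE_solution_unique_univ (v := fun _ => ξ) (s := fun _ => S) (fun _ => hL) hf hg h0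

theorem rot_deriv {ρ : ℝ → V →L[ℝ] V} (hc : ContDiff ℝ ∞ (fun q : ℝ × V => ρ q.1 q.2))
    (hadd : ∀ s t x, ρ (s + t) x = ρ s (ρ t x)) {y : ℝ → V} {y' : V} {t : ℝ}
    (hy : HasDerivAt y y' t) :
    ∃ a, HasDerivAt (fun s => ρ s (ρ t (y t))) a 0 ∧
      HasDerivAt (fun s => ρ s (y s)) (a + ρ t y') t := by
  have hF := (hc.differentiable (by simp) (t, y t)).hasFDerivAt
  set A := fderiv ℝ (fun q : ℝ × V => ρ q.1 q.2) (t, y t) with hA
  have h1 : HasDerivAt (fun s => ρ s (y s)) (A (1, y')) t :=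
    HasFDerivAt.comp_hasDerivAt (l := fun q : ℝ × V => ρ q.1 q.2) (f := fun s => (s, y s)) t hF
      ((hasDerivAt_id t).prodMk hy)
  have h2 : HasDerivAt (fun s => ρ s (y t)) (A (1, 0)) t :=
    HasFDerivAt.comp_hasDerivAt (l := fun q : ℝ × V => ρ q.1 q.2) (f := fun s => (s, y t)) t hF
      ((hasDerivAt_id t).prodMk (hasDerivAt_const t (y t)))
  have h3 : HasFDerivAt (fun u => ρ t u) (A.comp (ContinuousLinearMap.inr ℝ ℝ V)) (y t) :=
    hF.comp (y t) (hasFDerivAt_prodMk_right t (y t))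
  have h4 : A (0, y') = ρ t y' := by
    have := h3.unique (ρ t).hasFDerivAt
    simpa using congrArg (fun B : V →L[ℝ] V => B y') this
  refine ⟨A (1, 0), ?_, ?_⟩
  · have h5 : HasDerivAt (fun s => ρ (s + t) (y t)) (A (1, 0)) 0 := by
      have h6 : HasDerivAt (fun s => ρ s (y t)) (A (1, 0)) (0 + t) := by simpa using h2
      exact h6.comp_add_const 0 t
    simpa only [hadd] using h5
  · rw [← h4, ← map_add]
    simpa using h1

end HamAM

open HamAM in
theorem hamAS (hT : StmtTan) : StmtHamA := by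
  intro V _ _ S l ρ K G ξ ψ L hs hsub hR hG hGg hξ hL hψ
  obtain ⟨r0, radd, r2, rc, hK, rS, rf, rK⟩ := hR
  have inv1 : ∀ t x, ρ (-t) (ρ t x) = x := fun t x => by rw [← radd, neg_add_cancel, r0]
  have inv2 : ∀ t x, ρ t (ρ (-t) x) = x := fun t x => by rw [← radd, add_neg_cancel, r0]
  have gg : ∀ x, ρ 1 (ρ 1 x) = x := fun x => by rw [← radd, one_add_one_eq_two, r2]
  have neg1 : ∀ x, ρ (-1) x = ρ 1 x := fun x => by
    conv_lhs => rw [← gg x]
    rw [inv1]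
  refine ⟨fun t x hx => ?_, fun s t x hx => ?_, fun ε => ⟨fun t x hx => ?_, fun t x hx => ?_,
    fun x hx => ⟨by simp [(hψ x hx).1, r0], fun t => ?_⟩⟩⟩
  · have hgx := rS 1 hx
    have := uniq hL (f := fun s => ψ s (ρ 1 x)) (g := fun s => ρ 1 (ψ s x))
      (fun s => ⟨((hψ _ hgx).2 s).2, ((hψ _ hgx).2 s).1⟩)
      (fun s => ⟨by
        rw [equiv_vf hT hs hsub gg (rS 1) (rf 1) hG hGg hξ ((hψ x hx).2 s).1]
        exact (ρ 1).hasFDerivAt.comp_hasDerivAt s ((hψ x hx).2 s).2, rS 1 ((hψ x hx).2 s).1⟩)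
      (by simp only [(hψ _ hgx).1, (hψ x hx).1])
    exact congrFun this t
  · have hy := ((hψ x hx).2 t).1
    have := uniq hL (f := fun s => ψ (s + t) x) (g := fun s => ψ s (ψ t x))
      (fun s => ⟨((hψ x hx).2 (s + t)).2.comp_add_const s t, ((hψ x hx).2 (s + t)).1⟩)
      (fun s => ⟨((hψ _ hy).2 s).2, ((hψ _ hy).2 s).1⟩)
      (by simp only [zero_add, (hψ _ hy).1])
    exact congrFun this s
  · have h1 : ContDiff ℝ ∞ (fun q : ℝ × V => ρ (-q.1) q.2) :=
      rc.comp (contDiff_fst.neg.prodMk contDiff_snd)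
    have h2 : ContDiffAt ℝ ∞ (fun q : ℝ × V => G (ρ (-q.1) q.2)) (t, x) :=
      ContDiffAt.comp (g := G) (t, x) (hG _ (rS (-t) hx)) h1.contDiffAt
    exact (hK.comp contDiff_snd).contDiffAt.add (contDiffAt_const.mul h2)
  · show K x + ε * G (ρ (-(t + 1)) x) = K x + ε * G (ρ (-t) x)
    rw [show -(t + 1) = -1 + -t by ring, radd, neg1, hGg _ (rS (-t) hx)]
  · have hy := ((hψ x hx).2 (ε * t)).1
    have hd : HasDerivAt (fun s => ψ (ε * s) x) (ε • ξ (ψ (ε * t) x)) t := by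
      have := ((hψ x hx).2 (ε * t)).2.scomp t ((hasDerivAt_id t).const_mul ε)
      rw [mul_one] at this
      exact this
    obtain ⟨a, ha, hb⟩ := rot_deriv rc radd hd
    set y := ψ (ε * t) x with hydef
    have hz := rS t hy
    refine ⟨hz, _, hb, fun w hw => ?_⟩
    have hw' : ρ (-t) w ∈ Tan S y := by
      have := tan_map hT (ρ (-t)) (rS (-t)) hz hw
      rwa [inv1] at this
    have e1 := rf t y hy _ (hξ y hy).1 _ hw'
    rw [inv2] at e1
    have dK : HasFDerivAt K (fderiv ℝ K (ρ t y)) (ρ t y) :=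
      (hK.differentiable (by simp) _).hasFDerivAt
    have dG : HasFDerivAt G (fderiv ℝ G y) (ρ (-t) (ρ t y)) := by
      rw [inv1]; exact ((hG _ hy).differentiableAt (by simp)).hasFDerivAt
    have dH := dK.add ((dG.comp (ρ t y) (ρ (-t)).hasFDerivAt).const_mul ε)
    have e2 : fderiv ℝ (fun x => K x + ε * G (ρ (-t) x)) (ρ t y) = _ := dH.fderiv
    show frm l (ρ t y) (a + ρ t (ε • ξ y)) w =
      fderiv ℝ (fun x => K x + ε * G (ρ (-t) x)) (ρ t y) w
    rw [e2, map_smul, frm_lin, rK _ hz a ha w hw, e1, (hξ y hy).2 _ hw']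
    simp

end Vale.Agent.P265
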