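import Vale.Agent.P265.Geo

/-! Fixed points of the time one map. -/

namespace Vale.Agent.P265

open Set Topology Filter Asymptotics

namespace HamBM

variable {V : Type} [NormedAddCommGroup V] [NormedSpace ℝ V]

theorem ev_bd {F : Type} [NormedAddCommGroup F] {f : V → F} (hf : Continuous f) (p : V) :
    ∀ᶠ y in 𝓝 p, ‖f y‖ ≤ ‖f p‖ + 1 :=
  (hf.norm.continuousAt.eventually_lt continuousAt_const (lt_add_one _)).mono fun _ h => h.le

theorem frm_bd {l : List (Tr V)} (hl : SmL l) (p : V) :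
    ∃ C, ∀ᶠ y in 𝓝 p, ∀ u w, ‖frm l y u w‖ ≤ C * ‖u‖ * ‖w‖ := by
  induction l with
  | nil => exact ⟨0, .of_forall fun y u w => by simp [frm]⟩
  | cons τ l ih =>
    obtain ⟨C, hC⟩ := ih fun σ h => hl σ (List.mem_cons_of_mem _ h)
    obtain ⟨h1, h2, h3⟩ := hl τ List.mem_cons_self
    refine ⟨(‖τ.1 p‖ + 1) * (2 * ((‖fderiv ℝ τ.2.1 p‖ + 1) * (‖fderiv ℝ τ.2.2 p‖ + 1))) + C, ?_⟩
    filter_upwards [hC, ev_bd h1.continuous p, ev_bd (h2.continuous_fderiv (by simp)) p,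
      ev_bd (h3.continuous_fderiv (by simp)) p] with y a0 a1 a2 a3 u w
    have b0 := a0 u w
    have b : ∀ (A : V →L[ℝ] ℝ) (K : ℝ) (x : V), ‖A‖ ≤ K → ‖A x‖ ≤ K * ‖x‖ := fun A K x h =>
      (A.le_opNorm x).trans (mul_le_mul_of_nonneg_right h (norm_nonneg _))
    have b1 := b _ _ u a2
    have b2 := b _ _ w a2
    have b3 := b _ _ u a3
    have b4 := b _ _ w a3
    have e : frm (τ :: l) y u w = τ.1 y * w2 (fderiv ℝ τ.2.1 y) (fderiv ℝ τ.2.2 y) u w +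
      frm l y u w := by simp [frm]
    have b5 : ‖w2 (fderiv ℝ τ.2.1 y) (fderiv ℝ τ.2.2 y) u w‖ ≤
        (‖fderiv ℝ τ.2.1 p‖ + 1) * ‖u‖ * ((‖fderiv ℝ τ.2.2 p‖ + 1) * ‖w‖) +
        (‖fderiv ℝ τ.2.1 p‖ + 1) * ‖w‖ * ((‖fderiv ℝ τ.2.2 p‖ + 1) * ‖u‖) := by
      refine (norm_sub_le _ _).trans ?_
      rw [norm_mul, norm_mul]
      gcongr
    rw [e]
    refine (norm_add_le _ _).trans ?_
    rw [norm_mul]
    calc _ ≤ (‖τ.1 p‖ + 1) * ((‖fderiv ℝ τ.2.1 p‖ + 1) * ‖u‖ * ((‖fderiv ℝ τ.2.2 p‖ + 1) * ‖w‖) +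
        (‖fderiv ℝ τ.2.1 p‖ + 1) * ‖w‖ * ((‖fderiv ℝ τ.2.2 p‖ + 1) * ‖u‖)) + C * ‖u‖ * ‖w‖ := by
          gcongr
      _ = _ := by ring

theorem frm_zero (l : List (Tr V)) (x w : V) : frm l x 0 w = 0 := by
  simp [frm, w2]

theorem stay {S : Set V} {ξ : V → V} {L : NNReal} (hL : LipschitzOnWith L ξ S) {γ : ℝ → V}
    (hS : ∀ t, γ t ∈ S) (hd : ∀ t, HasDerivAt γ (ξ (γ t)) t) (h0 : ξ (γ 0) = 0) (t : ℝ) :
    γ t = γ 0 :=
  congrFun (ODE_solution_unique_univ (v := fun _ => ξ) (s := fun _ => S) (g := fun _ => γ 0)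
    (t₀ := 0) (fun _ => hL) (fun t => ⟨hd t, hS t⟩)
    (fun t => ⟨by rw [h0]; exact hasDerivAt_const _ _, hS 0⟩) rfl) t

theorem nd {S : Set V} {l : List (Tr V)} {G : V → ℝ} {ξ ζ : V → V} {g : V → V} {p v : V}
    (hl : SmL l) (hH : IsHVF S l G ξ) (hζ : DifferentiableAt ℝ ζ p) (he : ∀ᶠ y in 𝓝[S] p, ξ y = ζ y)
    (h0 : ζ p = 0) (hB : fderiv ℝ ζ p v = 0) (hN : ND S g G p) (hv : v ∈ Tan S p) (hg : g v = v) :
    v = 0 := by
  by_contra hne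
  obtain ⟨γ, w, c, rfl, g1, g2, g3⟩ := hN v hv hg hne
  refine g3 ?_
  obtain ⟨C, hC⟩ := frm_bd hl (γ 0)
  have t1 : Tendsto γ (𝓝 0) (𝓝[S] (γ 0)) :=
    tendsto_nhdsWithin_iff.2 ⟨g1.continuousAt, g2.mono fun t h => h.1⟩
  have d1 : HasDerivAt (fun t => ζ (γ t)) 0 0 := hB ▸ hζ.hasFDerivAt.comp_hasDerivAt 0 g1
  have d2 : (fun t => ζ (γ t)) =o[𝓝 0] fun t : ℝ => t := by
    simpa [h0] using d1.isLittleO
  refine IsBigO.trans_isLittleO (IsBigO.of_bound (|C| * c) ?_) d2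
  filter_upwards [g2, t1.eventually he, g1.continuousAt.eventually hC] with t a1 a2 a3
  rw [← (hH _ a1.1).2 _ a1.2.1, a2]
  calc _ ≤ C * ‖ζ (γ t)‖ * ‖w t‖ := a3 _ _
    _ ≤ |C| * ‖ζ (γ t)‖ * c := by gcongr; exacts [le_abs_self _, a1.2.2]
    _ = _ := by ring

end HamBM

open HamBM

theorem hamBS (hT : StmtTan) (hA : StmtFlowA) (hL : StmtLin) : StmtHamB := by
  intro V _ _ _ S l g G ξ ψ L hS gg gS hH hC hLip hF e1 e2 fin hN
  have := FiniteDimensional.complete ℝ V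
  choose! ζ z1 z2 using hC
  set M : ℝ := L + ∑ p ∈ fin.toFinset, ‖fderiv ℝ (ζ p) p‖ + 1 with hM
  have s0 : 0 ≤ ∑ p ∈ fin.toFinset, ‖fderiv ℝ (ζ p) p‖ := Finset.sum_nonneg fun _ _ => norm_nonneg _
  have M0 : 0 < M := by positivity
  set ε := 1 / M / 2 with hε
  have ε0 : 0 < ε := by positivity
  have lt : ∀ K : ℝ, K < M → K * (ε + ε) < 1 := fun K hK => by
    rw [hε, add_halves, mul_one_div, div_lt_one M0]; exact hK
  have sq : ∀ y ∈ S, g (ψ ε (g (ψ ε y))) = ψ (ε + ε) y := fun y hy => by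
    rw [e1 ε _ ((hF y hy).2 ε).1, gg, e2 _ _ y hy]
  have fx : ∀ x ∈ S, g (ψ ε x) = x → ξ x = 0 ∧ x ∈ CritFix S g G := fun x hx h => by
    have a1 := (hA V ξ L).2 S (fun t => ψ t x) (ε + ε) hLip (fun t => ((hF x hx).2 t).1)
      (fun t => ((hF x hx).2 t).2) (by positivity) (lt _ (by linarith))
      (by rw [← sq x hx, h, h, (hF x hx).1])
    have a2 := stay hLip (fun t => ((hF x hx).2 t).1) (fun t => ((hF x hx).2 t).2) a1 ε
    simp only [(hF x hx).1] at a1 a2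
    refine ⟨a1, hx, by rw [a2] at h; exact h, fun w hw => ?_⟩
    rw [← (hH x hx).2 w hw, a1, frm_zero]
  refine ⟨ε, ε0, fun x hx => (fx x hx.1 hx.2).2, fun p hp h => ?_⟩
  obtain ⟨a1, a2⟩ := fx p hp h
  have dζ := (z1 p hp).differentiableAt one_ne_zero
  have ep : ξ p = ζ p p := (z2 p hp).self_of_nhdsWithin hp
  obtain ⟨Φ, p0, p1, -, p3⟩ := hL V S ξ ψ L p _ hLip hF hp a1
    (dζ.hasFDerivAt.hasFDerivWithinAt.congr_of_eventuallyEq (z2 p hp) ep)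
  have dA : HasFDerivWithinAt (fun x => g (ψ ε x)) (g.comp (Φ ε)) S p :=
    g.hasFDerivAt.comp_hasFDerivWithinAt p (p3 ε ε0.le)
  refine ⟨_, dA, fun v hv hAv => ?_⟩
  have mp : MapsTo (fun x => g (ψ ε x)) S S := fun y hy => gS ((hF y hy).2 ε).1
  have dA' : HasFDerivWithinAt (fun x => g (ψ ε x)) (g.comp (Φ ε)) S (g (ψ ε p)) := by
    rw [show g (ψ ε p) = p from h]; exact dA
  have b1 := (hT V V S).2.2.1 V _ _ _ _ p (dA'.comp p dA mp) (p3 (ε + ε) (by positivity)) hp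
    (eventually_nhdsWithin_of_forall sq) v hv
  rw [ContinuousLinearMap.comp_apply, hAv, hAv] at b1
  have lB := (fderiv ℝ (ζ p) p).lipschitz.lipschitzOnWith (s := univ)
  have b2 := (hA V _ _).2 univ (fun t => Φ t v) (ε + ε) lB (fun _ => trivial) (p1 v) (by positivity)
    (lt _ (by
      have := Finset.single_le_sum (f := fun p => ‖fderiv ℝ (ζ p) p‖) (fun _ _ => norm_nonneg _)
        (fin.mem_toFinset.2 a2)
      have := L.2
      simp only [coe_nnnorm]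
      linarith)) (by simp only [p0, ← b1])
  have b3 := stay lB (γ := fun t => Φ t v) (fun _ => trivial) (p1 v) b2 ε
  simp only [p0] at b2 b3
  rw [ContinuousLinearMap.comp_apply, b3] at hAv
  exact nd hS.1 hH dζ (z2 p hp) (ep ▸ a1) b2 (hN p a2) hv hAv

end Vale.Agent.P265
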