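import Vale.Agent.P265.Coh

/-! P265 module Htp: homotopy invariance through the prism operator. -/

namespace Vale.Agent.P265

open Set

namespace HtpM

def Pr {E E' : Type} (f g : E → E') : Co E' → List E → K7
  | _, [] => 0
  | φ, x :: l => φ (f x :: (x :: l).map g) - Pr f g (fun m => φ (f x :: m)) l

theorem Pr_sub {E E' : Type} (f g : E → E') (l : List E) : ∀ φ ψ : Co E',
    Pr f g (fun m => φ m - ψ m) l = Pr f g φ l - Pr f g ψ l := by
  induction l with
  | nil => intro φ ψ; simp [Pr]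
  | cons x l ih =>
    intro φ ψ
    simp only [Pr]
    rw [ih (fun m => φ (f x :: m)) (fun m => ψ (f x :: m))]
    ring

theorem dd_sub {E : Type} (l : List E) : ∀ φ ψ : Co E,
    dd (fun m => φ m - ψ m) l = dd φ l - dd ψ l := by
  induction l with
  | nil => intro φ ψ; simp [dd]
  | cons x l ih =>
    intro φ ψ
    simp only [dd]
    rw [ih (fun m => φ (x :: m)) (fun m => ψ (x :: m))]
    ring

theorem dd_map {E E' : Type} (g : E → E') (l : List E) : ∀ φ : Co E',
    dd (fun m => φ (m.map g)) l = dd φ (l.map g) := by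
  induction l with
  | nil => intro φ; simp [dd]
  | cons x l ih =>
    intro φ
    simp only [dd, List.map_cons]
    rw [ih (fun m => φ (g x :: m))]

theorem prism {E E' : Type} (f g : E → E') (l : List E) : ∀ φ : Co E',
    dd (Pr f g φ) l + Pr f g (dd φ) l = φ (l.map g) - φ (l.map f) := by
  induction l with
  | nil => intro φ; simp [dd, Pr]
  | cons x l ih =>
    intro φ
    have h1 := ih (fun m => φ (f x :: m))
    have h2 := dd_sub l (fun m => φ (f x :: g x :: m.map g)) (Pr f g fun m => φ (f x :: m))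
    have h3 := Pr_sub f g l φ (dd fun m => φ (f x :: m))
    have h4 := dd_map g l (fun m => φ (f x :: g x :: m))
    simp only [dd, Pr, List.map_cons]
    rw [h2, h3, h4]
    linear_combination h1

theorem Pr_zero {E E' : Type} (f g : E → E') (P : E' → Prop) (l : List E) :
    (∀ x ∈ l, P (f x) ∧ P (g x)) → ∀ φ : Co E',
    (∀ m : List E', m.length = l.length + 1 → (∀ y ∈ m, P y) → φ m = 0) → Pr f g φ l = 0 := by
  induction l with
  | nil => intro _ φ _; rfl
  | cons x l ih =>
    intro h φ hφ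
    have hx := h x List.mem_cons_self
    rw [Pr, hφ _ (by simp), ih (fun y hy => h y (List.mem_cons_of_mem _ hy)), sub_zero]
    · intro m hm hP
      refine hφ _ (by simp [hm]) fun y hy => ?_
      rcases List.mem_cons.1 hy with rfl | hy
      · exact hx.1
      · exact hP y hy
    · intro y hy
      rcases List.mem_cons.1 hy with rfl | hy
      · exact hx.1
      · obtain ⟨z, hz, rfl⟩ := List.mem_map.1 hy
        exact (h z hz).2

variable {E E' : Type} [MetricSpace E] [MetricSpace E']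

theorem Pr_nul {A : Set E} {A' : Set E'} {f g : E → E'} (hf : MapsTo f A A') (hg : MapsTo g A A')
    {η δ : ℝ} (hη : 0 < η) (h : ∀ x ∈ A, ∀ y ∈ A, dist x y < η →
      dist (f x) (f y) < δ ∧ dist (f x) (g y) < δ ∧ dist (g x) (f y) < δ ∧ dist (g x) (g y) < δ)
    {n : ℕ} {φ : Co E'} (hφ : ∀ m : List E', m.length = n → Sm δ A' m → φ m = 0) :
    Pr f g φ ∈ Nul A (n - 1) := by
  refine ⟨η, hη, fun l hl hs => ?_⟩
  rcases n with _ | n
  · obtain rfl : l = [] := List.length_eq_zero_iff.1 hl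
    rfl
  · refine Pr_zero f g (fun y => ∃ x ∈ l, y = f x ∨ y = g x) l
      (fun x hx => ⟨⟨x, hx, Or.inl rfl⟩, ⟨x, hx, Or.inr rfl⟩⟩) φ fun m hm hP => hφ m (by omega) ⟨?_, ?_⟩
    · intro y hy
      obtain ⟨x, hx, rfl | rfl⟩ := hP y hy
      · exact hf (hs.1 x hx)
      · exact hg (hs.1 x hx)
    · intro y hy y' hy'
      obtain ⟨x, hx, e⟩ := hP y hy
      obtain ⟨x', hx', e'⟩ := hP y' hy'
      have := h x (hs.1 x hx) x' (hs.1 x' hx') (hs.2 x hx x' hx')
      rcases e with rfl | rfl <;> rcases e' with rfl | rfl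
      · exact this.1
      · exact this.2.1
      · exact this.2.2.1
      · exact this.2.2.2

end HtpM

open HtpM in
theorem htpS (hB : StmtBas) : StmtHtp := by
  intro E E' _ _ A B A' B' f g n hA _ hBA _ ⟨H, hc, hm, h0, h1⟩ φ ⟨⟨δ1, p1, n1⟩, ⟨δ2, p2, n2⟩⟩
  obtain ⟨η, hη, hu⟩ := Metric.uniformContinuousOn_iff.1
    ((isCompact_Icc.prod hA).uniformContinuousOn_of_continuous hc) (min δ1 δ2) (lt_min p1 p2)
  have close : ∀ s ∈ Icc (0 : ℝ) 1, ∀ t ∈ Icc (0 : ℝ) 1, dist s t < η → ∀ x ∈ A, ∀ y ∈ A,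
      dist x y < η → dist (H s x) (H t y) < min δ1 δ2 := fun s hs t ht hst x hx y hy hxy =>
    hu (s, x) ⟨hs, hx⟩ (t, y) ⟨ht, hy⟩ (by rw [Prod.dist_eq]; exact max_lt hst hxy)
  have step : ∀ s ∈ Icc (0 : ℝ) 1, ∀ t ∈ Icc (0 : ℝ) 1, dist s t < η →
      pb (H t) φ - pb (H s) φ ∈ Bd A B n := by
    intro s hs t ht hst
    have four : ∀ x ∈ A, ∀ y ∈ A, dist x y < η → dist (H s x) (H s y) < min δ1 δ2 ∧
        dist (H s x) (H t y) < min δ1 δ2 ∧ dist (H t x) (H s y) < min δ1 δ2 ∧
        dist (H t x) (H t y) < min δ1 δ2 := fun x hx y hy hxy =>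
      ⟨close s hs s hs (by simpa using hη) x hx y hy hxy, close s hs t ht hst x hx y hy hxy,
        close t ht s hs (by rwa [dist_comm]) x hx y hy hxy,
        close t ht t ht (by simpa using hη) x hx y hy hxy⟩
    have a1 : Pr (H s) (H t) φ ∈ Nul B (n - 1) :=
      Pr_nul (hm s hs).2 (hm t ht).2 hη (fun x hx y hy => four x (hBA hx) y (hBA hy))
        fun m hl hs => n1 m hl ⟨hs.1, fun x hx y hy => (hs.2 x hx y hy).trans_le (min_le_left _ _)⟩
    have a2 : Pr (H s) (H t) (dd φ) ∈ Nul A (n + 1 - 1) :=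
      Pr_nul (hm s hs).1 (hm t ht).1 hη four
        fun m hl hs => n2 m hl ⟨hs.1, fun x hx y hy => (hs.2 x hx y hy).trans_le (min_le_right _ _)⟩
    have e : pb (H t) φ - pb (H s) φ = dL E (Pr (H s) (H t) φ) + Pr (H s) (H t) (dd φ) :=
      funext fun l => (prism (H s) (H t) l φ).symm
    rw [e]
    exact Submodule.add_mem_sup (Submodule.mem_map_of_mem a1) a2
  obtain ⟨N, hN⟩ := exists_nat_one_div_lt hη
  have hN0 : (0 : ℝ) < N + 1 := by positivity
  have chain : ∀ k : ℕ, k ≤ N + 1 → pb (H (k / (N + 1))) φ - pb (H 0) φ ∈ Bd A B n := by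
    intro k
    induction k with
    | zero => intro _; simp
    | succ k ih =>
      intro hk
      have hk' : (k : ℝ) + 1 ≤ N + 1 := by exact_mod_cast hk
      have := (Bd A B n).add_mem (step (k / (N + 1)) ⟨by positivity, by
        rw [div_le_one hN0]; linarith⟩ ((k + 1 : ℕ) / (N + 1)) ⟨by positivity, by
        rw [div_le_one hN0]; push_cast; linarith⟩ (by
          rw [dist_comm, Real.dist_eq, ← sub_div]
          push_cast
          rwa [add_sub_cancel_left, abs_of_pos (by positivity)])) (ih (by omega))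
      simpa using this
  have c := chain (N + 1) le_rfl
  rw [Nat.cast_add_one, div_self hN0.ne'] at c
  have q := (hB E).2.2.2.2.2.2.2.2
  have e0 : pb (H 0) φ - pb f φ ∈ Bd A B n := Submodule.mem_sup_right (q E' A _ _ n φ h0)
  have e1 : pb (H 1) φ - pb g φ ∈ Bd A B n := Submodule.mem_sup_right (q E' A _ _ n φ h1)
  have := (Bd A B n).sub_mem ((Bd A B n).sub_mem e1 c) e0
  convert this using 1
  abel

end Vale.Agent.P265
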