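import Vale.Agent.P265.Geo

/-! Regular level sets are embedded submanifolds. -/

namespace Vale.Agent.P265

open Set Topology Filter
open scoped ContDiff

namespace LevM

variable {V D R : Type} [NormedAddCommGroup V] [NormedSpace ℝ V]
  [FiniteDimensional ℝ V] [NormedAddCommGroup D] [NormedSpace ℝ D] [FiniteDimensional ℝ D]
  [NormedAddCommGroup R] [NormedSpace ℝ R] [FiniteDimensional ℝ R]

lemma exE (A : V →L[ℝ] R) (hA : Function.Surjective A)
    (h : Module.finrank ℝ V = Module.finrank ℝ D + Module.finrank ℝ R) :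
    ∃ (L : V →L[ℝ] D) (E : V ≃L[ℝ] R × D), (E : V →L[ℝ] R × D) = A.prod L := by
  have h1 := LinearMap.finrank_range_add_finrank_ker (A : V →ₗ[ℝ] R)
  rw [LinearMap.range_eq_top.2 hA, finrank_top] at h1
  let e : LinearMap.ker (A : V →ₗ[ℝ] R) ≃ₗ[ℝ] D := LinearEquiv.ofFinrankEq _ _ (by omega)
  obtain ⟨L, hL⟩ := LinearMap.exists_extend (e : LinearMap.ker (A : V →ₗ[ℝ] R) →ₗ[ℝ] D)
  have inj : Function.Injective ((A : V →ₗ[ℝ] R).prod L) := by
    rw [injective_iff_map_eq_zero]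
    intro v hv
    have a1 : A v = 0 := congrArg Prod.fst hv
    have a2 : L v = 0 := congrArg Prod.snd hv
    have a3 : e ⟨v, a1⟩ = 0 := by
      rw [← a2]; exact (LinearMap.congr_fun hL ⟨v, a1⟩).symm
    exact congrArg Subtype.val (e.map_eq_zero_iff.1 a3)
  refine ⟨LinearMap.toContinuousLinearMap L, (LinearMap.linearEquivOfInjective _ inj
    (by rw [Module.finrank_prod]; omega)).toContinuousLinearEquiv, ?_⟩
  ext v <;> rfl

end LevM

theorem levS : StmtLev := by
  intro V D R _ _ _ _ _ _ _ _ _ g S x₀ hS hx hg hs hd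
  have : CompleteSpace V := FiniteDimensional.complete ℝ V
  obtain ⟨L, E, hE⟩ := LevM.exE (D := D) _ hs hd
  let Φ : V → R × D := fun x => (g x, L x)
  have cΦ : ContDiff ℝ ∞ Φ := hg.prodMk L.contDiff
  have dg : ∀ x, HasFDerivAt g (fderiv ℝ g x) x := fun x =>
    (hg.differentiable (by simp) x).hasFDerivAt
  have dΦ : HasFDerivAt Φ (E : V →L[ℝ] R × D) x₀ := hE ▸ (dg x₀).prodMk L.hasFDerivAt
  let φ := cΦ.contDiffAt.toOpenPartialHomeomorph Φ dΦ (by simp)
  have φe : ∀ x, φ x = (g x, L x) := fun _ => rfl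
  let W : Set V := fderiv ℝ Φ ⁻¹' range ((↑) : (V ≃L[ℝ] R × D) → V →L[ℝ] R × D)
  have oW : IsOpen W := ContinuousLinearEquiv.isOpen.preimage (cΦ.continuous_fderiv (by simp))
  have x0 : x₀ ∈ φ.source := cΦ.contDiffAt.mem_toOpenPartialHomeomorph_source dΦ (by simp)
  have g0 : ∀ x ∈ S, g x = 0 := fun x hx => by rwa [hS] at hx
  let U : Set D := (fun u => ((0 : R), u)) ⁻¹' (φ.target ∩ φ.symm ⁻¹' W)
  have oU : IsOpen U := (φ.isOpen_inter_preimage_symm oW).preimage (by fun_prop)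
  have mP : ∀ u ∈ U, φ.symm (0, u) ∈ S := fun u hu => by
    rw [hS]
    exact congrArg Prod.fst (φ.right_inv hu.1)
  have mL : ∀ x ∈ S ∩ (φ.source ∩ W), ((0 : R), L x) = φ x := fun x hx => by rw [φe, g0 x hx.1]
  have mU : ∀ x ∈ S ∩ (φ.source ∩ W), L x ∈ U := fun x hx => by
    change ((0 : R), L x) ∈ φ.target ∩ φ.symm ⁻¹' W
    rw [mL x hx]
    exact ⟨φ.map_source hx.2.1, by rw [mem_preimage, φ.left_inv hx.2.1]; exact hx.2.2⟩
  have xO : x₀ ∈ S ∩ (φ.source ∩ W) := ⟨hx, x0, E, dΦ.fderiv.symm⟩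
  refine ⟨⟨⟨fun u => φ.symm (0, u), L, U, φ.source ∩ W, oU, φ.open_source.inter oW, ?_,
    L.contDiff.contDiffOn, fun u hu => ⟨mP u hu, φ.map_target hu.1, hu.2⟩, mU,
    fun u hu => congrArg Prod.snd (φ.right_inv hu.1),
    fun x hx => by rw [mL x hx, φ.left_inv hx.2.1]⟩, xO.2⟩, ?_⟩
  · intro u hu
    obtain ⟨E', hE'⟩ := hu.2
    have h1 : ContDiffAt ℝ ∞ φ.symm (0, u) := φ.contDiffAt_symm (f₀' := E') hu.1
      (by rw [hE']; exact (cΦ.differentiable (by simp) _).hasFDerivAt) cΦ.contDiffAt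
    exact (h1.comp u (contDiffAt_const.prodMk contDiffAt_id)).contDiffWithinAt
  · ext u
    constructor
    · rintro ⟨γ, h0, h1, h2⟩
      have a1 : HasDerivAt (g ∘ γ) (fderiv ℝ g x₀ u) 0 := (dg x₀).comp_hasDerivAt_of_eq 0 h1 h0.symm
      have a2 : HasDerivAt (g ∘ γ) 0 0 :=
        (hasDerivAt_const (0 : ℝ) (0 : R)).congr_of_eventuallyEq (h2.mono fun t ht => g0 _ ht)
      exact a1.unique a2
    · intro hu
      have hu' : fderiv ℝ g x₀ u = 0 := hu
      have l1 : HasDerivAt (fun t : ℝ => L x₀ + t • L u) (L u) 0 := by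
        simpa using ((hasDerivAt_id (0 : ℝ)).smul_const (L u)).const_add (L x₀)
      have l2 : HasDerivAt (fun t : ℝ => ((0 : R), L x₀ + t • L u)) (0, L u) 0 :=
        (hasDerivAt_const _ _).prodMk l1
      have l3 : HasFDerivAt φ.symm (E.symm : R × D →L[ℝ] V) ((0 : R), L x₀ + (0 : ℝ) • L u) := by
        rw [zero_smul, add_zero, mL x₀ xO]
        exact φ.hasFDerivAt_symm (φ.map_source x0) (by rw [φ.left_inv x0]; exact dΦ)
      have l4 : E.symm (0, L u) = u := by
        rw [ContinuousLinearEquiv.symm_apply_eq]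
        change _ = (E : V →L[ℝ] R × D) u
        rw [hE, ContinuousLinearMap.prod_apply, hu']
      refine ⟨fun t => φ.symm (0, L x₀ + t • L u), ?_, ?_, ?_⟩
      · simp only [zero_smul, add_zero]
        rw [mL x₀ xO, φ.left_inv x0]
      · have := l3.comp_hasDerivAt (0 : ℝ) l2
        rw [ContinuousLinearEquiv.coe_coe, l4] at this
        exact this
      · have : ∀ᶠ t in 𝓝 (0 : ℝ), L x₀ + t • L u ∈ U :=
          l1.continuousAt.eventually_mem (oU.mem_nhds (by simpa using mU x₀ xO))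
        exact this.mono fun t ht => mP _ ht

end Vale.Agent.P265
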