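import Vale.Agent.P265.Mor

/-! P265: no obstruction between two levels. -/

namespace Vale.Agent.P265

open Set Topology Filter

namespace LevelM

variable {E : Type} [MetricSpace E]

def Df (F : E → ℝ) (K : Set E) (H : ℝ → E → E) : Prop :=
  ContinuousOn (fun q : ℝ × E => H q.1 q.2) (Icc 0 1 ×ˢ K) ∧ (∀ x ∈ K, H 0 x = x) ∧
    ∀ t ∈ Icc (0 : ℝ) 1, ∀ x ∈ K, H t x ∈ K ∧ F (H t x) ≤ F x

theorem Df.id (F : E → ℝ) (K : Set E) : Df F K fun _ x => x :=
  ⟨continuous_snd.continuousOn, fun _ _ => rfl, fun _ _ _ hx => ⟨hx, le_rfl⟩⟩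

theorem Df.comp {F : E → ℝ} {K : Set E} {H G : ℝ → E → E} (h : Df F K H) (g : Df F K G) :
    Df F K fun t x => H t (G t x) := by
  refine ⟨h.1.comp (f := fun q : ℝ × E => (q.1, G q.1 q.2)) (continuousOn_fst.prodMk g.1)
    fun q hq => ⟨hq.1, (g.2.2 _ hq.1 _ hq.2).1⟩, fun x hx => ?_, fun t ht x hx => ?_⟩
  · show H 0 (G 0 x) = x
    rw [g.2.1 x hx, h.2.1 x hx]
  · exact ⟨(h.2.2 t ht _ (g.2.2 t ht x hx).1).1,
      (h.2.2 t ht _ (g.2.2 t ht x hx).1).2.trans (g.2.2 t ht x hx).2⟩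

theorem one_mem : (1 : ℝ) ∈ Icc (0 : ℝ) 1 := ⟨zero_le_one, le_rfl⟩

theorem Df.cont {F : E → ℝ} {K : Set E} {H : ℝ → E → E} (h : Df F K H) (hF : ContinuousOn F K) :
    ContinuousOn (fun x => F x - F (H 1 x)) K :=
  hF.sub (hF.comp (h.1.comp (f := fun x : E => ((1 : ℝ), x)) (by fun_prop)
    fun x hx => ⟨one_mem, hx⟩) fun x hx => (h.2.2 1 one_mem x hx).1)

end LevelM

open LevelM in
theorem levelS (_hT : StmtTri2) (hZ : StmtZero) : StmtLevel := by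
  intro E _ ι ε K F a b _ hK hF _ hab hP
  have cpt : ∀ S : Set ℝ, IsClosed S → IsCompact (K ∩ F ⁻¹' S) := fun S hS =>
    hK.1.of_isClosed_subset (hF.preimage_isClosed_of_isClosed hK.1.isClosed hS) inter_subset_left
  obtain ⟨H, h1, -, h3⟩ : ∃ H, Df F K H ∧ (∀ x ∈ K, H 1 x = x ∨ F (H 1 x) < F x) ∧
      ∀ x ∈ K ∩ F ⁻¹' Icc a b, x ∈ K → F (H 1 x) < F x := by
    refine (cpt _ isClosed_Icc).induction_on (p := fun s => ∃ H, Df F K H ∧
      (∀ x ∈ K, H 1 x = x ∨ F (H 1 x) < F x) ∧ ∀ x ∈ s, x ∈ K → F (H 1 x) < F x)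
      ⟨_, Df.id F K, fun _ _ => Or.inl rfl, fun _ h => h.elim⟩ ?_ ?_ ?_
    · rintro s t hst ⟨H, k1, k2, k3⟩
      exact ⟨H, k1, k2, fun x hx => k3 x (hst hx)⟩
    · rintro s t ⟨G, g1, g2, g3⟩ ⟨H, k1, k2, k3⟩
      have key : ∀ x ∈ K, F (G 1 x) < F x → F (H 1 (G 1 x)) < F x := fun x hx h =>
        (k1.2.2 1 one_mem _ (g1.2.2 1 one_mem x hx).1).2.trans_lt h
      refine ⟨_, k1.comp g1, fun x hx => ?_, fun x hx hxK => ?_⟩
      · rcases g2 x hx with e | e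
        · show H 1 (G 1 x) = x ∨ F (H 1 (G 1 x)) < F x
          rw [e]; exact k2 x hx
        · exact Or.inr (key x hx e)
      · rcases hx with hx | hx
        · exact key x hxK (g3 x hx hxK)
        · rcases g2 x hxK with e | e
          · show F (H 1 (G 1 x)) < F x
            rw [e]; exact k3 x hx hxK
          · exact key x hxK e
    · rintro e ⟨he, he1, he2⟩
      obtain ⟨h, k1, k2, k3, k4⟩ := hP e he he1 he2 univ univ_mem
      have d : Df F K h := ⟨k1, k2, fun t ht x hx => ⟨(k3 t ht x hx).1,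
        (k3 t ht x hx).2.elim (fun e => by rw [e]) fun e => e.2.2.le⟩⟩
      refine ⟨{x | 0 < F x - F (h 1 x)}, nhdsWithin_mono _ inter_subset_left
        ((d.cont hF e he).eventually (lt_mem_nhds (sub_pos.2 k4))), h, d,
        fun x hx => (k3 1 one_mem x hx).2.imp_right fun e => e.2.2, fun x hx _ => sub_pos.1 hx⟩
  obtain ⟨η, η0, hη⟩ := (cpt _ isClosed_Icc).exists_forall_le'
    ((h1.cont hF).mono inter_subset_left) (a := 0) fun x hx => sub_pos.2 (h3 x hx hx.1)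
  have iter : ∀ n : ℕ, ∃ G, Df F K G ∧
      ∀ x ∈ K, F x ≤ b → F (G 1 x) ≤ a ∨ F (G 1 x) ≤ b - n * η := by
    intro n
    induction n with
    | zero => exact ⟨_, Df.id F K, fun x _ h => Or.inr (by simpa using h)⟩
    | succ n ih =>
      obtain ⟨G, g1, g2⟩ := ih
      refine ⟨_, h1.comp g1, fun x hx hb => ?_⟩
      have a1 := g1.2.2 1 one_mem x hx
      have a2 := (h1.2.2 1 one_mem _ a1.1).2
      by_cases c : F (G 1 x) ≤ a
      · exact Or.inl (a2.trans c)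
      · have a3 := (g2 x hx hb).resolve_left c
        have a4 := hη _ ⟨a1.1, (not_le.1 c).le, a1.2.trans hb⟩
        refine Or.inr ?_
        show F (H 1 (G 1 x)) ≤ _
        push_cast
        linarith
  obtain ⟨n, hn⟩ := exists_nat_ge ((b - a) / η)
  rw [div_le_iff₀ η0] at hn
  obtain ⟨G, g1, g2⟩ := iter n
  refine (hZ E ι ε _ _ (cpt _ isClosed_Iic) (cpt _ isClosed_Iic)
    fun x hx => ⟨hx.1, le_trans hx.2 hab⟩).1 (G 1)
    ⟨G, g1.1.mono (prod_mono_right inter_subset_left), fun t ht => ⟨fun x hx => ?_, fun x hx => ?_⟩,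
      fun x hx => g1.2.1 x hx.1, fun _ _ => rfl⟩ fun x hx => ?_
  · exact ⟨(g1.2.2 t ht x hx.1).1, (g1.2.2 t ht x hx.1).2.trans hx.2⟩
  · exact ⟨(g1.2.2 t ht x hx.1).1, (g1.2.2 t ht x hx.1).2.trans hx.2⟩
  · exact ⟨(g1.2.2 1 one_mem x hx.1).1, (g2 x hx.1 hx.2).elim id fun h => le_trans h (by linarith)⟩

end Vale.Agent.P265
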