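import Vale.Agent.P265.Geo

namespace Vale.Agent.P265

open Set Topology Asymptotics Filter

theorem linS : StmtLin := by
  intro V _ _ _ S ξ ψ L p B hL hψ hp hξ hB
  have hΦ : ∀ (v : V) (t : ℝ), HasDerivAt (fun s : ℝ => NormedSpace.exp (s • B) v)
      (B (NormedSpace.exp (t • B) v)) t := by
    intro v t
    have h := (hasDerivAt_exp_smul_const' (𝕂 := ℝ) B t).clm_apply (hasDerivAt_const t v)
    simpa using h
  have hfix : ∀ t, ψ t p = p := by
    have h := ODE_solution_unique_univ (v := fun _ => ξ) (s := fun _ => S) (K := L)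
      (f := fun t => ψ t p) (g := fun _ => p) (t₀ := 0) (fun _ => hL)
      (fun t => ⟨((hψ p hp).2 t).2, ((hψ p hp).2 t).1⟩)
      (fun t => ⟨by rw [hξ]; exact hasDerivAt_const t p, hp⟩) (hψ p hp).1
    exact fun t => congrFun h t
  refine ⟨fun t => NormedSpace.exp (t • B), fun v => by simp, hΦ, hfix, fun T hT => ?_⟩
  have hd : ∀ x ∈ S, ∀ t ∈ Icc 0 T, ‖ψ t x - p‖ ≤ ‖x - p‖ * Real.exp (L * T) := by
    intro x hx t ht
    have h := dist_le_of_trajectories_ODE_of_mem (v := fun _ => ξ) (s := fun _ => S) (K := L)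
      (f := fun t => ψ t x) (g := fun _ => p) (a := 0) (b := T) (δ := ‖x - p‖) (fun _ _ => hL)
      (fun t _ => ((hψ x hx).2 t).2.continuousAt.continuousWithinAt)
      (fun t _ => ((hψ x hx).2 t).2.hasDerivWithinAt) (fun t _ => ((hψ x hx).2 t).1)
      continuousOn_const
      (fun t _ => by rw [hξ]; exact (hasDerivAt_const t p).hasDerivWithinAt) (fun _ _ => hp)
      (by rw [(hψ x hx).1, dist_eq_norm]) t ht
    rw [dist_eq_norm, sub_zero] at h
    refine h.trans (mul_le_mul_of_nonneg_left (Real.exp_le_exp.2 ?_) (norm_nonneg _))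
    exact mul_le_mul_of_nonneg_left ht.2 L.2
  set K : ℝ := ‖B‖ + 1 with hK
  have hK0 : 0 < K := by positivity
  set M : ℝ := Real.exp (L * T) with hM
  have hM0 : 0 < M := Real.exp_pos _
  set c : ℝ := M / K * Real.exp (K * T) with hc
  have hc0 : 0 < c := by positivity
  rw [hasFDerivWithinAt_iff_isLittleO, isLittleO_iff]
  intro ε hε
  rw [hasFDerivWithinAt_iff_isLittleO, isLittleO_iff] at hB
  have h1 := hB (div_pos hε hc0)
  obtain ⟨δ, hδ, h2⟩ := Metric.mem_nhdsWithin_iff.1 h1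
  refine Metric.mem_nhdsWithin_iff.2 ⟨δ / M, div_pos hδ hM0, ?_⟩
  rintro x ⟨hx1, hx⟩
  rw [Metric.mem_ball, dist_eq_norm, lt_div_iff₀ hM0] at hx1
  have he : ∀ t, HasDerivAt (fun s : ℝ => ψ s x - p - NormedSpace.exp (s • B) (x - p))
      (ξ (ψ t x) - B (NormedSpace.exp (t • B) (x - p))) t := fun t =>
    (((hψ x hx).2 t).2.sub_const p).sub (hΦ (x - p) t)
  have h3 := norm_le_gronwallBound_of_norm_deriv_right_le (δ := 0) (K := K)
    (ε := ε / c * (‖x - p‖ * M)) (a := 0) (b := T)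
    (fun t _ => (he t).continuousAt.continuousWithinAt) (fun t _ => (he t).hasDerivWithinAt)
    (by simp [(hψ x hx).1]) ?_ T ⟨hT, le_rfl⟩
  · rw [gronwallBound_of_K_ne_0 hK0.ne', sub_zero] at h3
    show ‖ψ T x - ψ T p - NormedSpace.exp (T • B) (x - p)‖ ≤ ε * ‖x - p‖
    rw [hfix]
    refine h3.trans ?_
    have h4 : ε / c * (‖x - p‖ * M) / K * Real.exp (K * T) = ε * ‖x - p‖ := by
      rw [hc]; field_simp
    have h5 : 0 ≤ ε / c * (‖x - p‖ * M) / K := by positivity
    simp only [zero_mul, zero_add]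
    rw [mul_sub, h4]
    linarith
  · intro t ht
    have h4 := hd x hx t (Ico_subset_Icc_self ht)
    have h5 : ψ t x ∈ Metric.ball p δ ∩ S :=
      ⟨by rw [Metric.mem_ball, dist_eq_norm]; exact h4.trans_lt hx1, ((hψ x hx).2 t).1⟩
    have h6 : ‖ξ (ψ t x) - ξ p - B (ψ t x - p)‖ ≤ ε / c * ‖ψ t x - p‖ := h2 h5
    have h7 : ξ (ψ t x) - B (NormedSpace.exp (t • B) (x - p)) =
        B (ψ t x - p - NormedSpace.exp (t • B) (x - p)) + (ξ (ψ t x) - ξ p - B (ψ t x - p)) := by
      rw [hξ, map_sub B (ψ t x - p)]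
      abel
    rw [h7]
    refine (norm_add_le _ _).trans (add_le_add ((B.le_opNorm _).trans ?_) (h6.trans ?_))
    · exact mul_le_mul_of_nonneg_right (by rw [hK]; linarith) (norm_nonneg _)
    · exact mul_le_mul_of_nonneg_left h4 (by positivity)

end Vale.Agent.P265
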