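import Vale.Agent.P265.Fty

/-! Openness of the set of good height functions. -/

namespace Vale.Agent.P265

open Set Topology Filter
open scoped ContDiff

namespace ME0M

variable {V D : Type} [NormedAddCommGroup V] [NormedSpace ℝ V] [NormedAddCommGroup D]
  [NormedSpace ℝ D] {S : Set V}

theorem cd (p : Patch D S) {u : D} (hu : u ∈ p.U) : ContDiffAt ℝ ∞ p.P u :=
  p.sP.contDiffAt (p.oU.mem_nhds hu)

theorem cd1 (p : Patch D S) {u : D} (hu : u ∈ p.U) : ContDiffAt ℝ ∞ (fderiv ℝ p.P) u :=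
  (cd p hu).fderiv_right (by simp)

theorem cd2 (p : Patch D S) {u : D} (hu : u ∈ p.U) : ContDiffAt ℝ ∞ (fderiv ℝ (fderiv ℝ p.P)) u :=
  (cd1 p hu).fderiv_right (by simp)

theorem d1 (p : Patch D S) (ℓ : V →L[ℝ] ℝ) {u : D} (hu : u ∈ p.U) :
    fderiv ℝ (ℓ ∘ p.P) u = ℓ ∘L fderiv ℝ p.P u :=
  (ℓ.hasFDerivAt.comp u ((cd p hu).differentiableAt (by simp)).hasFDerivAt).fderiv

theorem d2 (p : Patch D S) (ℓ : V →L[ℝ] ℝ) {u : D} (hu : u ∈ p.U) (v : D) :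
    fderiv ℝ (fderiv ℝ (ℓ ∘ p.P)) u v = ℓ ∘L fderiv ℝ (fderiv ℝ p.P) u v := by
  have e : fderiv ℝ (ℓ ∘ p.P) =ᶠ[𝓝 u] ContinuousLinearMap.compL ℝ D V ℝ ℓ ∘ fderiv ℝ p.P :=
    Filter.mem_of_superset (p.oU.mem_nhds hu) fun w hw => d1 p ℓ hw
  rw [e.fderiv_eq, ((ContinuousLinearMap.compL ℝ D V ℝ ℓ).hasFDerivAt.comp u
    ((cd1 p hu).differentiableAt (by simp)).hasFDerivAt).fderiv]
  rfl

end ME0M

open ME0M in
theorem me0S : StmtME0 := by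
  intro n V _ _ S p K hK hU
  refine isOpen_iff_mem_nhds.2 fun ℓ₀ h₀ => ?_
  have key := (hK.prod (isCompact_sphere (0 : Eu n) 1)).eventually_forall_of_forall_eventually
    (x₀ := ℓ₀) (P := fun (ℓ : V →L[ℝ] ℝ) y =>
      (ℓ ∘L fderiv ℝ p.P y.1, ℓ ∘L fderiv ℝ (fderiv ℝ p.P) y.1 y.2) ≠ 0) fun y hy => by
      have hu := hU hy.1
      have f : ContinuousAt (fun z : (V →L[ℝ] ℝ) × Eu n × Eu n => z.2.1) (ℓ₀, y) := by fun_prop
      have c1 := (cd1 p hu).continuousAt.comp_of_eq f rfl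
      have c2 := (cd2 p hu).continuousAt.comp_of_eq f rfl
      refine ((continuousAt_fst.clm_comp c1).prodMk (continuousAt_fst.clm_comp
        (c2.clm_apply continuousAt_snd.snd))).eventually_ne fun h => ?_
      obtain ⟨a, b⟩ := Prod.ext_iff.1 h
      have := h₀ y.1 hy.1 ((d1 p ℓ₀ hu).trans a) y.2 ((d2 p ℓ₀ hu _).trans b)
      simpa [this] using hy.2
  refine key.mono fun ℓ h u hu a v b => ?_
  by_contra hv
  refine h (u, ‖v‖⁻¹ • v) ⟨hu, mem_sphere_zero_iff_norm.2 (norm_smul_inv_norm hv)⟩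
    (Prod.ext ((d1 p ℓ (hU hu)).symm.trans a) ?_)
  show ℓ ∘L fderiv ℝ (fderiv ℝ p.P) u (‖v‖⁻¹ • v) = 0
  rw [← d2 p ℓ (hU hu), map_smul, b, smul_zero]

end Vale.Agent.P265
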