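import Vale.Agent.P265.Fty

namespace Vale.Agent.P265

open Set Topology MeasureTheory
open scoped ContDiff

namespace ME1M

variable {n : ℕ} {V : Type} [NormedAddCommGroup V] [NormedSpace ℝ V]

theorem fr (n : ℕ) : Module.finrank ℝ (Eu n →L[ℝ] ℝ) = Module.finrank ℝ (Eu n) := by
  rw [← (LinearMap.toContinuousLinearMap (𝕜 := ℝ) (E := Eu n) (F' := ℝ)).finrank_eq]
  exact Subspace.dual_finrank_eq

theorem key (P : Eu n → V) (A : V →L[ℝ] Eu n) (W K : Set (Eu n)) (hW : IsOpen W) (hK : K ⊆ W)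
    (hP : ∀ u ∈ W, ContDiffAt ℝ ∞ P u) (hU : ∀ u ∈ W, IsUnit (A ∘L fderiv ℝ P u))
    (ℓ : V →L[ℝ] ℝ) :
    ℓ ∈ closure {ℓ : V →L[ℝ] ℝ | ∀ u ∈ K, fderiv ℝ (ℓ ∘ P) u = 0 →
      ∀ v, fderiv ℝ (fderiv ℝ (ℓ ∘ P)) u v = 0 → v = 0} := by
  set M : Eu n → (Eu n →L[ℝ] Eu n) := fun u => A ∘L fderiv ℝ P u with hM
  set g : Eu n → (Eu n →L[ℝ] ℝ) := fun u => -((ℓ ∘L fderiv ℝ P u) ∘L Ring.inverse (M u)) with hg
  have e : (Eu n →L[ℝ] ℝ) ≃L[ℝ] Eu n := ContinuousLinearEquiv.ofFinrankEq (fr n)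
  have hdP : ∀ u ∈ W, DifferentiableAt ℝ (fderiv ℝ P) u := fun u hu =>
    ((hP u hu).fderiv_right (m := 1) (by norm_cast)).differentiableAt one_ne_zero
  have hdM : ∀ u ∈ W, DifferentiableAt ℝ M u := fun u hu =>
    (differentiableAt_const A).clm_comp (hdP u hu)
  have hdg : ∀ u ∈ W, DifferentiableAt ℝ g u := by
    intro u hu
    have h1 : DifferentiableAt ℝ (fun u => Ring.inverse (M u)) u :=
      (hdM u hu).inverse (hU u hu)
    exact (((differentiableAt_const ℓ).clm_comp (hdP u hu)).clm_comp h1).neg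
  have hG : ∀ u ∈ W, HasFDerivAt (e ∘ g) ((e : (Eu n →L[ℝ] ℝ) →L[ℝ] Eu n) ∘L fderiv ℝ g u) u :=
    fun u hu => e.hasFDerivAt.comp u (hdg u hu).hasFDerivAt
  set s : Set (Eu n) :=
    {u | u ∈ K ∧ ((e : (Eu n →L[ℝ] ℝ) →L[ℝ] Eu n) ∘L fderiv ℝ g u).det = 0} with hs
  have h0 : (volume : Measure (Eu n)) ((e ∘ g) '' s) = 0 :=
    addHaar_image_eq_zero_of_det_fderivWithin_eq_zero volume
      (fun u hu => (hG u (hK hu.1)).hasFDerivWithinAt) (fun u hu => hu.2)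
  have hd : Dense ((e ∘ g) '' s)ᶜ := Measure.dense_of_ae (μ := volume) (by
    rw [ae_iff]; simp only [mem_compl_iff, not_not]; exact h0)
  have hφ : Continuous fun b : Eu n => ℓ + (e.symm b) ∘L A := by fun_prop
  have h1 : ℓ ∈ closure ((fun b : Eu n => ℓ + (e.symm b) ∘L A) '' ((e ∘ g) '' s)ᶜ) := by
    have := mem_closure_image hφ.continuousAt (hd 0)
    simpa using this
  refine closure_mono ?_ h1
  rintro _ ⟨b, hb, rfl⟩ u hu hc v hv
  set a := e.symm b with ha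
  have hform : ∀ u' ∈ W, fderiv ℝ (⇑(ℓ + a ∘L A) ∘ P) u' = (a - g u') ∘L M u' := by
    intro u' hu'
    have hPd : DifferentiableAt ℝ P u' := (hP u' hu').differentiableAt (by simp)
    rw [((ℓ + a ∘L A).hasFDerivAt.comp u' hPd.hasFDerivAt).fderiv]
    have hi : Ring.inverse (M u') ∘L M u' = ContinuousLinearMap.id ℝ _ :=
      Ring.inverse_mul_cancel _ (hU u' hu')
    ext1 w
    have hi' : Ring.inverse (M u') (M u' w) = w := by
      simpa using congrArg (fun B : Eu n →L[ℝ] Eu n => B w) hi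
    simp only [hg, ContinuousLinearMap.comp_apply, ContinuousLinearMap.add_apply,
      ContinuousLinearMap.sub_apply, ContinuousLinearMap.neg_apply, hi']
    simp only [hM, ContinuousLinearMap.comp_apply]
    ring
  have huW := hK hu
  have hsur : ∀ c : Eu n →L[ℝ] ℝ, c ∘L M u = 0 → c = 0 := by
    intro c hc
    have hi : M u ∘L Ring.inverse (M u) = ContinuousLinearMap.id ℝ _ :=
      Ring.mul_inverse_cancel _ (hU u huW)
    calc c = c ∘L (M u ∘L Ring.inverse (M u)) := by rw [hi]; rfl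
      _ = (c ∘L M u) ∘L Ring.inverse (M u) := rfl
      _ = 0 := by rw [hc]; rfl
  have hag : a - g u = 0 := hsur _ (by rw [← hform u huW]; exact hc)
  have hdet : ((e : (Eu n →L[ℝ] ℝ) →L[ℝ] Eu n) ∘L fderiv ℝ g u).det ≠ 0 := by
    intro hdet
    refine hb ⟨u, ⟨hu, hdet⟩, ?_⟩
    have : g u = a := (sub_eq_zero.1 hag).symm
    simp [this, ha]
  have hev : fderiv ℝ (⇑(ℓ + a ∘L A) ∘ P) =ᶠ[𝓝 u] fun u' => (a - g u') ∘L M u' := by
    filter_upwards [hW.mem_nhds huW] with u' hu' using hform u' hu'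
  have hder := (((hasFDerivAt_const a u).sub (hdg u huW).hasFDerivAt).clm_comp
    (hdM u huW).hasFDerivAt).fderiv
  rw [hev.fderiv_eq] at hv
  have hv2 : (fderiv ℝ g u v) ∘L M u = 0 := by
    have h3 : fderiv ℝ (fun u' => (a - g u') ∘L M u') u v =
        (a - g u) ∘L (fderiv ℝ M u v) + (0 - fderiv ℝ g u v) ∘L M u := by
      have := congrArg (fun B => B v) hder
      simpa using this
    rw [h3, hag] at hv
    simpa using hv
  have hv3 := hsur _ hv2
  by_contra hne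
  apply hdet
  have : LinearMap.ker (((e : (Eu n →L[ℝ] ℝ) →L[ℝ] Eu n) ∘L fderiv ℝ g u : Eu n →L[ℝ] Eu n) :
      Eu n →ₗ[ℝ] Eu n) ≠ ⊥ := by
    rw [Submodule.ne_bot_iff]
    exact ⟨v, by simp [hv3], hne⟩
  exact LinearMap.det_eq_zero_iff_ker_ne_bot.2 this

end ME1M

theorem me1S (hT : StmtTan) : StmtME1 := by
  intro n V _ _ S p x hx
  have hU0 : p.L x ∈ p.U := p.mL hx
  set A := fderiv ℝ p.L x with hA
  have hP : ∀ u ∈ p.U, ContDiffAt ℝ ∞ p.P u := fun u hu => p.sP.contDiffAt (p.oU.mem_nhds hu)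
  have hc : ContinuousOn (fun u => A ∘L fderiv ℝ p.P u) p.U := fun u hu =>
    (continuousAt_const.clm_comp (((hP u hu).fderiv_right (m := 0)
      (by exact_mod_cast le_top)).continuousAt)).continuousWithinAt
  set W := p.U ∩ (fun u => A ∘L fderiv ℝ p.P u) ⁻¹' {B : Eu n →L[ℝ] Eu n | IsUnit B} with hW
  have hWo : IsOpen W := hc.isOpen_inter_preimage p.oU Units.isOpen
  have h0 : p.L x ∈ W := by
    refine ⟨hU0, ?_⟩
    have : A ∘L fderiv ℝ p.P (p.L x) = 1 := by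
      ext1 u
      exact ((hT V (Eu n) S).1 p x hx).2.1 u
    simp only [mem_preimage, mem_setOf_eq, this, isUnit_one]
  obtain ⟨K, hK, hKW, hKc⟩ := local_compact_nhds (hWo.mem_nhds h0)
  exact ⟨K, hK, fun u hu => (hKW hu).1, hKc, fun ℓ =>
    ME1M.key p.P A W K hWo hKW (fun u hu => hP u hu.1) (fun u hu => hu.2) ℓ⟩

end Vale.Agent.P265
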