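import Vale.Agent.P265.Fty

/-! Nondegeneracy of a critical point does not depend on the patch. -/

namespace Vale.Agent.P265

open Set Topology Filter
open scoped ContDiff

namespace ME2M

theorem hess {D : Type} [NormedAddCommGroup D] [NormedSpace ℝ D] {f f' : D → ℝ} {τ : D → D}
    {u' : D} (hf : ContDiffAt ℝ ∞ f (τ u')) (hτ : ContDiffAt ℝ ∞ τ u')
    (he : f' =ᶠ[𝓝 u'] f ∘ τ) (h0 : fderiv ℝ f (τ u') = 0) (v w : D) :
    fderiv ℝ (fderiv ℝ f') u' v w =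
      fderiv ℝ (fderiv ℝ f) (τ u') (fderiv ℝ τ u' v) (fderiv ℝ τ u' w) := by
  have hf2 : ContDiffAt ℝ 2 f (τ u') := hf.of_le (by
    change ((2 : ℕ∞) : WithTop ℕ∞) ≤ ((⊤ : ℕ∞) : WithTop ℕ∞)
    exact_mod_cast le_top)
  have hτ2 : ContDiffAt ℝ 2 τ u' := hτ.of_le (by
    change ((2 : ℕ∞) : WithTop ℕ∞) ≤ ((⊤ : ℕ∞) : WithTop ℕ∞)
    exact_mod_cast le_top)
  have d1 : DifferentiableAt ℝ (fderiv ℝ f) (τ u') :=
    (hf2.fderiv_right (m := 1) (by norm_num)).differentiableAt (by norm_num)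
  have d2 : DifferentiableAt ℝ (fderiv ℝ τ) u' :=
    (hτ2.fderiv_right (m := 1) (by norm_num)).differentiableAt (by norm_num)
  have d3 : DifferentiableAt ℝ τ u' := hτ2.differentiableAt (by norm_num)
  have e1 : ∀ᶠ y in 𝓝 (τ u'), DifferentiableAt ℝ f y :=
    (hf2.eventually (by simp)).mono fun y hy => hy.differentiableAt (by norm_num)
  have e2 : ∀ᶠ y in 𝓝 u', DifferentiableAt ℝ τ y :=
    (hτ2.eventually (by simp)).mono fun y hy => hy.differentiableAt (by norm_num)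
  have e3 : fderiv ℝ f' =ᶠ[𝓝 u'] fun y => (fderiv ℝ f (τ y)).comp (fderiv ℝ τ y) := by
    filter_upwards [he.eventuallyEq_nhds, d3.continuousAt.eventually e1, e2] with y h1 h2 h3
    rw [h1.fderiv_eq, fderiv_comp y h2 h3]
  have h4 := (d1.hasFDerivAt.comp u' d3.hasFDerivAt).clm_comp d2.hasFDerivAt
  have h5 := (h4.congr_of_eventuallyEq e3).fderiv
  rw [h5]
  simp [h0]

variable {V : Type} [NormedAddCommGroup V] [NormedSpace ℝ V]
  {D : Type} [NormedAddCommGroup D] [NormedSpace ℝ D] {S : Set V}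

theorem crit (hT : StmtTan) (p : Patch D S) (ℓ : V →L[ℝ] ℝ) {x : V} (hx : x ∈ S ∩ p.O) :
    fderiv ℝ (ℓ ∘ p.P) (p.L x) = 0 ↔ ∀ v ∈ Tan S x, ℓ v = 0 := by
  have hP : DifferentiableAt ℝ p.P (p.L x) :=
    (p.sP.contDiffAt (p.oU.mem_nhds (p.mL hx))).differentiableAt (by simp)
  rw [(ℓ.hasFDerivAt.comp _ hP.hasFDerivAt).fderiv, ((hT V D S).1 p x hx).1]
  constructor
  · rintro h _ ⟨u, rfl⟩
    simpa using congrArg (fun A : D →L[ℝ] ℝ => A u) h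
  · intro h
    ext u
    simpa using h _ ⟨u, rfl⟩

end ME2M

open ME2M

theorem me2S (hT : StmtTan) : StmtME2 := by
  intro n V _ _ S p ℓ x hx
  refine ⟨crit hT p ℓ hx, fun p' hx' hg h0 v hv => ?_⟩
  have hx2 : x ∈ S ∩ p'.O := ⟨hx.1, hx'⟩
  have hc : fderiv ℝ (ℓ ∘ p.P) (p.L x) = 0 := (crit hT p ℓ hx).2 ((crit hT p' ℓ hx2).1 h0)
  have hu' := p'.mL hx2
  have hPx : p'.P (p'.L x) = x := p'.PL x hx2
  have cP' : ContDiffAt ℝ ∞ p'.P (p'.L x) := p'.sP.contDiffAt (p'.oU.mem_nhds hu')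
  have cL : ContDiffAt ℝ ∞ p.L (p'.P (p'.L x)) := by
    rw [hPx]
    exact p.sL.contDiffAt (p.oO.mem_nhds hx.2)
  have hτ : ContDiffAt ℝ ∞ (p.L ∘ p'.P) (p'.L x) := cL.comp _ cP'
  have hτx : (p.L ∘ p'.P) (p'.L x) = p.L x := by simp [hPx]
  have hf : ContDiffAt ℝ ∞ (ℓ ∘ p.P) ((p.L ∘ p'.P) (p'.L x)) := by
    rw [hτx]
    exact ℓ.contDiff.contDiffAt.comp _ (p.sP.contDiffAt (p.oU.mem_nhds (p.mL hx)))
  have he : (ℓ ∘ p'.P) =ᶠ[𝓝 (p'.L x)] (ℓ ∘ p.P) ∘ (p.L ∘ p'.P) := by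
    have h1 : ∀ᶠ w in 𝓝 (p'.L x), p'.P w ∈ p.O :=
      cP'.continuousAt.eventually (p.oO.mem_nhds (by rw [hPx]; exact hx.2))
    filter_upwards [h1, p'.oU.mem_nhds hu'] with w a b
    simp only [Function.comp_apply]
    rw [p.PL _ ⟨(p'.mP b).1, a⟩]
  have hA : fderiv ℝ (p.L ∘ p'.P) (p'.L x) =
      (fderiv ℝ p.L x).comp (fderiv ℝ p'.P (p'.L x)) := by
    rw [fderiv_comp _ (cL.differentiableAt (by simp)) (cP'.differentiableAt (by simp)), hPx]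
  obtain ⟨t1, t2, t3⟩ := (hT V (Eu n) S).1 p x hx
  obtain ⟨s1, s2, -⟩ := (hT V (Eu n) S).1 p' x hx2
  have key := hess hf hτ he (by rw [hτx]; exact hc) v
  rw [hv, hτx, hA] at key
  have h1 : fderiv ℝ p.L x (fderiv ℝ p'.P (p'.L x) v) = 0 := by
    refine hg hc _ ?_
    ext w
    have hw : fderiv ℝ p.P (p.L x) w ∈ range (fderiv ℝ p'.P (p'.L x)) := by
      rw [← s1, t1]
      exact ⟨w, rfl⟩
    obtain ⟨w', hw'⟩ := hw
    have := key w'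
    simp only [ContinuousLinearMap.comp_apply, hw', t2] at this
    simpa using this.symm
  have h2 := t3 (fderiv ℝ p'.P (p'.L x) v) (by rw [s1]; exact ⟨v, rfl⟩)
  rw [h1, map_zero] at h2
  rw [← s2 v, ← h2, map_zero]

end Vale.Agent.P265
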