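import Vale.Agent.P265.Fty

namespace Vale.Agent.P265

open Set Topology Filter
open scoped ContDiff

namespace ME3M

variable {n : ℕ} {V : Type} [NormedAddCommGroup V] [NormedSpace ℝ V] {S : Set V}

lemma cL (p : Patch (Eu n) S) {x : V} (hx : x ∈ p.O) : ContinuousAt p.L x :=
  p.sL.continuousOn.continuousAt (p.oO.mem_nhds hx)

lemma iso (p : Patch (Eu n) S) (ℓ : V →L[ℝ] ℝ) {u : Eu n} (hu : u ∈ p.U) (hg : GoodL p ℓ u) :
    ∀ᶠ w in 𝓝 u, fderiv ℝ (ℓ ∘ p.P) w = 0 → w = u := by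
  have a : ContDiffAt ℝ ∞ (ℓ ∘ p.P) u :=
    ℓ.contDiff.contDiffAt.comp u (p.sP.contDiffAt (p.oU.mem_nhds hu))
  have b : DifferentiableAt ℝ (fderiv ℝ (ℓ ∘ p.P)) u :=
    (a.fderiv_right (m := 1) (WithTop.coe_le_coe.2 (le_top : (1 + 1 : ℕ∞) ≤ ⊤))).differentiableAt one_ne_zero
  by_cases h : fderiv ℝ (ℓ ∘ p.P) u = 0
  · obtain ⟨C, -, hC⟩ := LinearMap.exists_antilipschitzWith
      (fderiv ℝ (fderiv ℝ (ℓ ∘ p.P)) u).toLinearMap (LinearMap.ker_eq_bot'.2 (hg h))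
    have c := b.hasFDerivAt.eventually_ne (c := 0) ⟨C, hC⟩
    rw [eventually_nhdsWithin_iff] at c
    exact c.mono fun w hw h0 => by_contra fun hn => hw hn h0
  · exact (b.continuousAt.eventually_ne h).mono fun w hw h0 => (hw h0).elim

end ME3M

open ME3M in
theorem me3S (h0 : StmtME0) (h1 : StmtME1) (h2 : StmtME2) : StmtME3 := by
  intro n V _ _ S hS hA
  choose p hp using hA
  choose K hK hU hC hD using fun x (hx : x ∈ S) => h1 n V S (p x hx) x ⟨hx, hp x hx⟩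
  obtain ⟨t, ht⟩ := hS.elim_nhds_subcover' (fun x hx => (p x hx).O ∩ (p x hx).L ⁻¹' K x hx)
    fun x hx => inter_mem ((p x hx).oO.mem_nhds (hp x hx)) (cL _ (hp x hx) (hK x hx))
  obtain ⟨ℓ, hℓ⟩ := (dense_biInter_of_isOpen (S := (t : Set S))
    (f := fun x => {ℓ : V →L[ℝ] ℝ | ∀ u ∈ K x x.2, GoodL (p x x.2) ℓ u})
    (fun x _ => h0 n V S _ _ (hC x x.2) (hU x x.2)) t.countable_toSet
    fun x _ => hD x x.2).nonempty
  have G : ∀ p' : Patch (Eu n) S, ∀ x ∈ S ∩ p'.O, GoodL p' ℓ (p'.L x) := by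
    intro p' x hx
    obtain ⟨y, hy, hxy⟩ := mem_iUnion₂.1 (ht hx.1)
    exact (h2 n V S (p y y.2) ℓ x ⟨hx.1, hxy.1⟩).2 p' hx.2 (mem_iInter₂.1 hℓ y hy _ hxy.2)
  refine ⟨ℓ, G, ?_⟩
  obtain ⟨s, -, hs⟩ := hS.elim_nhds_subcover
    (fun x => {y | (y ∈ S ∧ ∀ v ∈ Tan S y, ℓ v = 0) → y = x}) fun x hx => by
      have a := (cL _ (hp x hx)).eventually
        (iso (p x hx) ℓ ((p x hx).mL ⟨hx, hp x hx⟩) (G _ x ⟨hx, hp x hx⟩))
      filter_upwards [a, (p x hx).oO.mem_nhds (hp x hx)] with y hy hO hc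
      have e := hy ((h2 n V S (p x hx) ℓ y ⟨hc.1, hO⟩).1.2 hc.2)
      rw [← (p x hx).PL y ⟨hc.1, hO⟩, e, (p x hx).PL x ⟨hx, hp x hx⟩]
  refine s.finite_toSet.subset fun y hy => ?_
  obtain ⟨x, hx, hxy⟩ := mem_iUnion₂.1 (hs hy.1)
  rw [hxy hy]
  exact hx

end Vale.Agent.P265
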