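import Vale.Agent.P265.Fty

/-! The stable Morse number of a compact embedded manifold is finite. -/

namespace Vale.Agent.P265

open Set Topology Filter
open scoped ContDiff Manifold

theorem me4S (h1 : StmtBr1) (h2 : StmtME2) (h3 : StmtME3) : StmtME4 := by
  intro n V _ _ S h hS
  let _ := h.cs
  obtain ⟨ℓ, hG, hF⟩ := h3 n V S hS h
  set F : S × Eu 0 → ℝ := fun q => ℓ q.1 with hF'
  have mem : ∀ x : S, (x : V) ∈ S ∩ (h.pt x).O := fun x => ⟨x.2, h.mem_pt x⟩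
  have nb : ∀ q : S × Eu 0, ∀ᶠ u in 𝓝 (locPt n q), u.1 ∈ (h.pt q.1).U := fun q =>
    ((h.pt q.1).oU.preimage continuous_fst).mem_nhds ((h.pt q.1).mL (mem q.1))
  have cd : ∀ (x : S), ∀ u ∈ (h.pt x).U, ContDiffAt ℝ ∞ (ℓ ∘ (h.pt x).P) u := fun x u hu =>
    ℓ.contDiff.contDiffAt.comp u ((h.pt x).sP.contDiffAt ((h.pt x).oU.mem_nhds hu))
  have e1 : ∀ q : S × Eu 0, fderiv ℝ (locFun (n := n) F q) =ᶠ[𝓝 (locPt n q)] fun u =>
      fderiv ℝ (ℓ ∘ (h.pt q.1).P) u.1 ∘L ContinuousLinearMap.fst ℝ (Eu n) (Eu 0) := fun q => by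
    have e0 : locFun (n := n) F q =ᶠ[𝓝 (locPt n q)] (ℓ ∘ (h.pt q.1).P) ∘ Prod.fst :=
      (nb q).mono fun u hu => congrArg ℓ ((h.pt q.1).chart_symm q.1 hu)
    refine e0.fderiv.trans ((nb q).mono fun u hu => ?_)
    exact (((cd q.1 u.1 hu).differentiableAt (by simp)).hasFDerivAt.comp u hasFDerivAt_fst).fderiv
  have inj : ∀ A : Eu n →L[ℝ] ℝ, A ∘L ContinuousLinearMap.fst ℝ (Eu n) (Eu 0) = 0 → A = 0 :=
    fun A hA => ContinuousLinearMap.ext fun v => DFunLike.congr_fun hA (v, 0)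
  have cr : ∀ q ∈ critSet n F, fderiv ℝ (ℓ ∘ (h.pt q.1).P) ((h.pt q.1).L q.1) = 0 := fun q hq =>
    inj _ ((e1 q).eq_of_nhds.symm.trans hq)
  refine lt_of_le_of_lt (sInf_le ⟨0, F, ⟨?_, fun q hq v hv => ?_, 0, 1, ?_, one_pos,
    fun x z hz => ?_⟩, rfl⟩) (Set.Finite.encard_lt_top ?_)
  · exact ℓ.contMDiff.comp ((h1 n V S h).2.1.comp contMDiff_fst)
  · refine Prod.ext (hG _ _ (mem q.1) (cr q hq) v.1 (inj _ ?_)) (Subsingleton.elim _ _)
    have d := ((((cd q.1 _ (nb q).self_of_nhds).fderiv_right (m := ∞) (by simp)).differentiableAt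
      (by simp)).hasFDerivAt.comp (locPt n q) hasFDerivAt_fst).clm_comp
      (hasFDerivAt_const (ContinuousLinearMap.fst ℝ (Eu n) (Eu 0)) _)
    rw [(e1 q).fderiv_eq] at hv
    have := d.fderiv
    simp only [Function.comp_def] at this hv
    rw [this] at hv
    simp at hv
    exact hv
  · exact QuadraticMap.nondegenerate_iff_radical_eq_bot.2 (Subsingleton.elim _ _)
  · rw [Subsingleton.elim z 0, norm_zero] at hz
    linarith
  · refine (hF.preimage (f := fun q : S × Eu 0 => (q.1 : V)) fun a _ b _ hab =>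
      Prod.ext (Subtype.ext hab) (Subsingleton.elim _ _)).subset fun q hq => ⟨q.1.2, ?_⟩
    exact (h2 n V S _ ℓ _ (mem q.1)).1.1 (cr q hq)

end Vale.Agent.P265
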