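import Vale.Agent.P265.Mor

namespace Vale.Agent.P265

open Set Topology

namespace MorseM

variable {E W : Type} [MetricSpace E] [TopologicalSpace W]

theorem good {π : E → W} {ι : E → E} {m : ℕ} {K : Set E} (hc : Cov π ι m) (hK : Good ι K)
    {f : W → ℝ} (hf : Continuous f) (t : ℝ) : Good ι (Sub π K f t) := by
  refine ⟨hK.1.inter_right (isClosed_le (hf.comp hc.1) continuous_const), ?_,
    hK.2.2.1.mono inter_subset_left, fun x hx => hK.2.2.2 x hx.1⟩
  intro x hx
  refine ⟨hK.2.1 hx.1, ?_⟩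
  have := hx.2
  simp only [mem_setOf_eq] at this ⊢
  rw [hc.2.2.1]; exact this

theorem sub_mono {π : E → W} {K : Set E} {f g : W → ℝ} {s t : ℝ} (h : ∀ w, g w ≤ f w)
    (hst : s ≤ t) : Sub π K f s ⊆ Sub π K g t :=
  fun x hx => ⟨hx.1, (h _).trans (le_trans hx.2 hst)⟩

theorem bump_le {π : E → W} {ι : E → E} {m : ℕ} {K : Set E} {f f' : W → ℝ} {p : W} {l : ℕ}
    {η : ℝ} (h : Bump π ι m K f f' p l η) : 0 < η ∧ ∀ w, f' w ≤ f w := by
  obtain ⟨μ, c, R, g, U, s, -, hη, -, -, -, -, -, ha, -, -, h0, h1, h2, -⟩ := h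
  refine ⟨hη, fun w => ?_⟩
  by_cases hw : w ∈ c.symm '' Metric.closedBall 0 R
  · obtain ⟨u, hu, rfl⟩ := hw
    rw [(h1 u hu).1, (h1 u hu).2]
    have := ha (le_max_left (‖u.1‖ ^ 2 + 2 * ‖u.2‖ ^ 2) (2 * η))
    rw [h0 _ (le_max_right _ _)] at this
    linarith
  · exact (h2 w hw).le

theorem level (hL : StmtLevel) {π : E → W} {ι : E → E} {m : ℕ} {ε : K7} {K : Set E}
    (hc : Cov π ι m) (hK : Good ι K) (hε : ε ≠ 0) {f : W → ℝ} (hf : Continuous f) {a b : ℝ}
    (hab : a ≤ b) (hp : ∀ e ∈ K, a ≤ f (π e) → f (π e) ≤ b → Push (f ∘ π) K e) :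
    HasDim ι ε (Sub π K f b) (Sub π K f a) 0 :=
  hL E ι ε K (f ∘ π) a b hε hK (hf.comp hc.1).continuousOn
    (fun x _ => by simp only [Function.comp, hc.2.2.1]) hab hp

end MorseM

open MorseM in
theorem morseS (hL : StmtLevel) (h1 : StmtStep1) (h2 : StmtStep2) (h3 : StmtStep3)
    (hT : StmtTri2) : StmtMorse := by
  intro E W D _ _ _ _ _ _ π ι m ε c K f a b C ind hc hK hε hεm hM
  classical
  induction hn : C.card generalizing f a C with
  | zero =>
    rw [Finset.card_eq_zero] at hn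
    subst hn
    refine ⟨0, 0, level hL hc hK hε hM.cont hM.lt.le
      (fun e he ha hb => hM.push e he ha hb (by simp)), fun n => ?_⟩
    cases n <;> simp [sh]
  | succ k ih =>
    have hne : C.Nonempty := by rw [← Finset.card_pos]; omega
    obtain ⟨p, hp, hmin⟩ := C.exists_min_image f hne
    obtain ⟨f1, M1, ea, eb, ev, hq⟩ := h1 E W D π ι m c K f a b C ind p hc hM hp
    have hmin1 : ∀ w ∈ C, f1 p ≤ f1 w := fun w hw => by rw [ev p hp, ev w hw]; exact hmin w hw
    obtain ⟨f2, η, ha', M2, eb2, hB⟩ := h2 E W D π ι m c K f1 a b C ind p hc hK.1 M1 hp hmin1 hq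
    obtain ⟨hη, hle⟩ := bump_le hB
    obtain ⟨bb, q, hbb, hcard⟩ := ih f2 (f1 p - η) (C.erase p) M2
      (by rw [Finset.card_erase_of_mem hp]; omega)
    have d3 := h3 E W π ι m ε K f1 f2 p (ind p) η hc hK hε hεm M1.cont M2.cont hB
    have hpb := (M1.val p hp).2
    have d0 : HasDim ι ε (Sub π K f1 (f1 p - η)) (Sub π K f1 a) 0 :=
      level hL hc hK hε M1.cont ha'.le fun e he h4 h5 => M1.push e he h4 (by linarith) fun hw => by
        have := hmin1 _ hw
        linarith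
    have g1 := good hc hK M1.cont
    have g2 := good hc hK M2.cont
    have s1 : Sub π K f1 a ⊆ Sub π K f1 (f1 p - η) := sub_mono (fun _ => le_rfl) ha'.le
    have s2 : Sub π K f1 (f1 p - η) ⊆ Sub π K f2 (f1 p - η) := sub_mono hle le_rfl
    have s3 : Sub π K f2 (f1 p - η) ⊆ Sub π K f2 b := sub_mono (fun _ => le_rfl) M2.lt.le
    have d4 : HasDim ι ε (Sub π K f2 (f1 p - η)) (Sub π K f1 a) (dl (ind p + 1)) := fun n => by
      rw [(hT E ι ε _ _ _ hε (g2 _) (g1 _) (g1 _) s1 s2).2.2.1 d0 n]; exact d3 n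
    obtain ⟨c2, q2, d5, hs⟩ :=
      (hT E ι ε _ _ _ hε (g2 b) (g2 _) (g1 a) (s1.trans s2) s3).1 bb _ hbb d4
    rw [eb2, eb, ea] at d5
    refine ⟨c2, q + q2, d5, fun n => ?_⟩
    have e1 : sh (q + q2) n = sh q n + sh q2 n := by cases n <;> simp [sh]
    have e2 : (C.filter fun w => ind w + 1 = n).card =
        ((C.erase p).filter fun w => ind w + 1 = n).card + dl (ind p + 1) n := by
      conv_lhs => rw [← Finset.insert_erase hp, Finset.filter_insert]
      by_cases h : ind p + 1 = n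
      · rw [if_pos h, Finset.card_insert_of_notMem (by simp)]; simp [dl, h]
      · rw [if_neg h]; simp [dl, Ne.symm h]
    have e3 := hs n
    have e4 := hcard n
    rw [e1, e2, Pi.add_apply]
    omega

end Vale.Agent.P265
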