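import Vale.Agent.P265.Ex

namespace Vale.Agent.P265

open Set Topology Complex Filter
open scoped ContDiff ComplexConjugate

namespace PhiM

theorem mX_abs (p : VX) : |mX p| ≤ 1 := by
  rw [mX, abs_div, abs_of_nonneg (Real.sqrt_nonneg _)]
  refine div_le_one_of_le₀ ?_ (Real.sqrt_nonneg _)
  refine Real.abs_le_sqrt ?_
  nlinarith [sq_nonneg (xi p).im]

theorem low (η ε : ℝ) (hη : 0 < η) (p : VX) (hc : ContinuousAt fX p) (h : fX p < √2 - η) :
    PhiF η ε =ᶠ[𝓝 p] fun q => √2 + fX q := by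
  filter_upwards [hc.eventually (gt_mem_nhds h)] with q hq
  have : Real.smoothTransition ((fX q - (√2 - η)) / (η / 2)) = 0 :=
    Real.smoothTransition.zero_of_nonpos
      (div_nonpos_of_nonpos_of_nonneg (by linarith) (by linarith))
  rw [PhiF, this]
  ring

theorem high (η ε : ℝ) (hη : 0 < η) (p : VX) (hc : ContinuousAt fX p) (h : √2 - η / 2 < fX p) :
    PhiF η ε =ᶠ[𝓝 p] fun q => √2 + fX q + ε * mX q := by
  filter_upwards [hc.eventually (lt_mem_nhds h)] with q hq
  have : Real.smoothTransition ((fX q - (√2 - η)) / (η / 2)) = 1 :=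
    Real.smoothTransition.one_of_one_le (by
      rw [le_div_iff₀ (by linarith)]
      linarith)
  rw [PhiF, this]
  ring

end PhiM

open PhiM in
theorem phiS (hX : StmtXAtl) (h0 : StmtF0) (h1 : StmtF1) (h2 : StmtF2) (h3 : StmtF3)
    (h4 : StmtF4) : StmtPhi := by
  obtain ⟨η, hη, hη1, hsm⟩ := h0.2
  obtain ⟨ε, hε, hε1, hF3⟩ := h3 η hη hη1 hsm
  have hs2 : (1 : ℝ) < √2 := by
    rw [Real.lt_sqrt (by norm_num)]
    norm_num
  have hcont : ∀ p ∈ XX, ContinuousAt fX p := fun p hp => (h0.1 p hp).2.2.1.continuousAt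
  have hS8 : ∀ p ∈ S8, fX p < √2 - η := by
    rintro p ⟨hp, -, -, hx, hh⟩
    by_contra hc
    have ht := hsm p hp ((not_lt.1 hc).trans (le_abs_self _))
    have hs := hp.2.2.2
    rw [hx, normSq_apply, hh] at hs
    have := abs_lt.1 ht
    nlinarith
  have hsub : CX (PhiF η ε) ⊆ S8 ∪ Stwo := by
    rintro p ⟨hp, hlo, hcr⟩
    rw [hX.2.2 p hp] at hcr
    by_cases hc : √2 - η ≤ fX p
    · exact Or.inr (hF3 p hp hc hcr)
    · have hc' : fX p < √2 - η := not_le.1 hc
      have hev := low η ε hη p (hcont p hp) hc'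
      have hfd : fderiv ℝ (PhiF η ε) p = fderiv ℝ fX p := by
        rw [hev.fderiv_eq, fderiv_const_add]
      have hdf : ∀ u, tanX p u → fderiv ℝ fX p u = 0 := fun u hu => by
        rw [← hfd]
        exact hcr u hu
      obtain ⟨hai, hbi, ha, -, hab⟩ := (h1 p hp).2.2.2.2.2.2.2.2.2.2 hdf
      obtain ⟨-, -, -, hiff, hiff', -⟩ := h0.1 p hp
      rcases hab with hab | ⟨hx, hh⟩
      · exfalso
        rcases lt_trichotomy (ca p).re 0 with h | h | h
        · have := hiff'.2 ⟨hab, hai, h⟩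
          linarith
        · exact ha (Complex.ext h hai)
        · have := hiff.2 ⟨hab, hai, h⟩
          linarith
      · exact Or.inl ⟨hp, hai, hbi, hx, hh⟩
  refine ⟨PhiF η ε, η, hη, ?_, ?_, ?_, ?_, ?_⟩
  · intro p hp
    obtain ⟨-, -, hcf, -, -, -, hre, -⟩ := h0.1 p hp
    by_cases hc : √2 - η ≤ fX p
    · have ht := hsm p hp (hc.trans (le_abs_self _))
      have hcm := (hre ht.le).2.2.2
      have hst : ContDiffAt ℝ ∞ (fun q => Real.smoothTransition ((fX q - (√2 - η)) / (η / 2))) p :=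
        Real.smoothTransition.contDiffAt.comp p ((hcf.sub contDiffAt_const).div_const _)
      exact (contDiffAt_const.add hcf).add ((contDiffAt_const.mul hst).mul hcm)
    · exact (contDiffAt_const.add hcf).congr_of_eventuallyEq
        (low η ε hη p (hcont p hp) (not_le.1 hc))
  · intro p hp h
    exact low η ε hη p (hcont p hp) (by linarith)
  · intro p hp h
    by_cases hc : √2 - η ≤ fX p
    · have a1 := Real.smoothTransition.nonneg ((fX p - (√2 - η)) / (η / 2))
      have a2 := Real.smoothTransition.le_one ((fX p - (√2 - η)) / (η / 2))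
      have a3 := mX_abs p
      have a4 : |ε * Real.smoothTransition ((fX p - (√2 - η)) / (η / 2)) * mX p| ≤ 1 * 1 * 1 := by
        rw [abs_mul, abs_mul, abs_of_pos hε, abs_of_nonneg a1]
        gcongr
      have a5 := neg_abs_le (ε * Real.smoothTransition ((fX p - (√2 - η)) / (η / 2)) * mX p)
      rw [PhiF]
      linarith
    · have := (low η ε hη p (hcont p hp) (not_le.1 hc)).eq_of_nhds
      rw [this]
      linarith
  · calc (CX (PhiF η ε)).encard ≤ (S8 ∪ Stwo).encard := encard_le_encard hsub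
      _ ≤ S8.encard + Stwo.encard := encard_union_le _ _
      _ ≤ 8 + 2 := add_le_add h2.1 h4.1
      _ = 10 := by norm_num
  · intro p hp
    rcases hsub hp with h | h
    · exact h2.2 p h _ (low η ε hη p (hcont p h.1) (hS8 p h))
    · have hf : fX p = √2 := (h0.1 p h.1).2.2.2.1.2 ⟨h.2.1, h.2.2.1, h.2.2.2.1⟩
      exact h4.2 p h ε _ hε.ne' (high η ε hη p (hcont p h.1) (by linarith))

end Vale.Agent.P265
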