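import Vale.Agent.P265.Geo

namespace Vale.Agent.P265

open Set Topology Asymptotics Filter
open scoped ContDiff

namespace ProdM

variable {V V' : Type} [NormedAddCommGroup V] [NormedSpace ℝ V] [NormedAddCommGroup V']
  [NormedSpace ℝ V']

theorem fd (r : V' →L[ℝ] V) {g : V → ℝ} (hg : ContDiff ℝ ∞ g) (x u : V') :
    fderiv ℝ (g ∘ r) x u = fderiv ℝ g (r x) (r u) := by
  rw [fderiv_comp x (hg.differentiable (by simp) _) r.differentiableAt, r.fderiv]
  rfl

theorem frm_lift (r : V' →L[ℝ] V) {l : List (Tr V)} (hl : SmL l) (x u v : V') :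
    frm (liftL r l) x u v = frm l (r x) (r u) (r v) := by
  unfold frm liftL
  rw [List.map_map]
  congr 1
  refine List.map_congr_left fun τ hτ => ?_
  obtain ⟨-, h2, h3⟩ := hl τ hτ
  simp only [Function.comp_apply, w2, fd r h2, fd r h3]

theorem dfrm_lift (r : V' →L[ℝ] V) {l : List (Tr V)} (hl : SmL l) (x u v w : V') :
    dfrm (liftL r l) x u v w = dfrm l (r x) (r u) (r v) (r w) := by
  unfold dfrm liftL
  rw [List.map_map]
  congr 1
  refine List.map_congr_left fun τ hτ => ?_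
  obtain ⟨h1, h2, h3⟩ := hl τ hτ
  simp only [Function.comp_apply, w3, w2, fd r h1, fd r h2, fd r h3]

theorem smL_lift (r : V' →L[ℝ] V) {l : List (Tr V)} (hl : SmL l) : SmL (liftL r l) := by
  intro τ hτ
  obtain ⟨σ, hσ, rfl⟩ := List.mem_map.1 hτ
  obtain ⟨h1, h2, h3⟩ := hl σ hσ
  exact ⟨h1.comp r.contDiff, h2.comp r.contDiff, h3.comp r.contDiff⟩

theorem frm_zero_right (l : List (Tr V)) (x u : V) : frm l x u 0 = 0 := by
  simp [frm, w2]

theorem frm_zero_left (l : List (Tr V)) (x u : V) : frm l x 0 u = 0 := by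
  simp [frm, w2]

theorem frm_prod {l : List (Tr V)} {l' : List (Tr V')} (hl : SmL l) (hl' : SmL l')
    (x u v : V × V') : frm (liftL Prod.fst l ++ liftL Prod.snd l') x u v =
      frm l x.1 u.1 v.1 + frm l' x.2 u.2 v.2 := by
  have h1 := frm_lift (ContinuousLinearMap.fst ℝ V V') hl x u v
  have h2 := frm_lift (ContinuousLinearMap.snd ℝ V V') hl' x u v
  simp only [ContinuousLinearMap.coe_fst', ContinuousLinearMap.coe_snd'] at h1 h2
  rw [← h1, ← h2]
  simp only [frm, List.map_append, List.sum_append]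

theorem dfrm_prod {l : List (Tr V)} {l' : List (Tr V')} (hl : SmL l) (hl' : SmL l')
    (x u v w : V × V') : dfrm (liftL Prod.fst l ++ liftL Prod.snd l') x u v w =
      dfrm l x.1 u.1 v.1 w.1 + dfrm l' x.2 u.2 v.2 w.2 := by
  have h1 := dfrm_lift (ContinuousLinearMap.fst ℝ V V') hl x u v w
  have h2 := dfrm_lift (ContinuousLinearMap.snd ℝ V V') hl' x u v w
  simp only [ContinuousLinearMap.coe_fst', ContinuousLinearMap.coe_snd'] at h1 h2
  rw [← h1, ← h2]
  simp only [dfrm, List.map_append, List.sum_append]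

theorem zero_tan {S : Set V} {x : V} (hx : x ∈ S) : (0 : V) ∈ Tan S x :=
  ⟨fun _ => x, rfl, hasDerivAt_const _ _, Eventually.of_forall fun _ => hx⟩

end ProdM

open ProdM

theorem prodS (hT : StmtTan) : StmtProd := by
  intro V V' _ _ _ _ S S' l l' h h'
  have hTan : ∀ x : V × V', Tan (S ×ˢ S') x = Tan S x.1 ×ˢ Tan S' x.2 := fun x =>
    ((hT V V S).2.2.2.2.2 V' V' S').2 x.1 x.2
  refine ⟨⟨?_, ?_, ?_⟩, ?_⟩
  · intro τ hτ
    rcases List.mem_append.1 hτ with hτ | hτ
    · exact smL_lift (ContinuousLinearMap.fst ℝ V V') h.1 τ hτ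
    · exact smL_lift (ContinuousLinearMap.snd ℝ V V') h'.1 τ hτ
  · intro x hx u hu v hv w hw
    rw [hTan] at hu hv hw
    rw [dfrm_prod h.1 h'.1, h.2.1 _ hx.1 _ hu.1 _ hv.1 _ hw.1, h'.2.1 _ hx.2 _ hu.2 _ hv.2 _ hw.2,
      add_zero]
  · intro x hx v hv H
    rw [hTan] at hv H
    refine Prod.ext (h.2.2 _ hx.1 _ hv.1 fun w hw => ?_) (h'.2.2 _ hx.2 _ hv.2 fun w hw => ?_)
    · have := H (w, 0) ⟨hw, zero_tan hx.2⟩
      rwa [frm_prod h.1 h'.1, frm_zero_right, add_zero] at this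
    · have := H (0, w) ⟨zero_tan hx.1, hw⟩
      rwa [frm_prod h.1 h'.1, frm_zero_right, zero_add] at this
  · rintro ρ K ⟨r1, r2, r3, r4, r5, r6, r7, r8⟩
    have e : ∀ t (x : V × V'), (ContinuousLinearMap.id ℝ V).prodMap (ρ t) x = (x.1, ρ t x.2) :=
      fun _ _ => rfl
    refine ⟨fun x => by rw [e, r1], fun s t x => by rw [e, e, e, r2], fun x => by rw [e, r3], ?_,
      r5.comp contDiff_snd, fun t x hx => ⟨hx.1, r6 t hx.2⟩, ?_, ?_⟩
    · simp only [e]
      exact (contDiff_fst.comp contDiff_snd).prodMk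
        (r4.comp (contDiff_fst.prodMk (contDiff_snd.comp contDiff_snd)))
    · intro t x hx u hu v hv
      rw [hTan] at hu hv
      rw [frm_prod h.1 h'.1, frm_prod h.1 h'.1, e, e, e, r7 t _ hx.2 _ hu.2 _ hv.2]
    · intro x hx v hv w hw
      rw [hTan] at hw
      have h0 := (ContinuousLinearMap.fst ℝ V V').hasFDerivAt.comp_hasDerivAt (0 : ℝ) hv
      have h1 : HasDerivAt (fun _ : ℝ => x.1) v.1 0 := h0
      have h2 : HasDerivAt (fun t : ℝ => ρ t x.2) v.2 0 :=
        (ContinuousLinearMap.snd ℝ V V').hasFDerivAt.comp_hasDerivAt (0 : ℝ) hv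
      have h3 : v.1 = 0 := h1.unique (hasDerivAt_const _ _)
      rw [frm_prod h.1 h'.1, h3, frm_zero_left, zero_add, r8 _ hx.2 _ h2 _ hw.2]
      exact (fd (ContinuousLinearMap.snd ℝ V V') r5 x w).symm

end Vale.Agent.P265
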