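import Vale.Agent.P265.Mor

namespace Vale.Agent.P265

open Set Topology Filter Metric

namespace PushCM

theorem drop {D : Type} [NormedAddCommGroup D] [NormedSpace ℝ D] {g : D → ℝ} {S : Set D}
    {u v : D} {s : ℝ} (hs : 0 < s) (hS : ∀ a ∈ Icc 0 s, u + a • v ∈ S)
    (hg : ∀ w ∈ S, DifferentiableAt ℝ g w ∧ fderiv ℝ g w v < 0) : g (u + s • v) < g u := by
  have hd : ∀ a ∈ Icc 0 s, HasDerivAt (fun a : ℝ => g (u + a • v)) (fderiv ℝ g (u + a • v) v) a := by
    intro a ha
    have h1 : HasDerivAt (fun a : ℝ => u + a • v) v a := by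
      simpa using ((hasDerivAt_id a).smul_const v).const_add u
    exact (hg _ (hS a ha)).1.hasFDerivAt.comp_hasDerivAt a h1
  obtain ⟨c, hc, hc'⟩ := exists_hasDerivAt_eq_slope (fun a : ℝ => g (u + a • v))
    (fun a => fderiv ℝ g (u + a • v) v) hs
    (fun a ha => (hd a ha).continuousAt.continuousWithinAt)
    (fun a ha => hd a (Ioo_subset_Icc_self ha))
  have h2 := (hg _ (hS c (Ioo_subset_Icc_self hc))).2
  rw [hc', sub_zero, div_neg_iff] at h2
  rcases h2 with ⟨-, h⟩ | ⟨h, -⟩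
  · linarith
  · simpa using h

theorem push_chart {E D : Type} [MetricSpace E] [NormedAddCommGroup D] [NormedSpace ℝ D]
    [FiniteDimensional ℝ D] (Φ : OpenPartialHomeomorph E D) (F : E → ℝ) (K : Set E) (e : E)
    (g : D → ℝ) (he : e ∈ Φ.source) (hK : e ∈ interior K)
    (hg : ∀ u ∈ Φ.target, F (Φ.symm u) = g u) (hc : ContDiffAt ℝ 1 g (Φ e))
    (hd : fderiv ℝ g (Φ e) ≠ 0) : Push F K e := by
  classical
  intro N hN
  set u₀ := Φ e with hu₀
  obtain ⟨v, hv1, hv⟩ : ∃ v : D, ‖v‖ ≤ 1 ∧ fderiv ℝ g u₀ v < 0 := by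
    obtain ⟨w, hw⟩ : ∃ w, fderiv ℝ g u₀ w ≠ 0 := by
      by_contra h
      push Not at h
      exact hd (ContinuousLinearMap.ext h)
    have hp : 0 < (‖w‖ + 1)⁻¹ := by positivity
    have hn : ‖(‖w‖ + 1)⁻¹ • w‖ ≤ 1 := by
      rw [norm_smul, Real.norm_of_nonneg hp.le, inv_mul_le_iff₀ (by positivity)]
      linarith
    rcases lt_or_gt_of_ne hw with h | h
    · refine ⟨(‖w‖ + 1)⁻¹ • w, hn, ?_⟩
      rw [map_smul, smul_eq_mul]
      exact mul_neg_of_pos_of_neg hp h
    · refine ⟨-((‖w‖ + 1)⁻¹ • w), by rwa [norm_neg], ?_⟩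
      rw [map_neg, map_smul, smul_eq_mul, neg_lt_zero]
      exact mul_pos hp h
  have hu : u₀ ∈ Φ.target := Φ.map_source he
  have ev : ∀ᶠ u in 𝓝 u₀, u ∈ Φ.target ∧ Φ.symm u ∈ N ∩ K ∧
      DifferentiableAt ℝ g u ∧ fderiv ℝ g u v < 0 := by
    have e1 : ∀ᶠ u in 𝓝 u₀, u ∈ Φ.target := Φ.open_target.mem_nhds hu
    have e2 : ∀ᶠ u in 𝓝 u₀, Φ.symm u ∈ N ∩ K := by
      have := Φ.continuousAt_symm hu
      apply this
      rw [hu₀, Φ.left_inv he]
      exact inter_mem hN (mem_interior_iff_mem_nhds.1 hK)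
    have e3 : ∀ᶠ u in 𝓝 u₀, DifferentiableAt ℝ g u :=
      (hc.eventually (by simp)).mono fun u hu => hu.differentiableAt one_ne_zero
    have e4 : ∀ᶠ u in 𝓝 u₀, fderiv ℝ g u v < 0 := by
      have h1 : ContinuousAt (fderiv ℝ g) u₀ :=
        (hc.fderiv_right (m := 0) (by simp)).continuousAt
      have h2 : ContinuousAt (fun u => fderiv ℝ g u v) u₀ := h1.clm_apply continuousAt_const
      exact h2.eventually (gt_mem_nhds hv)
    exact e1.and (e2.and (e3.and e4))
  obtain ⟨r, hr, hB⟩ := Metric.nhds_basis_closedBall.eventually_iff.1 ev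
  set β : D → ℝ := fun u => r - dist u u₀ with hβ
  have hmem : ∀ u ∈ closedBall u₀ r, ∀ a ∈ Icc 0 (β u), u + a • v ∈ closedBall u₀ r := by
    intro u _ a ha
    rw [mem_closedBall]
    have h1 : dist (u + a • v) u ≤ a := by
      rw [dist_eq_norm, add_sub_cancel_left, norm_smul, Real.norm_of_nonneg ha.1]
      exact mul_le_of_le_one_right ha.1 hv1
    have h2 := dist_triangle (u + a • v) u u₀
    have h3 := ha.2
    simp only [hβ] at h3
    linarith
  have htb : ∀ u ∈ closedBall u₀ r, ∀ t ∈ Icc (0 : ℝ) 1, t * β u ∈ Icc 0 (β u) := by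
    intro u hu t ht
    have : 0 ≤ β u := sub_nonneg.2 (mem_closedBall.1 hu)
    exact ⟨mul_nonneg ht.1 this, mul_le_of_le_one_left this ht.2⟩
  set S : Set E := Φ.source ∩ Φ ⁻¹' closedBall u₀ r with hS
  have hSc : IsClosed S := by
    have : S = Φ.symm '' closedBall u₀ r := by
      rw [Φ.symm_image_eq_source_inter_preimage fun u hu => (hB hu).1]
    rw [this]
    exact ((isCompact_closedBall u₀ r).image_of_continuousOn
      (Φ.continuousOn_symm.mono fun u hu => (hB hu).1)).isClosed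
  have hTc : IsClosed (Φ.source ∩ Φ ⁻¹' ball u₀ r)ᶜ :=
    (Φ.isOpen_inter_preimage isOpen_ball).isClosed_compl
  refine ⟨fun t x => if x ∈ S then Φ.symm (Φ x + (t * β (Φ x)) • v) else x, ?_, ?_, ?_, ?_⟩
  · have c1 : ContinuousOn (fun q : ℝ × E => if q.2 ∈ S then
        Φ.symm (Φ q.2 + (q.1 * β (Φ q.2)) • v) else q.2) (Icc 0 1 ×ˢ S) := by
      have cΦ : ContinuousOn (fun q : ℝ × E => Φ q.2) (Icc 0 1 ×ˢ S) :=
        Φ.continuousOn.comp continuousOn_snd fun q hq => hq.2.1
      have cβ : Continuous β := by simp only [hβ]; fun_prop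
      have c2 : ContinuousOn (fun q : ℝ × E => Φ q.2 + (q.1 * β (Φ q.2)) • v) (Icc 0 1 ×ˢ S) :=
        cΦ.add ((continuousOn_fst.mul (cβ.comp_continuousOn cΦ)).smul continuousOn_const)
      refine (Φ.continuousOn_symm.comp c2 fun q hq => ?_).congr fun q hq => ?_
      · exact (hB (hmem _ hq.2.2 _ (htb _ hq.2.2 _ hq.1))).1
      · exact if_pos hq.2
    have c2 : ContinuousOn (fun q : ℝ × E => if q.2 ∈ S then
        Φ.symm (Φ q.2 + (q.1 * β (Φ q.2)) • v) else q.2)
        (Icc 0 1 ×ˢ (Φ.source ∩ Φ ⁻¹' ball u₀ r)ᶜ) := by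
      refine continuousOn_snd.congr fun q hq => ?_
      by_cases h : q.2 ∈ S
      · have h1 : β (Φ q.2) = 0 := by
          have h2 : dist (Φ q.2) u₀ ≤ r := h.2
          have h3 : ¬ dist (Φ q.2) u₀ < r := fun h' => hq.2 ⟨h.1, h'⟩
          simp only [hβ]
          linarith [not_lt.1 h3]
        simp only [if_pos h, h1, mul_zero, zero_smul, add_zero]
        exact Φ.left_inv h.1
      · exact if_neg h
    refine (c1.union_of_isClosed c2 (isClosed_Icc.prod hSc) (isClosed_Icc.prod hTc)).mono ?_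
    intro q hq
    by_cases h : q.2 ∈ Φ.source ∩ Φ ⁻¹' ball u₀ r
    · exact Or.inl ⟨hq.1, h.1, ball_subset_closedBall h.2⟩
    · exact Or.inr ⟨hq.1, h⟩
  · intro x _
    by_cases h : x ∈ S
    · simp only [if_pos h, zero_mul, zero_smul, add_zero]
      exact Φ.left_inv h.1
    · exact if_neg h
  · intro t ht x hx
    by_cases h : x ∈ S
    · simp only [if_pos h]
      have m1 := htb _ h.2 t ht
      have m2 := hB (hmem _ h.2 _ m1)
      refine ⟨m2.2.1.2, ?_⟩
      rcases m1.1.eq_or_lt with h0 | h0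
      · left
        rw [← h0, zero_smul, add_zero]
        exact Φ.left_inv h.1
      · right
        have m3 := hB h.2
        refine ⟨?_, m2.2.1.1, ?_⟩
        · have := m3.2.1.1
          rwa [Φ.left_inv h.1] at this
        · rw [hg _ m2.1]
          have m4 := hg _ m3.1
          rw [Φ.left_inv h.1] at m4
          rw [m4]
          exact drop h0 (fun a ha => hmem _ h.2 a ⟨ha.1, ha.2.trans m1.2⟩)
            fun w hw => (hB hw).2.2
    · simp only [if_neg h]
      exact ⟨hx, Or.inl trivial⟩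
  · have h : e ∈ S := ⟨he, mem_closedBall_self hr.le⟩
    have hb : β u₀ = r := by simp [hβ]
    simp only [if_pos h, one_mul]
    have m1 : ∀ a ∈ Icc 0 (β u₀), u₀ + a • v ∈ closedBall u₀ r :=
      hmem _ (mem_closedBall_self hr.le)
    rw [← hu₀, hg _ (hB (m1 _ ⟨hb ▸ hr.le, le_rfl⟩)).1]
    have m4 := hg _ hu
    rw [hu₀, Φ.left_inv he] at m4
    rw [m4]
    exact drop (hb ▸ hr) m1 fun w hw => (hB hw).2.2

end PushCM

open PushCM

theorem pushCS : StmtPushC := by
  intro E W D _ _ _ _ _ π ι m c K f e hcov hK hs hc hd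
  obtain ⟨hπ, hι, hπι, hm, -, -, hloc⟩ := hcov
  obtain ⟨U, s, heU, hUo, hsc, hπs, hlift, -, hso⟩ := hloc (π e)
  obtain ⟨j, hj, hej⟩ := hlift e heU
  have hπj : ∀ (i : ℕ) x, π (ι^[i] x) = π x := by
    intro i x
    induction i with
    | zero => rfl
    | succ i ih => rw [Function.iterate_succ_apply', hπι, ih]
  have hV : ∀ x, ι^[m - j] x ∈ s '' U → π x ∈ U ∧ ι^[j] (s (π x)) = x := by
    rintro x ⟨u, hu, hx⟩
    have h1 : π x = u := by rw [← hπj (m - j) x, ← hx, hπs u hu]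
    rw [h1, hx, ← Function.iterate_add_apply, Nat.add_sub_cancel' hj.le, hm]
    exact ⟨hu, rfl⟩
  have hV' : ∀ u ∈ U, ι^[m - j] (ι^[j] (s u)) ∈ s '' U := by
    intro u hu
    rw [← Function.iterate_add_apply, Nat.sub_add_cancel hj.le, hm]
    exact ⟨u, hu, rfl⟩
  let Φ : OpenPartialHomeomorph E D :=
    { toFun := fun x => c (π x)
      invFun := fun u => ι^[j] (s (c.symm u))
      source := (ι^[m - j]) ⁻¹' (s '' U) ∩ π ⁻¹' c.source
      target := c.target ∩ c.symm ⁻¹' U
      map_source' := fun x hx => ⟨c.map_source hx.2, by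
        show c.symm (c (π x)) ∈ U
        rw [c.left_inv hx.2]; exact (hV x hx.1).1⟩
      map_target' := fun u hu => ⟨hV' _ hu.2, by
        show π (ι^[j] (s (c.symm u))) ∈ c.source
        rw [hπj, hπs _ hu.2]; exact c.map_target hu.1⟩
      left_inv' := fun x hx => by
        show ι^[j] (s (c.symm (c (π x)))) = x
        rw [c.left_inv hx.2]; exact (hV x hx.1).2
      right_inv' := fun u hu => by
        show c (π (ι^[j] (s (c.symm u)))) = u
        rw [hπj, hπs _ hu.2, c.right_inv hu.1]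
      open_source := (hso.preimage (hι.iterate _)).inter (c.open_source.preimage hπ)
      open_target := c.isOpen_inter_preimage_symm hUo
      continuousOn_toFun := c.continuousOn.comp hπ.continuousOn fun x hx => hx.2
      continuousOn_invFun := (hι.iterate j).comp_continuousOn
        (hsc.comp (c.continuousOn_symm.mono inter_subset_left) fun u hu => hu.2) }
  refine push_chart Φ (f ∘ π) K e (f ∘ c.symm) ⟨?_, hs⟩ hK ?_ hc hd
  · show ι^[m - j] e ∈ s '' U
    rw [hej]; exact hV' _ heU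
  · intro u hu
    show f (π (ι^[j] (s (c.symm u)))) = f (c.symm u)
    rw [hπj, hπs _ hu.2]

end Vale.Agent.P265
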