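import Vale.Agent.P265.Mor

namespace Vale.Agent.P265

open Set Metric Topology

namespace QuadM

variable {D : Type} [NormedAddCommGroup D] [NormedSpace ℝ D]

theorem lower {l μ : ℕ} (T : D ≃L[ℝ] Eu l × Eu μ) (H : D →L[ℝ] D →L[ℝ] ℝ)
    (sym : ∀ v w, H v w = H w v) (hH : ∀ u, H u u = 2 * qf (T u)) :
    ∃ κ > 0, ∀ w, ‖w‖ ≤ κ * ‖H w‖ := by
  obtain ⟨κ, hκ, b⟩ : ∃ κ > 0, ∀ y, ‖T.symm y‖ ≤ κ * ‖y‖ :=
    (T.symm : (Eu l × Eu μ) →L[ℝ] D).bound
  refine ⟨κ * κ, mul_pos hκ hκ, fun w => ?_⟩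
  obtain ⟨v, hv⟩ : ∃ v, v = T.symm (-(T w).1, (T w).2) := ⟨_, rfl⟩
  have e0 : T v = (-(T w).1, (T w).2) := by rw [hv, T.apply_symm_apply]
  have e1 := hH (w + v)
  have e2 := hH (w - v)
  simp only [map_add, map_sub, add_apply, sub_apply, e0, qf,
    Prod.fst_add, Prod.snd_add, Prod.fst_sub, Prod.snd_sub, add_neg_cancel, sub_self, norm_zero,
    sub_neg_eq_add, ← two_smul ℝ, norm_smul, Real.norm_two, sym v w] at e1 e2
  have n1 : ‖v‖ ≤ κ * ‖T w‖ := by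
    have := b (-(T w).1, (T w).2)
    rwa [← hv, Prod.norm_mk, norm_neg, ← Prod.norm_def] at this
  have n2 : ‖w‖ ≤ κ * ‖T w‖ := by simpa using b (T w)
  have n3 : ‖T w‖ ^ 2 ≤ H w v := by
    rw [Prod.norm_def]
    rcases le_total ‖(T w).1‖ ‖(T w).2‖ with h | h
    · rw [max_eq_right h]
      nlinarith [sq_nonneg ‖(T w).1‖, sq_nonneg ‖(T w).2‖]
    · rw [max_eq_left h]
      nlinarith [sq_nonneg ‖(T w).1‖, sq_nonneg ‖(T w).2‖]
  have n4 : H w v ≤ ‖H w‖ * (κ * ‖T w‖) := (le_abs_self _).trans (((H w).le_opNorm v).trans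
    (mul_le_mul_of_nonneg_left n1 (norm_nonneg _)))
  have n5 : ‖T w‖ ≤ κ * ‖H w‖ := by
    rcases (norm_nonneg (T w)).eq_or_lt with h | h
    · rw [← h]
      positivity
    · exact le_of_mul_le_mul_left (by nlinarith) h
  rw [mul_assoc]
  exact n2.trans (mul_le_mul_of_nonneg_left n5 hκ.le)

theorem hasQ (H : D →L[ℝ] D →L[ℝ] ℝ) (sym : ∀ v w, H v w = H w v) (u₀ u : D) :
    HasFDerivAt (fun u => (1 / 2 : ℝ) * H (u - u₀) (u - u₀)) (H (u - u₀)) u := by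
  have h1 : HasFDerivAt (fun u => u - u₀) (ContinuousLinearMap.id ℝ D) u :=
    (hasFDerivAt_id u).sub_const u₀
  refine ((H.hasFDerivAt_of_bilinear h1 h1).const_mul (1 / 2 : ℝ)).congr_fderiv ?_
  ext v
  simp [sym v]
  ring

end QuadM

open QuadM in
theorem quadS : StmtQuad := by
  intro D _ _ l μ T f u₀ O hO hu hf h0 hH
  have : FiniteDimensional ℝ D := T.symm.toLinearEquiv.finiteDimensional
  have hat : ContDiffAt ℝ 2 f u₀ := hf.contDiffAt (hO.mem_nhds hu)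
  have sym := (hat.isSymmSndFDerivAt (by simp)).eq
  have hd := ((hat.fderiv_right (m := 1) (by norm_num)).differentiableAt (by simp)).hasFDerivAt
  generalize fderiv ℝ (fderiv ℝ f) u₀ = H at hH sym hd
  obtain ⟨κ, hκ, low⟩ := lower T H sym hH
  let β : ContDiffBump (0 : D) := ⟨1 / 2, 1, by norm_num, by norm_num⟩
  have βd : ContDiff ℝ 1 β := β.contDiff
  obtain ⟨M, hM⟩ : ∃ M, ∀ x, ‖‖x‖ * ‖fderiv ℝ β x‖‖ ≤ M :=
    (continuous_norm.mul (βd.continuous_fderiv (by simp)).norm).bounded_above_of_compact_support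
      (β.hasCompactSupport.fderiv ℝ).norm.mul_left
  have M0 : 0 ≤ M := (norm_nonneg _).trans (hM 0)
  obtain ⟨ε, e0, e1, e2⟩ : ∃ ε > 0, ε ≤ 1 ∧ κ * (ε * (1 + M)) < 1 := by
    have p : 0 < κ * (1 + M) + 1 := by positivity
    refine ⟨1 / (κ * (1 + M) + 1), by positivity, (div_le_one p).2 (by nlinarith), ?_⟩
    rw [mul_left_comm, one_div, inv_mul_lt_iff₀ p]
    linarith
  obtain ⟨δ, d0, d1⟩ := nhds_basis_closedBall.eventually_iff.1
    ((hd.isLittleO.bound e0).and (hO.mem_nhds hu))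
  have p0 : 0 < ‖H‖ + 1 := by positivity
  obtain ⟨R, hR⟩ : ∃ R : D → ℝ, R = fun u => f u - f u₀ - (1 / 2 : ℝ) * H (u - u₀) (u - u₀) :=
    ⟨_, rfl⟩
  have df : ∀ u ∈ O, HasFDerivAt f (fderiv ℝ f u) u := fun u h =>
    ((hf.contDiffAt (hO.mem_nhds h)).differentiableAt (by simp)).hasFDerivAt
  have dR : ∀ u ∈ O, HasFDerivAt R (fderiv ℝ f u - H (u - u₀)) u := fun u h =>
    hR ▸ ((df u h).sub_const _).sub (hasQ H sym u₀ u)
  have b1 : ∀ u, ‖u - u₀‖ ≤ δ → u ∈ O ∧ ‖fderiv ℝ f u - H (u - u₀)‖ ≤ ε * ‖u - u₀‖ := fun u h => by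
    have := d1 (mem_closedBall_iff_norm.2 h)
    rw [h0, sub_zero] at this
    exact this.symm
  have b2 : ∀ u, ‖u - u₀‖ ≤ δ → |R u| ≤ ε * ‖u - u₀‖ * ‖u - u₀‖ := fun u h => by
    have := (convex_closedBall u₀ ‖u - u₀‖).norm_image_sub_le_of_norm_hasFDerivWithin_le
      (f := R) (C := ε * ‖u - u₀‖) (x := u₀) (y := u)
      (fun x hx => (dR x (b1 x ((mem_closedBall_iff_norm.1 hx).trans h)).1).hasFDerivWithinAt)
      (fun x hx => (b1 x ((mem_closedBall_iff_norm.1 hx).trans h)).2.trans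
        (mul_le_mul_of_nonneg_left (mem_closedBall_iff_norm.1 hx) e0.le))
      (mem_closedBall_self (norm_nonneg _)) (mem_closedBall_iff_norm.2 le_rfl)
    rwa [show R u₀ = 0 by simp [hR], sub_zero] at this
  refine ⟨min δ (1 / (‖H‖ + 1)), lt_min d0 (by positivity), fun u h =>
    (b1 u ((mem_closedBall_iff_norm.1 h).trans (min_le_left _ _))).1, fun ρ r0 r1 => ?_⟩
  have nb : ∀ u : D, ‖ρ⁻¹ • (u - u₀)‖ = ρ⁻¹ * ‖u - u₀‖ := fun u => by
    rw [norm_smul, Real.norm_of_nonneg (inv_pos.2 r0).le]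
  refine ⟨fun u => f u - β (ρ⁻¹ • (u - u₀)) * R u, ρ / 2, by positivity, by linarith, ?_,
    fun u h => ?_, fun u h => ?_, fun u h hne => ?_, fun u h => ?_⟩
  · have f1 : ContDiffOn ℝ 1 f O := hf.of_le (by norm_num)
    have c1 : ContDiff ℝ 1 fun u : D => β (ρ⁻¹ • (u - u₀)) := βd.comp (by fun_prop)
    have c2 : ContDiff ℝ 1 fun u : D => (1 / 2 : ℝ) * H (u - u₀) (u - u₀) := by fun_prop
    rw [hR]
    exact f1.sub (c1.contDiffOn.mul ((f1.sub contDiffOn_const).sub c2.contDiffOn))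
  · beta_reduce
    rw [β.zero_of_le_dist, zero_mul, sub_zero]
    rw [dist_zero_right, nb]
    exact (one_le_inv_mul₀ r0).2 h
  · beta_reduce
    rw [β.one_of_mem_closedBall, one_mul, hR]
    · beta_reduce
      rw [hH]
      ring
    · rw [mem_closedBall_zero_iff, nb, inv_mul_le_iff₀ r0]
      show _ ≤ ρ * (1 / 2)
      linarith
  · have h' := h.trans (min_le_left _ _)
    have dβ : HasFDerivAt (fun u : D => β (ρ⁻¹ • (u - u₀)))
        (ρ⁻¹ • fderiv ℝ β (ρ⁻¹ • (u - u₀))) u := by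
      refine ((βd.differentiable (by simp) _).hasFDerivAt.comp u
        (((hasFDerivAt_id u).sub_const u₀).const_smul ρ⁻¹)).congr_fderiv ?_
      ext v
      simp
    rw [((df u (b1 u h').1).fun_sub (dβ.fun_mul (dR u (b1 u h').1))).fderiv]
    intro hz
    have e : H (u - u₀) = R u • (ρ⁻¹ • fderiv ℝ β (ρ⁻¹ • (u - u₀))) -
        (1 - β (ρ⁻¹ • (u - u₀))) • (fderiv ℝ f u - H (u - u₀)) := by
      rw [← sub_eq_zero, ← hz]
      module
    have w0 : 0 < ‖u - u₀‖ := norm_pos_iff.2 (sub_ne_zero.2 hne)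
    have a1 : ‖R u • (ρ⁻¹ • fderiv ℝ β (ρ⁻¹ • (u - u₀)))‖ ≤ ε * ‖u - u₀‖ * M := by
      have m := hM (ρ⁻¹ • (u - u₀))
      rw [Real.norm_of_nonneg (by positivity), nb] at m
      rw [norm_smul, norm_smul, Real.norm_of_nonneg (inv_pos.2 r0).le]
      refine (mul_le_mul_of_nonneg_right (b2 u h') (by positivity)).trans
        (le_trans (le_of_eq (by ring)) (mul_le_mul_of_nonneg_left m (by positivity)))
    have a2 : ‖(1 - β (ρ⁻¹ • (u - u₀))) • (fderiv ℝ f u - H (u - u₀))‖ ≤ ε * ‖u - u₀‖ := by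
      rw [norm_smul, Real.norm_of_nonneg (sub_nonneg.2 β.le_one)]
      exact (mul_le_of_le_one_left (norm_nonneg _) (sub_le_self _ β.nonneg)).trans (b1 u h').2
    have a3 : ‖H (u - u₀)‖ ≤ ε * ‖u - u₀‖ * M + ε * ‖u - u₀‖ :=
      (le_of_eq (congrArg norm e)).trans ((norm_sub_le _ _).trans (add_le_add a1 a2))
    nlinarith [low (u - u₀), mul_le_mul_of_nonneg_left a3 hκ.le, mul_lt_mul_of_pos_right e2 w0]
  · have h1 := b2 u (h.trans (r1.trans (min_le_left _ _)))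
    have h2 : |H (u - u₀) (u - u₀)| ≤ ‖H‖ * ‖u - u₀‖ * ‖u - u₀‖ := H.le_opNorm₂ _ _
    have h3 : ρ * (‖H‖ + 1) ≤ 1 := (le_div_iff₀ p0).1 (r1.trans (min_le_right _ _))
    have h4 : ‖u - u₀‖ * ‖u - u₀‖ ≤ ρ * ρ := mul_self_le_mul_self (norm_nonneg _) h
    have h5 : |H (u - u₀) (u - u₀)| + |R u| ≤ ρ := by
      nlinarith [mul_le_mul_of_nonneg_left h4 p0.le, mul_le_mul_of_nonneg_left h3 r0.le,
        mul_le_mul_of_nonneg_right e1 (mul_self_nonneg ‖u - u₀‖)]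
    have h6 : f u - f u₀ = 1 / 2 * H (u - u₀) (u - u₀) + R u := by
      rw [hR]
      ring
    have h7 : |β (ρ⁻¹ • (u - u₀)) * R u - R u| ≤ |R u| := by
      rw [← sub_one_mul, abs_mul, abs_sub_comm, abs_of_nonneg (sub_nonneg.2 β.le_one)]
      exact mul_le_of_le_one_left (abs_nonneg _) (sub_le_self _ β.nonneg)
    have h8 := abs_le.1 h7
    beta_reduce
    rw [abs_le, abs_le]
    refine ⟨⟨?_, ?_⟩, ?_, ?_⟩ <;>
      linarith [le_abs_self (H (u - u₀) (u - u₀)), neg_abs_le (H (u - u₀) (u - u₀)),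
        le_abs_self (R u), neg_abs_le (R u), abs_nonneg (H (u - u₀) (u - u₀))]

end Vale.Agent.P265
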