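import Vale.Agent.P265.Ex

/-! Curves in `X` along which `a` and `b` stay real. -/

namespace Vale.Agent.P265

open Set Topology Filter Complex
open scoped ContDiff ComplexConjugate

namespace RCM

theorem dconj {f : ℝ → ℂ} {v : ℂ} {t : ℝ} (h : HasDerivAt f v t) :
    HasDerivAt (fun s => conj (f s)) (conj v) t :=
  Complex.conjCLE.hasFDerivAt.comp_hasDerivAt t h

theorem dim {f : ℝ → ℂ} {v : ℂ} {t : ℝ} (h : HasDerivAt f v t) :
    HasDerivAt (fun s => (f s).im) v.im t :=
  Complex.imCLM.hasFDerivAt.comp_hasDerivAt t h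

theorem dre {f : ℝ → ℂ} {v : ℂ} {t : ℝ} (h : HasDerivAt f v t) :
    HasDerivAt (fun s => (f s).re) v.re t :=
  Complex.reCLM.hasFDerivAt.comp_hasDerivAt t h

theorem dxi_der {γ : ℝ → VX} {v : VX} {t : ℝ} (h : HasDerivAt γ v t) :
    HasDerivAt (fun s => xi (γ s)) (dxi (γ t) v) t := by
  have h1 : HasDerivAt (fun s => ca (γ s)) (ca v) t := h.fst
  have h2 : HasDerivAt (fun s => cal (γ s)) (cal v) t := h.snd.snd.snd.fst
  have := ((dconj h2).fun_mul (h1.fun_mul h1)).sub_const (1 / 2 : ℂ)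
  refine (this.congr_deriv ?_).congr_of_eventuallyEq (.of_forall fun s => ?_)
  · simp only [dxi]; ring
  · simp only [xi]; ring

theorem root {N : ℝ → ℂ} (hN : DifferentiableAt ℝ N 0) {a : ℝ} (ha : a ≠ 0) {k : ℕ} (hk : k ≠ 0)
    (h : a ^ k = normSq (N 0)) : ∃ A : ℝ → ℝ, A 0 = a ∧ DifferentiableAt ℝ A 0 ∧
      ∀ t, A t ^ k = normSq (N t) := by
  have h0 : normSq (N 0) ≠ 0 := h ▸ pow_ne_zero k ha
  have hs : DifferentiableAt ℝ (fun t => normSq (N t)) 0 := by
    simp only [normSq_apply]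
    have h1 := (dre hN.hasDerivAt).differentiableAt
    have h2 := (dim hN.hasDerivAt).differentiableAt
    exact (h1.mul h1).add (h2.mul h2)
  refine ⟨fun t => a * (normSq (N t) / normSq (N 0)) ^ ((k : ℝ)⁻¹), by simp [h0], ?_, fun t => ?_⟩
  · exact ((hs.div_const _).rpow_const (Or.inl (div_ne_zero h0 h0))).const_mul a
  · rw [mul_pow, Real.rpow_inv_natCast_pow (div_nonneg (normSq_nonneg _) (normSq_nonneg _)) hk, h]
    field_simp

theorem dxi_sub (p u v : VX) : dxi p (u - v) = dxi p u - dxi p v := by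
  simp only [dxi, cal, ca, Prod.fst_sub, Prod.snd_sub, map_sub]; ring

theorem tan_sub {p u v : VX} (hu : tanX p u) (hv : tanX p v) : tanX p (u - v) := by
  obtain ⟨a1, a2, a3, a4⟩ := hu
  obtain ⟨b1, b2, b3, b4⟩ := hv
  refine ⟨?_, ?_, ?_, ?_⟩
  · simp only [cal, Prod.fst_sub, Prod.snd_sub, mul_sub, sub_re] at *; linarith
  · simp only [cbe, Prod.snd_sub, mul_sub, sub_re] at *; linarith
  · rw [dxi_sub, a3, b3]; simp only [cbe, cb, Prod.fst_sub, Prod.snd_sub, map_sub]; ring
  · rw [dxi_sub]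
    simp only [cx, Prod.fst_sub, Prod.snd_sub, mul_sub, sub_re] at *; linarith

end RCM

open RCM in
theorem rcS (hT : StmtTan) (hX : StmtXAtl) (_h0 : StmtF0) (h1 : StmtF1) : StmtRC := by
  intro p hp u a0 b0 ai bi hu ua ub
  obtain ⟨p1, p2, p3, p4⟩ := id hp
  set n : ℝ → ℝ := fun t => √(1 + t ^ 2 * (normSq (dxi p u) + cx u ^ 2)) with hn
  have q0 : 0 ≤ normSq (dxi p u) + cx u ^ 2 := add_nonneg (normSq_nonneg _) (sq_nonneg _)
  have n0 : n 0 = 1 := by simp [hn]
  have np : ∀ t, 0 < n t := fun t => Real.sqrt_pos.2 (by positivity)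
  have nsq : ∀ t, n t ^ 2 = 1 + t ^ 2 * (normSq (dxi p u) + cx u ^ 2) := fun t =>
    Real.sq_sqrt (by positivity)
  have dn : HasDerivAt n 0 0 := by
    have := (((hasDerivAt_pow 2 (0 : ℝ)).mul_const (normSq (dxi p u) + cx u ^ 2)).const_add 1).sqrt
      (by simp)
    simpa using this
  have dX : HasDerivAt (fun t : ℝ => (cx p + t * cx u) / n t) (cx u) 0 := by
    have := (((hasDerivAt_id (0 : ℝ)).mul_const (cx u)).const_add (cx p)).fun_div dn (np 0).ne'
    exact this.congr_deriv (by simp [n0])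
  have dΞ : HasDerivAt (fun t : ℝ => (xi p + t * dxi p u) / n t) (dxi p u) 0 := by
    have := (((hasDerivAt_id (0 : ℝ)).ofReal_comp.mul_const (dxi p u)).const_add (xi p)).fun_div
      dn.ofReal_comp (by simp [n0])
    exact this.congr_deriv (by simp [n0])
  have ea : ca p = ((ca p).re : ℂ) := Complex.ext rfl (by simpa using ai)
  have eb : cb p = ((cb p).re : ℂ) := Complex.ext rfl (by simpa using bi)
  have ar : (ca p).re ≠ 0 := fun h => a0 (by rw [ea, h]; simp)
  have br : (cb p).re ≠ 0 := fun h => b0 (by rw [eb, h]; simp)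
  have e1 : xi p + 1 / 2 = conj (cal p) * ca p ^ 2 := by simp [xi]
  have e2 : xi p - 1 / 2 = conj (cbe p) * cb p ^ 3 := by rw [xi]; linear_combination p3
  obtain ⟨A, A0, dA, hA⟩ := root (dΞ.add_const (1 / 2)).differentiableAt ar (k := 4) (by norm_num)
    (by simp only [ofReal_zero, zero_mul, add_zero, n0, ofReal_one, div_one]
        rw [e1, map_mul, normSq_conj, p1, map_pow, ea, normSq_ofReal, ofReal_re]; ring)
  obtain ⟨B, B0, dB, hB⟩ := root (dΞ.sub_const (1 / 2)).differentiableAt br (k := 6) (by norm_num)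
    (by simp only [ofReal_zero, zero_mul, add_zero, n0, ofReal_one, div_one]
        rw [e2, map_mul, normSq_conj, p2, map_pow, eb, normSq_ofReal, ofReal_re]; ring)
  set γ : ℝ → VX := fun t => ((A t : ℂ), (B t : ℂ), (cx p + t * cx u) / n t,
    conj ((xi p + t * dxi p u) / n t + 1 / 2) / (A t : ℂ) ^ 2,
    conj ((xi p + t * dxi p u) / n t - 1 / 2) / (B t : ℂ) ^ 3) with hγ
  have a0' : (A 0 : ℂ) ≠ 0 := by rw [A0]; exact_mod_cast ar
  have b0' : (B 0 : ℂ) ≠ 0 := by rw [B0]; exact_mod_cast br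
  have γ0 : γ 0 = p := by
    simp only [hγ, ofReal_zero, zero_mul, add_zero, n0, ofReal_one, div_one, A0, B0, ← ea, ← eb]
    have c1 : conj (ca p) = ca p := conj_eq_iff_im.2 ai
    have c2 : conj (cb p) = cb p := conj_eq_iff_im.2 bi
    rw [e1, e2, map_mul, map_mul, map_pow, map_pow, c1, c2, conj_conj, conj_conj,
      mul_div_cancel_right₀ _ (pow_ne_zero _ a0), mul_div_cancel_right₀ _ (pow_ne_zero _ b0)]
  have dA' := dA.hasDerivAt.ofReal_comp.differentiableAt
  have dB' := dB.hasDerivAt.ofReal_comp.differentiableAt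
  have dγ : DifferentiableAt ℝ γ 0 :=
    dA'.prodMk (dB'.prodMk (dX.differentiableAt.prodMk
      (((dconj (dΞ.add_const (1 / 2))).differentiableAt.div (dA'.pow 2) (pow_ne_zero _ a0')).prodMk
        ((dconj (dΞ.sub_const (1 / 2))).differentiableAt.div (dB'.pow 3) (pow_ne_zero _ b0')))))
  have ev : ∀ᶠ t in 𝓝 (0 : ℝ), γ t ∈ XX ∧ xi (γ t) = (xi p + t * dxi p u) / n t := by
    filter_upwards [dA.continuousAt.eventually_ne (A0 ▸ ar),
      dB.continuousAt.eventually_ne (B0 ▸ br)] with t ha hb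
    have ha' : (A t : ℂ) ≠ 0 := by exact_mod_cast ha
    have hb' : (B t : ℂ) ≠ 0 := by exact_mod_cast hb
    have f1 : conj (cal (γ t)) * ca (γ t) ^ 2 = (xi p + t * dxi p u) / n t + 1 / 2 := by
      simp only [hγ, cal, ca, map_div₀ conj (conj _), conj_conj, map_pow, conj_ofReal]
      field_simp
    have f2 : conj (cbe (γ t)) * cb (γ t) ^ 3 = (xi p + t * dxi p u) / n t - 1 / 2 := by
      simp only [hγ, cbe, cb, map_div₀ conj (conj _), conj_conj, map_pow, conj_ofReal]
      field_simp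
    have f3 : xi (γ t) = (xi p + t * dxi p u) / n t := by rw [xi, f1]; ring
    refine ⟨⟨?_, ?_, by rw [f1, f2]; ring, ?_⟩, f3⟩
    · simp only [hγ, cal, map_div₀ normSq, normSq_conj, map_pow, normSq_ofReal, ← hA t]
      field_simp
    · simp only [hγ, cbe, map_div₀ normSq, normSq_conj, map_pow, normSq_ofReal, ← hB t]
      field_simp
    · have h4 := hu.2.2.2
      have h5 := nsq t
      have h6 := (np t).ne'
      rw [f3, map_div₀, normSq_ofReal]
      simp only [hγ, cx]
      field_simp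
      rw [h5]
      simp only [normSq_apply, add_re, add_im, mul_re, mul_im, ofReal_re, ofReal_im, conj_re,
        conj_im, cx] at *
      linear_combination p4 + 2 * t * h4
  have hd := dγ.hasDerivAt
  have t1 : tanX p (deriv γ 0) := by
    have := (hT VX (Eu 4) XX).2.1 γ _ 0 hd (ev.mono fun _ h => h.1)
    rwa [γ0, hX.2.2 p hp] at this
  have t2 : dxi p (deriv γ 0) = dxi p u := by
    have := dxi_der hd
    rw [γ0] at this
    exact this.unique (dΞ.congr_of_eventuallyEq (ev.mono fun _ h => h.2))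
  have t3 : cx (deriv γ 0) = cx u :=
    HasDerivAt.unique (show HasDerivAt (fun t => cx (γ t)) (cx (deriv γ 0)) 0 from hd.snd.snd.fst) dX
  have t4 : (ca (deriv γ 0)).im = 0 := (dim hd.fst).unique (by simpa [hγ] using hasDerivAt_const _ _)
  have t5 : (cb (deriv γ 0)).im = 0 :=
    (dim hd.snd.fst).unique (by simpa [hγ] using hasDerivAt_const _ _)
  have := (h1 p hp).2.2.2.2.2.2.2.2.1 (u - deriv γ 0) a0 b0 ai bi (tan_sub hu t1)
    (by rw [dxi_sub, t2, sub_self]) (sub_eq_zero.2 t3.symm)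
    (by simp only [ca, Prod.fst_sub, sub_im] at *; linarith)
    (by simp only [cb, Prod.fst_sub, Prod.snd_sub, sub_im] at *; linarith)
  rw [sub_eq_zero] at this
  exact ⟨γ, n, γ0, this ▸ hd, n0, dn.continuousAt,
    ev.mono fun t h => ⟨h.1, np t, h.2, rfl, ofReal_im _, ofReal_im _⟩⟩

end Vale.Agent.P265
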