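import Vale.Agent.P265.Ex

namespace Vale.Agent.P265

open Set Topology Complex
open scoped ContDiff ComplexConjugate

noncomputable section

namespace SGM

theorem om3 : om ^ 3 = 1 := by
  rw [om, ← exp_nat_mul, ← exp_two_pi_mul_I]
  congr 1
  push_cast
  ring

theorem om1 : om ≠ 1 := fun h => by
  obtain ⟨n, hn⟩ := exp_eq_one_iff.1 h
  have h1 : (2 * Real.pi * I : ℂ) ≠ 0 := two_pi_I_ne_zero
  have h2 : (1 : ℂ) = 3 * n := mul_right_cancel₀ h1 (by linear_combination 3 * hn)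
  have h3 : (1 : ℤ) = 3 * n := by exact_mod_cast h2
  omega

theorem xi_g (p : VS) : xiS (gS p) = xiS p := by simp [xiS, gS]

theorem g_mem {p : VS} (h : p ∈ Sig) : gS p ∈ Sig :=
  ⟨by simpa [gS, mul_pow, om3] using h.1, by rw [xi_g]; exact h.2⟩

theorem g6 (p : VS) : gS^[6] p = p := by
  simp only [Function.iterate_succ, Function.comp, gS, Function.iterate_zero, id, neg_neg]
  refine Prod.ext rfl (Prod.ext ?_ rfl)
  linear_combination (om ^ 3 + 1) * p.2.1 * om3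

theorem cg : Continuous gS := by
  unfold gS
  fun_prop

theorem cxi : Continuous xiS := by
  unfold xiS
  fun_prop

theorem nxi {p : VS} (h : p ∈ Sig) : ‖xiS p‖ ≤ 1 := by
  have := h.2
  rw [normSq_eq_norm_sq] at this
  nlinarith [sq_nonneg p.2.2]

theorem nx {p : VS} (h : p ∈ Sig) : |p.2.2| ≤ 1 := by
  have := h.2
  rw [← sq_le_one_iff_abs_le_one]
  linarith [normSq_nonneg (xiS p)]

theorem cpt : IsCompact Sig := by
  refine Metric.isCompact_of_isClosed_isBounded ((isClosed_eq (by fun_prop) continuous_const).inter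
    (isClosed_eq ((continuous_normSq.comp cxi).add (by fun_prop)) continuous_const))
    ((Metric.isBounded_closedBall (x := (0 : VS)) (r := 2)).subset fun p h => ?_)
  have a := nxi h
  have b : ‖p.1‖ ^ 2 ≤ 2 ^ 2 := by
    rw [← norm_pow, show p.1 ^ 2 = xiS p + 1 / 2 by simp [xiS]]
    refine (norm_add_le _ _).trans ?_
    norm_num
    linarith
  have c : ‖p.2.1‖ ^ 3 ≤ 2 ^ 3 := by
    rw [← norm_pow, show p.2.1 ^ 3 = xiS p - 1 / 2 by rw [xiS]; linear_combination -h.1]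
    refine (norm_sub_le _ _).trans ?_
    norm_num
    linarith
  simp only [mem_closedBall_zero_iff, Prod.norm_def, max_le_iff]
  exact ⟨le_of_pow_le_pow_left₀ two_ne_zero (by norm_num) b,
    le_of_pow_le_pow_left₀ three_ne_zero (by norm_num) c, (nx h).trans one_le_two⟩

theorem cslab (u v : ℝ) : IsCompact (slab u v) :=
  cpt.inter_right (isClosed_Icc.preimage (f := fun p : VS => p.2.2) (by fun_prop))

theorem good {E : Type} [MetricSpace E] {Z : Set E} (hZ : IsCompact Z) {A : Set VS} (hA : IsCompact A)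
    (h : MapsTo gS A A) : Good (Prod.map gS id) (A ×ˢ Z) :=
  ⟨hA.prod hZ, fun _ hp => ⟨h hp.1, hp.2⟩, (cg.prodMap continuous_id).continuousOn, fun x _ => by
    rw [Prod.map_iterate, Function.iterate_id]
    exact Prod.ext (g6 _) rfl⟩

theorem ex (ξ : ℂ) (x : ℝ) (h : normSq ξ + x ^ 2 = 1) : ∃ p ∈ Sig, xiS p = ξ ∧ p.2.2 = x := by
  obtain ⟨a, ha⟩ := IsAlgClosed.exists_pow_nat_eq (ξ + 1 / 2) two_pos
  obtain ⟨b, hb⟩ := IsAlgClosed.exists_pow_nat_eq (ξ - 1 / 2) three_pos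
  have e : xiS (a, b, x) = ξ := by simp [xiS, ha]
  exact ⟨(a, b, x), ⟨by simp only [ha, hb]; ring, by rw [e]; exact h⟩, e, rfl⟩

/-- radius -/
def R (x : ℝ) : ℝ := √(1 - x ^ 2)
/-- square root -/
def uu (k : ℂ) (x : ℝ) : ℂ := (R x + k / 2) ^ ((2 : ℕ)⁻¹ : ℂ)
/-- cube root -/
def vv (k : ℂ) (x : ℝ) : ℂ := (R x - k / 2) ^ ((3 : ℕ)⁻¹ : ℂ)

theorem u2 (k x) : uu k x ^ 2 = R x + k / 2 := cpow_nat_inv_pow _ two_ne_zero
theorem v3 (k x) : vv k x ^ 3 = R x - k / 2 := cpow_nat_inv_pow _ three_ne_zero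

theorem Rlt {x : ℝ} (h : x ∈ Icc (-1 / 2 : ℝ) (1 / 2)) : 1 / 2 < R x :=
  Real.lt_sqrt_of_sq_lt (by nlinarith [h.1, h.2])

theorem R2 {x : ℝ} (h : x ∈ Icc (-1 / 2 : ℝ) (1 / 2)) : R x ^ 2 = 1 - x ^ 2 :=
  Real.sq_sqrt (by nlinarith [h.1, h.2])

theorem slit {k : ℂ} {x : ℝ} (hk : ‖k‖ = 1) (h : x ∈ Icc (-1 / 2 : ℝ) (1 / 2)) :
    (R x + k / 2 : ℂ) ∈ slitPlane ∧ (R x - k / 2 : ℂ) ∈ slitPlane := by
  have a := Rlt h
  have b := abs_le.1 ((abs_re_le_norm k).trans_eq hk)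
  constructor <;> refine Or.inl ?_ <;> simp <;> linarith [b.1, b.2]

theorem ne {k : ℂ} {x : ℝ} (hk : ‖k‖ = 1) (h : x ∈ Icc (-1 / 2 : ℝ) (1 / 2)) :
    uu k x ≠ 0 ∧ vv k x ≠ 0 :=
  ⟨fun e => slitPlane_ne_zero (slit hk h).1 (by rw [← u2, e]; simp),
    fun e => slitPlane_ne_zero (slit hk h).2 (by rw [← v3, e]; simp)⟩

theorem cont {X : Type} [TopologicalSpace X] {S : Set X} {k : X → ℂ} {x : X → ℝ} (h1 : ContinuousOn k S)
    (h2 : Continuous x) (h : ∀ q ∈ S, ‖k q‖ = 1 ∧ x q ∈ Icc (-1 / 2 : ℝ) (1 / 2)) :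
    ContinuousOn (fun q => uu (k q) (x q)) S ∧ ContinuousOn (fun q => vv (k q) (x q)) S := by
  have c : Continuous fun q => (R (x q) : ℂ) := by
    unfold R
    fun_prop
  exact ⟨(c.continuousOn.add (h1.div_const _)).cpow_const fun q hq => (slit (h q hq).1 (h q hq).2).1,
    (c.continuousOn.sub (h1.div_const _)).cpow_const fun q hq => (slit (h q hq).1 (h q hq).2).2⟩

/-- direction -/
def kk (p : VS) : ℂ := conj (xiS p) / R p.2.2

theorem nR {p : VS} (h : p ∈ slab (-1 / 2) (1 / 2)) : ‖xiS p‖ = R p.2.2 := by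
  have := h.1.2
  rw [normSq_eq_norm_sq] at this
  rw [R, show 1 - p.2.2 ^ 2 = ‖xiS p‖ ^ 2 by linarith, Real.sqrt_sq (norm_nonneg _)]

theorem nk {p : VS} (h : p ∈ slab (-1 / 2) (1 / 2)) : ‖kk p‖ = 1 := by
  have a : 0 < R p.2.2 := by linarith [Rlt h.2]
  rw [kk, norm_div, norm_conj, nR h, norm_real, Real.norm_of_nonneg a.le, div_self a.ne']

end SGM

open SGM

theorem sgS : StmtSG := by
  intro E _ Z hZ
  have ms : ∀ u v, MapsTo gS (slab u v) (slab u v) := fun u v p h => ⟨g_mem h.1, h.2⟩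
  refine ⟨om3, om1, cpt, g6, cg, xi_g, inter_eq_left.2 fun p h => abs_le.1 (nx h),
    inter_eq_left.2 fun p h => abs_le.1 ((abs_re_le_norm _).trans (nxi h.1)),
    good hZ cpt fun p h => g_mem h, fun u v => good hZ (cslab u v) (ms u v), fun u v => good hZ
      ((cslab _ _).inter_right ((isClosed_le continuous_const (continuous_re.comp cxi)).inter
        (isClosed_le (continuous_re.comp cxi) continuous_const))) fun p h => ⟨ms _ _ h.1, ?_⟩, ?_, ?_, ?_⟩
  · simpa only [mem_ofPred_eq, xi_g] using h.2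
  · obtain ⟨p, h, a, b⟩ := ex 0 1 (by simp)
    exact ⟨p, ⟨h, by simp only [mem_ofPred_eq, b]; norm_num⟩, by simp only [mem_ofPred_eq, a]; norm_num⟩
  · obtain ⟨p, h, -, b⟩ := ex (24 / 25 : ℝ) (7 / 25) (by rw [normSq_ofReal]; norm_num)
    exact ⟨p, h, by simp only [mem_ofPred_eq, b]; norm_num⟩
  · obtain ⟨p, h, -, b⟩ := ex 0 (-1) (by simp)
    exact ⟨p, h, by simp only [mem_ofPred_eq, b]; norm_num⟩

theorem parS : StmtPar := by
  have n6 : ∀ t : ℂ, ‖t‖ = 1 → ‖conj (t ^ 6)‖ = 1 := fun t h => by simp [h]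
  have hb : ∀ p ∈ slab (-1 / 2) (1 / 2), ∃ w : ℂ, ‖w‖ = 1 ∧ kk p = conj w ∧
      p.1 ^ 2 = w * uu (kk p) p.2.2 ^ 2 ∧ p.2.1 ^ 3 = w * vv (kk p) p.2.2 ^ 3 := fun p h => by
    have a : (R p.2.2 : ℂ) ≠ 0 := ofReal_ne_zero.2 (by linarith [Rlt h.2])
    have b : conj (kk p) * kk p = 1 := by rw [conj_mul', nk h]; simp
    have c : xiS p = conj (kk p) * R p.2.2 := by simp [kk, a]
    refine ⟨conj (kk p), by simp [nk h], by simp, ?_, ?_⟩
    · rw [u2]
      unfold xiS at c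
      linear_combination c - b / 2
    · rw [v3]
      unfold xiS at c
      linear_combination c + b / 2 - h.1.1
  have b0 : ∀ p ∈ slab (-1 / 2) (1 / 2), p.2.1 ≠ 0 := fun p h e => by
    obtain ⟨w, h1, -, -, h2⟩ := hb p h
    rw [e, zero_pow three_ne_zero, eq_comm, mul_eq_zero] at h2
    exact h2.elim (fun e => by simp [e] at h1) (pow_ne_zero 3 (ne (nk h) h.2).2)
  refine ⟨fun q => (q.1 ^ 3 * uu (conj (q.1 ^ 6)) q.2, q.1 ^ 2 * vv (conj (q.1 ^ 6)) q.2, q.2),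
    fun p => p.1 * vv (kk p) p.2.2 / (p.2.1 * uu (kk p) p.2.2), Real.pi / 3, ?_, ?_, fun q hq => ?_,
    fun p h => ?_⟩
  · have c := cont (S := Metric.sphere 0 1 ×ˢ Icc (-1 / 2) (1 / 2)) (k := fun q : ℂ × ℝ => conj (q.1 ^ 6))
      (x := fun q => q.2) (by fun_prop) (by fun_prop) fun q hq => ⟨n6 _ (by simpa using hq.1), hq.2⟩
    exact (ContinuousOn.mul (by fun_prop) c.1).prodMk ((ContinuousOn.mul (by fun_prop) c.2).prodMk (by fun_prop))
  · have c := cont (S := slab (-1 / 2) (1 / 2)) (k := kk) (x := fun p => p.2.2)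
      ((continuous_conj.comp cxi).continuousOn.div (by unfold R; fun_prop) fun p h =>
        ofReal_ne_zero.2 (by linarith [Rlt h.2])) (by fun_prop) fun p h => ⟨nk h, h.2⟩
    exact (ContinuousOn.mul (by fun_prop) c.2).div (ContinuousOn.mul (by fun_prop) c.1) fun p h =>
      mul_ne_zero (b0 p h) (ne (nk h) h.2).1
  · obtain ⟨t, x⟩ := q
    have h1 : ‖t‖ = 1 := by simpa using hq.1
    have h2 : x ∈ Icc (-1 / 2 : ℝ) (1 / 2) := hq.2
    have a : (R x : ℂ) ≠ 0 := ofReal_ne_zero.2 (by linarith [Rlt h2])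
    have b : t ^ 6 * conj (t ^ 6) = 1 := by rw [mul_conj']; simp [h1]
    have e : xiS (t ^ 3 * uu (conj (t ^ 6)) x, t ^ 2 * vv (conj (t ^ 6)) x, x) = t ^ 6 * R x := by
      simp only [xiS, mul_pow, u2]
      linear_combination b / 2
    have k : kk (t ^ 3 * uu (conj (t ^ 6)) x, t ^ 2 * vv (conj (t ^ 6)) x, x) = conj (t ^ 6) := by
      rw [kk, e, map_mul, conj_ofReal, mul_div_cancel_right₀ _ a]
    have t0 : t ≠ 0 := fun e => by simp [e] at h1
    obtain ⟨c1, c2⟩ := ne (n6 t h1) h2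
    refine ⟨⟨?_, ?_⟩, rfl, ?_⟩
    · simp only [mul_pow, u2, v3]
      linear_combination b
    · rw [e, normSq_eq_norm_sq, norm_mul, norm_pow, h1, norm_real, one_pow, one_mul, Real.norm_eq_abs,
        sq_abs, R2 h2]
      ring
    · simp only [k]
      field_simp
  · obtain ⟨w, h1, h2, h3, h4⟩ := hb p h
    obtain ⟨c1, c2⟩ := ne (nk h) h.2
    have c3 := b0 p h
    have w0 : w ≠ 0 := fun e => by simp [e] at h1
    have e3 : (p.1 * vv (kk p) p.2.2 / (p.2.1 * uu (kk p) p.2.2)) ^ 3 * uu (kk p) p.2.2 = p.1 := by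
      rw [div_pow, mul_pow, mul_pow, h4, pow_succ' p.1, h3]
      field_simp
    have e2 : (p.1 * vv (kk p) p.2.2 / (p.2.1 * uu (kk p) p.2.2)) ^ 2 * vv (kk p) p.2.2 = p.2.1 := by
      rw [div_pow, mul_pow, mul_pow, h3]
      field_simp
      linear_combination -h4
    have e6 : (p.1 * vv (kk p) p.2.2 / (p.2.1 * uu (kk p) p.2.2)) ^ 6 = w :=
      mul_right_cancel₀ (pow_ne_zero 2 c1) (by rw [← h3, ← congrArg (· ^ 2) e3]; ring)
    refine ⟨?_, ?_, ?_⟩
    · refine (pow_eq_one_iff_of_nonneg (norm_nonneg _) (n := 6) (by norm_num)).1 ?_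
      rw [← norm_pow, e6, h1]
    · simp only [e6, ← h2, e2, e3]
    · have e : exp ((Real.pi / 3 : ℝ) * I) * om = -1 := by
        rw [om, ← exp_add, ← exp_pi_mul_I]
        congr 1
        push_cast
        ring
      have o : om ≠ 0 := exp_ne_zero _
      have k : kk (gS p) = kk p := by rw [kk, xi_g]; rfl
      simp only [k]
      simp only [gS]
      field_simp
      linear_combination -p.1 * e

end

end Vale.Agent.P265
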