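import Vale.Agent.P265.Coh

/-! A pair made of cyclically permuted sheets. -/

namespace Vale.Agent.P265

open Set

namespace SheetM

theorem rank_eq {V : Type} [AddCommGroup V] [Module K7 V] (S T S' T' : Submodule K7 V)
    (h1 : T ≤ T') (h2 : S ≤ S') (h3 : S ⊓ T' ≤ T) (h4 : S' ≤ S ⊔ T') :
    Module.rank K7 (S.map T.mkQ) = Module.rank K7 (S'.map T'.mkQ) := by
  let g : (V ⧸ T) →ₗ[K7] (V ⧸ T') := T.mapQ T' LinearMap.id h1
  have hg : ∀ v, g (T.mkQ v) = T'.mkQ v := fun v => rfl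
  let f : (S.map T.mkQ) →ₗ[K7] (S'.map T'.mkQ) :=
    (g.domRestrict (S.map T.mkQ)).codRestrict (S'.map T'.mkQ) (by
      rintro ⟨x, v, hv, rfl⟩
      exact ⟨v, h2 hv, rfl⟩)
  have hf : Function.Bijective f := by
    constructor
    · rw [injective_iff_map_eq_zero]
      rintro ⟨x, v, hv, rfl⟩ h
      have h5 : T'.mkQ v = 0 := congrArg Subtype.val h
      have h6 : v ∈ T := h3 ⟨hv, (Submodule.Quotient.mk_eq_zero T').1 h5⟩
      exact Subtype.ext ((Submodule.Quotient.mk_eq_zero T).2 h6)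
    · rintro ⟨x, v, hv, rfl⟩
      obtain ⟨s, hs, t, ht, rfl⟩ := Submodule.mem_sup.1 (h4 hv)
      refine ⟨⟨T.mkQ s, s, hs, rfl⟩, Subtype.ext ?_⟩
      have h5 : T'.mkQ t = 0 := (Submodule.Quotient.mk_eq_zero T').2 ht
      change T'.mkQ s = T'.mkQ (s + t)
      rw [map_add, h5, add_zero]
  exact (LinearEquiv.ofBijective f hf).rank_eq

theorem dd_congr {E : Type} (l : List E) : ∀ φ ψ : Co E,
    (∀ l' : List E, l'.Sublist l → l'.length + 1 = l.length → φ l' = ψ l') → dd φ l = dd ψ l := by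
  induction l with
  | nil => intro φ ψ _; rfl
  | cons x l ih =>
    intro φ ψ h
    simp only [dd]
    rw [h l (List.sublist_cons_self x l) rfl, ih (fun m => φ (x :: m)) (fun m => ψ (x :: m))]
    intro l' h1 h2
    exact h (x :: l') (h1.cons_cons x) (by simp [h2])

theorem fin_min (P : ℕ → ℝ → Prop) (hP : ∀ j δ δ', δ' ≤ δ → P j δ → P j δ') (m : ℕ)
    (h : ∀ j < m, ∃ δ > 0, P j δ) : ∃ δ > 0, ∀ j < m, P j δ := by
  induction m with
  | zero => exact ⟨1, one_pos, fun j hj => absurd hj (Nat.not_lt_zero j)⟩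
  | succ m ih =>
    obtain ⟨δ, hδ, h1⟩ := ih fun j hj => h j (Nat.lt_succ_of_lt hj)
    obtain ⟨δ', hδ', h2⟩ := h m (Nat.lt_succ_self m)
    refine ⟨min δ δ', lt_min hδ hδ', fun j hj => ?_⟩
    rcases Nat.lt_succ_iff_lt_or_eq.1 hj with hj | rfl
    · exact hP j δ _ (min_le_left _ _) (h1 j hj)
    · exact hP j δ' _ (min_le_right _ _) h2

variable {E : Type} [MetricSpace E]

theorem nul_of_eq {X : Set E} {k : ℕ} {φ ψ : Co E} (h : φ ∈ Nul X k)
    (he : ∀ l : List E, l.length = k → (∀ x ∈ l, x ∈ X) → ψ l = φ l) : ψ ∈ Nul X k := by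
  obtain ⟨δ, hδ, h⟩ := h
  exact ⟨δ, hδ, fun l hl hs => by rw [he l hl hs.1, h l hl hs]⟩

theorem nul_nil {X : Set E} {φ : Co E} (h : φ ∈ Nul X 0) : φ [] = 0 := by
  obtain ⟨δ, hδ, h⟩ := h
  exact h [] rfl ⟨by simp, by simp⟩

/-- gluing over finitely many disjoint compact sets -/
theorem glue (X : ℕ → Set E) (m : ℕ) (hc : ∀ j < m, IsCompact (X j))
    (hd : ∀ j < m, ∀ j' < m, ∀ x, x ∈ X j → x ∈ X j' → j = j') (hm : 0 < m) (k : ℕ) (φ : Co E)
    (h : ∀ j < m, φ ∈ Nul (X j) k) : φ ∈ Nul (⋃ j ∈ Finset.range m, X j) k := by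
  have h0 : ∃ δ > 0, ∀ j < m, ∀ j' < m, ∀ x ∈ X j, ∀ y ∈ X j', dist x y < δ → j = j' := by
    refine fin_min (fun j δ => ∀ j' < m, ∀ x ∈ X j, ∀ y ∈ X j', dist x y < δ → j = j')
      (fun j δ δ' hδ h j' hj' x hx y hy hxy => h j' hj' x hx y hy (hxy.trans_le hδ)) m ?_
    intro j hj
    refine fin_min (fun j' δ => ∀ x ∈ X j, ∀ y ∈ X j', dist x y < δ → j = j')
      (fun j' δ δ' hδ h x hx y hy hxy => h x hx y hy (hxy.trans_le hδ)) m ?_
    intro j' hj'
    by_cases e : j = j'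
    · exact ⟨1, one_pos, fun _ _ _ _ _ => e⟩
    · have hdis : Disjoint (X j) (X j') :=
        Set.disjoint_left.2 fun x hx hx' => e (hd j hj j' hj' x hx hx')
      obtain ⟨δ, hδ, h2⟩ := hdis.exists_thickenings (hc j hj) (hc j' hj').isClosed
      refine ⟨δ, hδ, fun x hx y hy hxy => ?_⟩
      exfalso
      exact Set.disjoint_left.1 h2 (Metric.self_subset_thickening hδ _ hx)
        (Metric.mem_thickening_iff.2 ⟨y, hy, hxy⟩)
  obtain ⟨δ, hδ, h1⟩ := h0
  obtain ⟨δ', hδ', h2⟩ := fin_min (fun j δ => ∀ l : List E, l.length = k → Sm δ (X j) l → φ l = 0)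
    (fun j δ δ' hδ h l hl hs => h l hl ⟨hs.1, fun x hx y hy => (hs.2 x hx y hy).trans_le hδ⟩) m h
  refine ⟨min δ δ', lt_min hδ hδ', fun l hl hs => ?_⟩
  have h3 : ∃ j < m, ∀ x ∈ l, x ∈ X j := by
    cases l with
    | nil => exact ⟨0, hm, by simp⟩
    | cons a l =>
      have ha := hs.1 a (by simp)
      simp only [mem_iUnion, Finset.mem_range, exists_prop] at ha
      obtain ⟨j, hj, ha⟩ := ha
      refine ⟨j, hj, fun x hx => ?_⟩
      have hx' := hs.1 x hx
      simp only [mem_iUnion, Finset.mem_range, exists_prop] at hx'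
      obtain ⟨j', hj', hx'⟩ := hx'
      have := h1 j hj j' hj' a ha x hx' ((hs.2 a (by simp) x hx).trans_le (min_le_left _ _))
      rw [this]; exact hx'
  obtain ⟨j, hj, h3⟩ := h3
  exact h2 j hj l hl ⟨h3, fun x hx y hy => (hs.2 x hx y hy).trans_le (min_le_right _ _)⟩

open Classical in
/-- spread a cochain on the base sheet to all sheets -/
noncomputable def Sp (ι : E → E) (ε : K7) (m : ℕ) (A₀ : Set E) (α : Co E) : Co E := fun l =>
  ∑ j ∈ Finset.range m, if ∀ x ∈ l, x ∈ ι^[j] '' A₀ then ε ^ j * α (l.map ι^[6 - j]) else 0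

omit [MetricSpace E] in
theorem sp_eq {ι : E → E} {ε : K7} {m : ℕ} {A₀ : Set E}
    (hdis : ∀ j < m, ∀ j' < m, ∀ x ∈ A₀, ∀ x' ∈ A₀, ι^[j] x = ι^[j'] x' → j = j')
    (α : Co E) {j : ℕ} (hj : j < m) (l : List E) (hl : ∀ x ∈ l, x ∈ ι^[j] '' A₀)
    (h0 : l = [] → α [] = 0) : Sp ι ε m A₀ α l = (ε ^ j • pb ι^[6 - j] α) l := by
  change _ = ε ^ j * α (l.map ι^[6 - j])
  cases l with
  | nil => simp [Sp, h0 rfl]
  | cons a l =>
    unfold Sp
    rw [Finset.sum_eq_single j]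
    · rw [if_pos hl]
    · intro j' hj' hne
      rw [if_neg]
      intro h
      obtain ⟨x, hx, e⟩ := hl a (by simp)
      obtain ⟨x', hx', e'⟩ := h a (by simp)
      exact hne (hdis j' (Finset.mem_range.1 hj') j hj x' hx' x hx (e'.trans e.symm))
    · intro h; exact absurd (Finset.mem_range.2 hj) h

theorem dsp_eq (hB : StmtBas) {ι : E → E} {ε : K7} {m : ℕ} {A₀ : Set E}
    (hdis : ∀ j < m, ∀ j' < m, ∀ x ∈ A₀, ∀ x' ∈ A₀, ι^[j] x = ι^[j'] x' → j = j')
    (α : Co E) {j : ℕ} (hj : j < m) (l : List E) (hl : ∀ x ∈ l, x ∈ ι^[j] '' A₀)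
    (h0 : l.length = 1 → α [] = 0) :
    dL E (Sp ι ε m A₀ α) l = (ε ^ j • pb ι^[6 - j] (dL E α)) l := by
  rw [← (hB E).2.1, ← map_smul]
  refine dd_congr l _ _ fun l' h1 h2 => sp_eq hdis α hj l' (fun x hx => hl x (h1.subset hx)) ?_
  rintro rfl
  exact h0 (by simpa using h2.symm)

end SheetM

open SheetM in
theorem sheetS (hB : StmtBas) (hA : StmtAvg) : StmtSheet := by
  intro E _ ι ε m A₀ B₀ A B hε hm hm6 gA gB gA0 gB0 hBA hA' hB' hdis n
  obtain ⟨b1, b2, b3, b4, b5, b6, b7, b8, b9⟩ := hB E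
  rcases Nat.eq_zero_or_pos n with rfl | hn
  · rw [b6, b6]
  have hm' : m ≤ 6 := Nat.le_of_dvd (by norm_num) hm6
  have sA : A₀ ⊆ A := by
    intro x hx
    rw [hA']
    simp only [mem_iUnion, Finset.mem_range, exists_prop]
    exact ⟨0, hm, x, hx, rfl⟩
  have sB : B₀ ⊆ B := by
    intro x hx
    rw [hB']
    simp only [mem_iUnion, Finset.mem_range, exists_prop]
    exact ⟨0, hm, x, hx, rfl⟩
  have BA : B ⊆ A := by
    rw [hA', hB']
    exact iUnion₂_mono fun j _ => image_mono hBA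
  have cI : ∀ k : ℕ, ContinuousOn ι^[k] A := fun k => gA.2.2.1.iterate gA.2.1 k
  have mI : ∀ k : ℕ, MapsTo ι^[k] A A := fun k => gA.2.1.iterate k
  have back : ∀ j < m, ∀ x ∈ A, ι^[6 - j] (ι^[j] x) = x := by
    intro j hj x hx
    rw [← Function.iterate_add_apply, Nat.sub_add_cancel (by omega)]
    exact gA.2.2.2 x hx
  have shA : ∀ (C : Set E), C ⊆ A₀ → ∀ j, ι^[j] '' C ⊆ A := by
    rintro C hC j _ ⟨x, hx, rfl⟩
    exact mI j (sA (hC hx))
  have cS : ∀ (C : Set E), C ⊆ A₀ → IsCompact C → ∀ j, IsCompact (ι^[j] '' C) :=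
    fun C hC hc j => hc.image_of_continuousOn ((cI j).mono (hC.trans sA))
  have mB : ∀ (C : Set E), C ⊆ A₀ → ∀ j < m, MapsTo ι^[6 - j] (ι^[j] '' C) C := by
    rintro C hC j hj _ ⟨x, hx, rfl⟩
    rw [back j hj x (sA (hC hx))]; exact hx
  -- gluing principle
  have G : ∀ (C : Set E), C ⊆ A₀ → IsCompact C → ∀ (k : ℕ) (φ β : Co E), β ∈ Nul C k →
      (∀ j < m, ∀ l : List E, l.length = k → (∀ x ∈ l, x ∈ ι^[j] '' A₀) →
        φ l = (ε ^ j • pb ι^[6 - j] β) l) → φ ∈ Nul (⋃ j ∈ Finset.range m, ι^[j] '' C) k := by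
    intro C hC hc k φ β hβ h
    refine glue (fun j => ι^[j] '' C) m (fun j _ => cS C hC hc j) ?_ hm k φ ?_
    · rintro j hj j' hj' _ ⟨x, hx, rfl⟩ ⟨x', hx', e⟩
      exact hdis j hj j' hj' x (hC hx) x' (hC hx') e.symm
    · intro j hj
      have h1 : pb ι^[6 - j] β ∈ Nul (ι^[j] '' C) k :=
        b7 E _ C _ k (cS C hC hc j) ((cI _).mono (shA C hC j)) (mB C hC j hj) β hβ
      exact nul_of_eq (Submodule.smul_mem _ (ε ^ j) h1)
        fun l hl hx => h j hj l hl fun x h2 => image_mono hC (hx x h2)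
  have T1 : Bd A B n ≤ Bd A₀ B₀ n :=
    sup_le_sup (Submodule.map_mono (b3 B B₀ _ sB)) (b3 A A₀ _ sA)
  have pI : PMap A B A B ι := ⟨gA.2.2.1, gA.2.1, gB.2.1⟩
  refine rank_eq _ _ _ _ T1 ?_ ?_ ?_
  · rintro φ ⟨⟨h1, h2⟩, h3⟩
    refine ⟨⟨b3 B B₀ _ sB h1, b3 A A₀ _ sA h2⟩, T1 ?_⟩
    have h4 : pb ι φ - ε • φ ∈ Bd A B n := h3
    have h5 : ∀ k : ℕ, pb ι^[k] φ - ε ^ k • φ ∈ Bd A B n := by
      intro k
      induction k with
      | zero =>
        have : pb ι^[0] φ - ε ^ 0 • φ = 0 := by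
          funext l
          change φ (l.map id) - ε ^ 0 * φ l = 0
          simp
        rw [this]; exact Submodule.zero_mem _
      | succ k ih =>
        have h6 := (b8 E A B A B ι n gA.1 gB.1 BA pI).2 _ ih
        have : pb ι^[k + 1] φ - ε ^ (k + 1) • φ =
            pb ι (pb ι^[k] φ - ε ^ k • φ) + ε ^ k • (pb ι φ - ε • φ) := by
          funext l
          change φ (l.map ι^[k + 1]) - ε ^ (k + 1) * φ l =
            (φ ((l.map ι).map ι^[k]) - ε ^ k * φ (l.map ι)) + ε ^ k * (φ (l.map ι) - ε * φ l)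
          rw [List.map_map, ← Function.iterate_succ]
          ring
        rw [this]
        exact Submodule.add_mem _ h6 (Submodule.smul_mem _ _ h4)
    exact h5 m
  · rintro φ ⟨h1, h2⟩
    obtain ⟨P, p1, p2, p3, p4⟩ := hA E ι ε hε
    have h3 : P φ - φ ∈ Bd A B n := (p4 A B n gA gB BA).2.2 φ h1
    have h4 : P φ ∈ Bd A₀ B₀ n := by
      have := Submodule.add_mem _ (T1 h3) h2
      rwa [sub_add_cancel] at this
    obtain ⟨_, ⟨α, hα, rfl⟩, β, hβ, e⟩ := Submodule.mem_sup.1 h4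
    have hα0 : n = 1 → α [] = 0 := by
      rintro rfl
      exact nul_nil hα
    have h5 : ∀ (k : ℕ) (l : List E), (∀ x ∈ l, x ∈ A) → P φ (l.map ι^[k]) = ε ^ k * P φ l := by
      intro k
      induction k with
      | zero => intro l _; simp
      | succ k ih =>
        intro l hl
        rw [Function.iterate_succ', ← List.map_map, p3 A φ _ gA, ih l hl]
        · ring
        · intro x hx
          obtain ⟨y, hy, rfl⟩ := List.mem_map.1 hx
          exact mI k (hl y hy)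
    have h6 : Sp ι ε m A₀ α ∈ Nul B (n - 1) := by
      rw [hB']
      refine G B₀ hBA gB0.1 _ _ α hα fun j hj l hl hx => sp_eq hdis α hj l hx ?_
      rintro rfl
      exact hα0 (by simp at hl; omega)
    have h7 : P φ - dL E (Sp ι ε m A₀ α) ∈ Nul A n := by
      rw [hA']
      refine G A₀ subset_rfl gA0.1 _ _ β hβ fun j hj l hl hx => ?_
      rw [Pi.sub_apply, dsp_eq hB hdis α hj l hx fun h => hα0 (hl ▸ h)]
      have h8 : (l.map ι^[6 - j]).map ι^[j] = l := by
        rw [List.map_map]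
        conv_rhs => rw [← List.map_id l]
        refine List.map_congr_left fun x h => ?_
        change ι^[j] (ι^[6 - j] x) = x
        rw [← Function.iterate_add_apply, Nat.add_sub_cancel' (by omega)]
        exact gA.2.2.2 x (shA A₀ subset_rfl j (hx x h))
      have h9 := h5 j (l.map ι^[6 - j]) (by
        intro x h
        obtain ⟨y, hy, rfl⟩ := List.mem_map.1 h
        exact mI _ (shA A₀ subset_rfl j (hx y hy)))
      rw [h8] at h9
      rw [h9, ← e]
      change ε ^ j * (dL E α (l.map ι^[6 - j]) + β (l.map ι^[6 - j])) -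
        ε ^ j * dL E α (l.map ι^[6 - j]) = ε ^ j * β (l.map ι^[6 - j])
      ring
    have h8 : P φ ∈ Bd A B n :=
      Submodule.mem_sup.2 ⟨_, ⟨_, h6, rfl⟩, _, h7, add_sub_cancel _ _⟩
    have := Submodule.sub_mem _ h8 h3
    rwa [sub_sub_cancel] at this
  · intro φ hφ
    obtain ⟨P, p1, p2, p3, p4⟩ := hA E ι^[m] (ε ^ m) (pow_ne_zero m hε)
    obtain ⟨q1, q2, q3⟩ := p4 A₀ B₀ n gA0 gB0 hBA
    have h1 := q1 φ hφ.1
    have h2 := q3 φ hφ
    have hne : ∀ l : List E, l.length = n → l = [] → P φ [] = 0 := by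
      rintro l hl rfl
      simp at hl; omega
    refine Submodule.mem_sup.2 ⟨Sp ι ε m A₀ (P φ), ⟨⟨?_, ?_⟩, ?_⟩, φ - Sp ι ε m A₀ (P φ), ?_,
      add_sub_cancel _ _⟩
    · rw [hB']
      exact G B₀ hBA gB0.1 _ _ (P φ) h1.1.1 fun j hj l hl hx => sp_eq hdis _ hj l hx (hne l hl)
    · change dL E _ ∈ Nul A (n + 1)
      rw [hA']
      exact G A₀ subset_rfl gA0.1 _ _ (dL E (P φ)) h1.1.2
        fun j hj l hl hx => dsp_eq hB hdis _ hj l hx (by omega)
    · change pb ι (Sp ι ε m A₀ (P φ)) - ε • Sp ι ε m A₀ (P φ) ∈ Bd A B n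
      refine Submodule.mem_sup_right ?_
      rw [hA']
      refine G A₀ subset_rfl gA0.1 _ _ 0 (Submodule.zero_mem _) fun j hj l hl hx => ?_
      rw [map_zero, smul_zero]
      change Sp ι ε m A₀ (P φ) (l.map ι) - ε * Sp ι ε m A₀ (P φ) l = 0
      rw [sp_eq hdis _ hj l hx (hne l hl)]
      by_cases hj' : j + 1 < m
      · rw [sp_eq hdis _ hj' (l.map ι) ?_ (hne _ (by simpa using hl))]
        · change ε ^ (j + 1) * P φ ((l.map ι).map ι^[6 - (j + 1)]) -
            ε * (ε ^ j * P φ (l.map ι^[6 - j])) = 0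
          rw [List.map_map, ← Function.iterate_succ, show (6 - (j + 1)).succ = 6 - j by omega]
          ring
        · intro x h
          obtain ⟨y, hy, rfl⟩ := List.mem_map.1 h
          obtain ⟨z, hz, rfl⟩ := hx y hy
          exact ⟨z, hz, Function.iterate_succ_apply' ι j z⟩
      · have ej : m = j + 1 := by omega
        rw [sp_eq hdis _ hm (l.map ι) ?_ (hne _ (by simpa using hl))]
        · have h3 := p3 A₀ φ (l.map ι^[6 - j]) gA0 (by
            intro x h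
            obtain ⟨y, hy, rfl⟩ := List.mem_map.1 h
            exact mB A₀ subset_rfl j hj (hx y hy))
          change ε ^ 0 * P φ ((l.map ι).map ι^[6 - 0]) -
            ε * (ε ^ j * P φ (l.map ι^[6 - j])) = 0
          rw [List.map_map, ← Function.iterate_add, show m + (6 - j) = 6 - 0 + 1 by omega] at h3
          rw [List.map_map, ← Function.iterate_succ, h3, ej]
          ring
        · intro x h
          obtain ⟨y, hy, rfl⟩ := List.mem_map.1 h
          obtain ⟨z, hz, rfl⟩ := hx y hy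
          refine ⟨ι^[m] z, gA0.2.1 hz, ?_⟩
          rw [ej]
          exact Function.iterate_succ_apply' ι j z
    · have h3 : P φ - Sp ι ε m A₀ (P φ) ∈ Nul A₀ n := by
        refine nul_of_eq (Submodule.zero_mem _) fun l hl hx => ?_
        rw [Pi.sub_apply, sp_eq hdis _ hm l (fun x h => ⟨x, hx x h, rfl⟩) (hne l hl)]
        change P φ l - ε ^ 0 * P φ (l.map ι^[6 - 0]) = 0
        have : l.map ι^[6 - 0] = l := by
          conv_rhs => rw [← List.map_id l]
          exact List.map_congr_left fun x h => gA.2.2.2 x (sA (hx x h))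
        rw [this]; ring
      have h4 := Submodule.sub_mem _ (Submodule.mem_sup_right h3 : _ ∈ Bd A₀ B₀ n) h2
      have : P φ - Sp ι ε m A₀ (P φ) - (P φ - φ) = φ - Sp ι ε m A₀ (P φ) := by abel
      rwa [this] at h4

end Vale.Agent.P265
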