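import Vale.Agent.P265.Ex

/-! Eigenspace dimensions for the genus two surface times a compact set. -/

namespace Vale.Agent.P265

open Set

namespace SigM

variable {E : Type} [MetricSpace E]

theorem good_empty {F : Type} [MetricSpace F] (ι : F → F) : Good ι (∅ : Set F) :=
  ⟨isCompact_empty, mapsTo_empty _ _, continuousOn_empty _, fun _ h => h.elim⟩

theorem good_union {F : Type} [MetricSpace F] {ι : F → F} {A B : Set F} (hc : Continuous ι)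
    (hA : Good ι A) (hB : Good ι B) : Good ι (A ∪ B) :=
  ⟨hA.1.union hB.1, hA.2.1.union_union hB.2.1, hc.continuousOn,
    fun x hx => hx.elim (hA.2.2.2 x) (hB.2.2.2 x)⟩

theorem mem_sl {Z : Set E} {u v : ℝ} {q : VS × E} :
    q ∈ slab u v ×ˢ Z ↔ q.1 ∈ Sig ∧ q.2 ∈ Z ∧ u ≤ q.1.2.2 ∧ q.1.2.2 ≤ v := by
  simp only [slab, mem_prod, mem_inter_iff, mem_ofPred_eq]
  tauto

theorem sl_mono {Z : Set E} {u v u' v' : ℝ} (h1 : u' ≤ u) (h2 : v ≤ v') :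
    slab u v ×ˢ Z ⊆ slab u' v' ×ˢ Z := by
  intro q hq
  rw [mem_sl] at hq ⊢
  exact ⟨hq.1, hq.2.1, h1.trans hq.2.2.1, hq.2.2.2.trans h2⟩

theorem cont_x : Continuous fun q : VS × E => q.1.2.2 := by fun_prop

theorem exc_slab (hX : StmtExc) {Z : Set E}
    (hg : ∀ u v, Good (Prod.map gS id) (slab u v ×ˢ Z)) (ε : K7) {a b c d : ℝ}
    (hab : a ≤ b) (hbc : b < c) (hcd : c ≤ d) (n : ℕ) :
    hd (Prod.map gS id) ε (slab a d ×ˢ Z) (slab a c ×ˢ Z) n =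
      hd (Prod.map gS id) ε (slab b d ×ˢ Z) (slab b c ×ˢ Z) n := by
  have hU : slab b d ×ˢ Z ∪ slab a c ×ˢ Z = slab a d ×ˢ Z := by
    ext q
    simp only [mem_union, mem_sl]
    constructor
    · rintro (⟨h1, h2, h3, h4⟩ | ⟨h1, h2, h3, h4⟩)
      · exact ⟨h1, h2, hab.trans h3, h4⟩
      · exact ⟨h1, h2, h3, h4.trans hcd⟩
    · rintro ⟨h1, h2, h3, h4⟩
      rcases le_total b q.1.2.2 with h | h
      · exact Or.inl ⟨h1, h2, h, h4⟩
      · exact Or.inr ⟨h1, h2, h3, h.trans hbc.le⟩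
  have hI : slab b d ×ˢ Z ∩ slab a c ×ˢ Z = slab b c ×ˢ Z := by
    ext q
    simp only [mem_inter_iff, mem_sl]
    constructor
    · rintro ⟨⟨h1, h2, h3, _⟩, ⟨_, _, _, h4⟩⟩
      exact ⟨h1, h2, h3, h4⟩
    · rintro ⟨h1, h2, h3, h4⟩
      exact ⟨⟨h1, h2, h3, h4.trans hcd⟩, ⟨h1, h2, hab.trans h3, h4⟩⟩
  have h := hX (VS × E) (Prod.map gS id) ε (slab b d ×ˢ Z) (slab a c ×ˢ Z)
    {q | b < q.1.2.2} {q | q.1.2.2 < c} (hg b d) (hg a c)
    (isOpen_lt continuous_const cont_x) (isOpen_lt cont_x continuous_const)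
    (fun q _ => by
      rcases lt_or_ge b q.1.2.2 with h | h
      · exact Or.inl h
      · exact Or.inr (lt_of_le_of_lt h hbc))
    (by
      rw [hU]
      rintro q ⟨hq, h⟩
      rw [mem_sl] at hq ⊢
      exact ⟨hq.1, hq.2.1, le_of_lt h, hq.2.2.2⟩)
    (by
      rw [hU]
      rintro q ⟨hq, h⟩
      rw [mem_sl] at hq ⊢
      exact ⟨hq.1, hq.2.1, hq.2.2.1, le_of_lt h⟩) n
  rwa [hU, hI] at h

theorem rk_bound (hZ : StmtZero) {Z : Set E} {z : ℕ → ℕ} (hc : IsCompact Z)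
    (hz : HasDim id 1 Z ∅ z) {A B : Set VS} (hA : IsCompact (A ×ˢ Z)) (hB : IsCompact (B ×ˢ Z))
    (hBA : B ×ˢ Z ⊆ A ×ˢ Z) (hne : B.Nonempty) (n : ℕ) :
    (z n : Cardinal) ≤ rk (Prod.map gS id) 1 (A ×ˢ Z) (B ×ˢ Z) ∅ n := by
  obtain ⟨p, hp⟩ := hne
  rw [← hz n]
  refine (hZ (VS × E) (Prod.map gS id) 1 (A ×ˢ Z) (B ×ˢ Z) hA hB hBA).2.2.2 E Z Prod.snd
    (fun e => (p, e)) hc ⟨continuous_snd.continuousOn, fun q hq => hq.2, mapsTo_empty _ _⟩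
    ⟨(by fun_prop : Continuous fun e : E => (p, e)).continuousOn, fun e he => ⟨hp, he⟩,
      mapsTo_empty _ _⟩ (fun _ _ => rfl) (fun _ _ => rfl) n

end SigM

open SigM

theorem sig1S (hT : StmtTri2) (hZ : StmtZero) (hX : StmtExc) (hG : StmtSG) (hB : StmtBand)
    (hC : StmtCap) : StmtSig1 := by
  intro E _ Z z hc hz
  obtain ⟨-, -, -, -, -, -, hS, -, -, hg, -, -, hn1, hn2⟩ := hG E Z hc
  obtain ⟨hb, hb0⟩ := hB E Z z hc hz
  obtain ⟨hc1, -, hc3, -⟩ := hC E Z z hc hz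
  have h1 : (1 : K7) ≠ 0 := one_ne_zero
  have hA : HasDim (Prod.map gS id) 1 (slab (-1) (1 / 2) ×ˢ Z) (slab (-1) (-1 / 4) ×ˢ Z) 0 := by
    intro n
    rw [exc_slab hX hg 1 (a := -1) (b := -1 / 2) (by norm_num) (by norm_num) (by norm_num) n]
    exact hb0 n
  have hT2 : HasDim (Prod.map gS id) 1 (slab (-1) (1 / 2) ×ˢ Z) ∅ z := by
    intro n
    rw [(hT (VS × E) (Prod.map gS id) 1 _ _ ∅ h1 (hg (-1) (1 / 2)) (hg (-1) (-1 / 4))
      (good_empty _) (empty_subset _) (sl_mono le_rfl (by norm_num))).2.1 hA n]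
    exact hc3 n
  have hcap : HasDim (Prod.map gS id) 1 (slab (1 / 4) 1 ×ˢ Z) (slab (1 / 4) (1 / 2) ×ˢ Z)
      (sh (sh z)) :=
    (hT (VS × E) (Prod.map gS id) 1 _ _ ∅ h1 (hg (1 / 4) 1) (hg (1 / 4) (1 / 2))
      (good_empty _) (empty_subset _) (sl_mono le_rfl (by norm_num))).2.2.2.2.2 z (sh z) hc1
      (hb (1 / 4) (1 / 2) (by norm_num) (by norm_num) le_rfl).1
      (rk_bound hZ hc hz (hg _ _).1 (hg _ _).1 (sl_mono le_rfl (by norm_num)) hn1)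
  have hrel : HasDim (Prod.map gS id) 1 (slab (-1) 1 ×ˢ Z) (slab (-1) (1 / 2) ×ˢ Z)
      (sh (sh z)) := by
    intro n
    rw [exc_slab hX hg 1 (a := -1) (b := 1 / 4) (by norm_num) (by norm_num) (by norm_num) n]
    exact hcap n
  have hne : (slab (-1) (1 / 2)).Nonempty := by
    obtain ⟨p, hp⟩ := hn2
    exact ⟨p, hp.1, hp.2.1, hp.2.2.trans (by norm_num)⟩
  rw [← hS]
  exact (hT (VS × E) (Prod.map gS id) 1 _ _ ∅ h1 (hg (-1) 1) (hg (-1) (1 / 2))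
    (good_empty _) (empty_subset _) (sl_mono le_rfl (by norm_num))).2.2.2.2.1 (sh (sh z)) z hrel
    hT2 (rk_bound hZ hc hz (hg _ _).1 (hg _ _).1 (sl_mono le_rfl (by norm_num)) hne)

theorem sig3S (hT : StmtTri2) (hX : StmtExc) (hS : StmtSum) (hG : StmtSG) (hB : StmtBand)
    (hC : StmtCap) : StmtSig3 := by
  intro E _ Z z hc hz
  obtain ⟨-, -, -, -, hcg, -, hS1, -, -, hg, -, -, -, -⟩ := hG E Z hc
  obtain ⟨hb, -⟩ := hB E Z z hc hz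
  obtain ⟨-, hc2, -, hc4⟩ := hC E Z z hc hz
  have h3 : (3 : K7) ≠ 0 := by decide
  have hci : Continuous (Prod.map gS (id : E → E)) := hcg.prodMap continuous_id
  have hU : (slab (1 / 4) 1 ×ˢ Z ∪ slab (-1) (-1 / 4) ×ˢ Z) ∪ slab (-1 / 2) (1 / 2) ×ˢ Z =
      slab (-1) 1 ×ˢ Z := by
    ext q
    simp only [mem_union, mem_sl]
    constructor
    · rintro ((⟨h1, h2, h3, h4⟩ | ⟨h1, h2, h3, h4⟩) | ⟨h1, h2, h3, h4⟩)
      · exact ⟨h1, h2, by linarith, h4⟩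
      · exact ⟨h1, h2, h3, by linarith⟩
      · exact ⟨h1, h2, by linarith, by linarith⟩
    · rintro ⟨h1, h2, h3, h4⟩
      rcases le_total (1 / 4) q.1.2.2 with h | h
      · exact Or.inl (Or.inl ⟨h1, h2, h, h4⟩)
      · rcases le_total q.1.2.2 (-1 / 4) with h' | h'
        · exact Or.inl (Or.inr ⟨h1, h2, h3, h'⟩)
        · exact Or.inr ⟨h1, h2, by linarith, by linarith⟩
  have hI : (slab (1 / 4) 1 ×ˢ Z ∪ slab (-1) (-1 / 4) ×ˢ Z) ∩ slab (-1 / 2) (1 / 2) ×ˢ Z =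
      slab (1 / 4) (1 / 2) ×ˢ Z ∪ slab (-1 / 2) (-1 / 4) ×ˢ Z := by
    ext q
    simp only [mem_union, mem_inter_iff, mem_sl]
    constructor
    · rintro ⟨⟨h1, h2, h3, _⟩ | ⟨h1, h2, _, h4⟩, ⟨_, _, h5, h6⟩⟩
      · exact Or.inl ⟨h1, h2, h3, h6⟩
      · exact Or.inr ⟨h1, h2, h5, h4⟩
    · rintro (⟨h1, h2, h3, h4⟩ | ⟨h1, h2, h3, h4⟩)
      · exact ⟨Or.inl ⟨h1, h2, h3, by linarith⟩, ⟨h1, h2, by linarith, h4⟩⟩
      · exact ⟨Or.inr ⟨h1, h2, by linarith, h4⟩, ⟨h1, h2, h3, by linarith⟩⟩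
  intro n
  rw [← hS1, (hT (VS × E) (Prod.map gS id) 3 _ _ ∅ h3 (hg (-1) 1) (hg (-1 / 2) (1 / 2))
    (good_empty _) (empty_subset _) (sl_mono (by norm_num) (by norm_num))).2.2.1
    (hb (-1 / 2) (1 / 2) le_rfl (by norm_num) le_rfl).2 n]
  have h := hX (VS × E) (Prod.map gS id) 3
    (slab (1 / 4) 1 ×ˢ Z ∪ slab (-1) (-1 / 4) ×ˢ Z) (slab (-1 / 2) (1 / 2) ×ˢ Z)
    {q | 1 / 4 < |q.1.2.2|} {q | |q.1.2.2| < 1 / 2} (good_union hci (hg _ _) (hg _ _)) (hg _ _)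
    (isOpen_lt continuous_const cont_x.abs) (isOpen_lt cont_x.abs continuous_const)
    (fun q _ => by
      rcases lt_or_ge (1 / 4) |q.1.2.2| with h | h
      · exact Or.inl h
      · exact Or.inr (lt_of_le_of_lt h (by norm_num)))
    (by
      rw [hU]
      rintro q ⟨hq, h⟩
      rw [mem_sl] at hq
      rw [mem_union, mem_sl, mem_sl]
      rcases lt_abs.1 (show 1 / 4 < |q.1.2.2| from h) with h | h
      · exact Or.inl ⟨hq.1, hq.2.1, h.le, hq.2.2.2⟩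
      · exact Or.inr ⟨hq.1, hq.2.1, hq.2.2.1, by linarith⟩)
    (by
      rw [hU]
      rintro q ⟨hq, h⟩
      rw [mem_sl] at hq ⊢
      have h' := abs_lt.1 (show |q.1.2.2| < 1 / 2 from h)
      exact ⟨hq.1, hq.2.1, by linarith [h'.1], h'.2.le⟩) n
  rw [hU, hI] at h
  rw [h, hS (VS × E) (Prod.map gS id) 3 _ _ _ _ (hg (1 / 4) 1) (hg (-1) (-1 / 4))
    (hg (1 / 4) (1 / 2)) (hg (-1 / 2) (-1 / 4)) (sl_mono le_rfl (by norm_num))
    (sl_mono (by norm_num) le_rfl)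
    (Set.disjoint_left.2 fun q h1 h2 => by
      rw [mem_sl] at h1 h2
      linarith [h1.2.2.1, h2.2.2.2]) n,
    ← (hT (VS × E) (Prod.map gS id) 3 _ _ ∅ h3 (hg (1 / 4) 1) (hg (1 / 4) (1 / 2))
      (good_empty _) (empty_subset _) (sl_mono le_rfl (by norm_num))).2.2.1
      (hb (1 / 4) (1 / 2) (by norm_num) (by norm_num) le_rfl).2 n,
    ← (hT (VS × E) (Prod.map gS id) 3 _ _ ∅ h3 (hg (-1) (-1 / 4)) (hg (-1 / 2) (-1 / 4))
      (good_empty _) (empty_subset _) (sl_mono (by norm_num) le_rfl)).2.2.1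
      (hb (-1 / 2) (-1 / 4) le_rfl (by norm_num) (by norm_num)).2 n,
    hc2 n, hc4 n, Pi.add_apply, Nat.cast_add]

end Vale.Agent.P265
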