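import Vale.Agent.P265.Mor

namespace Vale.Agent.P265

open Set Topology Filter Metric
open scoped Manifold ContDiff

namespace StabAM

theorem cov_prod {E M Z : Type} [MetricSpace E] [TopologicalSpace M] [MetricSpace Z]
    {π : E → M} {ι : E → E} {m : ℕ} (h : Cov π ι m) :
    Cov (Prod.map π id : E × Z → M × Z) (Prod.map ι id) m := by
  obtain ⟨hπ, hι, hπι, hm, h0, h6, hloc⟩ := h
  have it : ∀ (j : ℕ) (p : E × Z), (Prod.map ι (id : Z → Z))^[j] p = (ι^[j] p.1, p.2) := by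
    rintro j ⟨x, z⟩
    rw [Prod.map_iterate, Prod.map_apply, Function.iterate_id]
    rfl
  refine ⟨hπ.prodMap continuous_id, hι.prodMap continuous_id, ?_, ?_, h0, h6, ?_⟩
  · rintro ⟨x, z⟩
    simp [hπι]
  · rintro ⟨x, z⟩
    rw [it, hm]
  · rintro ⟨x, z⟩
    obtain ⟨U, s, hx, hUo, hsc, hπs, hlift, hinj, hso⟩ := hloc x
    refine ⟨U ×ˢ univ, Prod.map s id, ⟨hx, trivial⟩, hUo.prod isOpen_univ,
      hsc.prodMap continuousOn_id, ?_, ?_, ?_, ?_⟩
    · rintro ⟨u, y⟩ hu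
      simp [hπs u hu.1]
    · rintro ⟨e, y⟩ he
      obtain ⟨j, hj, hej⟩ := hlift e he.1
      refine ⟨j, hj, ?_⟩
      rw [it]
      exact Prod.ext hej rfl
    · intro j hj j' hj' u hu u' hu' h
      rw [it, it] at h
      exact hinj j hj j' hj' u.1 hu.1 u'.1 hu'.1 (congrArg Prod.fst h)
    · rw [Set.prodMap_image_prod, image_id]
      exact hso.prod isOpen_univ

theorem two_le : (2 : WithTop ℕ∞) ≤ ∞ := by
  have : ((2 : ℕ∞) : WithTop ℕ∞) ≤ ((⊤ : ℕ∞) : WithTop ℕ∞) := WithTop.coe_le_coe.2 le_top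
  exact this

theorem smooth_chart {n k : ℕ} {M : Type} [TopologicalSpace M] [ChartedSpace (Eu n) M]
    [IsManifold 𝓘(ℝ, Eu n) ∞ M] {F : M × Eu k → ℝ}
    (hF : ContMDiff (𝓘(ℝ, Eu n).prod 𝓘(ℝ, Eu k)) 𝓘(ℝ, ℝ) ∞ F) (p : M × Eu k) :
    ContDiffOn ℝ ∞ (F ∘ (prodChart n k M p).symm) (prodChart n k M p).target := by
  rw [← contMDiffOn_iff_contDiffOn]
  refine hF.comp_contMDiffOn ?_
  have h1 : ContMDiffOn 𝓘(ℝ, Eu n × Eu k) 𝓘(ℝ, Eu n) ∞
      (fun u : Eu n × Eu k => (chartAt (Eu n) p.1).symm u.1) (prodChart n k M p).target :=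
    (contMDiffOn_chart_symm (I := 𝓘(ℝ, Eu n)) (x := p.1)).comp
      contDiff_fst.contMDiff.contMDiffOn fun u hu => hu.1
  have h2 : ContMDiffOn 𝓘(ℝ, Eu n × Eu k) 𝓘(ℝ, Eu k) ∞
      (fun u : Eu n × Eu k => u.2) (prodChart n k M p).target :=
    contDiff_snd.contMDiff.contMDiffOn
  exact h1.prodMk h2

theorem qf_crit {n k l μ : ℕ} (T : Eu k ≃L[ℝ] Eu l × Eu μ) (u : Eu n × Eu k)
    (h : fderiv ℝ (fun y : Eu n × Eu k => qf (T y.2)) u = 0) : u.2 = 0 := by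
  set L : Eu n × Eu k →L[ℝ] Eu l × Eu μ :=
    (T : Eu k →L[ℝ] Eu l × Eu μ).comp (ContinuousLinearMap.snd ℝ (Eu n) (Eu k)) with hL
  set L1 := (ContinuousLinearMap.fst ℝ (Eu l) (Eu μ)).comp L with hL1
  set L2 := (ContinuousLinearMap.snd ℝ (Eu l) (Eu μ)).comp L with hL2
  have d := ((L1.hasFDerivAt (x := u)).norm_sq.neg).add (L2.hasFDerivAt (x := u)).norm_sq
  have e : (fun y : Eu n × Eu k => qf (T y.2)) =
      (-fun x => ‖L1 x‖ ^ 2) + fun x => ‖L2 x‖ ^ 2 := by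
    funext y
    simp [qf, hL1, hL2, hL]
  rw [e, d.fderiv] at h
  have h1 := congrArg (fun A : Eu n × Eu k →L[ℝ] ℝ =>
    A (0, T.symm (-(T u.2).1, (T u.2).2))) h
  simp [hL1, hL2, hL, real_inner_self_eq_norm_sq] at h1
  have ha : ‖(T u.2).1‖ = 0 := by nlinarith [norm_nonneg (T u.2).1, norm_nonneg (T u.2).2]
  have hb : ‖(T u.2).2‖ = 0 := by nlinarith [norm_nonneg (T u.2).1, norm_nonneg (T u.2).2]
  have : T u.2 = 0 := Prod.ext (norm_eq_zero.1 ha) (norm_eq_zero.1 hb)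
  simpa using this

end StabAM

open StabAM

theorem stabAS (hD : StmtDiag) (hP : StmtPushC) (hF : StmtFace) : StmtStabA := by
  intro n k M E _ _ _ _ _ _ _ π ι F C hcov hSM hC
  have hcov' : Cov (Prod.map π id : E × Eu k → M × Eu k) (Prod.map ι id) 6 := cov_prod hcov
  refine ⟨hcov', ?_⟩
  obtain ⟨hsm, hnd, Q, R, hQ, hR, hFQ⟩ := hSM
  obtain ⟨l, μ, T, hT⟩ := hD.2 k Q hQ
  have hFc : Continuous F := hsm.continuous
  obtain ⟨B, hB⟩ : ∃ B : ℝ, ∀ x : M, ∀ z : Eu k, ‖z‖ ≤ R → |F (x, z)| ≤ B := by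
    obtain ⟨B, hB⟩ := (isCompact_univ.prod (isCompact_closedBall (0 : Eu k) R)).exists_bound_of_continuousOn
      (f := F) hFc.continuousOn
    exact ⟨B, fun x z hz => hB (x, z) ⟨trivial, by simpa using hz⟩⟩
  obtain ⟨B', hB0, hB'⟩ : ∃ B' : ℝ, 0 ≤ B' ∧ ∀ x : M, ∀ z : Eu k, ‖z‖ ≤ R → |F (x, z)| ≤ B' :=
    ⟨max B 0, le_max_right _ _, fun x z hz => (hB x z hz).trans (le_max_left _ _)⟩
  obtain ⟨R₀, hR0, hR₀⟩ : ∃ R₀ : ℝ, 0 ≤ R₀ ∧ ∀ z : Eu k, ‖z‖ ≤ R →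
      ‖(T z).1‖ ≤ R₀ ∧ ‖(T z).2‖ ≤ R₀ := by
    refine ⟨‖(T : Eu k →L[ℝ] Eu l × Eu μ)‖ * R, by positivity, fun z hz => ?_⟩
    have h1 : ‖T z‖ ≤ ‖(T : Eu k →L[ℝ] Eu l × Eu μ)‖ * R :=
      (T : Eu k →L[ℝ] Eu l × Eu μ).le_opNorm_of_le hz
    exact ⟨(norm_fst_le _).trans h1, (norm_snd_le _).trans h1⟩
  have hmem : ∀ p : M × Eu k, p ∈ (prodChart n k M p).source := fun p =>
    ⟨mem_chart_source _ _, trivial⟩
  have hat : ∀ p : M × Eu k,
      ContDiffAt ℝ ∞ (F ∘ (prodChart n k M p).symm) (prodChart n k M p p) := fun p =>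
    (smooth_chart hsm p).contDiffAt
      ((prodChart n k M p).open_target.mem_nhds ((prodChart n k M p).map_source (hmem p)))
  have hcr : ∀ p : M × Eu k, p ∈ C ↔
      fderiv ℝ (F ∘ (prodChart n k M p).symm) (prodChart n k M p p) = 0 := fun p => by
    rw [← Finset.mem_coe, hC]; rfl
  have hin : ∀ p ∈ C, ‖p.2‖ ≤ R := by
    intro p hp
    by_contra hlt
    have hlt' : R < ‖p.2‖ := not_le.1 hlt
    have h0 := (hcr p).1 hp
    have ev : (F ∘ (prodChart n k M p).symm) =ᶠ[𝓝 (prodChart n k M p p)]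
        fun y : Eu n × Eu k => qf (T y.2) := by
      have : ∀ᶠ y : Eu n × Eu k in 𝓝 (prodChart n k M p p), R < ‖y.2‖ :=
        (isOpen_lt continuous_const (continuous_snd.norm)).mem_nhds hlt'
      refine this.mono fun y hy => ?_
      exact (hFQ _ _ hy.le).trans (hT _)
    rw [ev.fderiv_eq] at h0
    have h1 : p.2 = 0 := qf_crit T _ h0
    rw [h1, norm_zero] at hlt'
    linarith
  have hind : ∀ p : M × Eu k, ∃ i : ℕ, p ∈ C → ∃ (ν : ℕ) (S : (Eu n × Eu k) ≃L[ℝ] Eu i × Eu ν),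
      ∀ u, fderiv ℝ (fderiv ℝ (F ∘ (prodChart n k M p).symm)) (prodChart n k M p p) u u =
        2 * qf (S u) := by
    intro p
    by_cases hp : p ∈ C
    · have hs := (hat p).isSymmSndFDerivAt (by simp; exact two_le)
      obtain ⟨i, ν, S, hS⟩ := hD.1 (Eu n × Eu k)
        (fderiv ℝ (fderiv ℝ (F ∘ (prodChart n k M p).symm)) (prodChart n k M p p))
        (fun u v => hs u v) (hnd p (hC ▸ Finset.mem_coe.2 hp))
      exact ⟨i, fun _ => ⟨ν, S, hS⟩⟩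
    · exact ⟨0, fun h => absurd h hp⟩
  choose ind hind using hind
  set ρ := R₀ + 1 with hρ
  set a := -(B' + R₀ ^ 2 + 1) with ha
  set ρ' := R₀ + 1 - a with hρ'
  set b := B' + ρ ^ 2 + 1 with hb
  have ha0 : a ≤ -1 := by rw [ha]; nlinarith [sq_nonneg R₀]
  have haρ : -a < ρ' ^ 2 := by rw [hρ']; nlinarith
  have hint : ∀ e : E × Eu k, ‖(T e.2).1‖ < ρ' → ‖(T e.2).2‖ < ρ →
      e ∈ interior (univ ×ˢ box T ρ' ρ) := by
    intro e h1 h2
    have ho : IsOpen {y : E × Eu k | ‖(T y.2).1‖ < ρ' ∧ ‖(T y.2).2‖ < ρ} :=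
      IsOpen.and (isOpen_lt (by fun_prop) continuous_const)
        (isOpen_lt (by fun_prop) continuous_const)
    exact mem_interior.2 ⟨_, fun y hy => ⟨trivial, hy.1.le, hy.2.le⟩, ho, h1, h2⟩
  refine ⟨l, μ, T, ρ', ρ, a, b, ind, by linarith, by linarith, by linarith, haρ,
    ⟨hFc, by nlinarith [sq_nonneg ρ], ?_, ?_, ?_, ?_⟩, ?_, ?_⟩
  · intro e he h1 h2 h3
    by_cases hi : ‖(T e.2).1‖ < ρ' ∧ ‖(T e.2).2‖ < ρ
    · exact hP _ _ _ _ _ 6 (prodChart n k M (Prod.map π id e)) _ F e hcov' (hint e hi.1 hi.2)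
        (hmem _) ((hat _).of_le (by exact_mod_cast le_top)) fun h => h3 ((hcr _).2 h)
    · have hlt : R < ‖e.2‖ := by
        by_contra hle
        have := hR₀ e.2 (not_lt.1 hle)
        exact hi ⟨by linarith [this.1], by linarith [this.2]⟩
      refine hF E k l μ T ρ' ρ _ e ?_ ?_ he.2
      · have : ∀ᶠ y : E × Eu k in 𝓝 e, R < ‖y.2‖ :=
          (isOpen_lt continuous_const (continuous_snd.norm)).mem_nhds hlt
        refine this.mono fun y hy => ?_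
        rw [← hT]
        exact hFQ _ _ hy.le
      · intro h0
        have h4 : F (Prod.map π id e) = qf (T e.2) := by
          rw [← hT]
          exact hFQ _ _ hlt.le
        rw [h4, qf, h0, norm_zero] at h1
        rw [h0, norm_zero] at hi
        have h5 : ρ' ≤ ‖(T e.2).1‖ := by
          by_contra h
          exact hi ⟨not_le.1 h, by linarith⟩
        have h6 : ρ' ^ 2 ≤ ‖(T e.2).1‖ ^ 2 := pow_le_pow_left₀ (by linarith) h5 2
        nlinarith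
  · intro w hw
    have := abs_le.1 (hB' w.1 w.2 (hin w hw))
    constructor <;> nlinarith [this.1, this.2, sq_nonneg R₀, sq_nonneg ρ]
  · intro w hw e he
    have h1 : ‖e.2‖ ≤ R := by
      have := hin w hw
      rwa [← he] at this
    have := hR₀ e.2 h1
    exact hint e (by linarith [this.1]) (by linarith [this.2])
  · intro w hw
    exact ⟨hmem w, _, (prodChart n k M w).open_target, (prodChart n k M w).map_source (hmem w),
      subset_rfl, (smooth_chart hsm w).of_le two_le, (hcr w).1 hw, hind w hw⟩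
  · refine inter_eq_left.2 fun e he => ?_
    show F (π e.1, e.2) ≤ b
    rcases le_total ‖e.2‖ R with h | h
    · nlinarith [(abs_le.1 (hB' (π e.1) e.2 h)).2, sq_nonneg ρ]
    · rw [hFQ _ _ h, hT, qf]
      have h6 : ‖(T e.2).2‖ ^ 2 ≤ ρ ^ 2 := pow_le_pow_left₀ (norm_nonneg _) he.2.2 2
      nlinarith [sq_nonneg ‖(T e.2).1‖]
  · ext e
    have key : F (π e.1, e.2) ≤ a ↔ qf (T e.2) ≤ a := by
      rcases le_total ‖e.2‖ R with h | h
      · have h1 := (abs_le.1 (hB' (π e.1) e.2 h)).1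
        have h6 : ‖(T e.2).1‖ ^ 2 ≤ R₀ ^ 2 := pow_le_pow_left₀ (norm_nonneg _) (hR₀ e.2 h).1 2
        constructor
        · intro h2
          nlinarith [sq_nonneg R₀]
        · intro h2
          rw [qf] at h2
          nlinarith [sq_nonneg ‖(T e.2).2‖]
      · rw [hFQ _ _ h, hT]
    constructor
    · rintro ⟨h1, h2⟩
      exact ⟨trivial, h1.2, key.1 h2⟩
    · rintro ⟨-, h1, h2⟩
      exact ⟨⟨trivial, h1⟩, key.2 h2⟩

end Vale.Agent.P265
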