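import Vale.Agent.P265.Mor

namespace Vale.Agent.P265

open Set Topology Filter Metric

namespace Step1M

theorem push_congr {E : Type} [MetricSpace E] {F G : E → ℝ} {K : Set E} {e : E} (he : e ∈ K)
    (h : Push F K e) (hG : ∀ᶠ x in 𝓝 e, F x = G x) : Push G K e := by
  intro N hN
  obtain ⟨h, a, b, c, d⟩ := h _ (inter_mem hN hG)
  refine ⟨h, a, b, fun t ht x hx => ⟨(c t ht x hx).1, (c t ht x hx).2.imp id fun ⟨u, v, w⟩ =>
    ⟨u.1, v.1, by rwa [← show F _ = G _ from u.2, ← show F _ = G _ from v.2]⟩⟩, ?_⟩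
  rcases (c 1 ⟨zero_le_one, le_rfl⟩ e he).2 with q | ⟨u, v, w⟩
  · rw [q] at d; exact absurd d (lt_irrefl _)
  · rwa [← show F _ = G _ from u.2, ← show F _ = G _ from v.2]

theorem nbhd {E W : Type} [MetricSpace E] [TopologicalSpace W] {π : E → W} {ι : E → E} {m : ℕ}
    (hc : Cov π ι m) {K : Set E} {p : W} (h : ∀ e, π e = p → e ∈ interior K) :
    ∀ᶠ w in 𝓝 p, ∀ e, π e = w → e ∈ interior K := by
  obtain ⟨-, hι, h3, -, -, -, h7⟩ := hc
  obtain ⟨U, s, hp, hU, hs, h1, h2, -⟩ := h7 p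
  have hi : ∀ j e, π (ι^[j] e) = π e := fun j => by
    induction j with
    | zero => exact fun _ => rfl
    | succ j ih => intro e; rw [Function.iterate_succ_apply', h3, ih]
  have : ∀ᶠ w in 𝓝 p, ∀ j ∈ Finset.range m, ι^[j] (s w) ∈ interior K :=
    (eventually_all_finset _).2 fun j _ =>
      ((hι.iterate j).continuousAt.comp (hs.continuousAt (hU.mem_nhds hp))).eventually_mem
        (isOpen_interior.mem_nhds (h _ (by simp [hi, h1 p hp])))
  filter_upwards [this, hU.mem_nhds hp] with w hw hwU e he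
  obtain ⟨j, hj, e'⟩ := h2 e (he ▸ hwU)
  rw [e', he]
  exact hw j (Finset.mem_range.2 hj)

end Step1M

open Step1M in
theorem step1S (hQ : StmtQuad) (hP : StmtPushC) : StmtStep1 := by
  intro E W D _ _ _ _ _ _ _ π ι m c K f a b C ind p hc hM hp
  classical
  have := FiniteDimensional.proper_real D
  obtain ⟨hs, O, hO, hu, hOt, hf2, hd1, μ, T, hd2⟩ := hM.crit p hp
  set c0 := c p with hc0
  set u0 := c0 p with hu0
  have hsp : c0.symm u0 = p := c0.left_inv hs
  have hV : ∀ᶠ w in 𝓝 p, (∀ e, π e = w → e ∈ interior K) ∧ w ∉ C.erase p :=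
    (nbhd hc (hM.int p hp)).and ((C.erase p).finite_toSet.isClosed.isOpen_compl.mem_nhds (by simp))
  rw [← hsp] at hV
  obtain ⟨O', o1, o2, o3⟩ := _root_.mem_nhds_iff.1 (inter_mem (hO.mem_nhds hu)
    ((c0.continuousAt_symm (hOt hu)).eventually hV))
  rw [hsp] at o1
  have oO : O' ⊆ O := fun u h => (o1 h).1
  obtain ⟨ρ0, h0, hb, hq⟩ := hQ D _ μ T _ u0 O' o2 o3 (hf2.mono oO) hd1 hd2
  obtain ⟨ha, hb'⟩ := hM.val p hp
  obtain ⟨ρ, r1, r2, r3, r4⟩ : ∃ ρ, 0 < ρ ∧ ρ < ρ0 ∧ ρ < f p - a ∧ ρ < b - f p :=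
    ⟨min (ρ0 / 2) (min ((f p - a) / 2) ((b - f p) / 2)), by
      have := min_le_left (ρ0 / 2) (min ((f p - a) / 2) ((b - f p) / 2))
      have := (min_le_right (ρ0 / 2) _).trans (min_le_left ((f p - a) / 2) ((b - f p) / 2))
      have := (min_le_right (ρ0 / 2) _).trans (min_le_right ((f p - a) / 2) ((b - f p) / 2))
      refine ⟨lt_min (by linarith) (lt_min (by linarith) (by linarith)), ?_, ?_, ?_⟩ <;> linarith⟩
  obtain ⟨g, r, s1, s2, s3, s4, s5, s6, s7⟩ := hq ρ r1 r2.le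
  simp only [Function.comp, hsp] at s4 s5 s7
  have bt : ∀ u, ‖u - u0‖ ≤ ρ0 → u ∈ O' := fun u h => hb (mem_closedBall_iff_norm.2 h)
  have tg : ∀ u, ‖u - u0‖ ≤ ρ0 → u ∈ c0.target := fun u h => hOt (oO (bt u h))
  set F : W → ℝ := fun w => if w ∈ c0.source ∧ ‖c0 w - u0‖ ≤ ρ0 then g (c0 w) else f w with hF
  set S := c0.symm '' closedBall u0 ρ with hS
  have Sc : IsClosed S := ((isCompact_closedBall u0 ρ).image_of_continuousOn
    (c0.continuousOn_symm.mono fun u h => tg u ((mem_closedBall_iff_norm.1 h).trans r2.le))).isClosed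
  have A : ∀ w, w ∉ S → F w = f w := fun w hw => by
    simp only [hF]
    split_ifs with h
    · rw [s4 _ (not_lt.1 fun q => hw ⟨_, mem_closedBall_iff_norm.2 q.le, c0.left_inv h.1⟩),
        c0.left_inv h.1]
    · rfl
  have B : ∀ u, ‖u - u0‖ ≤ ρ0 → F (c0.symm u) = g u := fun u h => by
    simp only [hF, c0.right_inv (tg u h)]
    rw [if_pos ⟨c0.map_target (tg u h), h⟩]
  have B' : ∀ u, ‖u - u0‖ ≤ ρ → F ∘ c0.symm =ᶠ[𝓝 u] g := fun u h => by
    filter_upwards [isOpen_ball.mem_nhds (mem_ball_iff_norm.2 (h.trans_lt r2))] with v hv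
    exact B v (mem_ball_iff_norm.1 hv).le
  have A' : ∀ w, w ∉ S → F =ᶠ[𝓝 w] f := fun w hw => by
    filter_upwards [Sc.isOpen_compl.mem_nhds hw] with v hv using A v hv
  have Cc : ∀ w ∈ S, (a < F w ∧ F w < b) ∧ a < f w ∧ f w < b := by
    rintro _ ⟨u, h, rfl⟩
    have h := mem_closedBall_iff_norm.1 h
    obtain ⟨x, y⟩ := s7 u h
    rw [B u (h.trans r2.le)]
    rw [abs_le] at x y
    refine ⟨⟨?_, ?_⟩, ?_, ?_⟩ <;> linarith [x.1, x.2, y.1, y.2]
  have nS : ∀ w ∈ C.erase p, w ∉ S := by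
    rintro _ hw ⟨u, h, rfl⟩
    exact (o1 (bt u ((mem_closedBall_iff_norm.1 h).trans r2.le))).2.2 hw
  have Ee : ∀ w ∈ C, F w = f w := fun w hw => by
    by_cases e : w = p
    · rw [e, ← hsp, B u0 (by simp [h0.le]), s5 u0 (by simp [s1.le]), hsp]
      simp [qf]
    · exact A w (nS w (Finset.mem_erase.2 ⟨e, hw⟩))
  have gd : ∀ u, ‖u - u0‖ ≤ ρ → ContDiffAt ℝ 1 (F ∘ c0.symm) u := fun u h =>
    (s3.contDiffAt (o2.mem_nhds (bt u (h.trans r2.le)))).congr_of_eventuallyEq (B' u h)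
  refine ⟨F, ⟨continuous_iff_continuousAt.2 fun w => ?_, hM.lt, fun e he h1 h2 h3 => ?_,
    fun w hw => Ee w hw ▸ hM.val w hw, hM.int, fun w hw => ?_⟩, ?_, ?_, Ee, ?_⟩
  · by_cases hw : w ∈ S
    · obtain ⟨u, h, rfl⟩ := hw
      have h := mem_closedBall_iff_norm.1 h
      have t := tg u (h.trans r2.le)
      have t' := c0.map_target t
      have : ContinuousAt ((F ∘ c0.symm) ∘ c0) (c0.symm u) :=
        ContinuousAt.comp (by rw [c0.right_inv t]; exact (gd u h).continuousAt)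
          (c0.continuousAt t')
      refine this.congr ?_
      filter_upwards [c0.open_source.mem_nhds t'] with v hv
      simp only [Function.comp, c0.left_inv hv]
    · exact hM.cont.continuousAt.congr (A' w hw).symm
  · by_cases hw : π e ∈ S
    · obtain ⟨u, h, e'⟩ := hw
      have h := mem_closedBall_iff_norm.1 h
      have t := tg u (h.trans r2.le)
      have e2 : c0 (π e) = u := by rw [← e', c0.right_inv t]
      refine hP E W D π ι m c0 K F e hc ((o1 (bt u (h.trans r2.le))).2.1 e e'.symm)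
        (e' ▸ c0.map_target t) (e2 ▸ gd u h) ?_
      rw [e2, (B' u h).fderiv_eq]
      refine s6 u (h.trans r2.le) fun q => h3 ?_
      rwa [← e', q, hsp]
    · rw [A _ hw] at h1 h2
      exact push_congr he (hM.push e he h1 h2 h3)
        (hc.1.continuousAt.eventually (A' _ hw).symm)
  · obtain ⟨x1, O1, x2, x3, x4, x5, x6, μ', T', x7⟩ := hM.crit w (Finset.mem_of_mem_erase hw)
    have op := ((c w).continuousOn_symm.mono x4).isOpen_inter_preimage x2 Sc.isOpen_compl
    have mm : c w w ∈ O1 ∩ (c w).symm ⁻¹' Sᶜ := ⟨x3, by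
      rw [mem_preimage, (c w).left_inv x1]; exact nS w hw⟩
    have ev : F ∘ (c w).symm =ᶠ[𝓝 (c w w)] f ∘ (c w).symm := by
      filter_upwards [op.mem_nhds mm] with v hv using A _ hv.2
    refine ⟨x1, _, op, mm, inter_subset_left.trans x4,
      (x5.mono inter_subset_left).congr fun v hv => A _ hv.2, ev.fderiv_eq.trans x6, μ', T',
      fun u => ?_⟩
    rw [ev.fderiv.fderiv_eq]
    exact x7 u
  · ext e
    simp only [Sub, mem_inter_iff, mem_ofPred_eq]
    by_cases hw : π e ∈ S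
    · simp [not_le.2 (Cc _ hw).1.1, not_le.2 (Cc _ hw).2.1]
    · rw [A _ hw]
  · ext e
    simp only [Sub, mem_inter_iff, mem_ofPred_eq]
    by_cases hw : π e ∈ S
    · simp [(Cc _ hw).1.2.le, (Cc _ hw).2.2.le]
    · rw [A _ hw]
  · obtain ⟨R, R0, hR⟩ : ∃ R, 0 < R ∧ ∀ u ∈ closedBall (0 : Eu (ind p) × Eu μ) R,
        ‖T.symm u‖ ≤ r := by
      have : ∀ᶠ u in 𝓝 (0 : Eu (ind p) × Eu μ), ‖T.symm u‖ ≤ r :=
        T.symm.continuous.norm.continuousAt.eventually (p := fun x => x ≤ r)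
          (by simpa using eventually_le_nhds s1)
      exact nhds_basis_closedBall.eventually_iff.1 this
    refine ⟨μ, c0.transHomeomorph ((Homeomorph.subRight u0).trans T.toHomeomorph), R, R0, hs,
      by simp [← hu0], fun u h => ?_, fun u h => ?_⟩
    · have := tg (T.symm u + u0) (by simpa using (hR u h).trans (s2.trans r2.le))
      simpa using this
    · have := B (T.symm u + u0) (by simpa using (hR u h).trans (s2.trans r2.le))
      rw [s5 _ (by simpa using hR u h), ← Ee p hp] at this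
      simpa using this

end Vale.Agent.P265
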