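import Vale.Agent.P265.Mor

/-! The cohomology of the pair attached to one critical point. -/

namespace Vale.Agent.P265

open Set Topology

namespace Step3M

theorem sh_dl (l : ℕ) : sh^[l] (dl 1) = dl (l + 1) := by
  induction l with
  | zero => rfl
  | succ l ih =>
    rw [Function.iterate_succ_apply', ih]
    funext n
    cases n with
    | zero => simp [sh, dl]
    | succ n => simp [sh, dl]

theorem good_pre {E W : Type} [MetricSpace E] [TopologicalSpace W] {π : E → W} {ι : E → E}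
    {K : Set E} (hπ : Continuous π) (hι : ∀ e, π (ι e) = π e) (hK : Good ι K) {Z : Set W}
    (hZ : IsClosed Z) : Good ι (K ∩ π ⁻¹' Z) :=
  ⟨hK.1.inter_right (hZ.preimage hπ),
    fun x hx => ⟨hK.2.1 hx.1, by rw [mem_preimage, hι]; exact hx.2⟩,
    hK.2.2.1.mono inter_subset_left, fun x hx => hK.2.2.2 x hx.1⟩

theorem good_id {E : Type} [MetricSpace E] {A : Set E} (hA : IsCompact A) : Good id A :=
  ⟨hA, mapsTo_id A, continuousOn_id, fun x _ => by simp⟩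

theorem htp_const {E E' : Type} [MetricSpace E] [MetricSpace E'] {A B : Set E} {A' B' : Set E'}
    {h f g : E → E'} (hh : PMap A B A' B' h) (hf : EqOn h f A) (hg : EqOn h g A) :
    Htp A B A' B' f g :=
  ⟨fun _ => h, hh.1.comp continuousOn_snd fun _ hq => hq.2, fun _ _ => hh.2, hf, hg⟩

end Step3M

open Step3M in
theorem step3S (hX : StmtExc) (hS : StmtSheet) (hE : StmtEqv) (hB : StmtBall) (hZ : StmtZero) :
    StmtStep3 := by
  intro E W _ _ _ π ι m ε K f f' p l η hC hK hε hεm hf hf' hb n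
  obtain ⟨cπ, cι, hπι, hιm, hm, hm6, -⟩ := hC
  obtain ⟨μ, c, R, g, U, s, hR, hη, hηR, hp, hcp, hT, cg, ag, mg, hg0, hg2, hq, hout, hDK,
    ⟨oU, cs, hs, hcov, hdis, -⟩, hDU⟩ := hb
  have g0 : ∀ t, 0 ≤ g t := fun t => by
    rcases le_total t (2 * η) with h | h
    · have := ag h
      rwa [hg2 _ le_rfl] at this
    · rw [hg2 t h]
  set P : Set (Eu l × Eu μ) :=
    Metric.closedBall 0 R ∩ {u | qf u - g (‖u.1‖ ^ 2 + 2 * ‖u.2‖ ^ 2) ≤ -η} with hP
  set Q : Set (Eu l × Eu μ) := Metric.closedBall 0 R ∩ {u | qf u ≤ -η} with hQ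
  have cq : Continuous (qf : Eu l × Eu μ → ℝ) := by unfold qf; fun_prop
  have kP : IsCompact P := (isCompact_closedBall 0 R).inter_right
    (isClosed_le (cq.sub (cg.comp (by fun_prop))) continuous_const)
  have kQ : IsCompact Q := (isCompact_closedBall 0 R).inter_right (isClosed_le cq continuous_const)
  have QP : Q ⊆ P := fun u hu => ⟨hu.1, by
    have h1 : qf u ≤ -η := hu.2
    have h2 := g0 (‖u.1‖ ^ 2 + 2 * ‖u.2‖ ^ 2)
    change qf u - _ ≤ -η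
    linarith⟩
  have kI : ∀ Z ⊆ Metric.closedBall (0 : Eu l × Eu μ) R, IsCompact Z → IsCompact (c.symm '' Z) :=
    fun Z h hZ => hZ.image_of_continuousOn (c.continuousOn_symm.mono (h.trans hT))
  have ff : ∀ w, f' w ≤ f w := fun w => by
    by_cases h : w ∈ c.symm '' Metric.closedBall 0 R
    · obtain ⟨u, hu, rfl⟩ := h
      rw [(hq u hu).1, (hq u hu).2]
      linarith [g0 (‖u.1‖ ^ 2 + 2 * ‖u.2‖ ^ 2)]
    · rw [hout w h]
  have gP : Good ι (K ∩ π ⁻¹' (c.symm '' P)) :=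
    good_pre cπ hπι hK (kI P inter_subset_left kP).isClosed
  have gQ : Good ι (K ∩ π ⁻¹' (c.symm '' Q)) :=
    good_pre cπ hπι hK (kI Q inter_subset_left kQ).isClosed
  have gX : Good ι (Sub π K f (f p - η)) :=
    good_pre (Z := {w | f w ≤ f p - η}) cπ hπι hK (isClosed_le hf continuous_const)
  have e1 : Sub π K f' (f p - η) = K ∩ π ⁻¹' (c.symm '' P) ∪ Sub π K f (f p - η) := by
    ext e
    constructor
    · rintro ⟨h1, h2⟩
      have h3 : f' (π e) ≤ f p - η := h2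
      by_cases h : π e ∈ c.symm '' Metric.closedBall 0 R
      · obtain ⟨u, hu, e2⟩ := h
        refine Or.inl ⟨h1, u, ⟨hu, ?_⟩, e2⟩
        rw [← e2, (hq u hu).2] at h3
        change qf u - _ ≤ -η
        linarith
      · rw [hout _ h] at h3
        exact Or.inr ⟨h1, h3⟩
    · rintro (⟨h1, u, hu, e2⟩ | ⟨h1, h2⟩)
      · refine ⟨h1, ?_⟩
        change f' (π e) ≤ f p - η
        have h3 : qf u - _ ≤ -η := hu.2
        rw [← e2, (hq u hu.1).2]
        linarith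
      · exact ⟨h1, (ff _).trans h2⟩
  have e2 : K ∩ π ⁻¹' (c.symm '' P) ∩ Sub π K f (f p - η) = K ∩ π ⁻¹' (c.symm '' Q) := by
    ext e
    constructor
    · rintro ⟨⟨h1, u, hu, e2⟩, -, h2⟩
      have h3 : f (π e) ≤ f p - η := h2
      refine ⟨h1, u, ⟨hu.1, ?_⟩, e2⟩
      rw [← e2, (hq u hu.1).1] at h3
      change qf u ≤ -η
      linarith
    · rintro ⟨h1, u, hu, e2⟩
      refine ⟨⟨h1, u, QP hu, e2⟩, h1, ?_⟩
      change f (π e) ≤ f p - η
      have h3 : qf u ≤ -η := hu.2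
      rw [← e2, (hq u hu.1).1]
      linarith
  have hb2 : Metric.closedBall (0 : Eu l × Eu μ) (R / 2) ⊆ Metric.ball 0 R :=
    Metric.closedBall_subset_ball (by linarith)
  have x1 := hX E ι ε _ _ (π ⁻¹' (c.symm '' Metric.ball 0 R))
    (π ⁻¹' (c.symm '' Metric.closedBall 0 (R / 2)))ᶜ gP gX
    ((c.isOpen_image_symm_of_subset_target Metric.isOpen_ball
      (Metric.ball_subset_closedBall.trans hT)).preimage cπ)
    ((kI _ (hb2.trans Metric.ball_subset_closedBall) (isCompact_closedBall _ _)).isClosed.preimage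
      cπ).isOpen_compl
    (fun e _ => by
      by_cases h : e ∈ π ⁻¹' (c.symm '' Metric.closedBall 0 (R / 2))
      · exact Or.inl (image_mono hb2 h)
      · exact Or.inr h)
    (by
      rw [← e1]
      rintro e ⟨⟨h1, h2⟩, u, hu, e3⟩
      have h3 : f' (π e) ≤ f p - η := h2
      have hu' := Metric.ball_subset_closedBall hu
      refine ⟨h1, u, ⟨hu', ?_⟩, e3⟩
      rw [← e3, (hq u hu').2] at h3
      change qf u - _ ≤ -η
      linarith)
    (by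
      rintro e ⟨⟨h1, u, hu, e3⟩ | h1, h2⟩
      · refine ⟨h1, ?_⟩
        change f (π e) ≤ f p - η
        have h3 : qf u - _ ≤ -η := hu.2
        have h4 : R / 2 < ‖u‖ := by
          by_contra h
          exact h2 ⟨u, by simpa using h, e3⟩
        have h5 : ‖u‖ ^ 2 ≤ ‖u.1‖ ^ 2 + 2 * ‖u.2‖ ^ 2 := by
          rw [Prod.norm_def]
          rcases le_total ‖u.1‖ ‖u.2‖ with h | h
          · rw [max_eq_right h]; nlinarith [sq_nonneg ‖u.1‖, sq_nonneg ‖u.2‖]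
          · rw [max_eq_left h]; nlinarith [sq_nonneg ‖u.2‖]
        rw [hg2 _ (by nlinarith)] at h3
        rw [← e3, (hq u hu.1).1]
        linarith
      · exact h1) n
  rw [e1, x1, e2]
  -- sheets
  have hid : ι^[m] = id := funext hιm
  have hπj : ∀ (j : ℕ) e, π (ι^[j] e) = π e := by
    intro j
    induction j with
    | zero => intro e; rfl
    | succ j ih => intro e; rw [Function.iterate_succ_apply', hπι, ih]
  have sU : ∀ Z ⊆ Metric.closedBall (0 : Eu l × Eu μ) R, c.symm '' Z ⊆ U :=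
    fun Z h => (image_mono h).trans hDU
  have kS : ∀ Z ⊆ Metric.closedBall (0 : Eu l × Eu μ) R, IsCompact Z →
      IsCompact (s '' (c.symm '' Z)) :=
    fun Z h hZ => (kI Z h hZ).image_of_continuousOn (cs.mono (sU Z h))
  have eS : ∀ Z ⊆ Metric.closedBall (0 : Eu l × Eu μ) R, K ∩ π ⁻¹' (c.symm '' Z) =
      ⋃ j ∈ Finset.range m, ι^[j] '' (s '' (c.symm '' Z)) := by
    intro Z h
    ext e
    simp only [mem_iUnion, Finset.mem_range, exists_prop]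
    constructor
    · rintro ⟨-, h2⟩
      obtain ⟨j, hj, e3⟩ := hcov e (sU Z h h2)
      exact ⟨j, hj, s (π e), ⟨π e, h2, rfl⟩, e3.symm⟩
    · rintro ⟨j, hj, _, ⟨w, hw, rfl⟩, rfl⟩
      have h3 : π (ι^[j] (s w)) = w := by rw [hπj, hs w (sU Z h hw)]
      refine ⟨hDK ?_, ?_⟩
      · rw [mem_preimage, h3]; exact image_mono h hw
      · rw [mem_preimage, h3]; exact hw
  have kA := kS P inter_subset_left kP
  have kB := kS Q inter_subset_left kQ
  have BA : s '' (c.symm '' Q) ⊆ s '' (c.symm '' P) := image_mono (image_mono QP)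
  rw [hS E ι ε m (s '' (c.symm '' P)) (s '' (c.symm '' Q)) _ _ hε hm hm6 gP gQ
    (by rw [hid]; exact good_id kA) (by rw [hid]; exact good_id kB) BA
    (eS P inter_subset_left) (eS Q inter_subset_left)
    (by
      rintro j hj j' hj' _ ⟨w, hw, rfl⟩ _ ⟨w', hw', rfl⟩ e3
      exact hdis j hj j' hj' w (sU P inter_subset_left hw) w' (sU P inter_subset_left hw') e3) n,
    hid, hεm]
  -- the model pair
  have hr : Real.sqrt η < R := by
    rw [Real.sqrt_lt' hR]; nlinarith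
  have z1 := (hZ ℝ id 1 ∅ ∅ isCompact_empty isCompact_empty subset_rfl).2.2.1 0
  have b1 := hB ℝ id 1 {0} (dl 1) l (Real.sqrt η) R one_ne_zero (good_id isCompact_singleton) z1
    (Real.sqrt_pos.2 hη) hr
  rw [sh_dl, Prod.map_id] at b1
  rw [← b1 n]
  have cc : ∀ u ∈ Metric.closedBall (0 : Eu l × Eu μ) R, c (π (s (c.symm u))) = u := by
    intro u hu
    rw [hs _ (hDU ⟨u, hu, rfl⟩), c.right_inv (hT hu)]
  have cF : ContinuousOn (fun e => c (π e)) (s '' (c.symm '' P)) := by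
    refine c.continuousOn.comp cπ.continuousOn ?_
    rintro _ ⟨_, ⟨u, hu, rfl⟩, rfl⟩
    rw [hs _ (hDU ⟨u, hu.1, rfl⟩)]
    exact c.map_target (hT hu.1)
  have cG : ContinuousOn (fun u => s (c.symm u)) (Metric.closedBall (0 : Eu l × Eu μ) R) :=
    cs.comp (c.continuousOn_symm.mono hT) fun u hu => hDU ⟨u, hu, rfl⟩
  have mB : ∀ u : Eu l × Eu μ, u ∈ Metric.closedBall (0 : Eu l × Eu μ) R ↔ ‖u.1‖ ≤ R ∧ ‖u.2‖ ≤ R := by
    intro u
    rw [mem_closedBall_zero_iff, Prod.norm_def, max_le_iff]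
  have nt : ∀ t ∈ Icc (0 : ℝ) 1, ∀ y : Eu μ, ‖t • y‖ ≤ ‖y‖ := by
    intro t ht y
    rw [norm_smul, Real.norm_of_nonneg ht.1]
    exact mul_le_of_le_one_left (norm_nonneg y) ht.2
  have sB : ∀ t ∈ Icc (0 : ℝ) 1, ∀ u ∈ Metric.closedBall (0 : Eu l × Eu μ) R,
      (u.1, t • u.2) ∈ Metric.closedBall (0 : Eu l × Eu μ) R := by
    intro t ht u hu
    rw [mB] at hu ⊢
    exact ⟨hu.1, (nt t ht u.2).trans hu.2⟩
  have sP : ∀ t ∈ Icc (0 : ℝ) 1, ∀ u ∈ P, (u.1, t • u.2) ∈ P := by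
    intro t ht u hu
    refine ⟨sB t ht u hu.1, ?_⟩
    have h1 : ‖t • u.2‖ ^ 2 ≤ ‖u.2‖ ^ 2 := pow_le_pow_left₀ (norm_nonneg _) (nt t ht u.2) 2
    have h2 : -‖u.1‖ ^ 2 + ‖u.2‖ ^ 2 - g (‖u.1‖ ^ 2 + 2 * ‖u.2‖ ^ 2) ≤ -η := hu.2
    have h3 := ag (show ‖u.1‖ ^ 2 + 2 * ‖t • u.2‖ ^ 2 ≤ ‖u.1‖ ^ 2 + 2 * ‖u.2‖ ^ 2 by linarith)
    change -‖u.1‖ ^ 2 + ‖t • u.2‖ ^ 2 - g (‖u.1‖ ^ 2 + 2 * ‖t • u.2‖ ^ 2) ≤ -η
    linarith
  have sQ : ∀ t ∈ Icc (0 : ℝ) 1, ∀ u ∈ Q, (u.1, t • u.2) ∈ Q := by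
    intro t ht u hu
    refine ⟨sB t ht u hu.1, ?_⟩
    have h1 : ‖t • u.2‖ ^ 2 ≤ ‖u.2‖ ^ 2 := pow_le_pow_left₀ (norm_nonneg _) (nt t ht u.2) 2
    have h2 : -‖u.1‖ ^ 2 + ‖u.2‖ ^ 2 ≤ -η := hu.2
    change -‖u.1‖ ^ 2 + ‖t • u.2‖ ^ 2 ≤ -η
    linarith
  have xB : ∀ x : Eu l, x ∈ Metric.closedBall (0 : Eu l) R →
      (x, (0 : Eu μ)) ∈ Metric.closedBall (0 : Eu l × Eu μ) R := by
    intro x hx
    rw [mB]
    exact ⟨mem_closedBall_zero_iff.1 hx, by simpa using hR.le⟩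
  have kA' : IsCompact (({0} : Set ℝ) ×ˢ Metric.closedBall (0 : Eu l) R) :=
    isCompact_singleton.prod (isCompact_closedBall _ _)
  have kB' : IsCompact (({0} : Set ℝ) ×ˢ
      (Metric.closedBall (0 : Eu l) R \ Metric.ball 0 (Real.sqrt η))) :=
    isCompact_singleton.prod ((isCompact_closedBall _ _).diff Metric.isOpen_ball)
  have pF : PMap (s '' (c.symm '' P)) (s '' (c.symm '' Q))
      (({0} : Set ℝ) ×ˢ Metric.closedBall (0 : Eu l) R)
      (({0} : Set ℝ) ×ˢ (Metric.closedBall (0 : Eu l) R \ Metric.ball 0 (Real.sqrt η)))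
      (fun e => ((0 : ℝ), (c (π e)).1)) := by
    refine ⟨continuousOn_const.prodMk (continuous_fst.comp_continuousOn cF), ?_, ?_⟩
    · rintro _ ⟨_, ⟨u, hu, rfl⟩, rfl⟩
      refine ⟨rfl, ?_⟩
      change (c (π (s (c.symm u)))).1 ∈ _
      rw [cc u hu.1]
      exact mem_closedBall_zero_iff.2 ((mB u).1 hu.1).1
    · rintro _ ⟨_, ⟨u, hu, rfl⟩, rfl⟩
      refine ⟨rfl, ?_⟩
      change (c (π (s (c.symm u)))).1 ∈ _
      rw [cc u hu.1]
      refine ⟨mem_closedBall_zero_iff.2 ((mB u).1 hu.1).1, ?_⟩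
      rw [mem_ball_zero_iff, not_lt]
      have h2 : -‖u.1‖ ^ 2 + ‖u.2‖ ^ 2 ≤ -η := hu.2
      exact Real.sqrt_le_iff.2 ⟨norm_nonneg _, by nlinarith [sq_nonneg ‖u.2‖]⟩
  refine hE E (ℝ × Eu l) id id 1 _ _ _ _ (fun e => ((0 : ℝ), (c (π e)).1))
    (fun x => s (c.symm (x.2, 0))) (good_id kA) (good_id kB) BA (good_id kA') (good_id kB')
    (prod_mono subset_rfl diff_subset) pF ⟨?_, ?_, ?_⟩ ?_ ?_ ?_ n
  · exact cG.comp (f := fun x : ℝ × Eu l => (x.2, (0 : Eu μ))) (by fun_prop)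
      fun x hx => xB x.2 hx.2
  · rintro x ⟨-, hx⟩
    refine ⟨_, ⟨(x.2, 0), ⟨xB x.2 hx, ?_⟩, rfl⟩, rfl⟩
    have h1 := mg (sq_nonneg ‖x.2‖)
    change -‖x.2‖ ^ 2 + ‖(0 : Eu μ)‖ ^ 2 - g (‖x.2‖ ^ 2 + 2 * ‖(0 : Eu μ)‖ ^ 2) ≤ -η
    simp only [norm_zero] at h1 ⊢
    rw [show ‖x.2‖ ^ 2 + 2 * (0 : ℝ) ^ 2 = ‖x.2‖ ^ 2 by ring]
    linarith
  · rintro x ⟨-, hx, hx'⟩
    refine ⟨_, ⟨(x.2, 0), ⟨xB x.2 hx, ?_⟩, rfl⟩, rfl⟩
    rw [mem_ball_zero_iff, not_lt] at hx'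
    have h1 := (Real.sqrt_le_iff.1 hx').2
    change -‖x.2‖ ^ 2 + ‖(0 : Eu μ)‖ ^ 2 ≤ -η
    simp only [norm_zero]
    linarith
  · refine ⟨fun t e => s (c.symm ((c (π e)).1, t • (c (π e)).2)), ?_, ?_, ?_, ?_⟩
    · have h1 : ContinuousOn (fun q : ℝ × E => c (π q.2)) (Icc 0 1 ×ˢ (s '' (c.symm '' P))) :=
        cF.comp (f := Prod.snd) continuousOn_snd fun q hq => hq.2
      refine cG.comp (f := fun q : ℝ × E => ((c (π q.2)).1, q.1 • (c (π q.2)).2))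
        ((continuous_fst.comp_continuousOn h1).prodMk
          (continuousOn_fst.smul (continuous_snd.comp_continuousOn h1))) ?_
      rintro ⟨t, _⟩ ⟨ht, _, ⟨u, hu, rfl⟩, rfl⟩
      change ((c (π (s (c.symm u)))).1, t • (c (π (s (c.symm u)))).2) ∈ _
      rw [cc u hu.1]
      exact sB t ht u hu.1
    · intro t ht
      constructor
      · rintro _ ⟨_, ⟨u, hu, rfl⟩, rfl⟩
        refine ⟨_, ⟨(u.1, t • u.2), sP t ht u hu, rfl⟩, ?_⟩
        simp only [cc u hu.1]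
      · rintro _ ⟨_, ⟨u, hu, rfl⟩, rfl⟩
        refine ⟨_, ⟨(u.1, t • u.2), sQ t ht u hu, rfl⟩, ?_⟩
        simp only [cc u hu.1]
    · intro e _
      simp
    · rintro _ ⟨_, ⟨u, hu, rfl⟩, rfl⟩
      simp only [cc u hu.1, one_smul, id]
  · refine htp_const (h := id) ⟨continuousOn_id, mapsTo_id _, mapsTo_id _⟩ ?_ (fun _ _ => rfl)
    rintro ⟨t, x⟩ ⟨ht, hx⟩
    have h1 : t = 0 := ht
    simp only [Function.comp, cc _ (xB x hx), id, h1]
  · exact htp_const pF (fun _ _ => rfl) (fun _ _ => rfl)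

end Vale.Agent.P265
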