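import Vale.Agent.P265.Coh

/-! Subtypes and connectedness. -/

namespace Vale.Agent.P265

open Set
open scoped Classical

namespace SubM

theorem htp_refl {E E' : Type} [MetricSpace E] [MetricSpace E'] {A B : Set E} {A' B' : Set E'}
    {f g : E → E'} (h : PMap A B A' B' f) (e : EqOn f g A) : Htp A B A' B' f g :=
  ⟨fun _ => f, h.1.comp continuousOn_snd fun _ hq => hq.2, fun _ _ => h.2, fun _ _ => rfl, e⟩

theorem good_empty {E : Type} [MetricSpace E] (ι : E → E) : Good ι (∅ : Set E) :=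
  ⟨isCompact_empty, mapsTo_empty _ _, continuousOn_empty _, fun _ h => h.elim⟩

theorem one_le {E : Type} [MetricSpace E] (ι : E → E) {A : Set E} (h : A.Nonempty) :
    1 ≤ hd ι 1 A ∅ 1 := by
  obtain ⟨x, hx⟩ := h
  rw [Cardinal.one_le_iff_pos, hd, rank_pos_iff_exists_ne_zero]
  have h1 : (fun _ => 1 : Co E) ∈ Ze ι 1 A ∅ 1 := by
    refine ⟨⟨⟨1, one_pos, fun l hl hs => ?_⟩, ⟨1, one_pos, fun l hl _ => ?_⟩⟩, ?_⟩
    · obtain ⟨y, rfl⟩ := List.length_eq_one_iff.1 hl
      exact (hs.1 y (by simp)).elim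
    · obtain ⟨y, z, rfl⟩ := List.length_eq_two.1 hl
      simp [dL, dd]
    · have : (pb ι - (1 : K7) • LinearMap.id : Co E →ₗ[K7] Co E) (fun _ => 1 : Co E) = 0 := by
        ext l; simp [pb]
      refine Submodule.mem_comap.2 ?_
      rw [this]
      exact zero_mem _
  refine ⟨⟨_, Submodule.mem_map_of_mem h1⟩, fun e => ?_⟩
  have h2 : (fun _ => 1 : Co E) ∈ Bd A ∅ 1 := by
    have := congrArg Subtype.val e
    simpa using this
  obtain ⟨_, ⟨ψ, ⟨δ, -, h3⟩, rfl⟩, ν, ⟨δ', h4, h5⟩, h6⟩ := Submodule.mem_sup.1 h2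
  have a1 := h3 [] rfl ⟨by simp, by simp⟩
  have a2 := h5 [x] rfl ⟨by simpa using hx, by simpa using h4⟩
  have a3 := congrFun h6 [x]
  simp [dL, dd, a1, a2] at a3

theorem good_pre {E W : Type} [MetricSpace E] [TopologicalSpace W] {ι : E → E} {π : E → W}
    (hg : Good ι (univ : Set E)) (hc : Continuous π) (hi : ∀ e, π (ι e) = π e) {s : Set W}
    (hs : IsClosed s) : Good ι (π ⁻¹' s) :=
  ⟨hg.1.of_isClosed_subset (hs.preimage hc) (subset_univ _),
    fun x hx => by rw [mem_preimage, hi]; exact hx, hg.2.2.1.mono (subset_univ _),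
    fun x _ => hg.2.2.2 x trivial⟩

end SubM

open SubM

theorem subS (hE : StmtEqv) : StmtSub := by
  intro E _ ι ε S hι hg ⟨x0, h0⟩
  let g : E → S := fun x => if h : x ∈ S then ⟨x, h⟩ else ⟨x0, h0⟩
  have g1 : ∀ x : S, g x = x := fun x => dif_pos x.2
  have pf : PMap (univ : Set S) ∅ S ∅ Subtype.val :=
    ⟨continuous_subtype_val.continuousOn, fun x _ => x.2, mapsTo_empty _ _⟩
  have pg : PMap S ∅ (univ : Set S) ∅ g := by
    refine ⟨continuousOn_iff_continuous_domRestrict.2 ?_, mapsTo_univ _ _, mapsTo_empty _ _⟩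
    have : S.domRestrict g = id := funext g1
    rw [this]; exact continuous_id
  have gr : Good (hι.restrict ι S S) (univ : Set S) :=
    ⟨isCompact_iff_isCompact_univ.1 hg.1, mapsTo_univ _ _,
      (hg.2.2.1.mapsToRestrict hι).continuousOn, fun x _ => Subtype.ext (by
        rw [hι.coe_iterate_restrict]; exact hg.2.2.2 x x.2)⟩
  refine hE S E _ ι ε univ ∅ S ∅ Subtype.val g gr (good_empty _) (empty_subset _) hg (good_empty _)
    (empty_subset _) pf pg (htp_refl ?_ fun x _ => g1 x) (htp_refl ?_ fun x hx => ?_)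
    (htp_refl ?_ fun x _ => rfl)
  · exact ⟨pg.1.comp pf.1 pf.2.1, mapsTo_univ _ _, mapsTo_empty _ _⟩
  · exact ⟨pf.1.comp pg.1 pg.2.1, fun x _ => (g x).2, mapsTo_empty _ _⟩
  · exact congrArg Subtype.val (g1 ⟨x, hx⟩)
  · exact ⟨pf.1.comp gr.2.2.1 gr.2.1, fun x _ => (hι.restrict ι S S x).2, mapsTo_empty _ _⟩

theorem connS (_hB : StmtBas) (hS : StmtSum) : StmtConn := by
  intro E W _ _ ι π hg hc hs hi h1
  have ne : Nonempty E := by
    by_contra hn
    have : Bd (univ : Set E) ∅ 1 = ⊤ := by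
      refine eq_top_iff.2 fun φ _ => Submodule.mem_sup_right ⟨1, one_pos, fun l hl _ => ?_⟩
      obtain ⟨y, rfl⟩ := List.length_eq_one_iff.1 hl
      exact absurd ⟨y⟩ hn
    have h2 : hd ι 1 (univ : Set E) ∅ 1 = 0 := by
      have : Subsingleton (Co E ⧸ Bd (univ : Set E) ∅ 1) :=
        Submodule.Quotient.subsingleton_iff.2 this
      exact rank_subsingleton' _ _
    rw [h1] at h2
    exact one_ne_zero h2
  have pre : PreconnectedSpace W := by
    refine preconnectedSpace_iff_clopen.2 fun s hs' => ?_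
    by_contra hn
    rw [not_or] at hn
    have a1 := one_le ι ((nonempty_iff_ne_empty.2 hn.1).preimage hs)
    have a2 := one_le ι ((nonempty_compl.2 hn.2).preimage hs)
    have a3 := hS E ι 1 _ _ ∅ ∅ (good_pre hg hc hi hs'.1) (good_pre hg hc hi hs'.compl.1)
      (good_empty _) (good_empty _) (empty_subset _) (empty_subset _)
      (disjoint_compl_right.preimage π) 1
    rw [← preimage_union, union_compl_self, preimage_univ, union_self, h1] at a3
    have a4 := add_le_add a1 a2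
    rw [← a3, one_add_one_eq_two] at a4
    exact absurd a4 (by norm_num)
  exact ⟨ne.map π⟩

end Vale.Agent.P265
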