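import Vale.Agent.P265.Coh

namespace Vale.Agent.P265

open Set

namespace SumM

theorem rank_sum {V : Type} [AddCommGroup V] [Module K7 V] (Z T Z1 Z2 T1 T2 : Submodule K7 V)
    (hT : T = T1 ⊓ T2) (hZ : Z = Z1 ⊓ Z2)
    (h : ∀ a ∈ Z1, ∀ b ∈ Z2, ∃ c ∈ Z1 ⊓ Z2, c - a ∈ T1 ∧ c - b ∈ T2) :
    Module.rank K7 (Z.map T.mkQ) =
      Module.rank K7 (Z1.map T1.mkQ) + Module.rank K7 (Z2.map T2.mkQ) := by
  subst hT hZ
  let f := LinearMap.prod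
    ((T1.mkQ ∘ₗ (Z1 ⊓ Z2).subtype).codRestrict (Z1.map T1.mkQ) fun x => ⟨x, x.2.1, rfl⟩)
    ((T2.mkQ ∘ₗ (Z1 ⊓ Z2).subtype).codRestrict (Z2.map T2.mkQ) fun x => ⟨x, x.2.2, rfl⟩)
  have hs : Function.Surjective f := by
    rintro ⟨⟨_, a, ha, rfl⟩, ⟨_, b, hb, rfl⟩⟩
    obtain ⟨c, hc, h1, h2⟩ := h a ha b hb
    exact ⟨⟨c, hc⟩, Prod.ext (Subtype.ext ((Submodule.Quotient.eq _).2 h1))
      (Subtype.ext ((Submodule.Quotient.eq _).2 h2))⟩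
  have hk : LinearMap.ker ((T1 ⊓ T2).mkQ ∘ₗ (Z1 ⊓ Z2).subtype) = LinearMap.ker f := by
    ext x
    rw [LinearMap.mem_ker, LinearMap.mem_ker, Prod.ext_iff, Subtype.ext_iff, Subtype.ext_iff]
    exact (Submodule.Quotient.mk_eq_zero _).trans
      (and_congr (Submodule.Quotient.mk_eq_zero _).symm (Submodule.Quotient.mk_eq_zero _).symm)
  have e : (Z1 ⊓ Z2).map (T1 ⊓ T2).mkQ = LinearMap.range ((T1 ⊓ T2).mkQ ∘ₗ (Z1 ⊓ Z2).subtype) := by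
    rw [LinearMap.range_comp, Submodule.range_subtype]
  rw [e, ← (LinearMap.quotKerEquivRange _).rank_eq, hk, (f.quotKerEquivOfSurjective hs).rank_eq,
    rank_prod']

variable {E : Type} [MetricSpace E]

theorem nul_union (hB : StmtBas) {A1 A2 : Set E} (h1 : IsCompact A1) (h2 : IsCompact A2)
    (hd : Disjoint A1 A2) (n : ℕ) : Nul (A1 ∪ A2) n = Nul A1 n ⊓ Nul A2 n := by
  refine le_antisymm (le_inf ((hB E).2.2.1 _ _ n subset_union_left)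
    ((hB E).2.2.1 _ _ n subset_union_right)) ?_
  rintro φ ⟨⟨δ1, p1, q1⟩, ⟨δ2, p2, q2⟩⟩
  obtain ⟨δ, p, q⟩ := hd.exists_thickenings h1 h2.isClosed
  refine ⟨min δ (min δ1 δ2), lt_min p (lt_min p1 p2), fun l hl hs => ?_⟩
  by_cases h : ∀ x ∈ l, x ∈ A1
  · exact q1 l hl ⟨h, fun x hx y hy => (hs.2 x hx y hy).trans_le
      ((min_le_right _ _).trans (min_le_left _ _))⟩
  · push Not at h
    obtain ⟨y, hy, hy1⟩ := h
    have hy2 := (hs.1 y hy).resolve_left hy1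
    refine q2 l hl ⟨fun x hx => (hs.1 x hx).resolve_left fun hx1 => ?_,
      fun x hx y hy => (hs.2 x hx y hy).trans_le ((min_le_right _ _).trans (min_le_right _ _))⟩
    exact Set.disjoint_left.1 q (Metric.self_subset_thickening p _ hx1)
      (Metric.mem_thickening_iff.2 ⟨y, hy2, (hs.2 x hx y hy).trans_le (min_le_left _ _)⟩)

theorem glue {A1 A2 : Set E} (hd : Disjoint A1 A2) (φ ψ : Co E) (m : ℕ) (h : m = 0 → φ [] = ψ []) :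
    ∃ χ : Co E, χ - φ ∈ Nul A1 m ∧ χ - ψ ∈ Nul A2 m := by
  classical
  refine ⟨fun l => if ∀ x ∈ l, x ∈ A1 then φ l else ψ l, ⟨1, one_pos, fun l _ hs => ?_⟩,
    ⟨1, one_pos, fun l hl hs => ?_⟩⟩
  · rw [Pi.sub_apply, if_pos hs.1, sub_self]
  · rw [Pi.sub_apply]
    split_ifs with h1
    · cases l with
      | nil => rw [h hl.symm, sub_self]
      | cons x l => exact (Set.disjoint_left.1 hd (h1 x (by simp)) (hs.1 x (by simp))).elim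
    · exact sub_self _

theorem nil0 {A : Set E} {φ : Co E} (h : φ ∈ Nul A 0) : φ [] = 0 := by
  obtain ⟨δ, _, q⟩ := h
  exact q [] rfl ⟨by simp, by simp⟩

theorem bd_step (hB : StmtBas) {A B : Set E} (h : B ⊆ A) {n : ℕ} {ψ χ ν : Co E}
    (h1 : ψ ∈ Nul B (n - 1)) (h2 : ν ∈ Nul A n) (h3 : χ - ψ ∈ Nul A (n - 1)) :
    χ ∈ Nul B (n - 1) ∧ dL E ψ + ν - dL E χ ∈ Nul A n := by
  constructor
  · simpa using add_mem ((hB E).2.2.1 _ _ _ h h3) h1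
  · have h4 := sub_mem h2 ((hB E).2.2.2.1 A n _ h3)
    rw [map_sub] at h4
    rwa [show dL E ψ + ν - dL E χ = ν - (dL E χ - dL E ψ) by abel]

theorem nul_ze (hB : StmtBas) {ι : E → E} (ε : K7) {A B : Set E} (hA : Good ι A) (h : B ⊆ A) (n : ℕ)
    {φ : Co E} (hφ : φ ∈ Nul A n) : φ ∈ Ze ι ε A B n :=
  ⟨⟨(hB E).2.2.1 _ _ _ h hφ, (hB E).2.2.2.1 A (n + 1) _ hφ⟩, Submodule.mem_sup_right (sub_mem
    ((hB E).2.2.2.2.2.2.1 E A A ι n hA.1 hA.2.2.1 hA.2.1 φ hφ) (Submodule.smul_mem _ ε hφ))⟩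

end SumM

open SumM in
theorem sumS (hB : StmtBas) : StmtSum := by
  intro E _ ι ε A1 A2 B1 B2 g1 g2 g3 g4 s1 s2 hD n
  rcases Nat.eq_zero_or_pos n with rfl | hn
  · simp only [(hB E).2.2.2.2.2.1, add_zero]
  have uA := nul_union hB g1.1 g2.1 hD
  have uB := nul_union hB g3.1 g4.1 (hD.mono s1 s2)
  have e1 : Bd (A1 ∪ A2) (B1 ∪ B2) n = Bd A1 B1 n ⊓ Bd A2 B2 n := by
    unfold Bd
    rw [uA, uB]
    refine le_antisymm (le_inf (sup_le_sup (Submodule.map_mono inf_le_left) inf_le_left)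
      (sup_le_sup (Submodule.map_mono inf_le_right) inf_le_right)) ?_
    rintro φ ⟨a, b⟩
    obtain ⟨_, ⟨ψ1, a1, rfl⟩, ν1, a2, a3⟩ := Submodule.mem_sup.1 a
    obtain ⟨_, ⟨ψ2, b1, rfl⟩, ν2, b2, b3⟩ := Submodule.mem_sup.1 b
    obtain ⟨χ, c1, c2⟩ := glue hD ψ1 ψ2 (n - 1) fun h => by
      rw [h] at a1 b1
      rw [nil0 a1, nil0 b1]
    obtain ⟨d1, d2⟩ := bd_step hB s1 a1 a2 c1
    obtain ⟨d3, d4⟩ := bd_step hB s2 b1 b2 c2
    rw [a3] at d2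
    rw [b3] at d4
    exact Submodule.mem_sup.2 ⟨_, ⟨χ, ⟨d1, d3⟩, rfl⟩, _, ⟨d2, d4⟩, add_sub_cancel _ _⟩
  have e2 : Ze ι ε (A1 ∪ A2) (B1 ∪ B2) n = Ze ι ε A1 B1 n ⊓ Ze ι ε A2 B2 n := by
    unfold Ze Zc
    rw [e1, uA, uB, Submodule.comap_inf, Submodule.comap_inf, inf_inf_inf_comm (Nul B1 n),
      inf_inf_inf_comm]
  refine rank_sum _ _ _ _ _ _ e1 e2 fun a ha b hb => ?_
  obtain ⟨χ, c1, c2⟩ := glue hD a b n fun h => absurd h hn.ne'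
  exact ⟨χ, ⟨by simpa using add_mem (nul_ze hB ε g1 s1 n c1) ha,
    by simpa using add_mem (nul_ze hB ε g2 s2 n c2) hb⟩,
    Submodule.mem_sup_right c1, Submodule.mem_sup_right c2⟩

end Vale.Agent.P265
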