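import Vale.Agent.P265.Coh

namespace Vale.Agent.P265

open Set

namespace SuspM

variable {E : Type} [MetricSpace E]

theorem good_prod {ι : E → E} {A : Set E} (hA : Good ι A) {K : Set ℝ} (hK : IsCompact K) :
    Good (Prod.map ι (id : ℝ → ℝ)) (A ×ˢ K) := by
  refine ⟨hA.1.prod hK, fun p hp => ⟨hA.2.1 hp.1, hp.2⟩, ?_, ?_⟩
  · exact hA.2.2.1.prodMap continuousOn_id
  · rintro ⟨x, t⟩ hp
    rw [Prod.map_iterate, Prod.map_apply, hA.2.2.2 x hp.1, Function.iterate_id]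
    rfl

theorem good_union {F : Type} [MetricSpace F] {ι : F → F} {A B : Set F} (hA : Good ι A)
    (hB : Good ι B) : Good ι (A ∪ B) := by
  refine ⟨hA.1.union hB.1, hA.2.1.union_union hB.2.1,
    hA.2.2.1.union_of_isClosed hB.2.2.1 hA.1.isClosed hB.1.isClosed, ?_⟩
  rintro x (hx | hx)
  · exact hA.2.2.2 x hx
  · exact hB.2.2.2 x hx

theorem htp_const {F : Type} [MetricSpace F] {A B : Set E} {A' B' : Set F} {f g : E → F}
    (hf : PMap A B A' B' f) (hfg : EqOn f g A) : Htp A B A' B' f g := by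
  refine ⟨fun _ => f, ?_, fun _ _ => ⟨hf.2.1, hf.2.2⟩, fun _ _ => rfl, hfg⟩
  exact hf.1.comp continuousOn_snd fun q hq => hq.2

theorem cvx {a b c s t : ℝ} (hs : s ∈ Icc (0 : ℝ) 1) (ht : t ∈ Icc a b) (hc : c ∈ Icc a b) :
    (1 - s) * t + s * c ∈ Icc a b := by
  obtain ⟨h0, h1⟩ := hs
  obtain ⟨h2, h3⟩ := ht
  obtain ⟨h4, h5⟩ := hc
  constructor <;> nlinarith [mul_nonneg (sub_nonneg.2 h1) (sub_nonneg.2 h2),
    mul_nonneg (sub_nonneg.2 h1) (sub_nonneg.2 h3), mul_nonneg h0 (sub_nonneg.2 h4),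
    mul_nonneg h0 (sub_nonneg.2 h5)]

end SuspM

open SuspM

theorem suspS (hT : StmtTri2) (hE : StmtEqv) (hZ : StmtZero) (hX : StmtExc) : StmtSusp := by
  intro E _ ι ε A B hε hA hB hBA n
  set J : E × ℝ → E × ℝ := Prod.map ι id with hJ
  set X : Set (E × ℝ) := A ×ˢ Icc (-1 : ℝ) 1 with hXd
  set C : Set (E × ℝ) := B ×ˢ Icc (-1 : ℝ) 1 ∪ A ×ˢ Icc (-1 : ℝ) (-1 / 2) with hC
  set A₁ : Set (E × ℝ) := A ×ˢ Icc (1 / 2 : ℝ) 1 ∪ B ×ˢ Icc (0 : ℝ) 1 with hA₁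
  have eY : B ×ˢ Icc (-1 : ℝ) 1 ∪ A ×ˢ {t : ℝ | 1 / 2 ≤ |t| ∧ |t| ≤ 1} = A₁ ∪ C := by
    ext ⟨x, t⟩
    simp only [hA₁, hC, mem_union, mem_prod, mem_Icc, mem_setOf_eq]
    constructor
    · rintro (h | ⟨hx, h1, h2⟩)
      · exact Or.inr (Or.inl h)
      · rcases le_total 0 t with ht | ht
        · rw [abs_of_nonneg ht] at h1 h2
          exact Or.inl (Or.inl ⟨hx, h1, h2⟩)
        · rw [abs_of_nonpos ht] at h1 h2
          exact Or.inr (Or.inr ⟨hx, by linarith, by linarith⟩)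
    · rintro ((⟨hx, h1, h2⟩ | ⟨hx, h1, h2⟩) | h | ⟨hx, h1, h2⟩)
      · right
        rw [abs_of_nonneg (by linarith)]
        exact ⟨hx, h1, h2⟩
      · exact Or.inl ⟨hx, by linarith, h2⟩
      · exact Or.inl h
      · right
        rw [abs_of_nonpos (by linarith)]
        exact ⟨hx, by linarith, by linarith⟩
  have eI : A₁ ∩ C = B ×ˢ Icc (0 : ℝ) 1 := by
    ext ⟨x, t⟩
    simp only [hA₁, hC, mem_inter_iff, mem_union, mem_prod, mem_Icc]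
    constructor
    · rintro ⟨⟨hx, h1, h2⟩ | h, ⟨hy, h3, h4⟩ | ⟨hy, h3, h4⟩⟩
      · exact ⟨hy, by linarith, h2⟩
      · linarith
      · exact h
      · exact h
    · rintro ⟨hx, h1, h2⟩
      exact ⟨Or.inr ⟨hx, h1, h2⟩, Or.inl ⟨hx, by linarith, h2⟩⟩
  have gX : Good J X := good_prod hA isCompact_Icc
  have gC : Good J C := good_union (good_prod hB isCompact_Icc) (good_prod hA isCompact_Icc)
  have gA : Good J A₁ := good_union (good_prod hA isCompact_Icc) (good_prod hB isCompact_Icc)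
  have gB : Good J (B ×ˢ Icc (0 : ℝ) 1) := good_prod hB isCompact_Icc
  have sC : C ⊆ X := by
    rintro ⟨x, t⟩ (⟨hx, h⟩ | ⟨hx, h1, h2⟩)
    · exact ⟨hBA hx, h⟩
    · exact ⟨hx, h1, le_trans h2 (by norm_num)⟩
  have sA : A₁ ⊆ X := by
    rintro ⟨x, t⟩ (⟨hx, h1, h2⟩ | ⟨hx, h1, h2⟩)
    · exact ⟨hx, le_trans (by norm_num) h1, h2⟩
    · exact ⟨hBA hx, le_trans (by norm_num) h1, h2⟩
  have z : HasDim J ε X C 0 := by
    refine (hZ (E × ℝ) J ε X C gX.1 gC.1 sC).1 (fun p => (p.1, -1)) ?_ ?_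
    · refine ⟨fun s p => (p.1, (1 - s) * p.2 + s * (-1)), by fun_prop, fun s hs => ⟨?_, ?_⟩,
        ?_, ?_⟩
      · rintro ⟨x, t⟩ ⟨hx, h⟩
        exact ⟨hx, cvx hs h (by norm_num)⟩
      · rintro ⟨x, t⟩ (⟨hx, h⟩ | ⟨hx, h⟩)
        · exact Or.inl ⟨hx, cvx hs h (by norm_num)⟩
        · exact Or.inr ⟨hx, cvx hs h (by norm_num)⟩
      · intro p _
        simp
      · intro p _
        simp
    · rintro ⟨x, t⟩ ⟨hx, -⟩
      exact Or.inr ⟨hx, by norm_num⟩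
  rw [eY, (hT (E × ℝ) J ε X (A₁ ∪ C) C hε gX (good_union gA gC) gC subset_union_right
    (union_subset sA sC)).2.2.2.1 z n]
  rw [hX (E × ℝ) J ε A₁ C {p | 0 < p.2} {p | p.2 < 1 / 2} gA gC
    (isOpen_lt continuous_const continuous_snd) (isOpen_lt continuous_snd continuous_const)
    ?_ ?_ ?_ n, eI]
  · have sB : B ×ˢ Icc (0 : ℝ) 1 ⊆ A₁ := subset_union_right
    have pf : PMap A₁ (B ×ˢ Icc (0 : ℝ) 1) A B Prod.fst := by
      refine ⟨continuousOn_fst, ?_, fun p hp => hp.1⟩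
      rintro ⟨x, t⟩ (⟨hx, -⟩ | ⟨hx, -⟩)
      · exact hx
      · exact hBA hx
    refine hE (E × ℝ) E J ι ε A₁ _ A B Prod.fst (fun x => (x, 1)) gA gB sB hA hB hBA pf
      ⟨by fun_prop, fun x hx => Or.inl ⟨hx, by norm_num⟩, fun x hx => ⟨hx, by norm_num⟩⟩
      ?_ ?_ ?_ n
    · refine ⟨fun s p => (p.1, (1 - s) * 1 + s * p.2), by fun_prop, fun s hs => ⟨?_, ?_⟩,
        ?_, ?_⟩
      · rintro ⟨x, t⟩ (⟨hx, h⟩ | ⟨hx, h⟩)
        · exact Or.inl ⟨hx, cvx hs (by norm_num) h⟩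
        · exact Or.inr ⟨hx, cvx hs (by norm_num) h⟩
      · rintro ⟨x, t⟩ ⟨hx, h⟩
        exact ⟨hx, cvx hs (by norm_num) h⟩
      · intro p _
        simp
      · intro p _
        simp
    · exact htp_const ⟨continuousOn_id, mapsTo_id _, mapsTo_id _⟩ fun _ _ => rfl
    · exact htp_const ⟨continuousOn_fst.comp gA.2.2.1 (mapsTo_univ _ _), pf.2.1.comp gA.2.1,
        pf.2.2.comp gB.2.1⟩ fun _ _ => rfl
  · intro p _
    rcases lt_or_ge 0 p.2 with h | h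
    · exact Or.inl h
    · exact Or.inr (lt_of_le_of_lt h (by norm_num))
  · rintro ⟨x, t⟩ ⟨h | ⟨hx, h1, h2⟩ | ⟨hx, h1, h2⟩, ht⟩
    · exact h
    · exact Or.inr ⟨hx, le_of_lt ht, h2⟩
    · exact absurd (lt_of_lt_of_le ht h2) (by norm_num)
  · rintro ⟨x, t⟩ ⟨(⟨hx, h1, h2⟩ | ⟨hx, h1, h2⟩) | h, ht⟩
    · exact absurd (lt_of_le_of_lt h1 ht) (lt_irrefl _)
    · exact Or.inl ⟨hx, le_trans (by norm_num) h1, h2⟩
    · exact h

end Vale.Agent.P265
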