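import Vale.Agent.P265.Geo

/-! Tangent cones of embedded submanifolds. -/

namespace Vale.Agent.P265

open Set Topology Filter
open scoped ContDiff

namespace TanM

variable {V : Type} [NormedAddCommGroup V] [NormedSpace ℝ V]
  {D : Type} [NormedAddCommGroup D] [NormedSpace ℝ D] {S : Set V}

theorem dP (p : Patch D S) {u : D} (hu : u ∈ p.U) : HasFDerivAt p.P (fderiv ℝ p.P u) u :=
  ((p.sP.contDiffAt (p.oU.mem_nhds hu)).differentiableAt (by simp)).hasFDerivAt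

theorem dL (p : Patch D S) {x : V} (hx : x ∈ p.O) : HasFDerivAt p.L (fderiv ℝ p.L x) x :=
  ((p.sL.contDiffAt (p.oO.mem_nhds hx)).differentiableAt (by simp)).hasFDerivAt

theorem tends {γ : ℝ → V} {v x : V} (h0 : γ 0 = x) (hd : HasDerivAt γ v 0)
    (he : ∀ᶠ t in 𝓝 (0 : ℝ), γ t ∈ S) : Tendsto γ (𝓝 0) (𝓝[S] x) :=
  tendsto_nhdsWithin_iff.2 ⟨h0 ▸ hd.continuousAt.tendsto, he⟩

theorem comp {F : Type} [NormedAddCommGroup F] [NormedSpace ℝ F] {f : V → F} {A : V →L[ℝ] F}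
    {γ : ℝ → V} {v x : V} (hf : HasFDerivWithinAt f A S x) (h0 : γ 0 = x) (hd : HasDerivAt γ v 0)
    (he : ∀ᶠ t in 𝓝 (0 : ℝ), γ t ∈ S) : HasDerivAt (fun t => f (γ t)) (A v) 0 := by
  subst h0
  have h1 : HasDerivWithinAt (f ∘ γ) (A v) (γ ⁻¹' S) 0 :=
    hf.comp_hasDerivWithinAt 0 hd.hasDerivWithinAt (mapsTo_preimage γ S)
  exact h1.hasDerivAt he

theorem PLv (p : Patch D S) {x : V} (hx : x ∈ S ∩ p.O) {v : V} (hv : v ∈ Tan S x) :
    fderiv ℝ p.P (p.L x) (fderiv ℝ p.L x v) = v := by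
  obtain ⟨γ, h0, hd, he⟩ := hv
  have h1 : HasFDerivAt (p.P ∘ p.L) _ x := (dP p (p.mL hx)).comp x (dL p hx.2)
  have h2 := comp (S := S) h1.hasFDerivWithinAt h0 hd he
  have h3 : ∀ᶠ t in 𝓝 (0 : ℝ), γ t ∈ p.O :=
    hd.continuousAt.eventually (p.oO.mem_nhds (h0 ▸ hx.2))
  refine h2.unique (hd.congr_of_eventuallyEq ?_)
  filter_upwards [he, h3] with t a b using p.PL _ ⟨a, b⟩

theorem LPu (p : Patch D S) {x : V} (hx : x ∈ S ∩ p.O) (u : D) :
    fderiv ℝ p.L x (fderiv ℝ p.P (p.L x) u) = u := by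
  have hu := p.mL hx
  have h0 : HasFDerivAt p.L (fderiv ℝ p.L x) (p.P (p.L x)) := by
    rw [p.PL x hx]; exact dL p hx.2
  have h1 := h0.comp _ (dP p hu)
  have h2 : HasFDerivAt (p.L ∘ p.P) (ContinuousLinearMap.id ℝ D) (p.L x) :=
    (hasFDerivAt_id _).congr_of_eventuallyEq (by
      filter_upwards [p.oU.mem_nhds hu] with w hw using p.LP w hw)
  exact congrArg (fun A : D →L[ℝ] D => A u) (h1.unique h2)

theorem mem_tan (p : Patch D S) {x : V} (hx : x ∈ S ∩ p.O) (u : D) :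
    fderiv ℝ p.P (p.L x) u ∈ Tan S x := by
  have hu := p.mL hx
  have h1 : HasDerivAt (fun t : ℝ => p.L x + t • u) u 0 := by
    simpa using ((hasDerivAt_id (0 : ℝ)).smul_const u).const_add (p.L x)
  have h2 : HasFDerivAt p.P (fderiv ℝ p.P (p.L x)) (p.L x + (0 : ℝ) • u) := by
    rw [zero_smul, add_zero]; exact dP p hu
  refine ⟨fun t => p.P (p.L x + t • u), by simp [p.PL x hx], h2.comp_hasDerivAt 0 h1, ?_⟩
  have h3 : ∀ᶠ t in 𝓝 (0 : ℝ), p.L x + t • u ∈ p.U :=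
    h1.continuousAt.eventually (p.oU.mem_nhds (by simpa using hu))
  filter_upwards [h3] with t ht using (p.mP ht).1

/-- change of the model space -/
def chg {D' : Type} [NormedAddCommGroup D'] [NormedSpace ℝ D'] (e : D ≃L[ℝ] D') (p : Patch D S) :
    Patch D' S where
  P u := p.P (e.symm u)
  L x := e (p.L x)
  U := e.symm ⁻¹' p.U
  O := p.O
  oU := p.oU.preimage e.symm.continuous
  oO := p.oO
  sP := p.sP.comp e.symm.contDiff.contDiffOn fun _ h => h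
  sL := e.contDiff.comp_contDiffOn p.sL
  mP _ h := p.mP h
  mL x h := by simpa using p.mL h
  LP u h := by rw [p.LP _ h, e.apply_symm_apply]
  PL x h := by rw [e.symm_apply_apply, p.PL x h]

/-- product of patches -/
def prd {V' D' : Type} [NormedAddCommGroup V'] [NormedSpace ℝ V'] [NormedAddCommGroup D']
    [NormedSpace ℝ D'] {S' : Set V'} (p : Patch D S) (q : Patch D' S') :
    Patch (D × D') (S ×ˢ S') where
  P := Prod.map p.P q.P
  L := Prod.map p.L q.L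
  U := p.U ×ˢ q.U
  O := p.O ×ˢ q.O
  oU := p.oU.prod q.oU
  oO := p.oO.prod q.oO
  sP := p.sP.prodMap q.sP
  sL := p.sL.prodMap q.sL
  mP _ h := ⟨⟨(p.mP h.1).1, (q.mP h.2).1⟩, (p.mP h.1).2, (q.mP h.2).2⟩
  mL _ h := ⟨p.mL ⟨h.1.1, h.2.1⟩, q.mL ⟨h.1.2, h.2.2⟩⟩
  LP u h := Prod.ext (p.LP _ h.1) (q.LP _ h.2)
  PL x h := Prod.ext (p.PL _ ⟨h.1.1, h.2.1⟩) (q.PL _ ⟨h.1.2, h.2.2⟩)

end TanM

open TanM in
theorem tanS : StmtTan := by
  intro V D _ _ _ _ S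
  refine ⟨fun p x hx => ⟨?_, LPu p hx, fun v => PLv p hx⟩, fun γ v t hd he => ?_,
    fun F _ _ f g A B x hf hg _ hfg v hv => ?_, fun V' _ _ S' f A x hf _ hm v hv => ?_,
    fun D' _ _ e h x hx => ?_, fun V' D' _ _ _ _ S' => ⟨fun h h' x hx => ?_, fun x y => ?_⟩⟩
  · exact Subset.antisymm (fun v hv => ⟨_, PLv p hx hv⟩) (range_subset_iff.2 (mem_tan p hx))
  · have h1 : HasDerivAt (fun s : ℝ => t + s) 1 0 := (hasDerivAt_id (0 : ℝ)).const_add t
    have h2 : Tendsto (fun s : ℝ => t + s) (𝓝 0) (𝓝 t) := by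
      simpa using h1.continuousAt.tendsto
    refine ⟨fun s => γ (t + s), by simp, ?_, h2.eventually he⟩
    exact HasDerivAt.comp_const_add t 0 (by simpa using hd)
  · obtain ⟨γ, h0, hd, he⟩ := hv
    exact (comp hf h0 hd he).unique
      ((comp hg h0 hd he).congr_of_eventuallyEq ((tends h0 hd he).eventually hfg))
  · obtain ⟨γ, h0, hd, he⟩ := hv
    exact ⟨fun t => f (γ t), by simp [h0], comp hf h0 hd he, he.mono fun t ht => hm ht⟩
  · obtain ⟨p, hp⟩ := h x hx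
    exact ⟨chg e p, hp⟩
  · obtain ⟨p, hp⟩ := h x.1 hx.1
    obtain ⟨q, hq⟩ := h' x.2 hx.2
    exact ⟨prd p q, hp, hq⟩
  · ext v
    constructor
    · rintro ⟨γ, h0, hd, he⟩
      exact ⟨⟨fun t => (γ t).1, by simp [h0], hd.fst, he.mono fun t ht => ht.1⟩,
        ⟨fun t => (γ t).2, by simp [h0], hd.snd, he.mono fun t ht => ht.2⟩⟩
    · rintro ⟨⟨γ, h0, hd, he⟩, γ', h0', hd', he'⟩
      exact ⟨fun t => (γ t, γ' t), by simp [h0, h0'], hd.prodMk hd', he.and he'⟩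

end Vale.Agent.P265
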