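import Vale.Agent.P265.Ex

/-! Cohomology of the total space of the six-fold covering. -/

namespace Vale.Agent.P265

open Set Topology Complex
open scoped ContDiff ComplexConjugate

noncomputable section

namespace TotM

lemma good_empty {E : Type} [MetricSpace E] (ι : E → E) : Good ι (∅ : Set E) :=
  ⟨isCompact_empty, fun _ h => h.elim, continuousOn_empty _, fun _ h => h.elim⟩

lemma pmap_id {E : Type} [MetricSpace E] (A : Set E) : PMap A ∅ A ∅ id :=
  ⟨continuousOn_id, mapsTo_id _, mapsTo_id _⟩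

lemma htp_id {E : Type} [MetricSpace E] (A : Set E) : Htp A ∅ A ∅ (id ∘ id) id :=
  ⟨fun _ x => x, continuousOn_snd, fun _ _ => ⟨mapsTo_id _, mapsTo_id _⟩, fun _ _ => rfl, fun _ _ => rfl⟩

lemma iter (e : VE) (n : ℕ) :
    ioE^[n] e = (gS^[n] e.1, ((e.2.1.1, (-1) ^ n * e.2.1.2), conj om ^ n * e.2.2)) := by
  induction n with
  | zero => simp
  | succ n ih =>
    rw [Function.iterate_succ_apply', ih, Function.iterate_succ_apply']
    simp only [ioE, pow_succ']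
    refine Prod.ext rfl (Prod.ext (Prod.ext rfl ?_) ?_) <;> simp only <;> ring

lemma rot_mem (θ : ℝ) (z : ℂ) (hz : z ∈ Metric.sphere (0 : ℂ) 1) :
    exp (θ * I) * z ∈ Metric.sphere (0 : ℂ) 1 := by
  rw [mem_sphere_zero_iff_norm] at hz ⊢
  rw [norm_mul, norm_exp_ofReal_mul_I, hz, mul_one]

/-- the rotation homotopy -/
def HH (t : ℝ) (e : VE) : VE :=
  (gS e.1, ((e.2.1.1, exp ((Real.pi * (1 - t) : ℝ) * I) * e.2.1.2),
    exp ((-(2 * Real.pi / 3) * (1 - t) : ℝ) * I) * e.2.2))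

lemma HH0 (e : VE) : HH 0 e = ioE e := by
  have h1 : exp ((Real.pi * (1 - 0) : ℝ) * I) = -1 := by simp
  have h2 : exp ((-(2 * Real.pi / 3) * (1 - 0) : ℝ) * I) = conj om := by
    unfold om
    rw [← exp_conj]
    congr 1
    simp only [map_mul, map_div₀, conj_ofReal, conj_I, map_ofNat]
    push_cast; ring
  unfold HH ioE
  rw [h1, h2, neg_one_mul]

lemma HH1 (e : VE) : HH 1 e = Prod.map gS id e := by
  simp [HH, Prod.map]

lemma HH_maps (hg : MapsTo gS Sig Sig) (t : ℝ) : MapsTo (HH t) Et Et := fun _ he =>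
  ⟨hg he.1, ⟨he.2.1.1, rot_mem _ _ he.2.1.2⟩, rot_mem _ _ he.2.2⟩

lemma arP : sh (sh (zY + sh zY + sh (zY + sh zY))) + (zY + sh zY + sh (zY + sh zY)) = zP := by
  funext n
  rcases n with _ | _ | _ | _ | _ | _ | _ | _ | _ | _ | n <;> rfl

lemma arM : sh (zY + sh zY + sh (zY + sh zY)) + sh (zY + sh zY + sh (zY + sh zY)) = zM := by
  funext n
  rcases n with _ | _ | _ | _ | _ | _ | _ | _ | _ | _ | n <;> rfl

end TotM

open TotM in
theorem totS (hE : StmtEqv) (hC : StmtCirc) (hG : StmtSG) (hA : StmtYA) (hY : StmtYCoh)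
    (h1 : StmtSig1) (h3 : StmtSig3) : StmtTot := by
  have cS := isCompact_sphere (0 : ℂ) 1
  have c1 := hA.1.prod cS
  have c2 := c1.prod cS
  have z2 := hC _ _ _ c1 (hC _ _ _ hA.1 hY)
  obtain ⟨o3, -, cSig, g6, gc, -, -, -, gd, -, -, -, ⟨p, hp⟩, -⟩ := hG _ _ c2
  have hy : P0 0 ∈ YY := by
    obtain ⟨q, e1, -, e3, -⟩ := hA.2
    rw [← e1]
    exact (q.mP (e3 ▸ mem_univ _)).1
  have one : (1 : ℂ) ∈ Metric.sphere (0 : ℂ) 1 := by simp
  have hg : MapsTo gS Sig Sig := fun x hx => (gd.2.1 (show (x, ((P0 0, 1), 1)) ∈ _ from ⟨hx, ⟨hy, one⟩, one⟩)).1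
  have hc : Continuous fun q : ℝ × VE => HH q.1 q.2 := by
    unfold HH; fun_prop
  have e0 : HH 0 = ioE := funext HH0
  have good : Good ioE Et := by
    refine ⟨cSig.prod c2, e0 ▸ HH_maps hg 0, ?_, fun e _ => ?_⟩
    · rw [← e0]; exact (hc.comp (Continuous.prodMk_right 0)).continuousOn
    · rw [iter, g6, ← map_pow, show om ^ 6 = (om ^ 3) ^ 2 by ring, o3]
      norm_num
  have key : ∀ ε n, hd ioE ε Et ∅ n = hd (Prod.map gS id) ε Et ∅ n := fun ε =>
    hE _ _ ioE (Prod.map gS id) ε Et ∅ Et ∅ id id good (good_empty _) (empty_subset _) gd (good_empty _)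
      (empty_subset _) (pmap_id _) (pmap_id _) (htp_id _) (htp_id _)
      ⟨HH, hc.continuousOn, fun t _ => ⟨HH_maps hg t, fun _ h => h.elim⟩, fun e _ => HH0 e, fun e _ => HH1 e⟩
  refine ⟨good, ⟨(p, ((P0 0, 1), 1)), hp.1, ⟨hy, one⟩, one⟩, fun n => ?_, fun n => ?_⟩
  · rw [key, ← arP]; exact h1 _ _ _ c2 z2 n
  · rw [key, ← arM]; exact h3 _ _ _ c2 z2 n

end

end Vale.Agent.P265
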