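import Vale.Agent.P265.Coh

namespace Vale.Agent.P265

open Set

namespace TriM

variable {K V : Type} [Field K] [AddCommGroup V] [Module K V]

theorem rn (S T T' : Submodule K V) (g : V →ₗ[K] V) (h : T ≤ T'.comap g) :
    Module.rank K (S.map T.mkQ) = Module.rank K ((S ⊓ T'.comap g).map T.mkQ) +
      Module.rank K ((S.map g).map T'.mkQ) := by
  let G := (T.mapQ T' g h).domRestrict (S.map T.mkQ)
  have e1 : LinearMap.range G = (S.map g).map T'.mkQ := by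
    rw [LinearMap.range_domRestrict, ← Submodule.map_comp, Submodule.mapQ_mkQ, Submodule.map_comp]
  have e2 : (LinearMap.ker G).map (S.map T.mkQ).subtype = (S ⊓ T'.comap g).map T.mkQ := by
    rw [LinearMap.ker_domRestrict, Submodule.map_comap_subtype]
    refine le_antisymm ?_ ?_
    · rintro _ ⟨⟨x, hx, rfl⟩, hk⟩
      exact ⟨x, ⟨hx, by simpa using hk⟩, rfl⟩
    · rintro _ ⟨x, ⟨hx, hk⟩, rfl⟩
      exact ⟨⟨x, hx, rfl⟩, by simpa using hk⟩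
  rw [← G.rank_range_add_rank_ker, e1, ← e2, add_comm,
    (Submodule.equivSubtypeMap _ (LinearMap.ker G)).rank_eq]

theorem meq {S S' T : Submodule K V} (h : ∀ φ ∈ S, ∃ ψ ∈ S', ψ - φ ∈ T) (h' : S' ≤ S) :
    S.map T.mkQ = S'.map T.mkQ := by
  refine le_antisymm ?_ (Submodule.map_mono h')
  rintro _ ⟨φ, hφ, rfl⟩
  obtain ⟨ψ, hψ, e⟩ := h φ hφ
  exact ⟨ψ, hψ, (Submodule.Quotient.eq T).2 e⟩

end TriM

open TriM in
theorem triS (hB : StmtBas) (hA : StmtAvg) : StmtTri := by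
  intro E _ ι ε A B C hε gA gB gC hCB hBA
  obtain ⟨b1, b2, b3, b4, -⟩ := hB E
  obtain ⟨P, p1, p2, -, p4⟩ := hA E ι ε hε
  have hCA := hCB.trans hBA
  have m1 : ∀ n, Bd A B n ≤ Bd A C n := fun n =>
    sup_le_sup_right (Submodule.map_mono (b3 _ _ _ hCB)) _
  have m2 : ∀ n, Bd A C n ≤ Bd B C n := fun n => sup_le_sup_left (b3 _ _ _ hBA) _
  have m3 : ∀ n, Bd B C n ≤ (Bd A B (n + 1)).comap (dL E) := fun n => by
    refine sup_le ?_ fun ν hν => Submodule.mem_sup_left ⟨ν, hν, rfl⟩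
    rintro _ ⟨χ, -, rfl⟩
    simp [b1]
  refine ⟨fun n => Module.rank K7 ((Ze ι ε A B n).map (Bd A C n).mkQ),
    fun n => Module.rank K7 (((Ze ι ε B C n).map (dL E)).map (Bd A B (n + 1)).mkQ),
    fun n => ⟨?_, ?_, ?_, ?_⟩⟩
  · rw [hd, rn _ _ (Bd A C (n + 1)) LinearMap.id (m1 _), Submodule.map_id, Submodule.comap_id,
      meq (S' := (Ze ι ε B C n).map (dL E))]
    · rintro φ ⟨hφ, h⟩
      obtain ⟨_, ⟨ψ, hψ, rfl⟩, ν, hν, rfl⟩ := Submodule.mem_sup.1 h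
      have hz : ψ ∈ Zc B C n := ⟨hψ, by simpa using sub_mem hφ.1.1 (b3 _ _ _ hBA hν)⟩
      refine ⟨_, ⟨P ψ, (p4 B C n gB gC hCB).1 ψ hz, rfl⟩, ?_⟩
      have := sub_mem ((p4 A B _ gA gB hBA).2.2 _ hφ)
        (Submodule.mem_sup_right (p2 A _ gA ν hν))
      rw [p1]
      convert this using 1
      rw [map_add]; abel
    · rintro _ ⟨ψ, hψ, rfl⟩
      refine ⟨⟨⟨hψ.1.2, by simp [b1]⟩, ?_⟩, Submodule.mem_sup_left ⟨ψ, hψ.1.1, rfl⟩⟩
      simpa [b2] using m3 n hψ.2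
  · have : (Ze ι ε A B 0).map (Bd A C 0).mkQ = ⊥ := by
      rw [eq_bot_iff, Submodule.map_le_iff_le_comap, Submodule.comap_bot, Submodule.ker_mkQ]
      rintro φ ⟨⟨⟨δ, hδ, hφ⟩, -⟩, -⟩
      refine Submodule.mem_sup_right ⟨δ, hδ, fun l hl _ => ?_⟩
      obtain rfl := List.length_eq_zero_iff.1 hl
      exact hφ [] rfl ⟨by simp, by simp⟩
    beta_reduce
    rw [this, rank_bot]
  · rw [hd, rn _ _ (Bd B C n) LinearMap.id (m2 _), Submodule.map_id, Submodule.comap_id,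
      meq (S' := Ze ι ε A B n), rk]
    · rintro φ ⟨hφ, h⟩
      obtain ⟨_, ⟨ψ, hψ, rfl⟩, ν, hν, rfl⟩ := Submodule.mem_sup.1 h
      have hz : ν ∈ Zc A B n := ⟨hν, by simpa [b1] using hφ.1.2⟩
      refine ⟨_, (p4 A B n gA gB hBA).1 ν hz, ?_⟩
      have := sub_mem ((p4 A C _ gA gC hCA).2.2 _ hφ)
        (Submodule.mem_sup_left ⟨_, p2 C _ gC ψ hψ, rfl⟩)
      rw [p1] at this
      convert this using 1
      rw [map_add]; abel
    · exact fun φ hφ => ⟨⟨⟨b3 _ _ _ hCB hφ.1.1, hφ.1.2⟩, m1 n hφ.2⟩, Submodule.mem_sup_right hφ.1.1⟩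
  · rw [hd, rn _ _ (Bd A B (n + 1)) (dL E) (m3 _), meq (S' := Ze ι ε A C n), rk]
    · rintro φ ⟨hφ, h⟩
      obtain ⟨_, ⟨ν, hν, rfl⟩, μ, hμ, e⟩ := Submodule.mem_sup.1 h
      have hz : φ - ν ∈ Zc A C n := ⟨sub_mem hφ.1.1 (b3 _ _ _ hCB hν), by
        rw [SetLike.mem_coe, Submodule.mem_comap, map_sub, ← e, add_sub_cancel_left]; exact hμ⟩
      refine ⟨_, (p4 A C n gA gC hCA).1 _ hz, ?_⟩
      have := sub_mem ((p4 B C _ gB gC hCB).2.2 _ hφ) (Submodule.mem_sup_right (p2 B _ gB ν hν))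
      convert this using 1
      rw [map_sub]; abel
    · exact fun φ hφ => ⟨⟨⟨hφ.1.1, b3 _ _ _ hBA hφ.1.2⟩, m2 n hφ.2⟩, Submodule.mem_sup_right hφ.1.2⟩

end Vale.Agent.P265
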