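import Vale.Agent.P265.Coh

/-! Numerical consequences of the long exact sequence. -/

namespace Vale.Agent.P265

open Set

namespace Tri2M

theorem split {x y : Cardinal.{0}} {m : ℕ} (h : (m : Cardinal) = x + y) :
    ∃ a b : ℕ, x = a ∧ y = b ∧ m = a + b := by
  have h1 : x + y < Cardinal.aleph0 := h ▸ Cardinal.natCast_lt_aleph0
  obtain ⟨a, rfl⟩ := Cardinal.lt_aleph0.1 (Cardinal.add_lt_aleph0_iff.1 h1).1
  obtain ⟨b, rfl⟩ := Cardinal.lt_aleph0.1 (Cardinal.add_lt_aleph0_iff.1 h1).2
  exact ⟨a, b, rfl, rfl, by exact_mod_cast h⟩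

end Tri2M

open Tri2M

theorem tri2S (hB : StmtBas) (hT : StmtTri) : StmtTri2 := by
  intro E _ ι ε A B C h0 gA gB gC h1 h2
  obtain ⟨i, q, h⟩ := hT E ι ε A B C h0 gA gB gC h1 h2
  have z0 : hd ι ε A B 0 = 0 := (hB E).2.2.2.2.2.1 ι ε A B
  have ha := fun n => (h n).1
  have i0 := (h 0).2.1
  have hb := fun n => (h n).2.2.1
  have hc := fun n => (h n).2.2.2
  have hi : ∀ c : ℕ → ℕ, HasDim ι ε A B c → (∀ n, q n = 0) → ∀ n, i n = c n := fun c k hq n => by
    cases n with
    | zero => rw [i0, ← k 0, z0]
    | succ n => rw [← k, ha, hq, zero_add]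
  refine ⟨fun c c' k k' => ?_, fun k n => ?_, fun k n => ?_, fun k n => ?_,
    fun c c' k k' hr n => ?_, fun z c' k k' hr n => ?_⟩
  · choose r' q' e1 e2 e3 using fun n => split ((k' n).symm.trans (hc n))
    choose q'' i' e4 e5 e6 using fun n => split ((k (n + 1)).symm.trans (ha n))
    have e7 : ∀ n, q'' n = q' n := fun n => by exact_mod_cast (e4 n).symm.trans (e2 n)
    refine ⟨fun n => sh i' n + r' n, q', fun n => ?_, fun n => ?_⟩
    · rw [hb, e1]
      cases n with
      | zero => simp [sh, i0]
      | succ n => simp [sh, e5]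
    · cases n with
      | zero =>
        have : c 0 = 0 := by exact_mod_cast (k 0).symm.trans z0
        simp [sh, this, e3]
      | succ n =>
        simp only [sh]
        rw [e6, e3, e7]; ring
  · have hq : ∀ n, q n = 0 := fun n => (add_eq_zero.1 ((ha n).symm.trans (by simpa using k (n + 1)))).1
    rw [hb, hc, hq, hi 0 k hq]
    simp
  · have e : ∀ n, rk ι ε A B C n = 0 ∧ q n = 0 := fun n =>
      add_eq_zero.1 ((hc n).symm.trans (by simpa using k n))
    rw [hb, (e n).1, add_zero]
    cases n with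
    | zero => rw [i0, z0]
    | succ n => rw [ha, (e n).2, zero_add]
  · have e : ∀ n, i n = 0 ∧ rk ι ε A B C n = 0 := fun n =>
      add_eq_zero.1 ((hb n).symm.trans (by simpa using k n))
    rw [ha, hc, (e _).1, (e n).2, add_zero, zero_add]
  · choose r' q' e1 e2 e3 using fun n => split ((k' n).symm.trans (hc n))
    have e4 : ∀ n, c' n ≤ r' n := fun n => by have := hr n; rw [e1] at this; exact_mod_cast this
    have e5 : ∀ n, q n = 0 := fun n => by
      have := e3 n; have := e4 n
      rw [e2, show q' n = 0 by omega, Nat.cast_zero]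
    have := e3 n; have := e4 n
    rw [hb, hi c k e5, e1, show r' n = c' n by omega]
    simp
  · cases n with
    | zero => simp [sh, z0]
    | succ n =>
      obtain ⟨r', q', e1, e2, e3⟩ := split ((k' n).symm.trans (hc n))
      obtain ⟨i', r'', e4, e5, e6⟩ := split ((k n).symm.trans (hb n))
      obtain ⟨i'', r3, e7, e8, e9⟩ := split ((k (n + 1)).symm.trans (hb (n + 1)))
      have a1 : z n ≤ r'' := by have := hr n; rw [e5] at this; exact_mod_cast this
      have a2 : z (n + 1) ≤ r3 := by have := hr (n + 1); rw [e8] at this; exact_mod_cast this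
      have a3 : r' = r'' := by exact_mod_cast e1.symm.trans e5
      simp only [Pi.add_apply] at e3
      rw [ha, e2, e7, show i'' = 0 by omega, show q' = c' n by omega]
      simp [sh]

end Vale.Agent.P265
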