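import Vale.Agent.P265.M.U3

namespace Vale.Agent.P265

open Set Complex

open U3m in
theorem u2S (hE : StmtEqv) (hZ : StmtZero) (hS : StmtSheet) (hG : StmtSG) : StmtU2 := by
  intro E _ Z z cZ hz
  obtain ⟨o3, o1, -, g6, cg, -, -, -, -, -, gp, -⟩ := hG E Z cZ
  have : Fact (Nat.Prime 3) := ⟨by norm_num⟩
  have k : ∀ t ∈ Icc (0 : ℝ) 1, ∀ p ∈ piece (-1) (1 / 4),
      normSq ((t * p.1) ^ 2 - 1 / 2) ≤ 15 / 16 ∧
      ((t * p.1) ^ 2 - 1 / 2 : ℂ).re ≤ 1 / 4 := fun t ht p hp => by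
    have a := cvx (k := -1 / 2) (un hp).1 (pow_nonneg ht.1 2) (pow_le_one₀ ht.1 ht.2) (by norm_num)
    have e : (t * p.1) ^ 2 - 1 / 2 =
        ((t ^ 2 : ℝ) * (xiS p - (-1 / 2 : ℝ)) + (-1 / 2 : ℝ) : ℂ) := by
      unfold xiS; push_cast; ring
    rw [e, a.2]
    exact ⟨a.1, by nlinarith [hp.2.2, pow_nonneg ht.1 2, pow_le_one₀ (n := 2) ht.1 ht.2]⟩
  have sl : ∀ t ∈ Icc (0 : ℝ) 1, ∀ p ∈ piece (-1) (1 / 4), 1 - (t * p.1) ^ 2 ∈ slitPlane :=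
    fun t ht p hp => Or.inl (by have := (k t ht p hp).2; simp at this ⊢; linarith)
  have s1 : ∀ p ∈ piece (-1) (1 / 4), 1 - p.1 ^ 2 ∈ slitPlane := fun p hp => by
    simpa using sl 1 ⟨zero_le_one, le_rfl⟩ p hp
  have mH : ∀ t ∈ Icc (0 : ℝ) 1, ∀ p ∈ piece (-1) (1 / 4),
      L (t * p.1) (-(1 - (t * p.1) ^ 2) ^ (3⁻¹ : ℂ)) ∈ piece (-1) (1 / 4) := fun t ht p hp => by
    have a := k t ht p hp
    refine mk (by rw [Odd.neg_pow (by decide), cpow_ofNat_inv_pow]; ring) a.1 ?_ a.2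
    have := a.1
    rw [normSq_apply] at this
    nlinarith [mul_self_nonneg ((t * p.1) ^ 2 - 1 / 2 : ℂ).im]
  have F := sheet hE hS cZ three_pos (by norm_num)
    (orderOf_eq_prime o3 o1 ▸ IsPrimitiveRoot.orderOf om) cg g6
    (gp (-1) (1 / 4)) ((hG ℝ {0} isCompact_singleton).2.2.2.2.2.2.2.2.2.2.1 _ _) (fun p => p.2.1)
    (fun p => -(1 - p.1 ^ 2) ^ (3⁻¹ : ℂ)) (by fun_prop)
    (ContinuousOn.cpow_const (by fun_prop) s1).neg (fun p => rfl) (fun p => by simp [gS])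
    (fun p hp => ⟨by
      rw [Odd.neg_pow (by decide), cpow_ofNat_inv_pow]; linear_combination -hp.1.1.1,
      fun h => slitPlane_ne_zero (s1 p hp) ((cpow_eq_zero_iff _ _).1 (neg_eq_zero.1 h)).1⟩)
    (fun t p => L (t * p.1) (-(1 - (t * p.1) ^ 2) ^ (3⁻¹ : ℂ))) (L 0 (-1))
    (cL.comp_continuousOn (ContinuousOn.prodMk (by fun_prop) (ContinuousOn.cpow_const (by fun_prop)
      fun q hq => sl _ hq.1 _ hq.2).neg))
    (fun t ht p hp => ⟨mH t ht p hp, rfl⟩) (fun p => by simp)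
    (fun p hp h => by rw [ofReal_one, one_mul, ← h, (un hp).2])
    (mk (by norm_num) (by norm_num [normSq_apply]) (by norm_num) (by norm_num))
  exact ⟨fun n => by rw [F 1 one_ne_zero, one_pow, hz],
    fun n => by rw [F 3 (by decide), zer hZ cZ (by decide)]⟩

end Vale.Agent.P265
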