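import Vale.Agent.P265.Ex

namespace Vale.Agent.P265

open Set Topology Complex

namespace U23M

theorem good_id {E : Type} [MetricSpace E] {A : Set E} (hA : IsCompact A) : Good id A :=
  ⟨hA, mapsTo_id A, continuousOn_id, fun x _ => by simp⟩

theorem htp_const {E E' : Type} [MetricSpace E] [MetricSpace E'] {A B : Set E} {A' B' : Set E'}
    {h f g : E → E'} (hh : PMap A B A' B' h) (hf : EqOn h f A) (hg : EqOn h g A) :
    Htp A B A' B' f g :=
  ⟨fun _ => h, hh.1.comp continuousOn_snd fun _ hq => hq.2, fun _ _ => hh.2, hf, hg⟩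

def D : Set ℂ := {ξ | |ξ.re| ≤ 1 / 4 ∧ normSq ξ ≤ 15 / 16}

noncomputable def σ (ξ : ℂ) : VS :=
  ((ξ + 1 / 2) ^ ((2 : ℕ) : ℂ)⁻¹, -(1 / 2 - ξ) ^ ((3 : ℕ) : ℂ)⁻¹, √(1 - normSq ξ))

theorem σa (ξ : ℂ) : (σ ξ).1 ^ 2 = ξ + 1 / 2 := cpow_nat_inv_pow _ two_ne_zero

theorem σb (ξ : ℂ) : (σ ξ).2.1 ^ 3 = ξ - 1 / 2 := by
  have := cpow_nat_inv_pow (1 / 2 - ξ) three_ne_zero
  simp only [σ]
  linear_combination -this

theorem xσ (ξ : ℂ) : xiS (σ ξ) = ξ := by rw [xiS, σa]; ring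

theorem cD : IsCompact D := by
  refine Metric.isCompact_of_isClosed_isBounded ((isClosed_le continuous_re.abs
    continuous_const).inter (isClosed_le continuous_normSq continuous_const))
    ((Metric.isBounded_closedBall (x := 0) (r := 1)).subset fun ξ h => ?_)
  have := h.2
  rw [normSq_eq_norm_sq] at this
  rw [mem_closedBall_zero_iff]
  nlinarith

theorem cσ : ContinuousOn σ D := fun ξ h => by
  have := abs_le.1 h.1
  refine ContinuousAt.continuousWithinAt (ContinuousAt.prodMk ?_ (ContinuousAt.prodMk ?_ ?_))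
  · exact ContinuousAt.cpow (by fun_prop) continuousAt_const (Or.inl (by simp; linarith))
  · exact (ContinuousAt.cpow (by fun_prop) continuousAt_const (Or.inl (by simp; linarith))).neg
  · fun_prop

theorem σm {ξ : ℂ} (h : ξ ∈ D) : σ ξ ∈ piece (-1 / 4) (1 / 4) := by
  have := abs_le.1 h.1
  have := h.2
  have := normSq_nonneg ξ
  refine ⟨⟨⟨by rw [σa, σb]; ring, ?_⟩, Real.le_sqrt_of_sq_le (by linarith),
    Real.sqrt_le_one.2 (by linarith)⟩, ?_⟩
  · rw [xσ]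
    simp only [σ]
    rw [Real.sq_sqrt (by linarith)]
    ring
  · simp only [mem_ofPred_eq, xσ]
    constructor <;> linarith

theorem it (j : ℕ) (p : VS) : gS^[j] p = ((-1) ^ j * p.1, om ^ j * p.2.1, p.2.2) := by
  induction j with
  | zero => simp
  | succ j ih => rw [Function.iterate_succ_apply', ih, gS]; ext <;> simp <;> ring

theorem xit (j : ℕ) (p : VS) : xiS (gS^[j] p) = xiS p := by
  rw [it, xiS, xiS, mul_pow, ← pow_mul, mul_comm j, pow_mul]; simp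

theorem cov (h3 : om ^ 3 = 1) (h1 : om ≠ 1) {p : VS} (hp : p ∈ piece (-1 / 4) (1 / 4)) :
    xiS p ∈ D ∧ ∃ j < 6, gS^[j] (σ (xiS p)) = p := by
  obtain ⟨⟨⟨e1, e2⟩, x1, -⟩, r1, r2⟩ := hp
  refine ⟨⟨abs_le.2 ⟨by linarith, r2⟩, by nlinarith⟩, ?_⟩
  have a := σa (xiS p)
  have b := σb (xiS p)
  have c : (σ (xiS p)).2.2 = p.2.2 := by
    simp only [σ]
    rw [show 1 - normSq (xiS p) = p.2.2 ^ 2 by linarith, Real.sqrt_sq (by linarith)]
  simp only [it, c]
  generalize (σ (xiS p)).1 = A at a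
  generalize (σ (xiS p)).2.1 = B at b
  have o : om ^ 2 + om + 1 = 0 :=
    (mul_eq_zero.1 (show (om - 1) * (om ^ 2 + om + 1) = 0 by linear_combination h3)).resolve_left
      (sub_ne_zero.2 h1)
  have ha : (p.1 - A) * (p.1 + A) = 0 := by unfold xiS at a; linear_combination -a
  have hb : (p.2.1 - B) * (p.2.1 - om * B) * (p.2.1 - om ^ 2 * B) = 0 := by
    unfold xiS at b
    linear_combination -b - e1 - (p.2.1 ^ 2 * B - om * p.2.1 * B ^ 2) * o - B ^ 3 * h3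
  simp only [mul_eq_zero, sub_eq_zero, add_eq_zero_iff_eq_neg] at ha hb
  obtain ⟨a', b', x⟩ := p
  dsimp only at ha hb ⊢
  rcases ha with rfl | rfl <;> rcases hb with (rfl | rfl) | rfl
  · exact ⟨0, by norm_num, by simp⟩
  · exact ⟨4, by norm_num, by rw [pow_succ om, h3]; norm_num⟩
  · exact ⟨2, by norm_num, by simp⟩
  · exact ⟨3, by norm_num, by rw [h3]; norm_num⟩
  · exact ⟨1, by norm_num, by simp⟩
  · exact ⟨5, by norm_num, by rw [pow_add om 3 2, h3]; norm_num⟩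

theorem inj (h3 : om ^ 3 = 1) (h1 : om ≠ 1) {j j' : ℕ} (hj : j < 6) (hj' : j' < 6) {ξ ξ' : ℂ}
    (h : ξ ∈ D) (e : gS^[j] (σ ξ) = gS^[j'] (σ ξ')) : j = j' := by
  obtain rfl : ξ = ξ' := by simpa only [xit, xσ] using congrArg xiS e
  have := abs_le.1 h.1
  have a : (σ ξ).1 ≠ 0 := fun z => by
    have k := congrArg re (σa ξ)
    simp [z] at k
    linarith
  have b : (σ ξ).2.1 ≠ 0 := fun z => by
    have k := congrArg re (σb ξ)
    simp [z] at k
    linarith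
  simp only [it, Prod.mk.injEq, mul_left_inj' a, mul_left_inj' b] at e
  have pr : IsPrimitiveRoot (-om) 6 := by
    refine .mk_of_lt _ (by norm_num) (by linear_combination (om ^ 3 + 1) * h3) fun l l0 l1 => ?_
    interval_cases l <;> grind
  exact pr.pow_inj hj hj' (by rw [neg_pow om, neg_pow om, e.1, e.2.1])

end U23M

open U23M in
theorem u23S (hE : StmtEqv) (_hZ : StmtZero) (hS : StmtSheet) (hG : StmtSG) : StmtU23 := by
  intro E _ Z z hZ hz
  obtain ⟨h3, h1, -, g6, -, -, -, -, -, -, gp, -⟩ := hG E Z hZ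
  have i6 : (Prod.map gS id : VS × E → VS × E)^[6] = id := by
    rw [Prod.map_iterate, funext g6, Function.iterate_id]; rfl
  have c0 : IsCompact ((σ '' D) ×ˢ Z) := (cD.image_of_continuousOn cσ).prod hZ
  have sub : (σ '' D) ×ˢ Z ⊆ piece (-1 / 4) (1 / 4) ×ˢ Z :=
    prod_mono (by rintro _ ⟨ξ, h, rfl⟩; exact σm h) subset_rfl
  have d0 : ∀ t ∈ Icc (0 : ℝ) 1, ∀ ξ ∈ D, (t : ℂ) * ξ ∈ D := fun t ht ξ h => by
    have := h.1
    have := h.2
    have := normSq_nonneg ξ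
    have := abs_nonneg ξ.re
    have : t * t ≤ 1 := by nlinarith [ht.1, ht.2]
    constructor
    · rw [re_ofReal_mul, abs_mul, abs_of_nonneg ht.1]; nlinarith [ht.2]
    · rw [normSq_mul, normSq_ofReal]; nlinarith
  have z0 : (0 : ℂ) ∈ D := ⟨by norm_num, by norm_num⟩
  have xm : ∀ q ∈ (σ '' D) ×ˢ Z, xiS q.1 ∈ D := by
    rintro q ⟨⟨ξ, h, e⟩, -⟩
    rwa [← e, xσ]
  have pf : PMap ((σ '' D) ×ˢ Z) ∅ Z ∅ Prod.snd :=
    ⟨continuousOn_snd, fun _ h => h.2, mapsTo_empty _ _⟩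
  have k : HasDim id 1 ((σ '' D) ×ˢ Z) ∅ z := fun n => by
    rw [← hz n]
    refine hE _ E id id 1 _ ∅ Z ∅ Prod.snd (fun y => (σ 0, y)) (good_id c0) (good_id isCompact_empty)
      (empty_subset _) (good_id hZ) (good_id isCompact_empty) (empty_subset _) pf
      ⟨by fun_prop, fun y hy => ⟨⟨0, z0, rfl⟩, hy⟩, mapsTo_empty _ _⟩
      ⟨fun t q => (σ (t * xiS q.1), q.2), ?_, fun t ht => ⟨fun q hq =>
        ⟨⟨_, d0 t ht _ (xm q hq), rfl⟩, hq.2⟩, mapsTo_empty _ _⟩, fun q _ => by simp, ?_⟩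
      (htp_const (h := id) ⟨continuousOn_id, mapsTo_id _, mapsTo_id _⟩ (fun _ _ => rfl)
        fun _ _ => rfl) (htp_const pf (fun _ _ => rfl) fun _ _ => rfl) n
    · exact (cσ.comp (by unfold xiS; fun_prop) fun q hq => d0 _ hq.1 _ (xm _ hq.2)).prodMk
        (by fun_prop)
    · rintro ⟨_, y⟩ ⟨⟨ξ, -, rfl⟩, -⟩
      simp [xσ]
  have main : ∀ ε : K7, ε ≠ 0 → ε ^ 6 = 1 →
      HasDim (Prod.map gS id) ε (piece (-1 / 4) (1 / 4) ×ˢ Z) ∅ z := fun ε e0 e6 n => by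
    rw [← k n, ← e6, ← i6]
    refine hS _ _ ε 6 _ ∅ _ ∅ e0 (by norm_num) dvd_rfl (gp _ _)
      ⟨isCompact_empty, mapsTo_empty _ _, continuousOn_empty _, fun _ h => h.elim⟩
      (i6 ▸ good_id c0) (i6 ▸ good_id isCompact_empty) (empty_subset _) ?_ (by simp) ?_ n
    · refine subset_antisymm (fun q hq => ?_) (iUnion₂_subset fun j _ => ?_)
      · obtain ⟨h, j, hj, e⟩ := cov h3 h1 hq.1
        refine mem_iUnion₂.2 ⟨j, Finset.mem_range.2 hj, (σ (xiS q.1), q.2), ⟨⟨_, h, rfl⟩, hq.2⟩, ?_⟩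
        rw [Prod.map_iterate, Function.iterate_id, Prod.map_apply, e]; rfl
      · exact (((gp _ _).2.1.iterate j).mono_left sub).image_subset
    · rintro j hj j' hj' ⟨_, y⟩ ⟨⟨ξ, h, rfl⟩, -⟩ ⟨_, y'⟩ ⟨⟨ξ', -, rfl⟩, -⟩ e
      rw [Prod.map_iterate, Prod.map_iterate] at e
      exact inj h3 h1 hj hj' h (congrArg Prod.fst e)
  exact ⟨main 1 one_ne_zero (one_pow _), main 3 (by decide) (by decide)⟩

end Vale.Agent.P265
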