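import Vale.Agent.P265.Ex

namespace Vale.Agent.P265

open Set Complex

namespace U3m

theorem sheet (hE : StmtEqv) (hS : StmtSheet) {E : Type} [MetricSpace E] {Z : Set E}
    (cZ : IsCompact Z) {A : Set VS} {m : ℕ} {ζ : ℂ} (m0 : 0 < m) (m6 : m ∣ 6)
    (hζ : IsPrimitiveRoot ζ m) (cg : Continuous gS) (g6 : ∀ p, gS^[6] p = p)
    (hA : Good (Prod.map gS id) (A ×ˢ Z)) (hA1 : Good (Prod.map gS id) (A ×ˢ ({0} : Set ℝ)))
    (c R : VS → ℂ) (cc : Continuous c) (cR : ContinuousOn R A) (e1 : ∀ p, c (gS p) = ζ * c p)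
    (e2 : ∀ p, R (gS p) = R p) (e3 : ∀ p ∈ A, c p ^ m = R p ^ m ∧ R p ≠ 0)
    (H : ℝ → VS → VS) (p0 : VS) (cH : ContinuousOn (fun q : ℝ × VS => H q.1 q.2) (Icc 0 1 ×ˢ A))
    (mH : ∀ t ∈ Icc (0 : ℝ) 1, ∀ p ∈ A, H t p ∈ A ∧ c (H t p) = R (H t p))
    (h0 : ∀ p, H 0 p = p0) (h1 : ∀ p ∈ A, c p = R p → H 1 p = p) (hp : p0 ∈ A)
    (ε : K7) (e0 : ε ≠ 0) (n : ℕ) :
    hd (Prod.map gS id) ε (A ×ˢ Z) ∅ n = hd id (ε ^ m) Z ∅ n := by
  have : NeZero m := ⟨m0.ne'⟩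
  have cA : IsCompact A :=
    fst_image_prod A (singleton_nonempty (0 : ℝ)) ▸ hA1.1.image continuous_fst
  have iA : MapsTo gS A A := fun p hp => (hA1.2.1 (show (p, (0 : ℝ)) ∈ _ from ⟨hp, rfl⟩)).1
  have f1 : ∀ j p, c (gS^[j] p) = ζ ^ j * c p := fun j => by
    induction j with
    | zero => simp
    | succ j ih => intro p; rw [Function.iterate_succ_apply, ih, e1]; ring
  have f2 : ∀ j p, R (gS^[j] p) = R p := fun j => by
    induction j with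
    | zero => simp
    | succ j ih => intro p; rw [Function.iterate_succ_apply, ih, e2]
  have it : ∀ j (q : VS × E), (Prod.map gS id)^[j] q = (gS^[j] q.1, q.2) := fun j q => by
    rw [Prod.map_iterate, Function.iterate_id]; rfl
  have g0 : ∀ (X : Type) [MetricSpace X] (ι : X → X), Good ι ∅ := fun X _ ι =>
    ⟨isCompact_empty, mapsTo_empty _ _, continuousOn_empty _, fun _ h => h.elim⟩
  have gd : Good (Prod.map gS id)^[m] ({p ∈ A | c p = R p} ×ˢ Z) := by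
    refine ⟨(cA.of_isClosed_subset (cA.isClosed.isClosed_eq cc.continuousOn cR)
      (sep_subset _ _)).prod cZ, fun q hq => ?_,
      ((cg.prodMap continuous_id).iterate m).continuousOn, fun q _ => ?_⟩
    · rw [it]
      exact ⟨⟨iA.iterate m hq.1.1, by rw [f1, f2, hζ.pow_eq_one, one_mul, hq.1.2]⟩, hq.2⟩
    · rw [← Function.iterate_mul, it, mul_comm, Function.iterate_mul, Function.iterate_fixed (g6 _)]
  rw [hS _ _ ε m _ ∅ _ ∅ e0 m0 m6 hA (g0 _ _) gd (g0 _ _) (empty_subset _) ?_ (by simp) ?_]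
  · have hp0 : c p0 = R p0 := h0 p0 ▸ (mH 0 ⟨le_rfl, zero_le_one⟩ p0 hp).2
    refine hE _ _ _ _ _ _ _ _ _ Prod.snd (fun z => (p0, z)) gd (g0 _ _) (empty_subset _)
      ⟨cZ, mapsTo_id _, continuousOn_id, fun _ _ => by simp⟩ (g0 _ _) (empty_subset _)
      ⟨continuousOn_snd, fun _ h => h.2, mapsTo_empty _ _⟩
      ⟨by fun_prop, fun _ h => ⟨⟨hp, hp0⟩, h⟩, mapsTo_empty _ _⟩
      ⟨fun t q => (H t q.1, q.2), ?_, fun t ht => ⟨fun q hq => ⟨mH t ht _ hq.1.1, hq.2⟩,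
        mapsTo_empty _ _⟩, fun q _ => Prod.ext (h0 _) rfl,
        fun q hq => Prod.ext (h1 _ hq.1.1 hq.1.2) rfl⟩
      ⟨fun _ z => z, continuousOn_snd, fun _ _ => ⟨fun _ h => h, mapsTo_empty _ _⟩,
        fun _ _ => rfl, fun _ _ => rfl⟩
      ⟨fun _ q => q.2, by fun_prop, fun _ _ => ⟨fun _ h => h.2, mapsTo_empty _ _⟩,
        fun q _ => by simp, fun _ _ => rfl⟩ n
    exact (cH.comp (f := fun q : ℝ × VS × E => (q.1, q.2.1)) (by fun_prop)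
      fun q hq => ⟨hq.1, hq.2.1.1⟩).prodMk (by fun_prop)
  · refine Subset.antisymm (fun q hq => ?_) (iUnion₂_subset fun j _ =>
      (hA.2.1.iterate j).image_subset.trans' (image_mono fun q hq => ⟨hq.1.1, hq.2⟩))
    obtain ⟨a, b⟩ := e3 _ hq.1
    obtain ⟨j, hj, e⟩ := hζ.eq_pow_of_pow_eq_one (ξ := c q.1 / R q.1)
      (by rw [div_pow, a, div_self (pow_ne_zero _ b)])
    have k : gS^[j] (gS^[6 - j] q.1) = q.1 := by
      rw [← Function.iterate_add_apply, Nat.add_sub_cancel' (hj.le.trans (Nat.le_of_dvd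
        (by norm_num) m6)), g6]
    refine mem_iUnion₂.2 ⟨j, Finset.mem_range.2 hj, (gS^[6 - j] q.1, q.2),
      ⟨⟨iA.iterate _ hq.1, ?_⟩, hq.2⟩, by rw [it, k]⟩
    refine mul_left_cancel₀ (pow_ne_zero j (hζ.ne_zero m0.ne')) ?_
    rw [← f1, k, f2, e, div_mul_cancel₀ _ b]
  · intro j hj j' hj' x hx x' hx' e
    rw [it, it] at e
    have e' := congrArg Prod.fst e
    have a := congrArg c e'
    have b := congrArg R e'
    simp only [f1, f2] at a b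
    rw [hx.1.2, hx'.1.2, ← b] at a
    exact hζ.pow_inj hj hj' (mul_right_cancel₀ (e3 _ hx.1.1).2 a)

noncomputable def L (a b : ℂ) : VS := (a, b, √(1 - normSq (a ^ 2 - 1 / 2)))

theorem cL : Continuous fun q : ℂ × ℂ => L q.1 q.2 := by unfold L; fun_prop

theorem mk {u v : ℝ} {a b : ℂ} (h : a ^ 2 - b ^ 3 = 1) (h2 : normSq (a ^ 2 - 1 / 2) ≤ 15 / 16)
    (h3 : u ≤ (a ^ 2 - 1 / 2).re) (h4 : (a ^ 2 - 1 / 2).re ≤ v) : L a b ∈ piece u v := by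
  refine ⟨⟨⟨h, ?_⟩, Real.le_sqrt_of_sq_le (by linarith), Real.sqrt_le_one.2 ?_⟩, h3, h4⟩
  · simp only [L, xiS]
    rw [Real.sq_sqrt (by linarith)]; ring
  · linarith [normSq_nonneg (a ^ 2 - 1 / 2)]

theorem un {u v : ℝ} {p : VS} (h : p ∈ piece u v) :
    normSq (xiS p) ≤ 15 / 16 ∧ L p.1 p.2.1 = p := by
  obtain ⟨⟨⟨-, h1⟩, h2, -⟩, -⟩ := h
  refine ⟨by nlinarith, Prod.ext rfl (Prod.ext rfl ?_)⟩
  exact (Real.sqrt_eq_iff_eq_sq (by rw [← h1]; unfold xiS; nlinarith) (by linarith)).2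
    (by rw [← h1]; unfold xiS; ring)

theorem cvx {ξ : ℂ} {s k : ℝ} (h : normSq ξ ≤ 15 / 16) (h0 : 0 ≤ s) (h1 : s ≤ 1)
    (hk : k ^ 2 = 1 / 4) : normSq (s * (ξ - k) + k) ≤ 15 / 16 ∧
      (s * (ξ - k) + k : ℂ).re = s * ξ.re + (1 - s) * k := by
  simp only [normSq_apply, add_re, add_im, mul_re, mul_im, sub_re, sub_im, ofReal_re,
    ofReal_im] at h ⊢
  refine ⟨?_, by ring⟩
  nlinarith [mul_nonneg (mul_nonneg h0 (sub_nonneg.2 h1)) (add_nonneg (sq_nonneg (ξ.re - k))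
    (sq_nonneg ξ.im)), mul_nonneg h0 (sub_nonneg.2 h)]

theorem zer (hZ : StmtZero) {E : Type} [MetricSpace E] {Z : Set E} (cZ : IsCompact Z) {ε : K7}
    (h : ε ≠ 1) : HasDim id ε Z ∅ 0 :=
  (hZ E id ε Z ∅ cZ isCompact_empty (empty_subset _)).2.1 ⟨fun _ z => z, continuousOn_snd,
    fun _ _ => ⟨fun _ h => h, mapsTo_empty _ _⟩, fun _ _ => rfl, fun _ _ => rfl⟩ h

end U3m

open U3m in
theorem u3S (hE : StmtEqv) (hZ : StmtZero) (hS : StmtSheet) (hG : StmtSG) : StmtU3 := by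
  intro E _ Z z cZ hz
  obtain ⟨o3, -, -, g6, cg, -, -, -, -, -, gp, -⟩ := hG E Z cZ
  have k : ∀ t ∈ Icc (0 : ℝ) 1, ∀ p ∈ piece (-1 / 4) 1,
      normSq (1 + (t * p.2.1) ^ 3 - 1 / 2) ≤ 15 / 16 ∧
      -1 / 4 ≤ (1 + (t * p.2.1) ^ 3 - 1 / 2 : ℂ).re := fun t ht p hp => by
    have a := cvx (k := 1 / 2) (un hp).1 (pow_nonneg ht.1 3) (pow_le_one₀ ht.1 ht.2) (by norm_num)
    have e : 1 + (t * p.2.1) ^ 3 - 1 / 2 =
        ((t ^ 3 : ℝ) * (xiS p - (1 / 2 : ℝ)) + (1 / 2 : ℝ) : ℂ) := by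
      have := hp.1.1.1
      unfold xiS; push_cast; linear_combination (-(t : ℂ) ^ 3) * this
    rw [e, a.2]
    exact ⟨a.1, by nlinarith [hp.2.1, pow_nonneg ht.1 3, pow_le_one₀ (n := 3) ht.1 ht.2]⟩
  have sl : ∀ t ∈ Icc (0 : ℝ) 1, ∀ p ∈ piece (-1 / 4) 1, 1 + (t * p.2.1) ^ 3 ∈ slitPlane :=
    fun t ht p hp => Or.inl (by have := (k t ht p hp).2; simp at this ⊢; linarith)
  have s1 : ∀ p ∈ piece (-1 / 4) 1, 1 + p.2.1 ^ 3 ∈ slitPlane := fun p hp => by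
    simpa using sl 1 ⟨zero_le_one, le_rfl⟩ p hp
  have mH : ∀ t ∈ Icc (0 : ℝ) 1, ∀ p ∈ piece (-1 / 4) 1,
      L ((1 + (t * p.2.1) ^ 3) ^ (2⁻¹ : ℂ)) (t * p.2.1) ∈ piece (-1 / 4) 1 := fun t ht p hp => by
    have a := k t ht p hp
    rw [← cpow_ofNat_inv_pow (1 + (t * p.2.1) ^ 3) 2] at a
    refine mk (by rw [cpow_ofNat_inv_pow]; ring) a.1 a.2 ?_
    have := a.1
    rw [normSq_apply] at this
    nlinarith [mul_self_nonneg (((1 + (t * p.2.1) ^ 3) ^ (2⁻¹ : ℂ)) ^ 2 - 1 / 2 : ℂ).im]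
  have F := sheet hE hS cZ two_pos (by norm_num) (IsPrimitiveRoot.neg_one 0 (by norm_num)) cg g6
    (gp (-1 / 4) 1) ((hG ℝ {0} isCompact_singleton).2.2.2.2.2.2.2.2.2.2.1 _ _) Prod.fst
    (fun p => (1 + p.2.1 ^ 3) ^ (2⁻¹ : ℂ)) continuous_fst
    (ContinuousOn.cpow_const (by fun_prop) s1) (fun p => by simp [gS])
    (fun p => by simp [gS, mul_pow, o3])
    (fun p hp => ⟨by rw [cpow_ofNat_inv_pow]; linear_combination hp.1.1.1,
      fun h => slitPlane_ne_zero (s1 p hp) ((cpow_eq_zero_iff _ _).1 h).1⟩)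
    (fun t p => L ((1 + (t * p.2.1) ^ 3) ^ (2⁻¹ : ℂ)) (t * p.2.1)) (L 1 0)
    (cL.comp_continuousOn ((ContinuousOn.cpow_const (by fun_prop)
      fun q hq => sl _ hq.1 _ hq.2).prodMk (by fun_prop)))
    (fun t ht p hp => ⟨mH t ht p hp, rfl⟩) (fun p => by simp)
    (fun p hp h => by rw [ofReal_one, one_mul, ← h, (un hp).2])
    (mk (by simp) (by norm_num [normSq_apply]) (by norm_num) (by norm_num))
  exact ⟨fun n => by rw [F 1 one_ne_zero, one_pow, hz],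
    fun n => by rw [F 3 (by decide), zer hZ cZ (by decide)]⟩

end Vale.Agent.P265
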