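import Vale.Agent.P265.Ex

namespace Vale.Agent.P265

open Set Topology Complex Filter
open scoped ContDiff

namespace VM

theorem ip_smul (c : ℝ) (a b : S2) : ip (c • a) b = c * ip a b := by simp [ip]; ring

theorem ip_smul2 (c : ℝ) (a : S2) : ip (c • a) (c • a) = c ^ 2 * ip a a := by simp [ip]; ring

theorem ip_add (a b c : S2) : ip (a + b) c = ip a c + ip b c := by simp [ip]; ring

theorem ip_pos {a : S2} (h : a ≠ 0) : 0 < ip a a := by
  by_contra k
  have := mul_self_nonneg a.1.re
  have := mul_self_nonneg a.1.im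
  have := mul_self_nonneg a.2
  unfold ip at k
  exact h (Prod.ext (Complex.ext (by simpa using show a.1.re * a.1.re = 0 by linarith)
    (by simpa using show a.1.im * a.1.im = 0 by linarith))
    (by simpa using show a.2 * a.2 = 0 by linarith))

theorem ipc : ContDiff ℝ ∞ fun a : S2 => ip a a := by
  have h1 : ContDiff ℝ ∞ fun a : S2 => a.1.re := reCLM.contDiff.comp contDiff_fst
  have h2 : ContDiff ℝ ∞ fun a : S2 => a.1.im := imCLM.contDiff.comp contDiff_fst
  exact ((h1.mul h1).add (h2.mul h2)).add (contDiff_snd.mul contDiff_snd)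

noncomputable def ch (k : ℝ) (p : VX) : ℝ := Real.smoothTransition ((-√2 + k - fX p) / (k / 2))
noncomputable def v1 (k : ℝ) (p : VX) : S2 := ch k p • yv p + (1 - ch k p) • v0 p
noncomputable def vA (p : VX) : S2 := √(2 / (√2 - fX p)) • yv p
noncomputable def vB (Φ : VX → ℝ) (k : ℝ) (p : VX) : S2 := √(Φ p / ip (v1 k p) (v1 k p)) • v1 k p

end VM

open VM in
theorem vS (hX : StmtXAtl) (h0 : StmtF0) (hV0 : StmtV0) (hV1 : StmtV1) (hV3 : StmtV3) : StmtV := by
  rintro Φ η ⟨η0, p1, p2, p3, -⟩
  obtain ⟨η1, e1, hV1⟩ := hV1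
  obtain ⟨k, k0, k1, k2, k3⟩ : ∃ k : ℝ, 0 < k ∧ k ≤ 1 ∧ k ≤ η ∧ k ≤ η1 :=
    ⟨min 1 (min η η1), by positivity, min_le_left _ _, (min_le_right _ _).trans (min_le_left _ _),
      (min_le_right _ _).trans (min_le_right _ _)⟩
  have s2 : √2 * √2 = 2 := Real.mul_self_sqrt zero_le_two
  have s1 : 1 < √2 := Real.lt_sqrt_of_sq_lt (by norm_num)
  have nz : ∀ p ∈ XX, -√2 < fX p → 0 < ip (v1 k p) (v1 k p) := fun p hp h => ip_pos fun z => by
    by_cases c : ch k p = 0
    · rw [v1, c, zero_smul, zero_add, sub_zero, one_smul] at z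
      exact h.ne' ((hV0.2 p hp).2.2.1 z)
    · have c0 : 0 < ch k p := lt_of_le_of_ne (Real.smoothTransition.nonneg _) (Ne.symm c)
      have c1 : ch k p ≤ 1 := Real.smoothTransition.le_one _
      have f1 : fX p < -√2 + k := by
        by_contra hc
        exact c (Real.smoothTransition.zero_of_nonpos
          (div_nonpos_of_nonpos_of_nonneg (by linarith) (by positivity)))
      have a := hV1 p hp h (by linarith)
      have b := hV0.1 p (h0.1 p hp).1.ne'
      have b' : 0 < ip (yv p) (yv p) := by nlinarith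
      have : ip (v1 k p) (yv p) = ch k p * ip (yv p) (yv p) + (1 - ch k p) * ip (v0 p) (yv p) := by
        rw [v1, ip_add, ip_smul, ip_smul]
      rw [z, show ip 0 (yv p) = 0 by simp [ip]] at this
      nlinarith [mul_pos c0 b', mul_nonneg (sub_nonneg.2 c1) a.le]
  classical
  let v : VX → S2 := fun p => if fX p < -√2 + k / 4 then vA p else vB Φ k p
  have fc : ∀ p ∈ XX, ContDiffAt ℝ ∞ fX p := fun p hp => (h0.1 p hp).2.2.1
  have eA : ∀ p ∈ XX, fX p < -√2 + k / 4 → v =ᶠ[𝓝 p] vA := fun p hp h => by
    filter_upwards [(fc p hp).continuousAt.eventually_lt continuousAt_const h] with q hq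
    exact if_pos hq
  have sA : ∀ p ∈ XX, fX p < -√2 + k / 4 → ContDiffAt ℝ ∞ (fun q => √(2 / (√2 - fX q))) p :=
    fun p hp h => (contDiffAt_const.div (contDiffAt_const.sub (fc p hp)) (by linarith)).sqrt
      (div_pos two_pos (by linarith)).ne'
  have eB : ∀ p ∈ XX, ¬ fX p < -√2 + k / 4 → v =ᶠ[𝓝 p] vB Φ k := fun p hp h => by
    by_cases h2 : fX p < -√2 + k / 2
    · have nc : Continuous nr := by unfold nr; fun_prop
      filter_upwards [(fc p hp).continuousAt.eventually_lt continuousAt_const h2,
        continuousAt_const.eventually_lt (fc p hp).continuousAt (show -√2 < fX p by linarith),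
        p2 p hp (by linarith), nc.continuousAt.eventually_ne (h0.1 p hp).1.ne'] with q a b c e
      refine ite_eq_right_iff.2 fun _ => ?_
      have c1 : ch k q = 1 := Real.smoothTransition.one_of_one_le
        ((one_le_div (by positivity)).2 (by linarith))
      have : v1 k q = yv q := by rw [v1, c1, one_smul, sub_self, zero_smul, add_zero]
      rw [vA, vB, this, c, hV0.1 q e, show 1 - fX q ^ 2 / 2 = (√2 + fX q) * ((√2 - fX q) / 2) by
        linear_combination (-1 / 2) * s2, div_mul_cancel_left₀ (by linarith), inv_div]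
    · filter_upwards [continuousAt_const.eventually_lt (fc p hp).continuousAt
        (show -√2 + k / 4 < fX p by linarith)] with q hq
      exact if_neg hq.not_gt
  have val : ∀ p ∈ XX, ip (v p) (v p) = Φ p := fun p hp => by
    by_cases h : fX p < -√2 + k / 4
    · have : 0 < √2 - fX p := by linarith
      rw [(eA p hp h).self_of_nhds, (p2 p hp (by linarith)).self_of_nhds, vA, ip_smul2,
        Real.sq_sqrt (by positivity), hV0.1 p (h0.1 p hp).1.ne']
      field_simp
      linear_combination (-1) * s2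
    · have a : -√2 < fX p := by linarith
      rw [(eB p hp h).self_of_nhds, vB, ip_smul2,
        Real.sq_sqrt (div_pos (p3 p hp a) (nz p hp a)).le, div_mul_cancel₀ _ (nz p hp a).ne']
  refine ⟨v, fun p hp => ?_, val, fun p hp z e he => ?_⟩
  · by_cases h : fX p < -√2 + k / 4
    · exact ((sA p hp h).smul (hV0.2 p hp).2.1).congr_of_eventuallyEq (eA p hp h)
    · have a : -√2 < fX p := by linarith
      have c : ContDiffAt ℝ ∞ (ch k) p := Real.smoothTransition.contDiffAt.comp p
        ((contDiffAt_const.sub (fc p hp)).div_const _)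
      have c1 : ContDiffAt ℝ ∞ (v1 k) p := (c.smul (hV0.2 p hp).2.1).add
        ((contDiffAt_const.sub c).smul (hV0.2 p hp).1)
      exact ((((p1 p hp).div (ipc.contDiffAt.comp p c1) (nz p hp a).ne').sqrt
        (div_pos (p3 p hp a) (nz p hp a)).ne').smul c1).congr_of_eventuallyEq (eB p hp h)
  · have f : fX p = -√2 := by
      refine le_antisymm (not_lt.1 fun a => ?_) (abs_le.1 (h0.1 p hp).2.1).1
      have := p3 p hp a
      rw [← val p hp, z] at this
      simp [ip] at this
    have h : fX p < -√2 + k / 4 := by linarith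
    obtain ⟨u, hu, hu'⟩ := hV3 p hp f e (by rintro rfl; simp [ip] at he)
    have s0 : √(2 / (√2 - fX p)) ≠ 0 := (Real.sqrt_pos.2 (div_pos two_pos (by linarith))).ne'
    have y0 : yv p = 0 := by
      rw [(eA p hp h).self_of_nhds] at z
      exact (smul_eq_zero.1 z).resolve_left s0
    refine ⟨u, by rw [hX.2.2 p hp]; exact hu, ?_⟩
    have := ((sA p hp h).differentiableAt (by simp)).hasFDerivAt.fun_smul
      ((hV0.2 p hp).2.1.differentiableAt (by simp)).hasFDerivAt
    rw [(this.congr_of_eventuallyEq (eA p hp h)).fderiv]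
    simp only [y0, ContinuousLinearMap.add_apply, ContinuousLinearMap.smul_apply,
      ContinuousLinearMap.smulRight_apply, smul_zero, add_zero, ip_smul]
    exact mul_ne_zero s0 hu'

end Vale.Agent.P265
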