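import Vale.Agent.P265.Ex

namespace Vale.Agent.P265

open Set Topology Complex
open scoped ContDiff ComplexConjugate

namespace V0M

variable {p : VX}

lemma cre {f : VX → ℂ} (hf : ContDiffAt ℝ ∞ f p) : ContDiffAt ℝ ∞ (fun q => (f q).re) p :=
  reCLM.contDiff.contDiffAt.comp p hf

lemma cim {f : VX → ℂ} (hf : ContDiffAt ℝ ∞ f p) : ContDiffAt ℝ ∞ (fun q => (f q).im) p :=
  imCLM.contDiff.contDiffAt.comp p hf

lemma ccj {f : VX → ℂ} (hf : ContDiffAt ℝ ∞ f p) : ContDiffAt ℝ ∞ (fun q => conj (f q)) p :=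
  conjCLE.contDiff.contDiffAt.comp p hf

lemma cof {f : VX → ℝ} (hf : ContDiffAt ℝ ∞ f p) : ContDiffAt ℝ ∞ (fun q => (f q : ℂ)) p :=
  ofRealCLM.contDiff.contDiffAt.comp p hf

lemma cdv {f g : VX → ℂ} (hf : ContDiffAt ℝ ∞ f p) (hg : ContDiffAt ℝ ∞ g p) (h : g p ≠ 0) :
    ContDiffAt ℝ ∞ (fun q => f q / g q) p := by
  simp only [div_eq_mul_inv]
  exact hf.mul (hg.inv h)

lemma da : ContDiffAt ℝ ∞ ca p := by fun_prop
lemma db : ContDiffAt ℝ ∞ cb p := by fun_prop
lemma dal : ContDiffAt ℝ ∞ cal p := by fun_prop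
lemma dbe : ContDiffAt ℝ ∞ cbe p := by fun_prop

lemma dx : ContDiffAt ℝ ∞ xi p := ((ccj dal).mul (da.pow 2)).sub contDiffAt_const

lemma nsq (p : VX) : nr p ^ 2 = (ca p).re ^ 2 + (ca p).im ^ 2 + ((cb p).re ^ 2 + (cb p).im ^ 2) := by
  rw [nr, Real.sq_sqrt (add_nonneg (normSq_nonneg _) (normSq_nonneg _)), normSq_apply, normSq_apply]
  ring

lemma dnr (h : nr p ≠ 0) : ContDiffAt ℝ ∞ nr p := by
  have e : nr = fun q => √((ca q).re * (ca q).re + (ca q).im * (ca q).im +
      ((cb q).re * (cb q).re + (cb q).im * (cb q).im)) := by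
    funext q; rw [nr, normSq_apply, normSq_apply]
  rw [e] at h ⊢
  refine ContDiffAt.sqrt ((((cre da).mul (cre da)).add ((cim da).mul (cim da))).add
    (((cre db).mul (cre db)).add ((cim db).mul (cim db)))) fun h0 => h ?_
  simp only [h0, Real.sqrt_zero]

lemma dyv (h : nr p ≠ 0) : ContDiffAt ℝ ∞ yv p :=
  ((cof (((cre da).sub (cre db)).div (contDiffAt_const.mul (dnr h))
    (mul_ne_zero (by positivity) h))).add
    (contDiffAt_const.mul (cof ((cim da).div (dnr h) h)))).prodMk ((cim db).div (dnr h) h)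

lemma nt0 (p : VX) : nt p ≠ 0 := by
  intro h
  have e := congrArg Complex.re h
  have a0 : 0 ≤ ch2 p := Real.smoothTransition.nonneg _
  have a1 : ch2 p ≤ 1 := Real.smoothTransition.le_one _
  simp only [nt, add_re, mul_re, ofReal_re, ofReal_im, sub_re, one_re, zero_mul, sub_zero,
    zero_re, pow_two, div_ofNat_re] at e
  by_cases t : (xi p).re ^ 2 ≤ 81 / 400
  · have : 0 ≤ ch2 p * (1 / 4 - ((xi p).re * (xi p).re - (xi p).im * (xi p).im) - 1 / 100) :=
      mul_nonneg a0 (by nlinarith [sq_nonneg (xi p).im])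
    nlinarith
  · have : ch2 p = 0 := Real.smoothTransition.zero_of_nonpos
      (div_nonpos_of_nonpos_of_nonneg (by linarith) (by norm_num))
    rw [this] at e
    norm_num at e

lemma dnt : ContDiffAt ℝ ∞ nt p := by
  have c : ContDiffAt ℝ ∞ ch2 p := Real.smoothTransition.contDiffAt.comp p
    ((contDiffAt_const.sub ((cre dx).pow 2)).div_const _)
  exact ((cof c).mul (contDiffAt_const.sub (dx.pow 2))).add (contDiffAt_const.sub (cof c))

lemma dgam : ContDiffAt ℝ ∞ gam p :=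
  cdv ((dal.mul dbe).mul dnt).neg (cof (dnt.norm ℂ (nt0 p)))
    (ofReal_ne_zero.2 (norm_ne_zero_iff.2 (nt0 p)))

lemma n1 {z : ℂ} (h : normSq z = 1) : ‖z‖ = 1 := by
  rw [normSq_eq_norm_sq] at h
  exact (pow_eq_one_iff_of_nonneg (norm_nonneg z) two_ne_zero).1 h

lemma gameq (hp : p ∈ XX) (h1 : cal p * (xi p + 1 / 2) = ca p ^ 2)
    (h2 : cbe p * (xi p - 1 / 2) = cb p ^ 3) (ht : |(xi p).re| ≤ 2 / 5) :
    gam p = ca p ^ 2 * cb p ^ 3 / (‖ca p‖ ^ 2 * ‖cb p‖ ^ 3 : ℝ) := by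
  have c : ch2 p = 1 := Real.smoothTransition.one_of_one_le (by
    rw [le_div_iff₀ (by norm_num)]
    nlinarith [abs_nonneg (xi p).re, sq_abs (xi p).re])
  have e : -(cal p * cbe p * nt p) = ca p ^ 2 * cb p ^ 3 := by
    rw [← h1, ← h2, nt, c]; push_cast; ring
  have n := congrArg norm e
  rw [norm_neg, norm_mul, norm_mul, n1 hp.1, n1 hp.2.1, norm_mul, norm_pow, norm_pow] at n
  rw [gam, e, ← n]
  simp

end V0M

open V0M in
theorem v0S (h0 : StmtF0) : StmtV0 := by
  refine ⟨fun p h => ?_, fun p hp => ?_⟩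
  · have s : √2 ^ 2 = 2 := Real.sq_sqrt zero_le_two
    have n := nsq p
    simp only [ip, yv, fX, add_re, add_im, ofReal_re, ofReal_im, mul_re, mul_im, I_re, I_im,
      zero_mul, one_mul, mul_zero, sub_zero, add_zero, zero_add]
    field_simp
    rw [s, n]
    ring
  obtain ⟨hn, -, -, -, hm, ht, hne, h1, h2⟩ := h0.1 p hp
  refine ⟨((cdv (da.sub (ccj db)) (cof (dnr hn.ne')) (ofReal_ne_zero.2 hn.ne')).add
    (cof (contDiffAt_const.add (cre dgam)))).prodMk (cim dgam), dyv hn.ne', fun h => ?_,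
    gameq hp h1 h2⟩
  have e1 : (ca p - conj (cb p)) / nr p + (1 + (gam p).re : ℝ) = 0 := congrArg Prod.fst h
  have e2 : (gam p).im = 0 := congrArg Prod.snd h
  have g : ‖gam p‖ = 1 := by
    rw [gam, norm_div, norm_neg, norm_mul, norm_mul, n1 hp.1, n1 hp.2.1]
    simp [nt0 p]
  have g2 : (gam p).re ^ 2 = 1 := by
    have := normSq_eq_norm_sq (gam p)
    rw [g, normSq_apply, e2] at this
    linarith
  have hn' : (nr p : ℂ) ≠ 0 := ofReal_ne_zero.2 hn.ne'
  have e3 : ca p - conj (cb p) = -((1 + (gam p).re) * nr p : ℝ) := by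
    field_simp at e1
    push_cast at e1 ⊢
    linear_combination e1
  have r1 := congrArg Complex.re e3
  have r2 := congrArg Complex.im e3
  simp only [sub_re, sub_im, conj_re, conj_im, neg_re, neg_im, ofReal_re, ofReal_im] at r1 r2
  have n := nsq p
  rcases sq_eq_one_iff.1 g2 with g3 | g3
  · exfalso
    rw [g3] at r1
    have : ((ca p).re - (cb p).re) ^ 2 = 4 * nr p ^ 2 := by rw [r1]; ring
    nlinarith [sq_nonneg ((ca p).re + (cb p).re), sq_nonneg (ca p).im, sq_nonneg (cb p).im,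
      pow_pos hn 2]
  · have ab : ca p = conj (cb p) := by
      rw [← sub_eq_zero, e3, g3]; simp
    have nab : ‖ca p‖ = ‖cb p‖ := by rw [ab, norm_conj]
    have t := (ht nab).le
    have b0 := (hne t).2.1
    have nb : (‖cb p‖ : ℂ) ≠ 0 := ofReal_ne_zero.2 (norm_ne_zero_iff.2 b0)
    have gg : gam p = -1 := Complex.ext (by simpa using g3) (by simpa using e2)
    have q := gameq hp h1 h2 t
    rw [gg, nab, ab] at q
    have m := mul_conj' (cb p)
    have bb : cb p = -(‖cb p‖ : ℝ) := by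
      push_cast at q
      field_simp at q
      have : (‖cb p‖ : ℂ) ^ 4 * (cb p + ‖cb p‖) = 0 := by
        linear_combination -q - (cb p * (cb p * conj (cb p) + (‖cb p‖ : ℂ) ^ 2)) * m
      exact eq_neg_of_add_eq_zero_left ((mul_eq_zero.1 this).resolve_left (pow_ne_zero 4 nb))
    have bi : (cb p).im = 0 := by rw [bb]; simp
    have br : (cb p).re < 0 := by rw [bb]; simpa using b0
    have ab' : ca p = cb p := by rw [ab]; exact conj_eq_iff_im.2 bi
    exact hm.2 ⟨ab', by rw [ab', bi], by rw [ab']; exact br⟩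

end Vale.Agent.P265
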