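import Vale.Agent.P265.Ex

namespace Vale.Agent.P265

open Set Topology Complex
open scoped ComplexConjugate

namespace V1M

theorem core {y1 y2 y3 α β g1 g2 s : ℝ} (hs : 1 ≤ s) (hg : g1 ^ 2 + g2 ^ 2 = 1) (hg1 : g1 < 0)
    (h2 : g2 = α * y1 + β * y2) (a1 : 2.82 < α) (a2 : α < 2.84) (b1 : 4.23 < β) (b2 : β < 4.25)
    (c1 : -0.001 < y3) (hy : 0 < y1 ^ 2 + y2 ^ 2 + y3 ^ 2) :
    0 < s * y3 ^ 2 + (1 + g1) * y3 + y1 * (y1 + y2) + g2 * y2 := by
  have e0 : 0 ≤ 1 + g1 := by nlinarith [sq_nonneg g2]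
  have e1 : 1 + g1 ≤ g2 ^ 2 := by nlinarith
  have e2 : g2 ^ 2 ≤ (α ^ 2 + β ^ 2) * (y1 ^ 2 + y2 ^ 2) := by
    rw [h2]; nlinarith [sq_nonneg (α * y2 - β * y1)]
  have e3 : α ^ 2 + β ^ 2 ≤ 27 := by nlinarith
  have e4 : 1 + g1 ≤ 27 * (y1 ^ 2 + y2 ^ 2) :=
    e1.trans (e2.trans (mul_le_mul_of_nonneg_right e3 (by positivity)))
  have e5 : -(0.027 * (y1 ^ 2 + y2 ^ 2)) ≤ (1 + g1) * y3 := by nlinarith
  have e6 : y3 ^ 2 ≤ s * y3 ^ 2 := by nlinarith [sq_nonneg y3]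
  have e7 : 4.23 * y2 ^ 2 ≤ β * y2 ^ 2 := by nlinarith [sq_nonneg y2]
  have e8 : -(0.01 * (y1 ^ 2 + y2 ^ 2)) ≤ (α - 2.83) * (y1 * y2) := by
    nlinarith [mul_nonneg (sub_nonneg.2 a1.le) (sq_nonneg (y1 + y2)),
      mul_nonneg (sub_nonneg.2 a2.le) (sq_nonneg (y1 - y2))]
  rw [h2]
  nlinarith [sq_nonneg (y1 + 2 * y2), sq_nonneg y1, sq_nonneg y2, sq_nonneg y3]

noncomputable def G (w : ℂ × ℂ) : ℂ := w.1 ^ 2 * w.2 ^ 3 / (‖w.1‖ ^ 2 * ‖w.2‖ ^ 3 : ℝ)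
noncomputable def al (w : ℂ × ℂ) : ℝ :=
  2 * w.1.re * (w.2.re ^ 3 - 3 * w.2.re * w.2.im ^ 2) / (‖w.1‖ ^ 2 * ‖w.2‖ ^ 3)
noncomputable def be (w : ℂ × ℂ) : ℝ :=
  (w.1.re ^ 2 - w.1.im ^ 2) * (3 * w.2.re ^ 2 - w.2.im ^ 2) / (‖w.1‖ ^ 2 * ‖w.2‖ ^ 3)
noncomputable def gr (w : ℂ × ℂ) : ℝ := (w.1 ^ 2 * w.2 ^ 3).re / (‖w.1‖ ^ 2 * ‖w.2‖ ^ 3)

theorem G_im (w : ℂ × ℂ) : (G w).im = al w * w.1.im + be w * w.2.im := by
  unfold G al be
  rw [div_ofReal_im]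
  simp only [pow_succ, pow_zero, one_mul, mul_re, mul_im]
  ring

theorem G_re (w : ℂ × ℂ) : (G w).re = gr w := by
  unfold G gr
  rw [div_ofReal_re]

theorem G_norm {w : ℂ × ℂ} (h1 : w.1 ≠ 0) (h2 : w.2 ≠ 0) : (G w).re ^ 2 + (G w).im ^ 2 = 1 := by
  have a := norm_pos_iff.2 h1
  have b := norm_pos_iff.2 h2
  have h : ‖G w‖ = 1 := by
    unfold G
    rw [norm_div, norm_mul, norm_pow, norm_pow, norm_real, Real.norm_of_nonneg (by positivity),
      div_self (by positivity)]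
  have := Complex.sq_norm (G w)
  rw [h, normSq_apply] at this
  nlinarith

theorem G_scale (a b : ℂ) {n : ℝ} (hn : 0 < n) : G (a / n, b / n) = G (a, b) := by
  unfold G
  simp only [norm_div, norm_real, Real.norm_of_nonneg hn.le]
  have : (n : ℂ) ≠ 0 := ofReal_ne_zero.2 hn.ne'
  push_cast
  field_simp

theorem near : ∃ δ > 0, ∀ w : ℂ × ℂ, dist w ((-(√2 / 2 : ℝ) : ℂ), (-(√2 / 2 : ℝ) : ℂ)) < δ →
    2.82 < al w ∧ al w < 2.84 ∧ 4.23 < be w ∧ be w < 4.25 ∧ gr w < 0 ∧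
      -0.001 < (w.1.re - w.2.re) / √2 := by
  have h2 : √2 ^ 2 = 2 := Real.sq_sqrt (by norm_num)
  have k0 : (0 : ℝ) < √2 / 2 := by positivity
  have k2 : (√2 / 2 : ℝ) ^ 2 = 1 / 2 := by nlinarith
  generalize (√2 / 2 : ℝ) = k at k0 k2
  have k3 : 0.707 < k := by nlinarith
  have k4 : k < 0.7072 := by nlinarith
  have hn : ‖(-(k : ℂ))‖ = k := by rw [norm_neg, norm_real, Real.norm_of_nonneg k0.le]
  set q : ℂ × ℂ := (-(k : ℂ), -(k : ℂ)) with hq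
  have hd : ‖q.1‖ ^ 2 * ‖q.2‖ ^ 3 ≠ 0 := by simp only [hq, hn]; positivity
  have ca : ContinuousAt al q := by unfold al; exact ContinuousAt.div (by fun_prop) (by fun_prop) hd
  have cb : ContinuousAt be q := by unfold be; exact ContinuousAt.div (by fun_prop) (by fun_prop) hd
  have cg : ContinuousAt gr q := by unfold gr; exact ContinuousAt.div (by fun_prop) (by fun_prop) hd
  have cy : ContinuousAt (fun w : ℂ × ℂ => (w.1.re - w.2.re) / √2) q := by fun_prop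
  have va : al q = 4 * k := by
    simp only [al, hq, hn, neg_re, ofReal_re, neg_im, ofReal_im]
    field_simp
    nlinarith
  have vb : be q = 6 * k := by
    simp only [be, hq, hn, neg_re, ofReal_re, neg_im, ofReal_im]
    field_simp
    linear_combination (-6 * k ^ 4) * k2
  have vg : gr q = -1 := by
    have : ((-(k : ℂ)) ^ 2 * (-(k : ℂ)) ^ 3).re = -k ^ 5 := by
      rw [show (-(k : ℂ)) ^ 2 * (-(k : ℂ)) ^ 3 = ((-k ^ 5 : ℝ) : ℂ) by push_cast; ring, ofReal_re]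
    simp only [gr, hq, hn, this]
    field_simp
  have ev : ∀ᶠ w in 𝓝 q, 2.82 < al w ∧ al w < 2.84 ∧ 4.23 < be w ∧ be w < 4.25 ∧ gr w < 0 ∧
      -0.001 < (w.1.re - w.2.re) / √2 :=
    (continuousAt_const.eventually_lt ca (by rw [va]; linarith)).and
    ((ca.eventually_lt continuousAt_const (by rw [va]; linarith)).and
    ((continuousAt_const.eventually_lt cb (by rw [vb]; linarith)).and
    ((cb.eventually_lt continuousAt_const (by rw [vb]; linarith)).and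
    ((cg.eventually_lt continuousAt_const (by rw [vg]; norm_num)).and
    (continuousAt_const.eventually_lt cy (by simp only [hq, sub_self, zero_div]; norm_num))))))
  obtain ⟨δ, h0, h⟩ := Metric.eventually_nhds_iff.1 ev
  exact ⟨δ, h0, fun w hw => h hw⟩

theorem close {w : ℂ × ℂ} {δ : ℝ} (hδ : 0 < δ) (h1 : normSq w.1 + normSq w.2 = 1)
    (h2 : w.1.re + w.2.re < -√2 + δ ^ 2 / 2) :
    dist w ((-(√2 / 2 : ℝ) : ℂ), (-(√2 / 2 : ℝ) : ℂ)) < δ := by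
  have s2 : √2 ^ 2 = 2 := Real.sq_sqrt (by norm_num)
  have s0 : (0 : ℝ) < √2 := by positivity
  have s1 : √2 < 2 := by nlinarith
  simp only [normSq_apply] at h1
  have e : ∀ z : ℂ, ‖z - (-(√2 / 2 : ℝ) : ℂ)‖ ^ 2 = (z.re + √2 / 2) ^ 2 + z.im ^ 2 := fun z => by
    rw [Complex.sq_norm, normSq_apply]
    simp only [sub_re, neg_re, ofReal_re, sub_im, neg_im, ofReal_im]
    ring
  have t : (w.1.re + √2 / 2) ^ 2 + w.1.im ^ 2 + ((w.2.re + √2 / 2) ^ 2 + w.2.im ^ 2) < δ ^ 2 := by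
    have h3 : √2 * (w.1.re + w.2.re + √2) < √2 * (δ ^ 2 / 2) :=
      mul_lt_mul_of_pos_left (by linarith) s0
    have h4 : √2 * (δ ^ 2 / 2) < 2 * (δ ^ 2 / 2) := mul_lt_mul_of_pos_right s1 (by positivity)
    nlinarith
  rw [Prod.dist_eq, max_lt_iff, dist_eq_norm, dist_eq_norm]
  constructor <;> refine lt_of_pow_lt_pow_left₀ 2 hδ.le ?_ <;> rw [e] <;>
    nlinarith [sq_nonneg (w.1.re + √2 / 2), sq_nonneg w.1.im, sq_nonneg (w.2.re + √2 / 2),
      sq_nonneg w.2.im]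

end V1M

open V1M

theorem v1S (h0 : StmtF0) (hV : StmtV0) : StmtV1 := by
  obtain ⟨hF, η, η0, η1, hη⟩ := h0
  obtain ⟨δ, δ0, hδ⟩ := near
  refine ⟨min η (δ ^ 2 / 2), lt_min η0 (by positivity), fun p hp h1 h2 => ?_⟩
  have m1 := min_le_left η (δ ^ 2 / 2)
  have m2 := min_le_right η (δ ^ 2 / 2)
  have s2 : √2 ^ 2 = 2 := Real.sq_sqrt (by norm_num)
  have s0 : (0 : ℝ) < √2 := by positivity
  have s1 : 1 < √2 := by nlinarith
  obtain ⟨n0, -, -, -, -, -, hab, -⟩ := hF p hp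
  have hx : |(xi p).re| ≤ 2 / 5 := (hη p hp (by rw [abs_of_neg (by linarith)]; linarith)).le
  obtain ⟨a0, b0, -⟩ := hab hx
  have hg : gam p = G (ca p / nr p, cb p / nr p) := by
    rw [G_scale _ _ n0]; exact (hV.2 p hp).2.2.2 hx
  have n2 : nr p ^ 2 = normSq (ca p) + normSq (cb p) :=
    Real.sq_sqrt (add_nonneg (normSq_nonneg _) (normSq_nonneg _))
  have nc : (nr p : ℂ) ≠ 0 := ofReal_ne_zero.2 n0.ne'
  obtain ⟨a1, a2, b1, b2, g1, c1⟩ := hδ (ca p / nr p, cb p / nr p) (close δ0 (by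
      simp only [map_div₀, normSq_ofReal]
      field_simp
      linarith) (by
      simp only [div_ofReal_re]
      rw [← add_div]
      exact h2.trans_le (by linarith)))
  have hy := hV.1 p n0.ne'
  have f2 : fX p ^ 2 < 2 := by nlinarith
  have key := core s1.le (G_norm (w := (ca p / nr p, cb p / nr p)) (div_ne_zero a0 nc)
    (div_ne_zero b0 nc)) (by rw [G_re]; exact g1) (G_im _) a1 a2 b1 b2 c1 (by
      refine lt_of_lt_of_eq (show 0 < ip (yv p) (yv p) by rw [hy]; linarith) ?_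
      simp only [ip, yv, add_re, ofReal_re, mul_re, I_re, I_im, ofReal_im, add_im, mul_im,
        div_ofReal_re, div_ofReal_im]
      field_simp
      ring)
  refine lt_of_lt_of_eq key ?_
  rw [← hg]
  simp only [ip, yv, v0, add_re, ofReal_re, mul_re, I_re, I_im, ofReal_im, add_im, mul_im,
    div_ofReal_re, div_ofReal_im, sub_re, sub_im, conj_re, conj_im]
  field_simp
  ring

end Vale.Agent.P265
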