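import Vale.Agent.P265.M.V0

namespace Vale.Agent.P265

open Set Topology Complex
open scoped ContDiff ComplexConjugate

namespace V3M

variable {p : VX}

lemma dq {g h : VX → ℝ} {L : VX →L[ℝ] ℝ} (hg : HasFDerivAt g L p) (hh : DifferentiableAt ℝ h p)
    (h0 : h p ≠ 0) (hL : g p = 0) : HasFDerivAt (fun q => g q / h q) ((h p)⁻¹ • L) p := by
  have a := hg.mul (hh.inv h0).hasFDerivAt
  rw [hL, zero_smul, zero_add] at a
  simp only [div_eq_mul_inv]
  exact a

noncomputable def La : VX →L[ℝ] ℂ := ContinuousLinearMap.fst ℝ _ _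
noncomputable def Lb : VX →L[ℝ] ℂ :=
  (ContinuousLinearMap.fst ℝ _ _).comp (ContinuousLinearMap.snd ℝ _ _)

lemma dy (h : nr p ≠ 0) (h1 : ca p = cb p) (h2 : (ca p).im = 0) (u : VX) (e : S2) :
    ip (fderiv ℝ yv p u) e = (((ca u - cb u).re / √2) * e.1.re + (ca u).im * e.1.im +
      (cb u).im * e.2) / nr p := by
  have n : DifferentiableAt ℝ nr p := (V0M.dnr h).differentiableAt (by simp)
  have a1 := dq (g := fun q => (ca q).re - (cb q).re) (h := fun q => √2 * nr q)
    (reCLM.comp La - reCLM.comp Lb).hasFDerivAt (n.const_mul _) (mul_ne_zero (by positivity) h)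
    (by simp only [h1, sub_self])
  have a2 := dq (g := fun q => (ca q).im) (imCLM.comp La).hasFDerivAt n h h2
  have a3 := dq (g := fun q => (cb q).im) (imCLM.comp Lb).hasFDerivAt n h (h1 ▸ h2)
  have a := ((ofRealCLM.hasFDerivAt.comp p a1).add
    ((ofRealCLM.hasFDerivAt.comp p a2).const_mul I)).prodMk a3
  have b : fderiv ℝ yv p = _ := a.fderiv
  rw [b]
  simp [ip, La, Lb]
  field_simp
  have s : √2 ^ 2 = 2 := Real.sq_sqrt zero_le_two
  linear_combination ((u.1.re - u.2.1.re) * e.1.re) * s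

end V3M

open V3M in
theorem v3S (h0 : StmtF0) (h1 : StmtF1) : StmtV3 := by
  intro p hp hf e he
  obtain ⟨hn, -, -, -, hm, ht, hne, q1, q2⟩ := h0.1 p hp
  obtain ⟨ab, ai, ar⟩ := hm.1 hf
  obtain ⟨a0, b0, hx, -⟩ := hne (ht (by rw [ab])).le
  obtain ⟨-, t1, t2, -, -, -, -, tl, -, tc, -⟩ := h1 p hp
  have bi : (cb p).im = 0 := ab ▸ ai
  have br : (cb p).re < 0 := ab ▸ ar
  by_cases c1 : e.1.im = 0
  · by_cases c2 : e.2 = 0
    · have c3 : e.1.re ≠ 0 := fun c => he (Prod.ext (Complex.ext c c1) c2)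
      have : ∃ (δ : ℂ) (d : ℝ), (conj (xi p) * δ).re + cx p * d = 0 ∧ (δ * cc p).re ≠ 0 := by
        by_contra hc
        push Not at hc
        obtain ⟨x1, x2⟩ := tc a0 b0 hc
        rw [x1, x2] at hx
        norm_num at hx
      obtain ⟨δ, d, hd, hc⟩ := this
      refine ⟨lft p δ d, (tl δ d a0 b0 hd).1, ?_⟩
      have n1 : xi p + 1 / 2 ≠ 0 := fun h => pow_ne_zero 2 a0 (by rw [← q1, h, mul_zero])
      have n2 : xi p - 1 / 2 ≠ 0 := fun h => pow_ne_zero 3 b0 (by rw [← q2, h, mul_zero])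
      have k : ca (lft p δ d) - cb (lft p δ d) = cb p * (δ * cc p) := by
        rw [← eq_div_iff n1] at q1
        rw [← eq_div_iff n2] at q2
        change cal p * δ / (2 * ca p) - cbe p * δ / (3 * cb p ^ 2) = _
        rw [q1, q2, cc, ab]
        generalize xi p + 1 / 2 = A at *
        generalize xi p - 1 / 2 = B at *
        field_simp
      rw [dy hn.ne' ab ai, c1, c2, k, mul_re (cb p), bi]
      simp only [zero_mul, mul_zero, add_zero, sub_zero]
      exact div_ne_zero (mul_ne_zero (div_ne_zero (mul_ne_zero br.ne hc) (by positivity)) c3) hn.ne'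
    · refine ⟨e2 p, t2, ?_⟩
      rw [dy hn.ne' ab ai]
      have u1 : ca (e2 p) = 0 := rfl
      have u2 : cb (e2 p) = I * cb p := rfl
      rw [u1, u2]
      simpa [bi, hn.ne', c2] using br.ne
  · refine ⟨e1 p, t1, ?_⟩
    rw [dy hn.ne' ab ai]
    have u1 : ca (e1 p) = I * ca p := rfl
    have u2 : cb (e1 p) = 0 := rfl
    rw [u1, u2]
    simpa [ai, hn.ne', c1] using ar.ne

end Vale.Agent.P265
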