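import Vale.Agent.P265.Geo

/-! Existence of Hamiltonian vector fields. -/

namespace Vale.Agent.P265

open Set Topology Filter
open scoped ContDiff

namespace VFM

variable {V D : Type} [NormedAddCommGroup V] [NormedSpace ℝ V]
  [NormedAddCommGroup D] [NormedSpace ℝ D]

/-- the form as a bilinear map -/
noncomputable def fL (l : List (Tr V)) (x : V) : V →L[ℝ] V →L[ℝ] ℝ :=
  (l.map fun τ => τ.1 x • ((fderiv ℝ τ.2.1 x).smulRight (fderiv ℝ τ.2.2 x) -
    (fderiv ℝ τ.2.2 x).smulRight (fderiv ℝ τ.2.1 x))).sum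

lemma fL_eq (l : List (Tr V)) (x u v : V) : frm l x u v = fL l x u v := by
  induction l with
  | nil => simp [frm, fL]
  | cons τ l ih =>
    unfold frm fL at ih ⊢
    rw [List.map_cons, List.sum_cons, List.map_cons, List.sum_cons, ih]
    simp [w2, mul_comm]

lemma fL_smooth {l : List (Tr V)} (h : SmL l) : ContDiff ℝ 1 (fL l) := by
  induction l with
  | nil => exact contDiff_const
  | cons τ l ih =>
    obtain ⟨a, b, c⟩ := h τ List.mem_cons_self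
    have b' : ContDiff ℝ 1 (fderiv ℝ τ.2.1) := b.fderiv_right (by norm_cast)
    have c' : ContDiff ℝ 1 (fderiv ℝ τ.2.2) := c.fderiv_right (by norm_cast)
    exact ((a.of_le (by norm_cast)).smul ((b'.smulRight c').sub (c'.smulRight b'))).add
      (ih fun σ hσ => h σ (List.mem_cons_of_mem _ hσ))

/-- the form in a patch -/
noncomputable def BB {S : Set V} (l : List (Tr V)) (p : Patch D S) (u : D) : D →L[ℝ] D →L[ℝ] ℝ :=
  ((ContinuousLinearMap.compL ℝ D V ℝ).flip (fderiv ℝ p.P u)).comp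
    ((fL l (p.P u)).comp (fderiv ℝ p.P u))

lemma BB_apply {S : Set V} (l : List (Tr V)) (p : Patch D S) (u a b : D) :
    BB l p u a b = frm l (p.P u) (fderiv ℝ p.P u a) (fderiv ℝ p.P u b) := by
  rw [fL_eq]; rfl

/-- the field in a patch -/
noncomputable def ZZ {S : Set V} (l : List (Tr V)) (G : V → ℝ) (p : Patch D S) (u : D) : V :=
  fderiv ℝ p.P u ((BB l p u).inverse ((fderiv ℝ G (p.P u)).comp (fderiv ℝ p.P u)))

lemma inv (hT : StmtTan) [FiniteDimensional ℝ D] {S : Set V} {l : List (Tr V)} (hS : SympData S l)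
    (p : Patch D S) {x : V} (hx : x ∈ S ∩ p.O) : (BB l p (p.L x)).IsInvertible := by
  obtain ⟨t1, t2, -⟩ := (hT V D S).1 p x hx
  have inj : Function.Injective (BB l p (p.L x) : D →ₗ[ℝ] D →L[ℝ] ℝ) := by
    rw [injective_iff_map_eq_zero]
    intro a ha
    have h0 : fderiv ℝ p.P (p.L x) a = 0 := by
      refine hS.2.2 x hx.1 _ (t1 ▸ ⟨a, rfl⟩) fun w hw => ?_
      rw [t1] at hw
      obtain ⟨b, rfl⟩ := hw
      have := BB_apply l p (p.L x) a b
      rw [p.PL x hx] at this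
      rw [← this]
      exact congrArg (fun f : D →L[ℝ] ℝ => f b) ha
    rw [← t2 a, h0, map_zero]
  have dim : Module.finrank ℝ D = Module.finrank ℝ (D →L[ℝ] ℝ) := by
    rw [← (LinearMap.toContinuousLinearMap : (D →ₗ[ℝ] ℝ) ≃ₗ[ℝ] D →L[ℝ] ℝ).finrank_eq,
      Subspace.dual_finrank_eq]
  refine ⟨(LinearMap.linearEquivOfInjective _ inj dim).toContinuousLinearEquiv, ?_⟩
  ext a b
  rfl

lemma spec (hT : StmtTan) [FiniteDimensional ℝ D] {S : Set V} {l : List (Tr V)} (hS : SympData S l)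
    (G : V → ℝ) (p : Patch D S) {x : V} (hx : x ∈ S ∩ p.O) :
    ZZ l G p (p.L x) ∈ Tan S x ∧ ∀ w ∈ Tan S x, frm l x (ZZ l G p (p.L x)) w = fderiv ℝ G x w := by
  obtain ⟨t1, -, -⟩ := (hT V D S).1 p x hx
  rw [t1]
  refine ⟨⟨_, rfl⟩, ?_⟩
  rintro w ⟨b, rfl⟩
  have := BB_apply l p (p.L x) ((BB l p (p.L x)).inverse
    ((fderiv ℝ G (p.P (p.L x))).comp (fderiv ℝ p.P (p.L x)))) b
  rw [(inv hT hS p hx).self_apply_inverse, ← ZZ, p.PL x hx] at this
  exact this.symm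

end VFM

open VFM in
theorem vfS (hT : StmtTan) : StmtVF := by
  intro V D _ _ _ _ _ S l G hA hS hG
  have : CompleteSpace D := FiniteDimensional.complete ℝ D
  have ex : ∀ x ∈ S, ∃ v, v ∈ Tan S x ∧ ∀ w ∈ Tan S x, frm l x v w = fderiv ℝ G x w := fun x hx => by
    obtain ⟨p, hp⟩ := hA x hx
    exact ⟨_, spec hT hS G p ⟨hx, hp⟩⟩
  choose! ξ hξ using ex
  refine ⟨ξ, hξ, fun x hx => ?_⟩
  obtain ⟨p, hp⟩ := hA x hx
  refine ⟨fun y => ZZ l G p (p.L y), ?_, ?_⟩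
  · have hU := p.mL ⟨hx, hp⟩
    have cL : ContDiffAt ℝ 1 p.L x := (p.sL.contDiffAt (p.oO.mem_nhds hp)).of_le (by norm_cast)
    have cP : ContDiffAt ℝ ∞ p.P (p.L x) := p.sP.contDiffAt (p.oU.mem_nhds hU)
    have cP1 : ContDiffAt ℝ 1 p.P (p.L x) := cP.of_le (by norm_cast)
    have cJ : ContDiffAt ℝ 1 (fderiv ℝ p.P) (p.L x) := cP.fderiv_right (by norm_cast)
    have cG : ContDiffAt ℝ 1 (fderiv ℝ G) (p.P (p.L x)) := by
      rw [p.PL x ⟨hx, hp⟩]
      exact (hG x hx).fderiv_right (by norm_cast)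
    have c0 : ContDiff ℝ 1 ((ContinuousLinearMap.compL ℝ D V ℝ).flip :
        (D →L[ℝ] V) → (V →L[ℝ] ℝ) →L[ℝ] D →L[ℝ] ℝ) :=
      ContinuousLinearMap.contDiff (𝕜 := ℝ) (E := D →L[ℝ] V) (F := (V →L[ℝ] ℝ) →L[ℝ] D →L[ℝ] ℝ) _
    have c1 := (c0.contDiffAt.comp _ cJ).clm_comp (((fL_smooth hS.1).contDiffAt.comp _ cP1).clm_comp cJ)
    have cB : ContDiffAt ℝ 1 (BB l p) (p.L x) := c1
    have cZ : ContDiffAt ℝ 1 (ZZ l G p) (p.L x) :=
      cJ.clm_apply (((inv hT hS p ⟨hx, hp⟩).contDiffAt_map_inverse.comp _ cB).clm_apply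
        ((cG.comp _ cP1).clm_comp cJ))
    exact cZ.comp x cL
  · filter_upwards [self_mem_nhdsWithin, mem_nhdsWithin_of_mem_nhds (p.oO.mem_nhds hp)] with y hy hy'
    obtain ⟨a1, a2⟩ := spec hT hS G p ⟨hy, hy'⟩
    obtain ⟨b1, b2⟩ := hξ y hy
    obtain ⟨t1, -, -⟩ := (hT V D S).1 p y ⟨hy, hy'⟩
    refine sub_eq_zero.1 (hS.2.2 y hy _ ?_ fun w hw => ?_)
    · rw [t1] at a1 b1 ⊢
      obtain ⟨a, ha⟩ := a1
      obtain ⟨b, hb⟩ := b1
      exact ⟨b - a, by rw [map_sub, ha, hb]⟩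
    · have e1 := a2 w hw
      have e2 := b2 w hw
      rw [fL_eq] at e1 e2 ⊢
      rw [map_sub, sub_apply, e1, e2, sub_self]

end Vale.Agent.P265
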