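import Vale.Agent.P265.M.F1

namespace Vale.Agent.P265

open Set Topology Complex
open scoped ContDiff ComplexConjugate

namespace W0M

open F1M

theorem xi_line (p u : VX) : HasDerivAt (fun t : ℝ => xi (p + t • u)) (dxi p u) 0 := by
  have h1 := (line (cal p) (cal u)).star
  have h2 := ((h1.mul ((line (ca p) (ca u)).pow 2)).sub_const (1 / 2 : ℂ))
  refine HasDerivAt.congr_deriv (f := fun t : ℝ => xi (p + t • u)) h2 ?_
  simp [dxi]
  ring

theorem mX_fderiv {p : VX} (hn : 0 < cx p ^ 2 + (xi p).im ^ 2) (hf : DifferentiableAt ℝ mX p)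
    (u : VX) : fderiv ℝ mX p u = -(xi p).im * (cx p * (dxi p u).im - (xi p).im * cx u) /
      √(cx p ^ 2 + (xi p).im ^ 2) ^ 3 := by
  refine fd_eq hf ?_
  have hs := Real.sqrt_pos.2 hn
  have h1 := (((line (cx p) (cx u)).pow 2).add ((him (xi_line p u)).pow 2)).sqrt
    (by simpa using hn.ne')
  have h2 := (line (cx p) (cx u)).div h1 (by simpa using hs.ne')
  refine HasDerivAt.congr_deriv (f := fun t : ℝ => mX (p + t • u)) h2 ?_
  have e := Real.sq_sqrt hn.le
  simp only [Pi.add_apply, Pi.pow_apply, zero_smul, add_zero]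
  generalize √(cx p ^ 2 + (xi p).im ^ 2) = s at hs e
  field_simp
  rw [e]
  simp
  ring

theorem dxi_sub (p u v : VX) (r : ℝ) : dxi p (u - r • v) = dxi p u - r * dxi p v := by
  have e1 : ca (u - r • v) = ca u - r * ca v := by simp [ca]
  have e2 : cal (u - r • v) = cal u - r * cal v := by simp [cal]
  simp only [dxi, e1, e2, map_sub, map_mul, conj_ofReal]
  ring

theorem tan_sub {p u v : VX} (r : ℝ) (hu : tanX p u) (hv : tanX p v) : tanX p (u - r • v) := by
  have e2 : cal (u - r • v) = cal u - r * cal v := by simp [cal]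
  have e3 : cbe (u - r • v) = cbe u - r * cbe v := by simp [cbe]
  have e4 : cb (u - r • v) = cb u - r * cb v := by simp [cb]
  have e5 : cx (u - r • v) = cx u - r * cx v := by simp [cx]
  obtain ⟨u1, u2, u3, u4⟩ := hu
  obtain ⟨v1, v2, v3, v4⟩ := hv
  refine ⟨?_, ?_, ?_, ?_⟩
  · rw [e2, mul_sub, mul_left_comm, sub_re, re_ofReal_mul, u1, v1]; ring
  · rw [e3, mul_sub, mul_left_comm, sub_re, re_ofReal_mul, u2, v2]; ring
  · rw [dxi_sub, e3, e4, u3, v3, map_sub, map_mul, conj_ofReal]; ring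
  · rw [dxi_sub, e5, mul_sub, mul_left_comm, sub_re, re_ofReal_mul]
    linear_combination u4 - r * v4

theorem re_part (a z : ℂ) : a * z - z.im * (I * a) = z.re * a := by
  linear_combination (-a) * re_add_im z

theorem xi_cont : Continuous xi := by
  unfold xi
  fun_prop

theorem cim {f : VX → ℂ} {p : VX} (h : ContinuousAt f p) : ContinuousAt (fun q => (f q).im) p :=
  continuous_im.continuousAt.comp h

theorem cre {f : VX → ℂ} {p : VX} (h : ContinuousAt f p) : ContinuousAt (fun q => (f q).re) p :=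
  continuous_re.continuousAt.comp h

theorem W0_cont {p : VX} (ha : ca p ≠ 0) (hb : cb p ≠ 0) (n1 : xi p + 1 / 2 ≠ 0)
    (n2 : xi p - 1 / 2 ≠ 0) (hc : ContinuousAt cc p) : ContinuousAt W0 p := by
  have cξ : ContinuousAt xi p := xi_cont.continuousAt
  have cx' : ContinuousAt (fun q : VX => (cx q : ℂ) * I) p := by fun_prop
  have cδ : ContinuousAt (fun q : VX => (cx q : ℂ) * I * conj (cc q)) p :=
    cx'.mul (continuous_conj.continuousAt.comp hc)
  have ce1 : Continuous e1 := by unfold e1; fun_prop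
  have ce2 : Continuous e2 := by unfold e2; fun_prop
  have c1 : ContinuousAt cal p := by fun_prop
  have c2 : ContinuousAt cbe p := by fun_prop
  have c3 : ContinuousAt (fun q : VX => 2 * ca q) p := by fun_prop
  have c4 : ContinuousAt (fun q : VX => 3 * cb q ^ 2) p := by fun_prop
  have a1 := (c1.mul cδ).div c3 (mul_ne_zero two_ne_zero ha)
  have a2 := (c2.mul cδ).div c4 (mul_ne_zero three_ne_zero (pow_ne_zero 2 hb))
  have a3 := (cim (cξ.mul hc)).neg
  have a4 : ContinuousAt (fun _ : VX => ((0, 0) : ℂ × ℂ)) p := continuousAt_const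
  have a5 : ContinuousAt (fun q => lft q (cx q * I * conj (cc q)) (-(xi q * cc q).im)) p :=
    a1.prodMk (a2.prodMk (a3.prodMk a4))
  have c5 : ContinuousAt (fun q : VX => 2 * (xi q + 1 / 2)) p :=
    continuousAt_const.mul (cξ.add continuousAt_const)
  have c6 : ContinuousAt (fun q : VX => 3 * (xi q - 1 / 2)) p :=
    continuousAt_const.mul (cξ.sub continuousAt_const)
  have a6 := cim (cδ.div c5 (mul_ne_zero two_ne_zero n1))
  have a7 := cim (cδ.div c6 (mul_ne_zero three_ne_zero n2))
  exact (a5.sub (a6.smul ce1.continuousAt)).sub (a7.smul ce2.continuousAt)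

theorem Dp_cont {p : VX} (hc : ContinuousAt cc p) : ContinuousAt Dp p := by
  have cξ : ContinuousAt xi p := xi_cont.continuousAt
  have c1 : ContinuousAt (fun q : VX => cx q ^ 2) p := by fun_prop
  exact (c1.mul (cre hc)).add ((cim cξ).mul (cim (cξ.mul hc)))

end W0M

open F1M W0M

theorem w0S (h0 : StmtF0) (h1 : StmtF1) : StmtW0 := by
  intro p hp ht
  obtain ⟨hn, -, -, -, -, -, h7, hal, hbe⟩ := h0.1 p hp
  obtain ⟨ha, hb, hpos, hsm⟩ := h7 ht
  obtain ⟨hd, t1, t2, d1, d2, -, -, hl, -⟩ := h1 p hp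
  have n1 := N_ne hal ha
  have n2 := N_ne hbe hb
  have hm := mX_fderiv hpos (hsm.differentiableAt (by simp))
  obtain ⟨l1, l2, -⟩ := hl (cx p * I * conj (cc p)) (-(xi p * cc p).im) ha hb (by simp; ring)
  have cc_cont : ContinuousAt cc p := by
    have := xi_cont
    unfold cc
    refine ContinuousAt.sub (ContinuousAt.div (by fun_prop) (by fun_prop) ?_)
      (ContinuousAt.div (by fun_prop) (by fun_prop) ?_)
    · exact mul_ne_zero two_ne_zero n1
    · exact mul_ne_zero three_ne_zero n2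
  refine ⟨hm, tan_sub _ (tan_sub _ l1 t1) t2, ?_, ?_, ?_, ?_, ?_⟩
  · set δ : ℂ := cx p * I * conj (cc p) with hδ
    have ea : ca (W0 p) = (δ / (2 * (xi p + 1 / 2))).re * ca p := by
      rw [← re_part, ← lft_a hal ha δ (-(xi p * cc p).im)]
      simp [W0, ca, e1, e2, hδ]
    have eb : cb (W0 p) = (δ / (3 * (xi p - 1 / 2))).re * cb p := by
      rw [← re_part, ← lft_b hbe hb δ (-(xi p * cc p).im)]
      simp [W0, cb, e1, e2, hδ]
    have e2 : δ * cc p = δ / (2 * (xi p + 1 / 2)) - δ / (3 * (xi p - 1 / 2)) := by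
      simp only [cc]
      ring
    have e3 : (δ * cc p).re = 0 := by
      rw [hδ]
      simp
      ring
    rw [e2, sub_re, sub_eq_zero] at e3
    have e4 : nr p ^ 2 = normSq (ca p) + normSq (cb p) :=
      Real.sq_sqrt (add_nonneg (normSq_nonneg _) (normSq_nonneg _))
    rw [hd, ea, eb, e3]
    generalize (δ / (3 * (xi p - 1 / 2))).re = r
    simp only [mul_re, mul_im, conj_re, conj_im, ofReal_re, ofReal_im]
    field_simp
    rw [e4, normSq_apply, normSq_apply]
    ring
  · have e1' : dxi p (W0 p) = cx p * I * conj (cc p) := by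
      rw [W0, dxi_sub, dxi_sub, d1, d2, l2]; ring
    have e2' : cx (W0 p) = -(xi p * cc p).im := by
      simp [W0, cx, e1, e2, lft]
    rw [hm, e1', e2', Dp]
    congr 2
    simp
    ring
  · rw [Dp, cc_re, xicc_im]
    have a1 := normSq_pos.2 n1
    have a2 := normSq_pos.2 n2
    obtain ⟨b1, b2⟩ := abs_le.1 ht
    have c1 : 0 < ((xi p).re + 1 / 2) / (2 * normSq (xi p + 1 / 2)) :=
      div_pos (by linarith) (by positivity)
    have c2 : ((xi p).re - 1 / 2) / (3 * normSq (xi p - 1 / 2)) < 0 :=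
      div_neg_of_neg_of_pos (by linarith) (by positivity)
    have c3 : 0 < 1 / (4 * normSq (xi p + 1 / 2)) + 1 / (6 * normSq (xi p - 1 / 2)) := by
      positivity
    generalize 1 / (4 * normSq (xi p + 1 / 2)) + 1 / (6 * normSq (xi p - 1 / 2)) = B at c3
    have c4 := sub_pos.2 (c2.trans c1)
    generalize ((xi p).re + 1 / 2) / (2 * normSq (xi p + 1 / 2)) -
      ((xi p).re - 1 / 2) / (3 * normSq (xi p - 1 / 2)) = A at c4
    have c5 := mul_pos hpos (lt_min c4 c3)
    nlinarith [mul_le_mul_of_nonneg_left (min_le_left A B) (sq_nonneg (cx p)),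
      mul_le_mul_of_nonneg_left (min_le_right A B) (sq_nonneg (xi p).im)]
  · exact W0_cont ha hb n1 n2 cc_cont
  · exact Dp_cont cc_cont

end Vale.Agent.P265
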