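import Vale.Agent.P265.M.XD

/-! The two-form on `X` is closed. -/

namespace Vale.Agent.P265

open Set Topology Complex
open scoped ContDiff ComplexConjugate

namespace XCM
open XDM

lemma sm : SmL lX := by
  have hx : ContDiff ℝ ∞ cx := Lx.contDiff
  have re : ∀ L : VX →L[ℝ] ℂ, ContDiff ℝ ∞ fun q => (L q).re := fun L => (reCLM.comp L).contDiff
  have im : ∀ L : VX →L[ℝ] ℂ, ContDiff ℝ ∞ fun q => (L q).im := fun L => (imCLM.comp L).contDiff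
  have n : ∀ L : VX →L[ℝ] ℂ, ContDiff ℝ ∞ fun q => normSq (L q) := fun L =>
    ((re L).mul (re L)).add ((im L).mul (im L))
  have hxi : ContDiff ℝ ∞ xi :=
    ((((conjCLE : ℂ →L[ℝ] ℂ).comp Lal).contDiff).mul (La.contDiff.pow 2)).sub contDiff_const
  have ht : ContDiff ℝ ∞ fun q => (xi q).re := reCLM.contDiff.comp hxi
  have hh : ContDiff ℝ ∞ fun q => (xi q).im := imCLM.contDiff.comp hxi
  intro τ hτ
  simp only [lX, List.mem_cons, List.not_mem_nil, or_false] at hτ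
  rcases hτ with rfl | rfl | rfl | rfl | rfl | rfl | rfl | rfl | rfl | rfl | rfl | rfl | rfl
  exacts [⟨hx, ht, hh⟩, ⟨ht, hh, hx⟩, ⟨hh, hx, ht⟩, ⟨hx, re La, im La⟩,
    ⟨(hx.mul (re Lal)).neg.div_const 4, n La, im Lal⟩, ⟨(hx.mul (im Lal)).div_const 4, n La, re Lal⟩,
    ⟨hx, re Lb, im Lb⟩, ⟨(hx.mul (re Lbe)).neg.div_const 6, n Lb, im Lbe⟩,
    ⟨(hx.mul (im Lbe)).div_const 6, n Lb, re Lbe⟩, ⟨(re Lal).mul (re Lbe), im Lal, im Lbe⟩,
    ⟨((re Lal).mul (im Lbe)).neg, im Lal, re Lbe⟩, ⟨((im Lal).mul (re Lbe)).neg, re Lal, im Lbe⟩,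
    ⟨(im Lal).mul (im Lbe), re Lal, re Lbe⟩]

lemma det0 {t h x a1 a2 a3 b1 b2 b3 c1 c2 c3 : ℝ} (h0 : t * t + h * h + x ^ 2 = 1)
    (ha : t * a1 + h * a2 + x * a3 = 0) (hb : t * b1 + h * b2 + x * b3 = 0)
    (hc : t * c1 + h * c2 + x * c3 = 0) :
    a3 * (b1 * c2 - b2 * c1) + b3 * (c1 * a2 - c2 * a1) + c3 * (a1 * b2 - a2 * b1) = 0 := by
  linear_combination
    -(a3 * (b1 * c2 - b2 * c1) + b3 * (c1 * a2 - c2 * a1) + c3 * (a1 * b2 - a2 * b1)) * h0 +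
    (t * (b2 * c3 - b3 * c2) + h * (b3 * c1 - b1 * c3) + x * (b1 * c2 - b2 * c1)) * ha +
    (t * (c2 * a3 - c3 * a2) + h * (c3 * a1 - c1 * a3) + x * (c1 * a2 - c2 * a1)) * hb +
    (t * (a2 * b3 - a3 * b2) + h * (a3 * b1 - a1 * b3) + x * (a1 * b2 - a2 * b1)) * hc

end XCM

open XDM XCM in
theorem xCS : StmtXC := by
  refine ⟨sm, fun p hp u v w hu hv hw => ?_⟩
  obtain ⟨θ, φ, hu⟩ := tc hp hu
  obtain ⟨θ', φ', hv⟩ := tc hp hv
  obtain ⟨θ'', φ'', hw⟩ := tc hp hw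
  rw [dfrm_eq hp hu hv hw]
  by_cases h : ca p = 0 ∨ cb p = 0
  · rw [(br hp hu h).2.2, (br hp hv h).2.2, (br hp hw h).2.2]
    ring
  push Not at h
  have h0 := hp.2.2.2
  rw [normSq_apply] at h0
  have d0 : cx u * im2 (dxi p v) (dxi p w) + cx v * im2 (dxi p w) (dxi p u) +
      cx w * im2 (dxi p u) (dxi p v) = 0 := det0 h0 hu.ort hv.ort hw.ort
  have na : normSq (ca p) ≠ 0 := (map_ne_zero normSq).2 h.1
  have nb : normSq (cb p) ≠ 0 := (map_ne_zero normSq).2 h.2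
  have da : cx u * ta p v w θ' θ'' + cx v * ta p w u θ'' θ + cx w * ta p u v θ θ' = 0 := by
    refine mul_left_cancel₀ (mul_ne_zero four_ne_zero na) ?_
    rw [ta_mul hp hv hw, ta_mul hp hw hu, ta_mul hp hu hv] at d0
    linear_combination d0
  have db : cx u * tb p v w φ' φ'' + cx v * tb p w u φ'' φ + cx w * tb p u v φ φ' = 0 := by
    refine mul_left_cancel₀ (mul_ne_zero (by norm_num : (9 : ℝ) ≠ 0) (pow_ne_zero 2 nb)) ?_
    rw [tb_mul hp hv hw, tb_mul hp hw hu, tb_mul hp hu hv] at d0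
    linear_combination d0
  rw [d0, da, db]
  ring

end Vale.Agent.P265
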