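import Vale.Agent.P265.Ex

/-! The two-form on `X` in coordinates. -/

namespace Vale.Agent.P265

open Set Topology Complex
open scoped ContDiff ComplexConjugate

noncomputable section

namespace XDM

def La : VX →L[ℝ] ℂ := ContinuousLinearMap.fst ℝ _ _
def Lr : VX →L[ℝ] ℂ × ℝ × ℂ × ℂ := ContinuousLinearMap.snd ℝ _ _
def Lb : VX →L[ℝ] ℂ := (ContinuousLinearMap.fst ℝ _ _).comp Lr
def Lr2 : VX →L[ℝ] ℝ × ℂ × ℂ := (ContinuousLinearMap.snd ℝ _ _).comp Lr
def Lx : VX →L[ℝ] ℝ := (ContinuousLinearMap.fst ℝ _ _).comp Lr2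
def Lr3 : VX →L[ℝ] ℂ × ℂ := (ContinuousLinearMap.snd ℝ _ _).comp Lr2
def Lal : VX →L[ℝ] ℂ := (ContinuousLinearMap.fst ℝ _ _).comp Lr3
def Lbe : VX →L[ℝ] ℂ := (ContinuousLinearMap.snd ℝ _ _).comp Lr3

/-- `f` is differentiable at `p` with derivative `f'` -/
def HD (f : VX → ℝ) (p : VX) (f' : VX → ℝ) : Prop :=
  ∃ A : VX →L[ℝ] ℝ, HasFDerivAt f A p ∧ ∀ u, A u = f' u

lemma HD.eq {f f' : VX → ℝ} {p : VX} (h : HD f p f') (u : VX) : fderiv ℝ f p u = f' u := by
  obtain ⟨A, h1, h2⟩ := h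
  rw [h1.fderiv, h2]

lemma HD.mul {f f' g g' : VX → ℝ} {p : VX} (h : HD f p f') (k : HD g p g') :
    HD (fun q => f q * g q) p (fun u => f p * g' u + g p * f' u) := by
  obtain ⟨A, h1, h2⟩ := h
  obtain ⟨B, k1, k2⟩ := k
  exact ⟨_, h1.mul k1, fun u => by simp [h2, k2]⟩

lemma HD.add {f f' g g' : VX → ℝ} {p : VX} (h : HD f p f') (k : HD g p g') :
    HD (fun q => f q + g q) p (fun u => f' u + g' u) := by
  obtain ⟨A, h1, h2⟩ := h
  obtain ⟨B, k1, k2⟩ := k
  exact ⟨_, h1.add k1, fun u => by simp [h2, k2]⟩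

lemma HD.neg {f f' : VX → ℝ} {p : VX} (h : HD f p f') : HD (fun q => -f q) p (fun u => -f' u) := by
  obtain ⟨A, h1, h2⟩ := h
  exact ⟨_, h1.neg, fun u => by simp [h2]⟩

lemma HD.div {f f' : VX → ℝ} {p : VX} (h : HD f p f') (c : ℝ) :
    HD (fun q => f q / c) p (fun u => f' u / c) := by
  obtain ⟨A, h1, h2⟩ := h
  exact ⟨_, h1.mul_const c⁻¹, fun u => by simp [h2, div_eq_inv_mul]⟩

lemma hre (L : VX →L[ℝ] ℂ) (p : VX) : HD (fun q => (L q).re) p (fun u => (L u).re) :=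
  ⟨_, (reCLM.comp L).hasFDerivAt, fun _ => rfl⟩
lemma him (L : VX →L[ℝ] ℂ) (p : VX) : HD (fun q => (L q).im) p (fun u => (L u).im) :=
  ⟨_, (imCLM.comp L).hasFDerivAt, fun _ => rfl⟩
lemma hx (p : VX) : HD cx p cx := ⟨_, Lx.hasFDerivAt, fun _ => rfl⟩
lemma hn (L : VX →L[ℝ] ℂ) (p : VX) :
    HD (fun q => normSq (L q)) p (fun u => 2 * ((L p).re * (L u).re + (L p).im * (L u).im)) := by
  have := ((hre L p).mul (hre L p)).add ((him L p).mul (him L p))
  convert this using 2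
  · exact normSq_apply _
  · ring

lemma hxi (p : VX) : ∃ A : VX →L[ℝ] ℂ, HasFDerivAt xi A p ∧ ∀ u, A u = dxi p u := by
  have h1 : HasFDerivAt (fun q : VX => conj (cal q)) ((conjCLE : ℂ →L[ℝ] ℂ).comp Lal) p :=
    ((conjCLE : ℂ →L[ℝ] ℂ).comp Lal).hasFDerivAt
  have h2 : HasFDerivAt (fun q : VX => ca q) La p := La.hasFDerivAt
  refine ⟨_, ((h1.mul (h2.mul h2)).sub_const (1 / 2)).congr_of_eventuallyEq
    (.of_forall fun q => by simp [xi, pow_two]), fun u => ?_⟩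
  have e1 : La u = ca u := rfl
  have e2 : Lal u = cal u := rfl
  simp [dxi, e1, e2]
  ring

lemma dt (p u : VX) : fderiv ℝ (fun q => (xi q).re) p u = (dxi p u).re := by
  obtain ⟨A, h1, h2⟩ := hxi p
  exact HD.eq (f' := fun u => (dxi p u).re) ⟨_, reCLM.hasFDerivAt.comp p h1,
    fun u => congrArg re (h2 u)⟩ u
lemma dh (p u : VX) : fderiv ℝ (fun q => (xi q).im) p u = (dxi p u).im := by
  obtain ⟨A, h1, h2⟩ := hxi p
  exact HD.eq (f' := fun u => (dxi p u).im) ⟨_, imCLM.hasFDerivAt.comp p h1,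
    fun u => congrArg im (h2 u)⟩ u

lemma d_ca_re (p u : VX) : fderiv ℝ (fun q => (ca q).re) p u = (ca u).re := (hre La p).eq u
lemma d_ca_im (p u : VX) : fderiv ℝ (fun q => (ca q).im) p u = (ca u).im := (him La p).eq u
lemma d_cb_re (p u : VX) : fderiv ℝ (fun q => (cb q).re) p u = (cb u).re := (hre Lb p).eq u
lemma d_cb_im (p u : VX) : fderiv ℝ (fun q => (cb q).im) p u = (cb u).im := (him Lb p).eq u
lemma d_cal_re (p u : VX) : fderiv ℝ (fun q => (cal q).re) p u = (cal u).re := (hre Lal p).eq u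
lemma d_cal_im (p u : VX) : fderiv ℝ (fun q => (cal q).im) p u = (cal u).im := (him Lal p).eq u
lemma d_cbe_re (p u : VX) : fderiv ℝ (fun q => (cbe q).re) p u = (cbe u).re := (hre Lbe p).eq u
lemma d_cbe_im (p u : VX) : fderiv ℝ (fun q => (cbe q).im) p u = (cbe u).im := (him Lbe p).eq u
lemma dn_ca (p u : VX) : fderiv ℝ (fun q => normSq (ca q)) p u =
    2 * ((ca p).re * (ca u).re + (ca p).im * (ca u).im) := (hn La p).eq u
lemma dn_cb (p u : VX) : fderiv ℝ (fun q => normSq (cb q)) p u =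
    2 * ((cb p).re * (cb u).re + (cb p).im * (cb u).im) := (hn Lb p).eq u
lemma dx (p u : VX) : fderiv ℝ cx p u = cx u := (hx p).eq u
lemma f5 (p u : VX) : fderiv ℝ (fun p => -(cx p * (cal p).re) / 4) p u =
    -(cx p * (cal u).re + (cal p).re * cx u) / 4 := (((hx p).mul (hre Lal p)).neg.div 4).eq u
lemma f6 (p u : VX) : fderiv ℝ (fun p => cx p * (cal p).im / 4) p u =
    (cx p * (cal u).im + (cal p).im * cx u) / 4 := (((hx p).mul (him Lal p)).div 4).eq u
lemma f8 (p u : VX) : fderiv ℝ (fun p => -(cx p * (cbe p).re) / 6) p u =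
    -(cx p * (cbe u).re + (cbe p).re * cx u) / 6 := (((hx p).mul (hre Lbe p)).neg.div 6).eq u
lemma f9 (p u : VX) : fderiv ℝ (fun p => cx p * (cbe p).im / 6) p u =
    (cx p * (cbe u).im + (cbe p).im * cx u) / 6 := (((hx p).mul (him Lbe p)).div 6).eq u
lemma f10 (p u : VX) : fderiv ℝ (fun p => (cal p).re * (cbe p).re) p u =
    (cal p).re * (cbe u).re + (cbe p).re * (cal u).re := ((hre Lal p).mul (hre Lbe p)).eq u
lemma f11 (p u : VX) : fderiv ℝ (fun p => -((cal p).re * (cbe p).im)) p u =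
    -((cal p).re * (cbe u).im + (cbe p).im * (cal u).re) := ((hre Lal p).mul (him Lbe p)).neg.eq u
lemma f12 (p u : VX) : fderiv ℝ (fun p => -((cal p).im * (cbe p).re)) p u =
    -((cal p).im * (cbe u).re + (cbe p).re * (cal u).im) := ((him Lal p).mul (hre Lbe p)).neg.eq u
lemma f13 (p u : VX) : fderiv ℝ (fun p => (cal p).im * (cbe p).im) p u =
    (cal p).im * (cbe u).im + (cbe p).im * (cal u).im := ((him Lal p).mul (him Lbe p)).eq u

/-- coordinates of a tangent vector -/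
structure TC (p u : VX) (θ φ : ℝ) : Prop where
  a1 : (cal u).re = -θ * (cal p).im
  a2 : (cal u).im = θ * (cal p).re
  b1 : (cbe u).re = -φ * (cbe p).im
  b2 : (cbe u).im = φ * (cbe p).re
  da : dxi p u = 2 * conj (cal p) * ca p * (ca u - I * θ * ca p / 2)
  db : dxi p u = 3 * conj (cbe p) * cb p ^ 2 * (cb u - I * φ * cb p / 3)
  ort : (xi p).re * (dxi p u).re + (xi p).im * (dxi p u).im + cx p * cx u = 0

lemma rot {α z : ℂ} (h : normSq α = 1) (hz : (conj α * z).re = 0) :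
    ∃ θ : ℝ, z = I * θ * α := by
  refine ⟨(conj α * z).im, ?_⟩
  have e : conj α * z = ((conj α * z).im : ℝ) * I := by
    apply Complex.ext
    · rw [hz]; simp
    · simp
  have e2 : α * conj α = 1 := by rw [mul_conj, h, ofReal_one]
  linear_combination α * e - z * e2

lemma tc {p u : VX} (hp : p ∈ XX) (hu : tanX p u) : ∃ θ φ, TC p u θ φ := by
  obtain ⟨θ, hθ⟩ := rot hp.1 hu.1
  obtain ⟨φ, hφ⟩ := rot hp.2.1 hu.2.1
  refine ⟨θ, φ, by simp [hθ], by simp [hθ], by simp [hφ], by simp [hφ], ?_, ?_, ?_⟩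
  · rw [dxi, hθ]; simp; ring
  · rw [hu.2.2.1, hφ]; simp; ring
  · have := hu.2.2.2
    simpa using this

def im2 (z w : ℂ) : ℝ := z.re * w.im - z.im * w.re
def ta (p u v : VX) (θ θ' : ℝ) : ℝ := im2 (ca u - I * θ * ca p / 2) (ca v - I * θ' * ca p / 2)
def tb (p u v : VX) (φ φ' : ℝ) : ℝ := im2 (cb u - I * φ * cb p / 3) (cb v - I * φ' * cb p / 3)

lemma ta_eq (p u v : VX) (θ θ' : ℝ) : ta p u v θ θ' = im2 (ca u) (ca v) -
    (((ca p).re * (ca u).re + (ca p).im * (ca u).im) * θ' -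
      ((ca p).re * (ca v).re + (ca p).im * (ca v).im) * θ) / 2 := by
  simp [ta, im2]; ring
lemma tb_eq (p u v : VX) (θ θ' : ℝ) : tb p u v θ θ' = im2 (cb u) (cb v) -
    (((cb p).re * (cb u).re + (cb p).im * (cb u).im) * θ' -
      ((cb p).re * (cb v).re + (cb p).im * (cb v).im) * θ) / 3 := by
  simp [tb, im2]; ring

lemma frm_eq {p u v : VX} {θ φ θ' φ' : ℝ} (hp : p ∈ XX) (hu : TC p u θ φ) (hv : TC p v θ' φ') :
    frm lX p u v = cx p * im2 (dxi p u) (dxi p v) +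
      (xi p).re * ((dxi p u).im * cx v - (dxi p v).im * cx u) +
      (xi p).im * (cx u * (dxi p v).re - cx v * (dxi p u).re) +
      cx p * ta p u v θ θ' + cx p * tb p u v φ φ' + (θ * φ' - θ' * φ) := by
  have ha := hp.1
  have hb := hp.2.1
  rw [normSq_apply] at ha hb
  simp only [frm, lX, List.map_cons, List.map_nil, List.sum_cons, List.sum_nil, w2, dt, dh, dx,
    d_ca_re, d_ca_im, d_cb_re, d_cb_im, d_cal_re, d_cal_im, d_cbe_re, d_cbe_im, dn_ca, dn_cb,
    hu.a1, hu.a2, hu.b1, hu.b2, hv.a1, hv.a2, hv.b1, hv.b2, ta_eq, tb_eq, im2]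
  linear_combination
    (-(cx p / 2) * (((ca p).re * (ca u).re + (ca p).im * (ca u).im) * θ' -
      ((ca p).re * (ca v).re + (ca p).im * (ca v).im) * θ) + (θ * φ' - θ' * φ) *
        ((cbe p).re * (cbe p).re + (cbe p).im * (cbe p).im)) * ha +
    (-(cx p / 3) * (((cb p).re * (cb u).re + (cb p).im * (cb u).im) * φ' -
      ((cb p).re * (cb v).re + (cb p).im * (cb v).im) * φ) + (θ * φ' - θ' * φ)) * hb

lemma dfrm_eq {p u v w : VX} {θ φ θ' φ' θ'' φ'' : ℝ} (hp : p ∈ XX) (hu : TC p u θ φ)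
    (hv : TC p v θ' φ') (hw : TC p w θ'' φ'') :
    dfrm lX p u v w = 3 * (cx u * im2 (dxi p v) (dxi p w) + cx v * im2 (dxi p w) (dxi p u) +
        cx w * im2 (dxi p u) (dxi p v)) +
      (cx u * ta p v w θ' θ'' + cx v * ta p w u θ'' θ + cx w * ta p u v θ θ') +
      (cx u * tb p v w φ' φ'' + cx v * tb p w u φ'' φ + cx w * tb p u v φ φ') := by
  have ha := hp.1
  have hb := hp.2.1
  rw [normSq_apply] at ha hb
  simp only [dfrm, lX, List.map_cons, List.map_nil, List.sum_cons, List.sum_nil, w3, w2, dt, dh, dx,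
    d_ca_re, d_ca_im, d_cb_re, d_cb_im, d_cal_re, d_cal_im, d_cbe_re, d_cbe_im, dn_ca, dn_cb,
    f5, f6, f8, f9, f10, f11, f12, f13,
    hu.a1, hu.a2, hu.b1, hu.b2, hv.a1, hv.a2, hv.b1, hv.b2, hw.a1, hw.a2, hw.b1, hw.b2,
    ta_eq, tb_eq, im2]
  generalize (ca p).re * (ca u).re + (ca p).im * (ca u).im = nu
  generalize (ca p).re * (ca v).re + (ca p).im * (ca v).im = nv
  generalize (ca p).re * (ca w).re + (ca p).im * (ca w).im = nw
  generalize (cb p).re * (cb u).re + (cb p).im * (cb u).im = mu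
  generalize (cb p).re * (cb v).re + (cb p).im * (cb v).im = mv
  generalize (cb p).re * (cb w).re + (cb p).im * (cb w).im = mw
  linear_combination
    (-(1 / 2) * (cx u * (nv * θ'' - nw * θ') + cx v * (nw * θ - nu * θ'') +
      cx w * (nu * θ' - nv * θ))) * ha +
    (-(1 / 3) * (cx u * (mv * φ'' - mw * φ') + cx v * (mw * φ - mu * φ'') +
      cx w * (mu * φ' - mv * φ))) * hb

lemma im2_mul (c z w : ℂ) : im2 (c * z) (c * w) = normSq c * im2 z w := by
  simp only [im2, mul_re, mul_im, normSq_apply]; ring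

lemma ta_mul {p u v : VX} {θ φ θ' φ' : ℝ} (hp : p ∈ XX) (hu : TC p u θ φ) (hv : TC p v θ' φ') :
    im2 (dxi p u) (dxi p v) = 4 * normSq (ca p) * ta p u v θ θ' := by
  rw [hu.da, hv.da, im2_mul, ta, map_mul, map_mul, normSq_conj, hp.1]
  norm_num

lemma tb_mul {p u v : VX} {θ φ θ' φ' : ℝ} (hp : p ∈ XX) (hu : TC p u θ φ) (hv : TC p v θ' φ') :
    im2 (dxi p u) (dxi p v) = 9 * normSq (cb p) ^ 2 * tb p u v φ φ' := by
  rw [hu.db, hv.db, im2_mul, tb, map_mul, map_mul, normSq_conj, hp.2.1, map_pow]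
  norm_num

/-- at the branch points -/
lemma br {p u : VX} {θ φ : ℝ} (hp : p ∈ XX) (hu : TC p u θ φ) (h : ca p = 0 ∨ cb p = 0) :
    dxi p u = 0 ∧ cx p ≠ 0 ∧ cx u = 0 := by
  have h1 : dxi p u = 0 := by
    rcases h with h | h
    · rw [hu.da, h]; ring
    · rw [hu.db, h]; ring
  have h2 : normSq (xi p) = 1 / 4 := by
    have e := hp.2.2.1
    rcases h with h | h
    · rw [xi, h]; norm_num [normSq_apply]
    · rw [h] at e
      have : xi p = 1 / 2 := by rw [xi]; linear_combination e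
      rw [this]; norm_num [normSq_apply]
  have h3 : cx p ≠ 0 := fun h0 => by
    have := hp.2.2.2
    rw [h2, h0] at this
    norm_num at this
  have h4 := hu.ort
  rw [h1] at h4
  exact ⟨h1, h3, by simpa [h3] using h4⟩

end XDM

end

end Vale.Agent.P265
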