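import Vale.Agent.P265.M.XD

/-! The two-form on `X` is nondegenerate. -/

namespace Vale.Agent.P265

open Set Topology Complex
open scoped ContDiff ComplexConjugate

namespace XNM
open XDM

lemma m1 (a b : ℂ) (x : ℝ) (c d : ℂ) : ca (a, b, x, c, d) = a := rfl
lemma m2 (a b : ℂ) (x : ℝ) (c d : ℂ) : cb (a, b, x, c, d) = b := rfl
lemma m3 (a b : ℂ) (x : ℝ) (c d : ℂ) : cx (a, b, x, c, d) = x := rfl
lemma m4 (a b : ℂ) (x : ℝ) (c d : ℂ) : cal (a, b, x, c, d) = c := rfl
lemma m5 (a b : ℂ) (x : ℝ) (c d : ℂ) : cbe (a, b, x, c, d) = d := rfl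
lemma cj2 : conj (2 : ℂ) = 2 := map_ofNat _ 2
lemma cj3 : conj (3 : ℂ) = 3 := map_ofNat _ 3

lemma de1 (p : VX) : dxi p (e1 p) = 0 := by simp [dxi, e1, m1, m2, m3, m4, m5, cj2]; ring
lemma de2 (p : VX) : dxi p (e2 p) = 0 := by simp [dxi, e2, m1, m2, m3, m4, m5, cj3]

lemma t1 (p : VX) : tanX p (e1 p) := by
  refine ⟨?_, ?_, ?_, ?_⟩
  · simp [e1, m1, m2, m3, m4, m5, cj2]; ring
  · simp [e1, m1, m2, m3, m4, m5, cj2]
  · rw [de1]; simp [e1, m1, m2, m3, m4, m5, cj2]
  · rw [de1]; simp [e1, m1, m2, m3, m4, m5, cj2]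

lemma t2 (p : VX) : tanX p (e2 p) := by
  refine ⟨?_, ?_, ?_, ?_⟩
  · simp [e2, m1, m2, m3, m4, m5, cj3]
  · simp [e2, m1, m2, m3, m4, m5, cj3]; ring
  · rw [de2]; simp [e2, m1, m2, m3, m4, m5, cj3]; ring
  · rw [de2]; simp [e2, m1, m2, m3, m4, m5, cj3]

lemma c1 (p : VX) : TC p (e1 p) 2 0 := by
  refine ⟨?_, ?_, ?_, ?_, ?_, ?_, ?_⟩
  · simp [e1, m1, m2, m3, m4, m5, cj2]
  · simp [e1, m1, m2, m3, m4, m5, cj2]
  · simp [e1, m1, m2, m3, m4, m5, cj2]
  · simp [e1, m1, m2, m3, m4, m5, cj2]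
  · rw [de1]; simp [e1, m1, m2, m3, m4, m5, cj2]; right; ring
  · rw [de1]; simp [e1, m1, m2, m3, m4, m5, cj2]
  · rw [de1]; simp [e1, m1, m2, m3, m4, m5, cj2]

lemma c2 (p : VX) : TC p (e2 p) 0 3 := by
  refine ⟨?_, ?_, ?_, ?_, ?_, ?_, ?_⟩
  · simp [e2, m1, m2, m3, m4, m5, cj3]
  · simp [e2, m1, m2, m3, m4, m5, cj3]
  · simp [e2, m1, m2, m3, m4, m5, cj3]
  · simp [e2, m1, m2, m3, m4, m5, cj3]
  · rw [de2]; simp [e2, m1, m2, m3, m4, m5, cj3]
  · rw [de2]; simp [e2, m1, m2, m3, m4, m5, cj3]; right; ring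
  · rw [de2]; simp [e2, m1, m2, m3, m4, m5, cj3]

/-- horizontal vectors -/
lemma hor {p w : VX} (h1 : cal w = 0) (h2 : cbe w = 0)
    (h3 : dxi p w = 3 * conj (cbe p) * cb p ^ 2 * cb w)
    (h4 : (xi p).re * (dxi p w).re + (xi p).im * (dxi p w).im + cx p * cx w = 0) :
    tanX p w ∧ TC p w 0 0 := by
  refine ⟨⟨by simp [h1], by simp [h2], by simp [h2, h3], by simpa using h4⟩,
    by simp [h1], by simp [h1], by simp [h2], by simp [h2], by simp [dxi, h1], by simp [h3], h4⟩

lemma fin0 {N r s t x A B m n : ℝ} (hN : N = r ^ 2 + s ^ 2 + t ^ 2) (hm : 0 < m) (hn : 0 < n)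
    (s1 : N + x * A + x * B = 0) (s2 : x * N = 4 * m * A) (s3 : x * N = 9 * n * B) :
    r = 0 ∧ s = 0 ∧ t = 0 := by
  have N0 : 0 ≤ N := by rw [hN]; positivity
  have q := mul_nonneg (sq_nonneg x) N0
  have p1 : 0 ≤ x * A := by
    have : 0 ≤ 4 * m * (x * A) := by linarith [show 4 * m * (x * A) = x ^ 2 * N by linear_combination -x * s2]
    exact nonneg_of_mul_nonneg_right this (by positivity) |> fun h => h
  have p2 : 0 ≤ x * B := by
    have : 0 ≤ 9 * n * (x * B) := by linarith [show 9 * n * (x * B) = x ^ 2 * N by linear_combination -x * s3]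
    exact nonneg_of_mul_nonneg_right this (by positivity) |> fun h => h
  have N1 : r ^ 2 + s ^ 2 + t ^ 2 ≤ 0 := by linarith
  have a := sq_nonneg r
  have b := sq_nonneg s
  have c := sq_nonneg t
  exact ⟨pow_eq_zero_iff two_ne_zero |>.1 (by linarith), pow_eq_zero_iff two_ne_zero |>.1 (by linarith),
    pow_eq_zero_iff two_ne_zero |>.1 (by linarith)⟩

end XNM

open XDM XNM in
theorem xNS : StmtXN := by
  intro p hp v hv0 h
  obtain ⟨θ, φ, hv⟩ := tc hp hv0
  have hφ : φ = 0 := by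
    have := h _ (t1 p)
    rw [frm_eq hp hv (c1 p), de1] at this
    simp [ta, tb, im2, e1, m1, m2, m3, m4, m5, cj2] at this
    linarith
  have hθ : θ = 0 := by
    have := h _ (t2 p)
    rw [frm_eq hp hv (c2 p), de2] at this
    simp [ta, tb, im2, e2, m1, m2, m3, m4, m5, cj3] at this
    linarith
  subst hφ hθ
  have a0 : cal v = 0 := Complex.ext (by simp [hv.a1]) (by simp [hv.a2])
  have b0 : cbe v = 0 := Complex.ext (by simp [hv.b1]) (by simp [hv.b2])
  have al : conj (cal p) ≠ 0 := by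
    rw [map_ne_zero, ← map_ne_zero normSq, hp.1]; exact one_ne_zero
  have be : conj (cbe p) ≠ 0 := by
    rw [map_ne_zero, ← map_ne_zero normSq, hp.2.1]; exact one_ne_zero
  have da := hv.da
  have db := hv.db
  simp only [ofReal_zero, mul_zero, zero_mul, zero_div, sub_zero] at da db
  have key : ca v = 0 ∧ cb v = 0 ∧ cx v = 0 := by
    by_cases ha : ca p = 0
    · obtain ⟨b1, b2, b3⟩ := br hp hv (Or.inl ha)
      have hb : cb p ≠ 0 := fun hb => by simpa [ha, hb] using hp.2.2.1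
      have vb : cb v = 0 := by
        rw [b1] at db
        simpa [be, hb] using db
      obtain ⟨w1, w2⟩ := hor (p := p) (w := (I * ca v, 0, 0, 0, 0)) rfl rfl (by simp [dxi, ha, m1, m3, m4])
        (by simp [dxi, ha, m1, m3, m4])
      have := h _ w1
      rw [frm_eq hp hv w2, b1, b3] at this
      simp [ta, tb, im2, vb, b2, m1, m2] at this
      exact ⟨normSq_eq_zero.1 (by rw [normSq_apply]; linarith), vb, b3⟩
    by_cases hb : cb p = 0
    · obtain ⟨b1, b2, b3⟩ := br hp hv (Or.inr hb)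
      have va : ca v = 0 := by
        rw [b1] at da
        simpa [al, ha] using da
      obtain ⟨w1, w2⟩ := hor (p := p) (w := (0, I * cb v, 0, 0, 0)) rfl rfl (by simp [dxi, hb, m1, m4])
        (by simp [dxi, m1, m3, m4])
      have := h _ w1
      rw [frm_eq hp hv w2, b1, b3] at this
      simp [ta, tb, im2, va, b2, m1, m2] at this
      exact ⟨va, normSq_eq_zero.1 (by rw [normSq_apply]; linarith), b3⟩
    set δ : ℂ := cx p * I * dxi p v - I * xi p * cx v with hδ
    set d : ℝ := (conj (xi p) * dxi p v).im with hd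
    have k1 : cal p * conj (cal p) = 1 := by rw [mul_conj, hp.1, ofReal_one]
    have k2 : cbe p * conj (cbe p) = 1 := by rw [mul_conj, hp.2.1, ofReal_one]
    have e1 : dxi p (lft p δ d) = δ := by
      simp only [dxi, lft, m1, m4, map_zero, zero_mul, zero_add]
      field_simp
      linear_combination δ * k1
    obtain ⟨w1, w2⟩ := hor (p := p) (w := lft p δ d) rfl rfl (by
        rw [e1]
        simp only [lft, m2]
        field_simp
        linear_combination -δ * k2)
      (by rw [e1, hδ, hd]; simp [lft, m3]; ring)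
    have h0 := h _ w1
    have ea := ta_mul hp hv w2
    have eb := tb_mul hp hv w2
    have ex : cx (lft p δ d) = d := rfl
    rw [frm_eq hp hv w2, e1, ex] at h0
    rw [e1] at ea eb
    have n0 := hp.2.2.2
    have o0 := hv.ort
    rw [normSq_apply] at n0
    have na : 0 < normSq (ca p) := normSq_pos.2 ha
    have nb : 0 < normSq (cb p) ^ 2 := pow_pos (normSq_pos.2 hb) 2
    generalize ta p v (lft p δ d) 0 0 = A at *
    generalize tb p v (lft p δ d) 0 0 = B at *
    have r1 : δ.re = -(cx p * (dxi p v).im) + (xi p).im * cx v := by rw [hδ]; simp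
    have r2 : δ.im = cx p * (dxi p v).re - (xi p).re * cx v := by rw [hδ]; simp
    have r3 : d = (xi p).re * (dxi p v).im - (xi p).im * (dxi p v).re := by rw [hd]; simp; ring
    rw [im2, r1, r2] at h0 ea eb
    rw [r3] at h0
    set N := (dxi p v).re ^ 2 + (dxi p v).im ^ 2 + cx v ^ 2 with hN
    have s1 : N + cx p * A + cx p * B = 0 := by
      rw [hN]
      linear_combination h0 - ((dxi p v).re ^ 2 + (dxi p v).im ^ 2 + cx v ^ 2) * n0 +
        ((xi p).re * (dxi p v).re + (xi p).im * (dxi p v).im + cx p * cx v) * o0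
    have s2 : cx p * N = 4 * normSq (ca p) * A := by
      rw [hN]; linear_combination ea + cx v * o0
    have s3 : cx p * N = 9 * normSq (cb p) ^ 2 * B := by
      rw [hN]; linear_combination eb + cx v * o0
    obtain ⟨y1, y2, y3⟩ := fin0 hN na nb s1 s2 s3
    have z1 : dxi p v = 0 := Complex.ext y1 y2
    rw [z1] at da db
    exact ⟨by simpa [al, ha] using da, by simpa [be, hb] using db, y3⟩
  exact Prod.ext key.1 (Prod.ext key.2.1 (Prod.ext key.2.2 (Prod.ext a0 b0)))

end Vale.Agent.P265
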