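import Vale.Agent.P265.Ex

/-! Compactness of `Y` and the basic patch. -/

namespace Vale.Agent.P265

open Set Topology Complex
open scoped ContDiff ComplexConjugate

namespace YAM

theorem d0 (u : ℂ) : (1 + normSq u : ℝ) ≠ 0 := by have := normSq_nonneg u; positivity

theorem onS_sS (u : ℂ) : onS (sS u) := by
  have := d0 u
  simp only [onS, sS, map_div₀, map_mul, normSq_ofReal, normSq_ofNat]
  field_simp
  ring

theorem rp_sS (c : Bool) (u : ℂ) : ∃ k : ℂ, rp c (sS u) = (k * u, k) := by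
  have h : ((1 + normSq u : ℝ) : ℂ) ≠ 0 := by exact_mod_cast d0 u
  cases c
  · refine ⟨2 / (1 + normSq u : ℝ), Prod.ext ?_ ?_⟩
    · simp only [rp, sS, Bool.false_eq_true, if_false]; ring
    · simp only [rp, sS, Bool.false_eq_true, if_false]
      push_cast at h ⊢
      field_simp
      ring
  · refine ⟨2 * conj u / (1 + normSq u : ℝ), Prod.ext ?_ ?_⟩
    · simp only [rp, sS, if_true]
      have e : conj u * u = (normSq u : ℂ) := by rw [mul_comm, mul_conj]
      rw [div_mul_eq_mul_div, mul_assoc, e]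
      push_cast at h ⊢
      field_simp
      ring
    · simp only [rp, sS, if_true, map_div₀, map_mul, conj_ofReal, map_ofNat]

theorem sS_ne (u : ℂ) : (sS u).2 ≠ 1 := by
  simp only [sS]
  rw [Ne, div_eq_one_iff_eq (d0 u)]
  intro h
  linarith

theorem st_sS (u : ℂ) : st (sS u) = u := by
  have h : ((1 + normSq u : ℝ) : ℂ) ≠ 0 := by exact_mod_cast d0 u
  have e : (1 - (normSq u - 1) / (1 + normSq u) : ℝ) = 2 / (1 + normSq u) := by
    have := d0 u
    field_simp
    ring
  simp only [st, sS, e]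
  push_cast at h ⊢
  field_simp

theorem sS_st {p : S2} (h : onS p) (h1 : p.2 ≠ 1) : sS (st p) = p := by
  have a : (1 - p.2 : ℝ) ≠ 0 := sub_ne_zero.2 h1.symm
  have e : normSq (st p) = (1 + p.2) / (1 - p.2) := by
    have : normSq p.1 = (1 + p.2) * (1 - p.2) := by unfold onS at h; linarith
    simp only [st, map_div₀, normSq_ofReal, this]
    field_simp
  have e2 : 1 + normSq (st p) = 2 / (1 - p.2) := by rw [e]; field_simp; ring
  refine Prod.ext ?_ ?_
  · have a' : ((1 - p.2 : ℝ) : ℂ) ≠ 0 := by exact_mod_cast a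
    simp only [sS, e2]
    simp only [st]
    push_cast at a' ⊢
    field_simp
  · simp only [sS, e2]
    rw [e]
    field_simp
    ring

theorem cN : ContDiff ℝ ∞ fun u : ℂ => normSq u := by
  simp only [normSq_eq_norm_sq]
  exact contDiff_norm_sq ℝ

theorem c_sS : ContDiff ℝ ∞ sS := by
  have h1 : ContDiff ℝ ∞ fun u : ℂ => 1 + normSq u := contDiff_const.add cN
  refine ContDiff.prodMk ?_ ((cN.sub contDiff_const).div h1 d0)
  simp only [div_eq_mul_inv]
  exact (contDiff_const.mul contDiff_id).mul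
    ((ofRealCLM.contDiff.comp h1).inv fun u => ofReal_ne_zero.2 (d0 u))

theorem c_st {p : S2} (h : p.2 ≠ 1) : ContDiffAt ℝ ∞ st p := by
  unfold st
  simp only [div_eq_mul_inv]
  refine contDiffAt_fst.mul (ContDiffAt.inv
    (ofRealCLM.contDiff.contDiffAt.comp p (contDiffAt_const.sub contDiffAt_snd)) ?_)
  exact_mod_cast sub_ne_zero.2 h.symm

theorem c_rp (c : Bool) : Continuous (rp c) := by
  cases c
  · change Continuous fun p : S2 => (p.1, 1 - (p.2 : ℂ))
    fun_prop
  · change Continuous fun p : S2 => (1 + (p.2 : ℂ), conj p.1)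
    fun_prop

theorem cptS : IsCompact {p : S2 | onS p} := by
  refine Metric.isCompact_of_isClosed_isBounded (isClosed_eq (by fun_prop) continuous_const)
    ((Metric.isBounded_closedBall (x := 0) (r := 1)).subset fun p hp => ?_)
  have h : normSq p.1 + p.2 ^ 2 = 1 := hp
  rw [normSq_eq_norm_sq] at h
  rw [mem_closedBall_zero_iff, Prod.norm_def, max_le_iff, Real.norm_eq_abs, abs_le]
  refine ⟨?_, ?_, ?_⟩ <;> nlinarith [norm_nonneg p.1, sq_nonneg p.2, sq_nonneg ‖p.1‖]

theorem c3 {f g : Bool → Bool → Bool → VY → ℂ} (hf : ∀ a b c, Continuous (f a b c))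
    (hg : ∀ a b c, Continuous (g a b c)) : IsClosed {y | ∀ a b c, f a b c y = g a b c y} := by
  simp only [ofPred_forall]
  exact isClosed_iInter fun _ => isClosed_iInter fun _ => isClosed_iInter fun _ =>
    isClosed_eq (hf ..) (hg ..)

theorem cptY : IsCompact YY := by
  have r := c_rp
  refine (cptS.prod (cptS.prod (cptS.prod cptS))).of_isClosed_subset ?_
    fun y h => ⟨h.1, h.2.1, h.2.2.1, h.2.2.2.1⟩
  have k := cptS.isClosed
  refine (k.preimage continuous_fst).inter ((k.preimage (f := fun y : VY => y.2.1) (by fun_prop)).inter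
    ((k.preimage (f := fun y : VY => y.2.2.1) (by fun_prop)).inter
    ((k.preimage (f := fun y : VY => y.2.2.2) (by fun_prop)).inter (IsClosed.inter ?_ ?_))))
  · exact c3 (fun _ _ _ => by fun_prop) (fun _ _ _ => by fun_prop)
  · exact c3 (fun _ _ _ => by fun_prop) (fun _ _ _ => by fun_prop)

theorem P0_mem (u : ℂ × ℂ) : P0 u ∈ YY := by
  refine ⟨onS_sS _, onS_sS _, onS_sS _, onS_sS _, fun c1 c2 c3 => ?_, fun c1 c2 c4 => ?_⟩
  · obtain ⟨k1, e1⟩ := rp_sS c1 (u.1 * u.2)
    obtain ⟨k2, e2⟩ := rp_sS c2 u.2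
    obtain ⟨k3, e3⟩ := rp_sS c3 u.1
    simp only [P0, e1, e2, e3]
    ring
  · obtain ⟨k1, e1⟩ := rp_sS c1 (u.1 * u.2)
    obtain ⟨k2, e2⟩ := rp_sS c2 u.2
    obtain ⟨k3, e3⟩ := rp_sS c4 (u.1 * u.2 ^ 2)
    simp only [P0, e1, e2, e3]
    ring

theorem PL {y : VY} (h : y ∈ YY) (hv : y ∈ V0) : P0 (L0 y) = y := by
  obtain ⟨o1, o2, o3, o4, q1, q2⟩ := h
  obtain ⟨v1, v2, v3, v4⟩ := hv
  have n : ∀ {x : ℝ}, x ≠ 1 → (1 - (x : ℂ)) ≠ 0 := fun h => by
    exact_mod_cast sub_ne_zero.2 h.symm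
  have a1 := q1 false false false
  have a2 := q2 false false false
  simp only [rp, Bool.false_eq_true, if_false] at a1 a2
  have n1 := n v1
  have n2 := n v2
  have n3 := n v3
  have n4 := n v4
  have e1 : st y.2.2.1 * st y.2.1 = st y.1 := by
    simp only [st]
    push_cast
    field_simp
    linear_combination -a1
  have e2 : st y.2.2.1 * st y.2.1 ^ 2 = st y.2.2.2 := by
    rw [sq, ← mul_assoc, e1]
    simp only [st]
    push_cast
    field_simp
    linear_combination -a2
  simp only [P0, L0, e1, e2, sS_st o1 v1, sS_st o2 v2, sS_st o3 v3, sS_st o4 v4]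

end YAM

open YAM

theorem yAS : StmtYA := by
  refine ⟨cptY, ⟨P0, L0, univ, V0, isOpen_univ, ?_, ?_, ?_,
    fun u _ => ⟨P0_mem u, sS_ne _, sS_ne _, sS_ne _, sS_ne _⟩, mapsTo_univ _ _,
    fun u _ => by simp only [L0, P0, st_sS], fun y hy => PL hy.1 hy.2⟩, rfl, rfl, rfl, rfl⟩
  · exact (isOpen_ne_fun (by fun_prop) continuous_const).inter
      ((isOpen_ne_fun (by fun_prop) continuous_const).inter
      ((isOpen_ne_fun (by fun_prop) continuous_const).inter
      (isOpen_ne_fun (by fun_prop) continuous_const)))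
  · exact ((c_sS.comp (contDiff_fst.mul contDiff_snd)).prodMk ((c_sS.comp contDiff_snd).prodMk
      ((c_sS.comp contDiff_fst).prodMk (c_sS.comp (contDiff_fst.mul (contDiff_snd.pow 2)))))).contDiffOn
  · intro y hy
    exact (((c_st hy.2.2.1).comp y (contDiffAt_snd.snd.fst)).prodMk
      ((c_st hy.2.1).comp y contDiffAt_snd.fst)).contDiffWithinAt

end Vale.Agent.P265
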