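import Vale.Agent.P265.Ex

/-! Symmetries of `Y` and the covering by eight patches. -/

namespace Vale.Agent.P265

open Set Topology Complex
open scoped ContDiff ComplexConjugate

namespace YBM

theorem rp_fl (c : Bool) (p : S2) : rp c (fl p) = (rp (!c) p).swap := by
  cases c <;> simp [rp, fl, sub_eq_add_neg]

theorem onS_fl {p : S2} (h : onS p) : onS (fl p) := by
  simpa [onS, fl] using h

theorem fl_fl (p : S2) : fl (fl p) = p := by simp [fl]

theorem m1 (c : Bool) : MapsTo (sy1 c) YY YY := by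
  rintro y ⟨o1, o2, o3, o4, q1, q2⟩
  cases c
  · exact ⟨o1, o2, o3, o4, q1, q2⟩
  refine ⟨onS_fl o1, o2, onS_fl o4, onS_fl o3, fun a b c => ?_, fun a b c => ?_⟩ <;>
    simp only [sy1, if_true, rp_fl, Prod.fst_swap, Prod.snd_swap]
  · linear_combination q2 (!a) b (!c)
  · linear_combination q1 (!a) b (!c)

theorem m2 (c : Bool) : MapsTo (sy2 c) YY YY := by
  rintro y ⟨o1, o2, o3, o4, q1, q2⟩
  cases c
  · exact ⟨o1, o2, o3, o4, q1, q2⟩
  refine ⟨o1, onS_fl o2, o4, o3, fun a b c => ?_, fun a b c => ?_⟩ <;>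
    simp only [sy2, if_true, rp_fl, Prod.fst_swap, Prod.snd_swap]
  · linear_combination -q2 a (!b) c
  · linear_combination -q1 a (!b) c

theorem m3 (c : Bool) : MapsTo (sy3 c) YY YY := by
  rintro y ⟨o1, o2, o3, o4, q1, q2⟩
  cases c
  · exact ⟨o1, o2, o3, o4, q1, q2⟩
  refine ⟨o2, o1, onS_fl o3, o4, fun a b c => ?_, fun a b c => ?_⟩ <;>
    simp only [sy3, if_true, rp_fl, Prod.fst_swap, Prod.snd_swap]
  · linear_combination -q1 b a (!c)
  · linear_combination q2 b a c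

theorem i1 (c : Bool) (y : VY) : sy1 c (sy1 c y) = y := by cases c <;> simp [sy1, fl_fl]
theorem i2 (c : Bool) (y : VY) : sy2 c (sy2 c y) = y := by cases c <;> simp [sy2, fl_fl]
theorem i3 (c : Bool) (y : VY) : sy3 c (sy3 c y) = y := by cases c <;> simp [sy3, fl_fl]

theorem c_fl : ContDiff ℝ ∞ fl :=
  (conjCLE.contDiff.comp contDiff_fst).prodMk contDiff_snd.neg

theorem c1 (c : Bool) : ContDiff ℝ ∞ (sy1 c) := by
  cases c
  · exact contDiff_id
  · exact (c_fl.comp contDiff_fst).prodMk (contDiff_snd.fst.prodMk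
      ((c_fl.comp contDiff_snd.snd.snd).prodMk (c_fl.comp contDiff_snd.snd.fst)))

theorem c2 (c : Bool) : ContDiff ℝ ∞ (sy2 c) := by
  cases c
  · exact contDiff_id
  · exact contDiff_fst.prodMk ((c_fl.comp contDiff_snd.fst).prodMk
      (contDiff_snd.snd.snd.prodMk contDiff_snd.snd.fst))

theorem c3 (c : Bool) : ContDiff ℝ ∞ (sy3 c) := by
  cases c
  · exact contDiff_id
  · exact contDiff_snd.fst.prodMk (contDiff_fst.prodMk
      ((c_fl.comp contDiff_snd.snd.fst).prodMk contDiff_snd.snd.snd))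

theorem cover {y : VY} (h : y ∈ YY) (h1 : y.1.2 ≤ 0) (h2 : y.2.1.2 ≤ 0) : ∃ c, sy3 c y ∈ V0 := by
  have h4 : y.2.2.2.2 ≠ 1 := fun e => by
    have a := h.2.2.2.2.2 false false true
    have o : normSq y.2.2.2.1 + y.2.2.2.2 ^ 2 = 1 := h.2.2.2.1
    have z : y.2.2.2.1 = 0 := normSq_eq_zero.1 (by rw [e] at o; linarith)
    simp only [rp, if_true, Bool.false_eq_true, if_false, e, z, map_zero, zero_mul] at a
    have b : (1 + 1) * (1 - y.1.2) * (1 - y.2.1.2) = (0 : ℝ) := by exact_mod_cast a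
    have : 0 < (1 - y.1.2) * (1 - y.2.1.2) := mul_pos (by linarith) (by linarith)
    linarith
  by_cases e : y.2.2.1.2 = 1
  · refine ⟨true, ne_of_lt (h2.trans_lt one_pos), ne_of_lt (h1.trans_lt one_pos), ?_, h4⟩
    change -y.2.2.1.2 ≠ 1
    rw [e]; norm_num
  · exact ⟨false, ne_of_lt (h1.trans_lt one_pos), ne_of_lt (h2.trans_lt one_pos), e, h4⟩

end YBM

open YBM

theorem yBS (hA : StmtYA) : StmtYB := by
  have a : ∀ c, MapsTo (symY c) YY YY ∧ MapsTo (symI c) YY YY ∧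
      (∀ y, symI c (symY c y) = y) ∧ (∀ y, symY c (symI c y) = y) := fun c =>
    ⟨fun y h => m3 _ (m2 _ (m1 _ h)), fun y h => m1 _ (m2 _ (m3 _ h)),
      fun y => by simp only [symI, symY, i1, i2, i3], fun y => by simp only [symI, symY, i1, i2, i3]⟩
  refine ⟨a, fun y hy => ?_, fun c => ?_⟩
  · obtain ⟨b1, k1⟩ : ∃ b, (sy1 b y).1.2 ≤ 0 := by
      rcases le_total y.1.2 0 with h | h
      · exact ⟨false, h⟩
      · exact ⟨true, neg_nonpos.2 h⟩
    obtain ⟨b2, k2, k3⟩ : ∃ b, (sy2 b (sy1 b1 y)).1.2 ≤ 0 ∧ (sy2 b (sy1 b1 y)).2.1.2 ≤ 0 := by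
      rcases le_total (sy1 b1 y).2.1.2 0 with h | h
      · exact ⟨false, k1, h⟩
      · exact ⟨true, k1, neg_nonpos.2 h⟩
    obtain ⟨b3, k4⟩ := cover (m2 b2 (m1 b1 hy)) k2 k3
    exact ⟨(b1, b2, b3), k4⟩
  · obtain ⟨-, p, e1, e2, e3, e4⟩ := hA
    obtain ⟨a1, a2, a3, a4⟩ := a c
    have sY : ContDiff ℝ ∞ (symY c) := (c3 _).comp ((c2 _).comp (c1 _))
    have sI : ContDiff ℝ ∞ (symI c) := (c1 _).comp ((c2 _).comp (c3 _))
    refine ⟨⟨symI c ∘ p.P, p.L ∘ symY c, p.U, symY c ⁻¹' p.O, p.oU, p.oO.preimage sY.continuous,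
      sI.comp_contDiffOn p.sP, p.sL.comp sY.contDiffOn fun _ h => h, fun u hu => ⟨a2 (p.mP hu).1, ?_⟩,
      fun y hy => p.mL ⟨a1 hy.1, hy.2⟩, fun u hu => ?_, fun y hy => ?_⟩, ?_, ?_, e3, ?_⟩
    · rw [mem_preimage, Function.comp, a4]; exact (p.mP hu).2
    · simp only [Function.comp, a4]; exact p.LP u hu
    · simp only [Function.comp]; rw [p.PL _ ⟨a1 hy.1, hy.2⟩, a3]
    · rw [← e1]
    · rw [← e2]
    · rw [← e4]

end Vale.Agent.P265
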