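import Vale.Agent.P265.Ex

/-! The form on `Y`: evaluation, tangency, closedness. -/

namespace Vale.Agent.P265

open Set Topology Complex
open scoped ContDiff ComplexConjugate

noncomputable section

namespace YCM

def cz (r : VY →L[ℝ] S2) : VY →L[ℝ] ℝ := (ContinuousLinearMap.snd ℝ ℂ ℝ).comp r
def cr (r : VY →L[ℝ] S2) : VY →L[ℝ] ℝ := reCLM.comp ((ContinuousLinearMap.fst ℝ ℂ ℝ).comp r)
def ci (r : VY →L[ℝ] S2) : VY →L[ℝ] ℝ := imCLM.comp ((ContinuousLinearMap.fst ℝ ℂ ℝ).comp r)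

lemma lS_eq (r : VY →L[ℝ] S2) :
    lS r = [(⇑(cz r), ⇑(cr r), ⇑(ci r)), (⇑(cr r), ⇑(ci r), ⇑(cz r)), (⇑(ci r), ⇑(cz r), ⇑(cr r))] := rfl

lemma frm_S (r : VY →L[ℝ] S2) (y u v : VY) : frm (lS r) y u v = det3 (r y) (r u) (r v) := by
  rw [lS_eq]
  simp only [frm, List.map_cons, List.map_nil, List.sum_cons, List.sum_nil, ContinuousLinearMap.fderiv, w2]
  simp only [cz, cr, ci, det3, ContinuousLinearMap.comp_apply, ContinuousLinearMap.coe_fst',
    ContinuousLinearMap.coe_snd', reCLM_apply, imCLM_apply]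
  ring

lemma dfrm_S (r : VY →L[ℝ] S2) (y u v w : VY) : dfrm (lS r) y u v w = 3 * det3 (r u) (r v) (r w) := by
  rw [lS_eq]
  simp only [dfrm, List.map_cons, List.map_nil, List.sum_cons, List.sum_nil, ContinuousLinearMap.fderiv,
    w2, w3]
  simp only [cz, cr, ci, det3, ContinuousLinearMap.comp_apply, ContinuousLinearMap.coe_fst',
    ContinuousLinearMap.coe_snd', reCLM_apply, imCLM_apply]
  ring

lemma sm_S (r : VY →L[ℝ] S2) : SmL (lS r) := by
  rw [lS_eq]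
  intro τ hτ
  simp only [List.mem_cons, List.not_mem_nil, or_false] at hτ
  rcases hτ with rfl | rfl | rfl <;>
    exact ⟨ContinuousLinearMap.contDiff _, ContinuousLinearMap.contDiff _, ContinuousLinearMap.contDiff _⟩

lemma det0 (p u v w : S2) (hp : onS p) (hu : ip p u = 0) (hv : ip p v = 0) (hw : ip p w = 0) :
    det3 u v w = 0 := by
  unfold onS at hp
  rw [normSq_apply] at hp
  unfold ip at hu hv hw
  have key : det3 u v w * (p.1.re * p.1.re + p.1.im * p.1.im + p.2 ^ 2) =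
      (p.1.re * u.1.re + p.1.im * u.1.im + p.2 * u.2) * det3 p v w +
      (p.1.re * v.1.re + p.1.im * v.1.im + p.2 * v.2) * det3 u p w +
      (p.1.re * w.1.re + p.1.im * w.1.im + p.2 * w.2) * det3 u v p := by
    unfold det3; ring
  rw [hp, hu, hv, hw] at key
  linarith

lemma tang (r : VY →L[ℝ] S2) (h : ∀ y ∈ YY, onS (r y)) (y u : VY) (hu : u ∈ Tan YY y) :
    ip (r y) (r u) = 0 := by
  obtain ⟨γ, h0, hd, hS⟩ := hu
  have d1 := (cr r).hasFDerivAt.comp_hasDerivAt 0 hd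
  have d2 := (ci r).hasFDerivAt.comp_hasDerivAt 0 hd
  have d3 := (cz r).hasFDerivAt.comp_hasDerivAt 0 hd
  have d4 := ((d1.mul d1).add (d2.mul d2)).add (d3.mul d3)
  have e : (fun _ : ℝ => (1 : ℝ)) =ᶠ[𝓝 0]
      cr r ∘ γ * cr r ∘ γ + ci r ∘ γ * ci r ∘ γ + cz r ∘ γ * cz r ∘ γ := hS.mono fun t ht => by
    have := h _ ht
    unfold onS at this
    rw [normSq_apply, pow_two] at this
    exact this.symm
  have d5 := (d4.congr_of_eventuallyEq e).unique (hasDerivAt_const 0 1)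
  simp only [Function.comp, h0, cz, cr, ci, ContinuousLinearMap.comp_apply, ContinuousLinearMap.coe_fst',
    ContinuousLinearMap.coe_snd', reCLM_apply, imCLM_apply] at d5
  unfold ip
  linarith

def r1 : VY →L[ℝ] S2 := ContinuousLinearMap.fst ℝ _ _
def r2 : VY →L[ℝ] S2 := (ContinuousLinearMap.fst ℝ _ _).comp (ContinuousLinearMap.snd ℝ _ _)
def r3 : VY →L[ℝ] S2 := (ContinuousLinearMap.fst ℝ _ _).comp
  ((ContinuousLinearMap.snd ℝ _ _).comp (ContinuousLinearMap.snd ℝ _ _))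
def r4 : VY →L[ℝ] S2 := (ContinuousLinearMap.snd ℝ _ _).comp
  ((ContinuousLinearMap.snd ℝ _ _).comp (ContinuousLinearMap.snd ℝ _ _))

lemma lY_eq : lY = lS r1 ++ lS r2 ++ lS r3 ++ lS r4 := rfl

lemma frm_app (l l' : List (Tr VY)) (y u v : VY) : frm (l ++ l') y u v = frm l y u v + frm l' y u v := by
  simp only [frm, List.map_append, List.sum_append]

lemma dfrm_app (l l' : List (Tr VY)) (y u v w : VY) :
    dfrm (l ++ l') y u v w = dfrm l y u v w + dfrm l' y u v w := by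
  simp only [dfrm, List.map_append, List.sum_append]

lemma sm_app {l l' : List (Tr VY)} (h : SmL l) (h' : SmL l') : SmL (l ++ l') := fun τ hτ =>
  (List.mem_append.mp hτ).elim (h τ) (h' τ)

lemma cl (r : VY →L[ℝ] S2) (h : ∀ y ∈ YY, onS (r y)) (y : VY) (hy : y ∈ YY) (u : VY) (hu : u ∈ Tan YY y)
    (v : VY) (hv : v ∈ Tan YY y) (w : VY) (hw : w ∈ Tan YY y) : dfrm (lS r) y u v w = 0 := by
  rw [dfrm_S, det0 _ _ _ _ (h y hy) (tang r h y u hu) (tang r h y v hv) (tang r h y w hw), mul_zero]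

end YCM

open YCM in
theorem yCS : StmtYC := by
  have h1 : ∀ y ∈ YY, onS (r1 y) := fun y hy => hy.1
  have h2 : ∀ y ∈ YY, onS (r2 y) := fun y hy => hy.2.1
  have h3 : ∀ y ∈ YY, onS (r3 y) := fun y hy => hy.2.2.1
  have h4 : ∀ y ∈ YY, onS (r4 y) := fun y hy => hy.2.2.2.1
  refine ⟨?_, fun y u v => ?_, fun y _ u hu => ⟨tang r1 h1 y u hu, tang r2 h2 y u hu, tang r3 h3 y u hu,
    tang r4 h4 y u hu⟩, fun y hy u hu v hv w hw => ?_⟩
  · rw [lY_eq]; exact sm_app (sm_app (sm_app (sm_S _) (sm_S _)) (sm_S _)) (sm_S _)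
  · rw [lY_eq, frm_app, frm_app, frm_app, frm_S, frm_S, frm_S, frm_S]; rfl
  · rw [lY_eq, dfrm_app, dfrm_app, dfrm_app, cl r1 h1 y hy u hu v hv w hw, cl r2 h2 y hy u hu v hv w hw,
      cl r3 h3 y hy u hu v hv w hw, cl r4 h4 y hy u hu v hv w hw]
    simp

end

end Vale.Agent.P265
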