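import Vale.Agent.P265.Ex

/-! Cohomology of `Y` from a perfect Morse function. -/

namespace Vale.Agent.P265

open Set Topology

namespace YCohM

abbrev B3 := Bool × Bool × Bool

noncomputable def FY (y : VY) : ℝ := 2 * y.1.2 + y.2.1.2 + y.2.2.1.2 + 3 * y.2.2.2.2

noncomputable def aa (c : B3) : ℝ :=
  if c.2.2 then (if c.2.1 then -1 else 1) else (if c.1 then -2 else 2)

noncomputable def bb (c : B3) : ℝ :=
  if c.2.2 then (if c.1 then -2 else 2) else (if c.2.1 then -1 else 1)

def indB (c : B3) : ℕ :=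
  if c = (false, false, false) then 0 else if c = (true, true, false) then 4 else 2

theorem ix_eq (c : B3) : ix (aa c - bb c) (bb c) = indB c := by
  obtain ⟨_ | _, _ | _, _ | _⟩ := c <;> norm_num [ix, aa, bb, indB]

theorem bb_ne (c : B3) : bb c ≠ 0 := by
  obtain ⟨_ | _, _ | _, _ | _⟩ := c <;> norm_num [bb]

theorem ab_ne (c : B3) : aa c ≠ bb c := by
  obtain ⟨_ | _, _ | _, _ | _⟩ := c <;> norm_num [aa, bb]

theorem FY_sym (c : B3) (u : ℂ × ℂ) : FY (symI c (P0 u)) = fab (aa c) (bb c) u := by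
  have h : ∀ z, (sS z).2 = hS z := fun _ => rfl
  obtain ⟨_ | _, _ | _, _ | _⟩ := c <;>
    simp [FY, symI, sy1, sy2, sy3, fl, P0, fab, aa, bb, h] <;> ring

theorem inj : Function.Injective fun c : B3 => symI c (P0 0) := by
  intro c c' h
  have h1 := congrArg (fun y : VY => y.1.2) h
  have h2 := congrArg (fun y : VY => y.2.1.2) h
  have h3 := congrArg (fun y : VY => y.2.2.1.2) h
  have h4 := congrArg (fun y : VY => y.2.2.2.2) h
  obtain ⟨_ | _, _ | _, _ | _⟩ := c <;> obtain ⟨_ | _, _ | _, _ | _⟩ := c' <;>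
    first
    | rfl
    | (exfalso
       simp [symI, sy1, sy2, sy3, fl, P0, sS] at h1 h2 h3 h4
       all_goals linarith)

theorem onS_le {p : S2} (h : onS p) : |p.2| ≤ 1 := by
  unfold onS at h
  have := Complex.normSq_nonneg p.1
  exact abs_le.2 ⟨by nlinarith, by nlinarith⟩

theorem FY_bd {y : VY} (h : y ∈ YY) : -100 < FY y ∧ FY y < 100 := by
  have h1 := abs_le.1 (onS_le h.1)
  have h2 := abs_le.1 (onS_le h.2.1)
  have h3 := abs_le.1 (onS_le h.2.2.1)
  have h4 := abs_le.1 (onS_le h.2.2.2.1)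
  unfold FY
  constructor <;> linarith [h1.1, h1.2, h2.1, h2.2, h3.1, h3.2, h4.1, h4.2]

theorem card_ind (n : ℕ) : (Finset.univ.filter fun c : B3 => indB c + 1 = n).card = zY n := by
  rcases n with _ | _ | _ | _ | _ | _ | n
  any_goals decide
  have : zY (n + 6) = 0 := by simp [zY]
  rw [this, Finset.card_eq_zero, Finset.filter_eq_empty_iff]
  intro c _
  unfold indB
  split_ifs <;> omega

theorem zY_even (k : ℕ) : zY (2 * k) = 0 := by
  rcases k with _ | _ | _ | k
  any_goals decide
  have : 2 * (k + 3) = 2 * k + 6 := by ring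
  rw [this]; simp [zY]

theorem cov_id (W : Type) [MetricSpace W] : Cov (id : W → W) id 1 :=
  ⟨continuous_id, continuous_id, fun _ => rfl, fun _ => rfl, one_pos, one_dvd _,
    fun w => ⟨univ, id, mem_univ w, isOpen_univ, continuousOn_id, fun _ _ => rfl,
      fun _ _ => ⟨0, one_pos, rfl⟩, fun j hj j' hj' _ _ _ _ _ => by omega, by simp⟩⟩

end YCohM

open YCohM in
theorem yCohS (hM : StmtMorse) (hP : StmtPushC) (hS : StmtSub) (hA : StmtYA) (hB : StmtYB)
    (hY : StmtYMor) (h4 : StmtT4) : StmtYCoh := by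
  classical
  obtain ⟨hc, -⟩ := hA
  obtain ⟨-, hcov, hp⟩ := hB
  choose p hP1 hL1 hU hO using hp
  have : CompactSpace YY := isCompact_iff_compactSpace.1 hc
  have hmem : ∀ c u, u ∈ (p c).U := fun c u => by rw [hU]; exact mem_univ u
  have hin : ∀ c, symI c (P0 0) ∈ YY := fun c => by
    have := ((p c).mP (hmem c 0)).1
    rwa [hP1] at this
  let pt : B3 → YY := fun c => ⟨symI c (P0 0), hin c⟩
  have hinj : Function.Injective pt := fun c c' h => inj (congrArg Subtype.val h)
  let ch : B3 → OpenPartialHomeomorph YY (ℂ × ℂ) := fun c => (p c).chart (pt c)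
  let f : YY → ℝ := fun y => FY y.1
  have hsymm : ∀ c u, ((ch c).symm u : VY) = symI c (P0 u) := fun c u => by
    rw [Patch.chart_symm _ _ (hmem c u), hP1]; rfl
  have hf : ∀ c, f ∘ (ch c).symm = fab (aa c) (bb c) := fun c => funext fun u => by
    simp only [Function.comp_apply, f, hsymm, FY_sym]
  have h0 : ∀ c, (ch c).symm 0 = pt c := fun c => Subtype.ext (hsymm c 0)
  have htar : ∀ c u, u ∈ (ch c).target := fun c u => hmem c u
  have hsrc : ∀ c, pt c ∈ (ch c).source := fun c => h0 c ▸ (ch c).map_target (htar c 0)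
  have hz : ∀ c, ch c (pt c) = 0 := fun c => h0 c ▸ (ch c).right_inv (htar c 0)
  let dec : YY → B3 := Function.invFun pt
  have hdec : ∀ c, dec (pt c) = c := Function.leftInverse_invFun hinj
  let C : Finset YY := Finset.univ.map ⟨pt, hinj⟩
  have hC : ∀ c, pt c ∈ C := fun c => Finset.mem_map_of_mem _ (Finset.mem_univ c)
  have hC' : ∀ w ∈ C, w = pt (dec w) := fun w hw => by
    obtain ⟨c, -, rfl⟩ := Finset.mem_map.1 hw
    exact (congrArg pt (hdec c)).symm
  have hgood : Good (id : YY → YY) univ :=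
    ⟨isCompact_univ, mapsTo_id _, continuousOn_id, fun _ _ => rfl⟩
  have hMD : MD id (fun w => ch (dec w)) univ f (-100) 100 C C
      (fun w => ix (aa (dec w) - bb (dec w)) (bb (dec w))) := by
    refine ⟨?_, by norm_num, fun e _ _ _ he => ?_, fun w _ => FY_bd w.2, fun _ _ _ _ => by simp,
      fun w hw => ?_⟩
    · simp only [f, FY]; fun_prop
    · obtain ⟨c, hce⟩ := hcov e.1 e.2
      have hs : e ∈ (ch c).source := by
        change e.1 ∈ (p c).O
        rw [hO]; exact hce
      obtain ⟨s1, s2, -, -⟩ := hY _ _ (bb_ne c) (ab_ne c)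
      refine hP YY YY (ℂ × ℂ) id id 1 (ch c) univ f e (cov_id _) (by simp) hs ?_ ?_
      · rw [hf]; exact s1.contDiffAt.of_le (by exact_mod_cast le_top)
      · rw [hf]
        refine s2 _ fun h => he ?_
        have : e = pt c := by
          rw [← h0 c, ← h]; exact ((ch c).left_inv hs).symm
        rw [id, this]; exact hC c
    · have hw' := hC' w hw
      generalize dec w = c at hw' ⊢
      subst hw'
      obtain ⟨s1, -, s3, s4⟩ := hY _ _ (bb_ne c) (ab_ne c)
      obtain ⟨μ, T, hT⟩ := h4 _ _ (sub_ne_zero.2 (ab_ne c)) (bb_ne c)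
      refine ⟨hsrc c, univ, isOpen_univ, mem_univ _, fun u _ => htar c u, ?_, ?_, μ, T, fun u => ?_⟩
      · rw [hf]; exact s1.contDiffOn.of_le (WithTop.coe_le_coe.2 (le_top : (2 : ℕ∞) ≤ ⊤))
      · rw [hf, hz, s3]
      · rw [hf, hz, s4, hT]
  obtain ⟨b, q, hd1, hN⟩ := hM YY YY (ℂ × ℂ) id id 1 1 _ univ f _ _ C _ (cov_id _) hgood
    one_ne_zero (one_pow 1) hMD
  have e1 : Sub id univ f 100 = univ := eq_univ_of_forall fun e => ⟨mem_univ _, (FY_bd e.2).2.le⟩
  have e2 : Sub id univ f (-100) = ∅ :=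
    eq_empty_of_forall_notMem fun e he => (not_le.2 (FY_bd e.2).1) he.2
  rw [e1, e2] at hd1
  have hN' : ∀ n, zY n = b n + q n + sh q n := fun n => by
    rw [← hN n, ← card_ind n, Finset.filter_map, Finset.card_map]
    congr 1
    refine Finset.filter_congr fun c _ => ?_
    simp only [Function.comp_apply, Function.Embedding.coeFn_mk, hdec, ix_eq]
  have hq : ∀ n, q n = 0 := fun n => by
    obtain ⟨k, rfl | rfl⟩ := Nat.even_or_odd' n
    · have := hN' (2 * k)
      rw [zY_even] at this; omega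
    · have := hN' (2 * (k + 1))
      rw [zY_even] at this
      have e : sh q (2 * (k + 1)) = q (2 * k + 1) := rfl
      omega
  have hb : ∀ n, b n = zY n := fun n => by
    have := hN' n
    have e : sh q n = 0 := by cases n <;> simp [sh, hq]
    rw [hq, e] at this; omega
  intro n
  rw [← hb, ← hd1 n]
  exact (hS VY id 1 YY (mapsTo_id _) ⟨hc, mapsTo_id _, continuousOn_id, fun _ _ => rfl⟩
    ⟨_, hin (false, false, false)⟩ n).symm

end Vale.Agent.P265
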