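import Vale.Agent.P265.M.YC

/-! The fixed spheres of the involution of `Y`. -/

namespace Vale.Agent.P265

open Set Topology Complex
open scoped ContDiff ComplexConjugate

namespace YFixM

theorem rho1 (y : VY) :
    rhoY 1 y = ((-y.1.1, y.1.2), (-y.2.1.1, y.2.1.2), y.2.2.1, y.2.2.2) := by
  have e1 : exp (((Real.pi * 1 : ℝ) : ℂ) * I) = -1 := by
    rw [mul_one]; exact exp_pi_mul_I
  have e2 : exp (((2 * Real.pi * 1 : ℝ) : ℂ) * I) = 1 := by
    rw [mul_one]; push_cast; exact exp_two_pi_mul_I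
  simp only [rhoY, rotS, e1, e2, ContinuousLinearMap.coe_prodMap', Prod.map,
    ContinuousLinearMap.mul_apply', ContinuousLinearMap.coe_id', id, neg_mul, one_mul]

theorem ip_onS (e : S2) : ip e e = 1 ↔ onS e := by
  unfold ip onS
  rw [normSq_apply, pow_two]

theorem pole_of {p : S2} (h : onS p) (h0 : p.1 = 0) : ∃ c, p = pole c := by
  unfold onS at h
  rw [h0, map_zero, zero_add] at h
  rcases (sq_eq_sq_iff_eq_or_eq_neg (b := 1)).1 (h.trans (one_pow 2).symm) with h1 | h1
  · exact ⟨true, Prod.ext h0 h1⟩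
  · exact ⟨false, Prod.ext h0 h1⟩

theorem pole_t {p : S2} (h : ∀ c, (rp c p).2 = 0) : p = pole true := by
  have h1 := h true
  have h2 := h false
  simp only [rp, if_true, map_eq_zero, Bool.false_eq_true, if_false] at h1 h2
  refine Prod.ext h1 ?_
  have : ((p.2 : ℝ) : ℂ) = ((1 : ℝ) : ℂ) := by push_cast; linear_combination -h2
  exact ofReal_injective this

theorem pole_f {p : S2} (h : ∀ c, (rp c p).1 = 0) : p = pole false := by
  have h1 := h true
  have h2 := h false
  simp only [rp, if_true, Bool.false_eq_true, if_false] at h1 h2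
  refine Prod.ext h2 ?_
  have : ((p.2 : ℝ) : ℂ) = ((-1 : ℝ) : ℂ) := by push_cast; linear_combination h1
  exact ofReal_injective this

theorem rp_pole : rp true (pole true) = (2, 0) ∧ rp false (pole true) = (0, 0) ∧
    rp true (pole false) = (0, 0) ∧ rp false (pole false) = (0, 2) := by
  refine ⟨?_, ?_, ?_, ?_⟩ <;> simp [rp, pole] <;> norm_num

theorem fix {y : VY} (hy : y ∈ YY) (h : rhoY 1 y = y) : ∃ c e, ip e e = 1 ∧ y = qY c e := by
  rw [rho1] at h
  have h1 : y.1.1 = 0 := by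
    have := congrArg (fun y : VY => y.1.1) h
    simp only at this
    linear_combination (-1 / 2 : ℂ) * this
  have h2 : y.2.1.1 = 0 := by
    have := congrArg (fun y : VY => y.2.1.1) h
    simp only at this
    linear_combination (-1 / 2 : ℂ) * this
  obtain ⟨y1, y2, y3, y4⟩ := y
  obtain ⟨s1, s2, s3, s4, E1, E2⟩ := hy
  obtain ⟨c1, rfl⟩ := pole_of s1 h1
  obtain ⟨c2, rfl⟩ := pole_of s2 h2
  obtain ⟨r1, r2, r3, r4⟩ := rp_pole
  simp only at E1 E2 s3 s4
  refine ⟨(c1, c2), if c1 = c2 then y3 else y4, ?_, ?_⟩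
  · split_ifs
    · exact (ip_onS _).2 s3
    · exact (ip_onS _).2 s4
  · cases c1 <;> cases c2
    · have : y4 = pole false := pole_f fun c => by
        have := E2 false false c
        rw [r4] at this; simpa using this
      simp [qY, this]
    · have : y3 = pole false := pole_f fun c => by
        have := E1 false true c
        rw [r4, r1] at this; simpa using this
      simp [qY, this]
    · have : y3 = pole true := pole_t fun c => by
        have := E1 true false c
        rw [r4, r1] at this; simpa using this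
      simp [qY, this]
    · have : y4 = pole true := pole_t fun c => by
        have := E2 true true c
        rw [r1] at this; simpa using this
      simp [qY, this]

theorem onS_pole (c : Bool) : onS (pole c) := by
  cases c <;> simp [onS, pole]

theorem rp_t (c : Bool) : (rp c (pole true)).2 = 0 := by cases c <;> simp [rp, pole]

theorem rp_f (c : Bool) : (rp c (pole false)).1 = 0 := by cases c <;> simp [rp, pole]

theorem mem (c : Bool × Bool) (e : S2) (he : ip e e = 1) : qY c e ∈ YY := by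
  have he' := (ip_onS e).1 he
  obtain ⟨_ | _, _ | _⟩ := c <;>
    simp [qY, YY, onS_pole, he', rp_t, rp_f]

theorem pq (c : Bool × Bool) (e : S2) : pY (qY c e) = e := by
  obtain ⟨_ | _, _ | _⟩ := c <;> simp [pY, qY, pole]

theorem dqY (c : Bool × Bool) (γ : ℝ → S2) (δ : S2) (t : ℝ) (h : HasDerivAt γ δ t) :
    HasDerivAt (fun s => qY c (γ s)) (dq c δ) t := by
  unfold qY dq
  split_ifs
  · exact (hasDerivAt_const _ _).prodMk ((hasDerivAt_const _ _).prodMk
      (h.prodMk (hasDerivAt_const _ _)))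
  · exact (hasDerivAt_const _ _).prodMk ((hasDerivAt_const _ _).prodMk
      ((hasDerivAt_const _ _).prodMk h))

theorem sm_pY : ContDiff ℝ ∞ pY := by
  unfold pY; fun_prop

theorem line (e δ : S2) : HasDerivAt (fun s : ℝ => e + s • δ) δ 0 := by
  simpa using ((hasDerivAt_id (0 : ℝ)).smul_const δ).const_add e

theorem tanq (c : Bool × Bool) (e δ : S2) (he : ip e e = 1) (h : ip e δ = 0) :
    dq c δ ∈ Tan YY (qY c e) := by
  have hn : 0 ≤ ip δ δ := by
    unfold ip
    nlinarith [mul_self_nonneg δ.1.re, mul_self_nonneg δ.1.im, mul_self_nonneg δ.2]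
  have hpos : ∀ t : ℝ, 0 < 1 + t ^ 2 * ip δ δ := fun t => by positivity
  have d1 : HasDerivAt (fun t : ℝ => 1 + t ^ 2 * ip δ δ) 0 0 := by
    simpa using (((hasDerivAt_id (0 : ℝ)).pow 2).mul_const (ip δ δ)).const_add 1
  have d2 : HasDerivAt (fun t : ℝ => (√(1 + t ^ 2 * ip δ δ))⁻¹) 0 0 := by
    simpa using (d1.sqrt (hpos 0).ne').fun_inv (Real.sqrt_pos.2 (hpos 0)).ne'
  have d3 : HasDerivAt (fun t : ℝ => (√(1 + t ^ 2 * ip δ δ))⁻¹ • (e + t • δ)) δ 0 := by
    simpa using d2.fun_smul (line e δ)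
  refine ⟨_, by simp, dqY c _ δ 0 d3, Filter.Eventually.of_forall fun t => mem c _ ?_⟩
  have hs := Real.mul_self_sqrt (hpos t).le
  have hs0 := (Real.sqrt_pos.2 (hpos t)).ne'
  set s := √(1 + t ^ 2 * ip δ δ)
  have : ip (s⁻¹ • (e + t • δ)) (s⁻¹ • (e + t • δ)) =
      s⁻¹ * s⁻¹ * (ip e e + 2 * t * ip e δ + t ^ 2 * ip δ δ) := by
    simp [ip]; ring
  rw [this, he, h, mul_zero, add_zero, ← hs]
  field_simp

theorem prod0 {A B C D E F : ℝ → ℂ} {A' B' C' D' E' F' : ℂ} (hA : HasDerivAt A A' 0)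
    (hB : HasDerivAt B B' 0) (hC : HasDerivAt C C' 0) (hD : HasDerivAt D D' 0)
    (hE : HasDerivAt E E' 0) (hF : HasDerivAt F F' 0) (a0 : A 0 = 0) (b0 : B 0 = 0) (d0 : D 0 = 0)
    (e0 : E 0 = 2) (f0 : F 0 = 2) (h : ∀ᶠ t in 𝓝 (0 : ℝ), D t * E t * F t = A t * B t * C t) :
    D' = 0 := by
  have h1 := ((hA.fun_mul hB).fun_mul hC).congr_of_eventuallyEq h
  have h2 := h1.unique ((hD.fun_mul hE).fun_mul hF)
  rw [a0, b0, d0, e0, f0] at h2
  linear_combination (-1 / 4 : ℂ) * h2

def drp (c : Bool) (v : S2) : ℂ × ℂ := if c then (v.2, conj v.1) else (v.1, -v.2)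

theorem dfst {α β : Type} [NormedAddCommGroup α] [NormedSpace ℝ α] [NormedAddCommGroup β]
    [NormedSpace ℝ β] {p : ℝ → α × β} {v : α × β} (h : HasDerivAt p v 0) :
    HasDerivAt (fun t => (p t).1) v.1 0 :=
  (ContinuousLinearMap.fst ℝ α β).hasFDerivAt.comp_hasDerivAt 0 h

theorem dsnd {α β : Type} [NormedAddCommGroup α] [NormedSpace ℝ α] [NormedAddCommGroup β]
    [NormedSpace ℝ β] {p : ℝ → α × β} {v : α × β} (h : HasDerivAt p v 0) :
    HasDerivAt (fun t => (p t).2) v.2 0 :=
  (ContinuousLinearMap.snd ℝ α β).hasFDerivAt.comp_hasDerivAt 0 h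

theorem d_rp (c : Bool) {p : ℝ → S2} {v : S2} (h : HasDerivAt p v 0) :
    HasDerivAt (fun t => rp c (p t)) (drp c v) 0 := by
  have h2 : HasDerivAt (fun t => (((p t).2 : ℝ) : ℂ)) (v.2 : ℂ) 0 := (dsnd h).ofReal_comp
  unfold rp drp
  split_ifs
  · exact (h2.const_add 1).prodMk (dfst h).star
  · exact (dfst h).prodMk (h2.const_sub 1)

theorem ip_pole {c : Bool} {v : S2} (h : ip (pole c) v = 0) : v.2 = 0 := by
  cases c <;> simpa [ip, pole] using h

theorem last (c : Bool × Bool) (e : S2) (he : ip e e = 1) (u : VY) (hu : u ∈ Tan YY (qY c e))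
    (h : rhoY 1 u = u) : ∃ δ, ip e δ = 0 ∧ u = dq c δ := by
  rw [rho1] at h
  have h1 : u.1.1 = 0 := by
    have := congrArg (fun y : VY => y.1.1) h
    simp only at this
    linear_combination (-1 / 2 : ℂ) * this
  have h2 : u.2.1.1 = 0 := by
    have := congrArg (fun y : VY => y.2.1.1) h
    simp only at this
    linear_combination (-1 / 2 : ℂ) * this
  obtain ⟨t1, t2, t3, t4⟩ := yCS.2.2.1 _ (mem c e he) u hu
  obtain ⟨γ, g0, gd, gS⟩ := hu
  have p1 := fun c => d_rp c (dfst gd)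
  have p2 := fun c => d_rp c (dfst (dsnd gd))
  have p3 := fun c => d_rp c (dfst (dsnd (dsnd gd)))
  have p4 := fun c => d_rp c (dsnd (dsnd (dsnd gd)))
  obtain ⟨r1, -, -, r4⟩ := rp_pole
  obtain ⟨u1, u2, u3, u4⟩ := u
  obtain ⟨_ | _, _ | _⟩ := c <;> simp only [qY, if_true, Bool.false_eq_true, Bool.true_eq_false,
    if_false] at t1 t2 t3 t4 g0
  · have : (drp false u4).1 = 0 := prod0 (dfst (p1 false)) (dfst (p2 false)) (dsnd (p4 false))
      (dfst (p4 false)) (dsnd (p1 false)) (dsnd (p2 false)) (by rw [g0, r4]) (by rw [g0, r4])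
      (by rw [g0, r4]) (by rw [g0, r4]) (by rw [g0, r4])
      (gS.mono fun t ht => by linear_combination ht.2.2.2.2.2 false false false)
    exact ⟨u3, t3, Prod.ext (Prod.ext h1 (ip_pole t1)) (Prod.ext (Prod.ext h2 (ip_pole t2))
      (Prod.ext rfl (Prod.ext this (ip_pole t4))))⟩
  · have : (drp false u3).1 = 0 := prod0 (dfst (p1 false)) (dsnd (p2 true)) (dsnd (p3 false))
      (dfst (p3 false)) (dsnd (p1 false)) (dfst (p2 true)) (by rw [g0, r4]) (by rw [g0, r1])
      (by rw [g0, r4]) (by rw [g0, r4]) (by rw [g0, r1])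
      (gS.mono fun t ht => by linear_combination -ht.2.2.2.2.1 false true false)
    exact ⟨u4, t4, Prod.ext (Prod.ext h1 (ip_pole t1)) (Prod.ext (Prod.ext h2 (ip_pole t2))
      (Prod.ext (Prod.ext this (ip_pole t3)) rfl))⟩
  · have : conj u3.1 = 0 := prod0 (dsnd (p1 true)) (dfst (p2 false)) (dfst (p3 true))
      (dsnd (p3 true)) (dfst (p1 true)) (dsnd (p2 false)) (by rw [g0, r1]) (by rw [g0, r4])
      (by rw [g0, r1]) (by rw [g0, r1]) (by rw [g0, r4])
      (gS.mono fun t ht => by linear_combination ht.2.2.2.2.1 true false true)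
    exact ⟨u4, t4, Prod.ext (Prod.ext h1 (ip_pole t1)) (Prod.ext (Prod.ext h2 (ip_pole t2))
      (Prod.ext (Prod.ext ((map_eq_zero _).1 this) (ip_pole t3)) rfl))⟩
  · have : conj u4.1 = 0 := prod0 (dsnd (p1 true)) (dsnd (p2 true)) (dfst (p4 true))
      (dsnd (p4 true)) (dfst (p1 true)) (dfst (p2 true)) (by rw [g0, r1]) (by rw [g0, r1])
      (by rw [g0, r1]) (by rw [g0, r1]) (by rw [g0, r1])
      (gS.mono fun t ht => by linear_combination -ht.2.2.2.2.2 true true true)
    exact ⟨u3, t3, Prod.ext (Prod.ext h1 (ip_pole t1)) (Prod.ext (Prod.ext h2 (ip_pole t2))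
      (Prod.ext rfl (Prod.ext ((map_eq_zero _).1 this) (ip_pole t4))))⟩

end YFixM

open YFixM in
theorem yFixS : StmtYFix := by
  refine ⟨sm_pY, fun y => by rw [rho1]; rfl, fun y hy h => fix hy h, mem, pq, ?_, ?_,
    fun c e δ => ?_, dqY, tanq, ?_, last⟩
  · intro c e δ
    unfold qY dq
    split_ifs <;> simp
  · intro c t δ
    unfold dq
    split_ifs <;> simp
  · have h1 := dqY c _ δ 0 (line e δ)
    have h2 := (sm_pY.differentiable (by simp) (qY c (e + (0 : ℝ) • δ))).hasFDerivAt.comp_hasDerivAt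
      (0 : ℝ) h1
    have h3 : (pY ∘ fun s : ℝ => qY c (e + s • δ)) = fun s : ℝ => e + s • δ :=
      funext fun s => pq c _
    rw [h3, zero_smul, add_zero] at h2
    exact h2.unique (line e δ)
  · intro c δ
    unfold dq
    split_ifs <;> simp [Prod.norm_def]

end Vale.Agent.P265
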