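import Vale.Agent.P265.Ex

namespace Vale.Agent.P265

open Set Topology Complex
open scoped ContDiff

namespace YMorM

theorem hphi {X : ℝ → ℝ} {X' τ : ℝ} (hX : HasDerivAt X X' τ) (h0 : 0 ≤ X τ) :
    HasDerivAt (fun τ => (X τ - 1) / (1 + X τ)) (2 * X' / (1 + X τ) ^ 2) τ := by
  have h := (hX.sub_const 1).div (hX.const_add 1) (by positivity)
  refine h.congr_deriv ?_
  ring

theorem sm (a b : ℝ) : ContDiff ℝ ∞ (fab a b) := by
  have h : ContDiff ℝ ∞ hS := by
    have e : ContDiff ℝ ∞ (fun u : ℂ => normSq u) := by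
      rw [show (fun u : ℂ => normSq u) = fun u => ‖u‖ ^ 2 from funext fun u => normSq_eq_norm_sq u]
      exact contDiff_norm_sq ℝ
    exact (e.sub contDiff_const).div (contDiff_const.add e) fun u => by
      have := normSq_nonneg u
      positivity
  exact (((contDiff_const.mul (h.comp (contDiff_fst.mul contDiff_snd))).add
    (contDiff_const.mul (h.comp contDiff_snd))).add
    (contDiff_const.mul (h.comp contDiff_fst))).add
    (contDiff_const.mul (h.comp (contDiff_fst.mul (contDiff_snd.pow 2))))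

theorem dir (a b : ℝ) (u : ℂ × ℂ) (x y p q s t : ℝ) (hs : normSq u.1 = s) (ht : normSq u.2 = t) :
    fderiv ℝ (fab a b) (x • u.1, y • u.2) (p • u.1, q • u.2) =
      a * (2 * ((2 * x * p * y ^ 2 + 2 * x ^ 2 * y * q) * (s * t)) /
        (1 + x ^ 2 * y ^ 2 * (s * t)) ^ 2) + b * (2 * (2 * y * q * t) / (1 + y ^ 2 * t) ^ 2) +
      (a - b) * (2 * (2 * x * p * s) / (1 + x ^ 2 * s) ^ 2) +
      (a + b) * (2 * ((2 * x * p * y ^ 4 + 4 * x ^ 2 * y ^ 3 * q) * (s * t ^ 2)) /
        (1 + x ^ 2 * y ^ 4 * (s * t ^ 2)) ^ 2) := by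
  have s0 : 0 ≤ s := hs ▸ normSq_nonneg _
  have t0 : 0 ≤ t := ht ▸ normSq_nonneg _
  have hα : HasDerivAt (fun τ : ℝ => x + τ * p) p 0 := by
    simpa using ((hasDerivAt_id (0 : ℝ)).mul_const p).const_add x
  have hβ : HasDerivAt (fun τ : ℝ => y + τ * q) q 0 := by
    simpa using ((hasDerivAt_id (0 : ℝ)).mul_const q).const_add y
  have hc : HasDerivAt (fun τ : ℝ => (((x + τ * p) • u.1, (y + τ * q) • u.2) : ℂ × ℂ))
      (p • u.1, q • u.2) 0 := (hα.smul_const _).prodMk (hβ.smul_const _)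
  have h1 := HasFDerivAt.comp_hasDerivAt_of_eq (x := (0 : ℝ))
    ((sm a b).differentiable (by simp) (x • u.1, y • u.2)).hasFDerivAt hc (by simp)
  have h2 := ((((hphi (((hα.pow 2).mul (hβ.pow 2)).mul_const (s * t))
    (by simp only [Pi.mul_apply, Pi.pow_apply]; positivity)).const_mul a).add
    ((hphi ((hβ.pow 2).mul_const t) (by simp only [Pi.pow_apply]; positivity)).const_mul b)).add
    ((hphi ((hα.pow 2).mul_const s)
      (by simp only [Pi.pow_apply]; positivity)).const_mul (a - b))).add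
    ((hphi (((hα.pow 2).mul (hβ.pow 4)).mul_const (s * t ^ 2))
      (by simp only [Pi.mul_apply, Pi.pow_apply]; positivity)).const_mul (a + b))
  refine (h1.unique (h2.congr_of_eventuallyEq (.of_forall fun τ => ?_))).trans ?_
  · simp only [Function.comp, fab, hS, real_smul, map_mul, map_pow, normSq_ofReal, hs, ht,
      Pi.add_apply, Pi.mul_apply, Pi.pow_apply]
    ring
  · simp only [Pi.mul_apply, Pi.pow_apply, zero_mul, add_zero]
    norm_num
    ring

theorem mk {l μ : ℕ} (h : l + μ = 4) (L : (ℂ × ℂ) →ₗ[ℝ] Eu l × Eu μ) {c d : ℝ} (hc : 0 < c)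
    (hd : 0 < d) (h1 : ∀ u, ‖(L u).1‖ ^ 2 + ‖(L u).2‖ ^ 2 = c * ‖u.1‖ ^ 2 + d * ‖u.2‖ ^ 2) :
    ∃ T : (ℂ × ℂ) ≃L[ℝ] Eu l × Eu μ, ∀ u, T u = L u := by
  have hi : Function.Injective L := by
    rw [injective_iff_map_eq_zero]
    intro u hu
    have e := h1 u
    rw [hu] at e
    simp only [Prod.fst_zero, Prod.snd_zero, norm_zero] at e
    have e1 : 0 ≤ c * ‖u.1‖ ^ 2 := by positivity
    have e2 : 0 ≤ d * ‖u.2‖ ^ 2 := by positivity
    have f1 : c * ‖u.1‖ ^ 2 = 0 := by linarith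
    have f2 : d * ‖u.2‖ ^ 2 = 0 := by linarith
    simp only [mul_eq_zero, hc.ne', hd.ne', false_or, ne_eq, OfNat.ofNat_ne_zero,
      not_false_eq_true, pow_eq_zero_iff, norm_eq_zero] at f1 f2
    exact Prod.ext f1 f2
  exact ⟨(L.linearEquivOfInjective hi (by simp [Module.finrank_prod, h])).toContinuousLinearEquiv,
    fun u => rfl⟩

noncomputable def m2 (c : ℝ) : ℂ →ₗ[ℝ] Eu 2 :=
  √c • Complex.orthonormalBasisOneI.repr.toLinearEquiv.toLinearMap

theorem m2n {c : ℝ} (hc : 0 ≤ c) (z : ℂ) : ‖m2 c z‖ ^ 2 = c * ‖z‖ ^ 2 := by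
  have : m2 c z = √c • Complex.orthonormalBasisOneI.repr z := rfl
  rw [this, norm_smul, LinearIsometryEquiv.norm_map, mul_pow, Real.norm_eq_abs, sq_abs,
    Real.sq_sqrt hc]

noncomputable def m4 (c d : ℝ) : (ℂ × ℂ) →ₗ[ℝ] Eu 4 where
  toFun u := !₂[√c * u.1.re, √c * u.1.im, √d * u.2.re, √d * u.2.im]
  map_add' u v := by ext i; fin_cases i <;> simp [mul_add]
  map_smul' r v := by ext i; fin_cases i <;> simp <;> ring

theorem m4n {c d : ℝ} (hc : 0 ≤ c) (hd : 0 ≤ d) (u : ℂ × ℂ) :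
    ‖m4 c d u‖ ^ 2 = c * ‖u.1‖ ^ 2 + d * ‖u.2‖ ^ 2 := by
  have : m4 c d u = !₂[√c * u.1.re, √c * u.1.im, √d * u.2.re, √d * u.2.im] := rfl
  rw [this, EuclideanSpace.real_norm_sq_eq, Fin.sum_univ_four, Complex.sq_norm, Complex.sq_norm,
    normSq_apply, normSq_apply]
  simp only [Matrix.cons_val, mul_pow, Real.sq_sqrt hc, Real.sq_sqrt hd]
  ring

end YMorM

open YMorM

theorem yMorS : StmtYMor := by
  intro a b hb hab
  have hf := sm a b
  have key : ∀ (u : ℂ × ℂ) (σ : ℝ), fderiv ℝ (fab a b) (σ • u) u = σ *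
      (a * (8 * σ ^ 2 * (normSq u.1 * normSq u.2) /
        (1 + σ ^ 2 * σ ^ 2 * (normSq u.1 * normSq u.2)) ^ 2) +
      b * (4 * normSq u.2 / (1 + σ ^ 2 * normSq u.2) ^ 2) +
      (a - b) * (4 * normSq u.1 / (1 + σ ^ 2 * normSq u.1) ^ 2) +
      (a + b) * (12 * σ ^ 4 * (normSq u.1 * normSq u.2 ^ 2) /
        (1 + σ ^ 2 * σ ^ 4 * (normSq u.1 * normSq u.2 ^ 2)) ^ 2)) := fun u σ => by
    have h := dir a b u σ σ 1 1 _ _ rfl rfl
    simp only [one_smul] at h
    refine h.trans ?_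
    ring
  refine ⟨hf, fun u hu h0 => hu ?_, ?_, fun u => ?_⟩
  · have h := dir a b u 1 1 (a - b) b _ _ rfl rfl
    simp only [one_smul, Prod.mk.eta, h0, ContinuousLinearMap.zero_apply] at h
    have s0 := normSq_nonneg u.1
    have t0 := normSq_nonneg u.2
    have hab' : a - b ≠ 0 := sub_ne_zero.2 hab
    generalize hs : normSq u.1 = s at h s0
    generalize ht : normSq u.2 = t at h t0
    have e1 : 0 ≤ 4 * a ^ 2 * (s * t) / (1 + s * t) ^ 2 := by positivity
    have e2 : 0 ≤ 4 * b ^ 2 * t / (1 + t) ^ 2 := by positivity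
    have e3 : 0 ≤ 4 * (a - b) ^ 2 * s / (1 + s) ^ 2 := by positivity
    have e4 : 0 ≤ 4 * (a + b) ^ 2 * (s * t ^ 2) / (1 + s * t ^ 2) ^ 2 := by positivity
    have e : 0 = 4 * a ^ 2 * (s * t) / (1 + s * t) ^ 2 + 4 * b ^ 2 * t / (1 + t) ^ 2 +
        4 * (a - b) ^ 2 * s / (1 + s) ^ 2 +
        4 * (a + b) ^ 2 * (s * t ^ 2) / (1 + s * t ^ 2) ^ 2 := by
      refine h.trans ?_
      ring
    have f1 : s = 0 := by
      by_contra hn
      have : 0 < s := lt_of_le_of_ne s0 (Ne.symm hn)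
      have : 0 < 4 * (a - b) ^ 2 * s / (1 + s) ^ 2 := by positivity
      linarith
    have f2 : t = 0 := by
      by_contra hn
      have : 0 < t := lt_of_le_of_ne t0 (Ne.symm hn)
      have : 0 < 4 * b ^ 2 * t / (1 + t) ^ 2 := by positivity
      linarith
    exact Prod.ext (normSq_eq_zero.1 (hs.trans f1)) (normSq_eq_zero.1 (ht.trans f2))
  · exact ContinuousLinearMap.ext fun u => by simpa using key u 0
  · have hd : DifferentiableAt ℝ (fderiv ℝ (fab a b)) 0 :=
      ((hf.fderiv_right (m := 1) (by norm_cast)).differentiable (by simp)) 0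
    have hl : HasDerivAt (fun σ : ℝ => σ • u) u 0 := by
      simpa using (hasDerivAt_id (0 : ℝ)).smul_const u
    have h1 := (HasFDerivAt.comp_hasDerivAt_of_eq (x := (0 : ℝ)) hd.hasFDerivAt hl
      (by simp)).clm_apply (hasDerivAt_const (0 : ℝ) u)
    have s0 := normSq_nonneg u.1
    have t0 := normSq_nonneg u.2
    have hK : DifferentiableAt ℝ (fun σ : ℝ => a * (8 * σ ^ 2 * (normSq u.1 * normSq u.2) /
        (1 + σ ^ 2 * σ ^ 2 * (normSq u.1 * normSq u.2)) ^ 2) +
      b * (4 * normSq u.2 / (1 + σ ^ 2 * normSq u.2) ^ 2) +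
      (a - b) * (4 * normSq u.1 / (1 + σ ^ 2 * normSq u.1) ^ 2) +
      (a + b) * (12 * σ ^ 4 * (normSq u.1 * normSq u.2 ^ 2) /
        (1 + σ ^ 2 * σ ^ 4 * (normSq u.1 * normSq u.2 ^ 2)) ^ 2)) 0 := by
      fun_prop (disch := positivity)
    have h2 := (hasDerivAt_id' (0 : ℝ)).mul hK.hasDerivAt
    have h3 := h1.unique (h2.congr_of_eventuallyEq (.of_forall fun σ => key u σ))
    simp only [map_zero, add_zero, one_mul, zero_mul] at h3
    rw [h3, normSq_eq_norm_sq, normSq_eq_norm_sq]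
    ring

theorem t4S : StmtT4 := by
  intro p q hp hq
  rcases hp.lt_or_gt with hp | hp <;> rcases hq.lt_or_gt with hq | hq
  · rw [show ix p q = 4 by simp [ix, hp, hq]]
    have c0 : 0 < -2 * p := by linarith
    have d0 : 0 < -2 * q := by linarith
    obtain ⟨T, hT⟩ := mk (l := 4) (μ := 0) rfl ((m4 (-2 * p) (-2 * q)).prod 0) c0 d0 fun u => by
      simp only [LinearMap.prod_apply, Function.prod, m4n c0.le d0.le, LinearMap.zero_apply,
        norm_zero]
      ring
    refine ⟨0, T, fun u => ?_⟩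
    simp only [qf, hT, LinearMap.prod_apply, Function.prod, m4n c0.le d0.le, LinearMap.zero_apply,
      norm_zero]
    ring
  · rw [show ix p q = 2 by simp [ix, hp, hq.not_gt]]
    have c0 : 0 < -2 * p := by linarith
    have d0 : 0 < 2 * q := by linarith
    obtain ⟨T, hT⟩ := mk (l := 2) (μ := 2) rfl ((m2 (-2 * p)).prodMap (m2 (2 * q))) c0 d0
      fun u => by simp only [LinearMap.prodMap_apply, m2n c0.le, m2n d0.le]
    refine ⟨2, T, fun u => ?_⟩
    simp only [qf, hT, LinearMap.prodMap_apply, m2n c0.le, m2n d0.le]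
    ring
  · rw [show ix p q = 2 by simp [ix, hq, hp.not_gt]]
    have c0 : 0 < 2 * p := by linarith
    have d0 : 0 < -2 * q := by linarith
    obtain ⟨T, hT⟩ := mk (l := 2) (μ := 2) rfl (((m2 (-2 * q)).comp (LinearMap.snd ℝ ℂ ℂ)).prod
      ((m2 (2 * p)).comp (LinearMap.fst ℝ ℂ ℂ))) c0 d0 fun u => by
      simp only [LinearMap.prod_apply, Function.prod, LinearMap.comp_apply, LinearMap.snd_apply,
        LinearMap.fst_apply, m2n c0.le, m2n d0.le]
      ring
    refine ⟨2, T, fun u => ?_⟩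
    simp only [qf, hT, LinearMap.prod_apply, Function.prod, LinearMap.comp_apply, LinearMap.snd_apply,
      LinearMap.fst_apply, m2n c0.le, m2n d0.le]
    ring
  · rw [show ix p q = 0 by simp [ix, hp.not_gt, hq.not_gt]]
    have c0 : 0 < 2 * p := by linarith
    have d0 : 0 < 2 * q := by linarith
    obtain ⟨T, hT⟩ := mk (l := 0) (μ := 4) rfl (LinearMap.prod 0 (m4 (2 * p) (2 * q))) c0 d0
      fun u => by simp [m4n c0.le d0.le]
    refine ⟨4, T, fun u => ?_⟩
    simp only [qf, hT, LinearMap.prod_apply, Function.prod, m4n c0.le d0.le, LinearMap.zero_apply,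
      norm_zero]
    ring

end Vale.Agent.P265
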