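import Vale.Agent.P265.Ex

/-! Nondegeneracy of the form on `Y`. -/

namespace Vale.Agent.P265

open Set Topology Complex
open scoped ContDiff ComplexConjugate

namespace YNM

noncomputable def dS (z a : ℂ) : S2 :=
  ((2 / (1 + normSq z) : ℝ) * a - (4 * (z.re * a.re + z.im * a.im) / (1 + normSq z) ^ 2 : ℝ) * z,
    4 * (z.re * a.re + z.im * a.im) / (1 + normSq z) ^ 2)

theorem np (z : ℂ) : 0 < 1 + normSq z := by linarith [normSq_nonneg z]

theorem hd {m : ℝ → ℂ} {a z : ℂ} (h : HasDerivAt m a 0) (hz : m 0 = z) :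
    HasDerivAt (fun t => sS (m t)) (dS z a) 0 := by
  subst hz
  have h1 : HasDerivAt (fun t => (m t).re) a.re 0 := reCLM.hasFDerivAt.comp_hasDerivAt 0 h
  have h2 : HasDerivAt (fun t => (m t).im) a.im 0 := imCLM.hasFDerivAt.comp_hasDerivAt 0 h
  have h3 : HasDerivAt (fun t => normSq (m t)) (2 * ((m 0).re * a.re + (m 0).im * a.im)) 0 := by
    simp only [normSq_apply]
    exact ((h1.fun_mul h1).fun_add (h2.fun_mul h2)).congr_deriv (by ring)
  have n0 := (np (m 0)).ne'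
  have n1 : ((1 + normSq (m 0) : ℝ) : ℂ) ≠ 0 := ofReal_ne_zero.2 n0
  refine HasDerivAt.prodMk ?_ ?_
  · refine ((h.const_mul 2).fun_div (h3.const_add 1).ofReal_comp n1).congr_deriv ?_
    simp only [dS, ofReal_div, ofReal_mul, ofReal_pow, ofReal_ofNat]
    field_simp
    ring
  · refine ((h3.sub_const 1).fun_div (h3.const_add 1) n0).congr_deriv ?_
    field_simp
    ring

theorem det (z a : ℂ) : det3 (sS z) (dS z a) (dS z (I * a)) = -(4 * normSq a / (1 + normSq z) ^ 2) := by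
  have n0 := (np z).ne'
  simp only [det3, sS, dS, div_ofReal_re, div_ofReal_im, mul_re, mul_im, sub_re, sub_im, ofReal_re,
    ofReal_im, I_re, I_im, re_ofNat, im_ofNat]
  field_simp
  simp only [normSq_apply]
  ring

noncomputable def dP (u s : ℂ × ℂ) : VY := (dS (u.1 * u.2) (s.1 * u.2 + u.1 * s.2), dS u.2 s.2,
  dS u.1 s.1, dS (u.1 * u.2 ^ 2) (s.1 * u.2 ^ 2 + u.1 * (2 * u.2 * s.2)))

theorem hP (u s : ℂ × ℂ) : HasDerivAt (fun t : ℝ => P0 (u + t • s)) (dP u s) 0 := by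
  have h : HasDerivAt (fun t : ℝ => u + t • s) s 0 := by
    simpa using ((hasDerivAt_id (0 : ℝ)).smul_const s).const_add u
  have h1 : HasDerivAt (fun t : ℝ => (u + t • s).1) s.1 0 := hasFDerivAt_fst.comp_hasDerivAt 0 h
  have h2 : HasDerivAt (fun t : ℝ => (u + t • s).2) s.2 0 := hasFDerivAt_snd.comp_hasDerivAt 0 h
  exact (hd (by simpa using h1.fun_mul h2) (by simp)).prodMk ((hd h2 (by simp)).prodMk
    ((hd h1 (by simp)).prodMk (hd (by simpa using h1.fun_mul (h2.fun_pow 2)) (by simp))))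

theorem lin (c : Bool × Bool × Bool) : IsLinearMap ℝ (symI c) := by
  obtain ⟨a, b, c⟩ := c
  constructor <;> intros <;> cases a <;> cases b <;> cases c <;>
    simp [symI, sy1, sy2, sy3, fl, add_comm, Prod.ext_iff]

theorem det_fl (p u v : S2) : det3 (fl p) (fl u) (fl v) = det3 p u v := by
  simp only [det3, fl, conj_re, conj_im]; ring

end YNM

open YNM in
theorem yNS (hT : StmtTan) (hB : StmtYB) (hC : StmtYC) : StmtYN := fun y hy v hv h => by
  obtain ⟨c, hc⟩ := hB.2.1 y hy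
  obtain ⟨p, p1, -, p3, p4⟩ := hB.2.2 c
  have hm : y ∈ YY ∩ p.O := ⟨hy, p4 ▸ hc⟩
  have e0 := ((hT _ _ YY).1 p y hm).1
  have e1 := p.PL y hm
  have df : DifferentiableAt ℝ p.P (p.L y) :=
    (p.sP.contDiffAt (p.oU.mem_nhds (p.mL hm))).differentiableAt (by simp)
  generalize p.L y = u at e0 e1 df
  have e2 : ∀ s, fderiv ℝ p.P u s = symI c (dP u s) := fun s => by
    have h0 : HasDerivAt (fun t : ℝ => u + t • s) s 0 := by
      simpa using ((hasDerivAt_id (0 : ℝ)).smul_const s).const_add u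
    refine (df.hasFDerivAt.comp_hasDerivAt_of_eq 0 h0 (by simp)).unique ?_
    rw [p1]
    exact (LinearMap.toContinuousLinearMap ((lin c).mk' _)).hasFDerivAt.comp_hasDerivAt 0 (hP u s)
  have e3 : ∀ y a b, frm lY (symI c y) (symI c a) (symI c b) = frm lY y a b := fun y a b => by
    obtain ⟨c1, c2, c3⟩ := c
    cases c1 <;> cases c2 <;> cases c3 <;> simp [hC.2.1, symI, sy1, sy2, sy3, det_fl] <;> ring
  rw [e0] at hv h
  obtain ⟨s, rfl⟩ := hv
  have e4 := h _ ⟨(I * s.1, I * s.2), rfl⟩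
  rw [e2, e2, ← e1, p1, Function.comp, e3, hC.2.1] at e4
  simp only [dP, P0] at e4
  rw [show I * s.1 * u.2 + u.1 * (I * s.2) = I * (s.1 * u.2 + u.1 * s.2) by ring,
    show I * s.1 * u.2 ^ 2 + u.1 * (2 * u.2 * (I * s.2)) =
      I * (s.1 * u.2 ^ 2 + u.1 * (2 * u.2 * s.2)) by ring, det, det, det, det] at e4
  have k : ∀ z a : ℂ, 0 ≤ 4 * normSq a / (1 + normSq z) ^ 2 := fun z a =>
    div_nonneg (by linarith [normSq_nonneg a]) (sq_nonneg _)
  have k' : ∀ z a : ℂ, 4 * normSq a / (1 + normSq z) ^ 2 = 0 → a = 0 := fun z a e => by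
    simpa [(np z).ne'] using e
  have k1 := k (u.1 * u.2) (s.1 * u.2 + u.1 * s.2)
  have k2 := k u.2 s.2
  have k3 := k u.1 s.1
  have k4 := k (u.1 * u.2 ^ 2) (s.1 * u.2 ^ 2 + u.1 * (2 * u.2 * s.2))
  rw [show s = 0 from Prod.ext (k' u.1 _ (by linarith)) (k' u.2 _ (by linarith)), map_zero]

end Vale.Agent.P265
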