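import Vale.Agent.P265.Ex

/-! The circle action on `Y`. -/

namespace Vale.Agent.P265

open Set Topology Complex
open scoped ContDiff ComplexConjugate

namespace YRotM

theorem rho (t : ℝ) (y : VY) : rhoY t y = ((exp ((Real.pi * t : ℝ) * I) * y.1.1, y.1.2),
    (exp ((Real.pi * t : ℝ) * I) * y.2.1.1, y.2.1.2), y.2.2.1,
    (exp ((Real.pi * t : ℝ) * I) ^ 2 * y.2.2.2.1, y.2.2.2.2)) := by
  rw [← exp_nat_mul, show ((2 : ℕ) : ℂ) * ((Real.pi * t : ℝ) * I) = (2 * Real.pi * t : ℝ) * I by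
    push_cast; ring]
  rfl

theorem nz (θ : ℝ) : normSq (exp (θ * I)) = 1 := by
  rw [normSq_eq_norm_sq, norm_exp_ofReal_mul_I, one_pow]

theorem rp_rot {z : ℂ} (hz : normSq z = 1) (c : Bool) (p : S2) : ∃ l : ℂ,
    (rp c (z * p.1, p.2)).1 = l * z * (rp c p).1 ∧ (rp c (z * p.1, p.2)).2 = l * (rp c p).2 := by
  cases c
  · exact ⟨1, by simp [rp], by simp [rp]⟩
  · exact ⟨conj z, by simp [rp, ← normSq_eq_conj_mul_self, hz], by simp [rp]⟩

theorem det_rot {z : ℂ} (hz : normSq z = 1) (p u v : S2) :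
    det3 (z * p.1, p.2) (z * u.1, u.2) (z * v.1, v.2) = det3 p u v := by
  rw [normSq_apply] at hz
  simp only [det3, mul_re, mul_im]
  linear_combination (p.2 * (u.1.re * v.1.im - v.1.re * u.1.im) +
    p.1.re * (u.1.im * v.2 - v.1.im * u.2) + p.1.im * (u.2 * v.1.re - v.2 * u.1.re)) * hz

theorem det_i {p w : S2} (hp : onS p) (h : ip p w = 0) (c : ℝ) :
    det3 p (c * I * p.1, 0) w = c * w.2 := by
  rw [onS, normSq_apply] at hp
  simp only [det3, ip, mul_re, mul_im, ofReal_re, ofReal_im, I_re, I_im] at h ⊢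
  linear_combination c * w.2 * hp - c * p.2 * h

end YRotM

open YRotM in
theorem yRotS (hC : StmtYC) : StmtYRot := by
  have n2 : ∀ t : ℝ, normSq (exp ((Real.pi * t : ℝ) * I) ^ 2) = 1 := fun t => by
    rw [map_pow, nz, one_pow]
  refine ⟨fun x => by simp [rho], fun s t x => ?_, fun x => ?_, ?_, by unfold KY; fun_prop,
    fun t y ⟨a1, a2, a3, a4, b1, b2⟩ => ?_, fun t x _ u _ v _ => ?_, fun x hx v hv w hw => ?_⟩
  · simp only [rho, mul_add, ofReal_add, add_mul, exp_add, mul_pow, mul_assoc]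
  · rw [rho, show ((Real.pi * 2 : ℝ) : ℂ) * I = 2 * Real.pi * I by push_cast; ring, exp_two_pi_mul_I]
    simp
  · have : ContDiff ℝ ∞ fun q : ℝ × VY => exp ((Real.pi * q.1 : ℝ) * I) :=
      ((ofRealCLM.contDiff.comp (contDiff_const.mul contDiff_fst)).mul contDiff_const).cexp
    simp only [rho]
    fun_prop
  · rw [rho]
    refine ⟨?_, ?_, a3, ?_, fun c1 c2 c3 => ?_, fun c1 c2 c3 => ?_⟩
    · simpa only [onS, map_mul, nz, one_mul] using a1
    · simpa only [onS, map_mul, nz, one_mul] using a2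
    · simpa only [onS, map_mul, n2, one_mul] using a4
    · obtain ⟨l1, e1, e1'⟩ := rp_rot (nz (Real.pi * t)) c1 y.1
      obtain ⟨l2, e2, e2'⟩ := rp_rot (nz (Real.pi * t)) c2 y.2.1
      simp only [e1, e1', e2, e2']
      linear_combination l1 * l2 * exp ((Real.pi * t : ℝ) * I) * b1 c1 c2 c3
    · obtain ⟨l1, e1, e1'⟩ := rp_rot (nz (Real.pi * t)) c1 y.1
      obtain ⟨l2, e2, e2'⟩ := rp_rot (nz (Real.pi * t)) c2 y.2.1
      obtain ⟨l3, e3, e3'⟩ := rp_rot (n2 t) c3 y.2.2.2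
      simp only [e1, e1', e2, e2', e3, e3']
      linear_combination l1 * l2 * l3 * exp ((Real.pi * t : ℝ) * I) ^ 2 * b2 c1 c2 c3
  · simp only [hC.2.1, rho, det_rot (nz _), det_rot (n2 _)]
  · have d0 : HasDerivAt (fun t : ℝ => exp ((Real.pi * t : ℝ) * I)) (Real.pi * I) 0 := by
      simpa using (((hasDerivAt_id (0 : ℝ)).const_mul Real.pi).ofReal_comp.mul_const I).cexp
    have d1 : HasDerivAt (fun t => rhoY t x) ((Real.pi * I * x.1.1, 0), (Real.pi * I * x.2.1.1, 0), 0,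
        ((2 * Real.pi : ℝ) * I * x.2.2.2.1, 0)) 0 := by
      simp only [rho]
      refine ((d0.mul_const _).prodMk (hasDerivAt_const _ _)).prodMk
        (((d0.mul_const _).prodMk (hasDerivAt_const _ _)).prodMk ((hasDerivAt_const _ _).prodMk
          (HasDerivAt.prodMk ?_ (hasDerivAt_const _ _))))
      exact ((d0.fun_pow 2).mul_const x.2.2.2.1).congr_deriv (by simp [mul_assoc])
    obtain ⟨t1, t2, -, t4⟩ := hC.2.2.1 x hx w hw
    have k : IsLinearMap ℝ KY := ⟨fun a b => by simp [KY]; ring, fun a b => by simp [KY]; ring⟩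
    rw [hv.unique d1, hC.2.1, det_i hx.1 t1, det_i hx.2.1 t2, det_i hx.2.2.2.1 t4,
      show fderiv ℝ KY x = _ from (LinearMap.toContinuousLinearMap (k.mk' _)).fderiv]
    simp [det3, KY]
    ring

end Vale.Agent.P265
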