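import Vale.Agent.P265.Coh

namespace Vale.Agent.P265

open Set

namespace ZeroM

theorem rank_zero {V : Type} [AddCommGroup V] [Module K7 V] {S T : Submodule K7 V} (h : S ≤ T) :
    Module.rank K7 (S.map T.mkQ) = 0 := by
  have : S.map T.mkQ = ⊥ := by
    rwa [← le_bot_iff, Submodule.map_le_iff_le_comap, Submodule.comap_bot, Submodule.ker_mkQ]
  rw [this, rank_bot]

theorem pb_id {E : Type} (φ : Co E) : pb id φ = φ := by
  funext l
  simp [pb, LinearMap.funLeft_apply]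

theorem pb_pb {E E' E'' : Type} (f : E → E') (g : E' → E'') (φ : Co E'') :
    pb f (pb g φ) = pb (g ∘ f) φ := by
  funext l
  simp [pb, LinearMap.funLeft_apply]

theorem dd_rep {E : Type} (p : E) (n : ℕ) : ∀ φ : Co E,
    dd φ (List.replicate (n + 1) p) = if Even n then φ (List.replicate n p) else 0 := by
  induction n with
  | zero => intro φ; simp [dd]
  | succ n ih =>
    intro φ
    rw [List.replicate_succ, dd, ih]
    by_cases h : Even n <;> simp [h, Nat.even_add_one, List.replicate_succ]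

variable {E : Type} [MetricSpace E]

theorem nul_pt (p : E) (n : ℕ) (φ : Co E) : φ ∈ Nul {p} n ↔ φ (List.replicate n p) = 0 := by
  constructor
  · rintro ⟨δ, hδ, h⟩
    refine h _ List.length_replicate ⟨fun x hx => List.eq_of_mem_replicate hx, fun x hx y hy => ?_⟩
    rw [List.eq_of_mem_replicate hx, List.eq_of_mem_replicate hy, dist_self]
    exact hδ
  · intro h
    exact ⟨1, one_pos, fun l hl hs => by rwa [List.eq_replicate_iff.2 ⟨hl, hs.1⟩]⟩

theorem nul_empty (n : ℕ) (φ : Co E) : φ ∈ Nul ∅ (n + 1) :=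
  ⟨1, one_pos, fun l hl hs => by
    obtain ⟨x, hx⟩ := List.exists_mem_of_length_eq_add_one hl
    exact (hs.1 x hx).elim⟩

theorem nul_zero (φ : Co E) (h : φ ∈ Nul ∅ 0) : φ [] = 0 := by
  obtain ⟨δ, -, h⟩ := h
  exact h [] rfl ⟨by simp, by simp⟩

theorem mem_ze {A B : Set E} {n : ℕ} {φ : Co E} (h : φ ∈ Zc A B n) : φ ∈ Ze id 1 A B n :=
  ⟨h, by simp [pb_id]⟩

theorem point (hB : StmtBas) (p : E) : HasDim id 1 ({p} : Set E) ∅ (dl 1) := by
  intro n
  obtain rfl | rfl | ⟨n, rfl⟩ : n = 0 ∨ n = 1 ∨ ∃ m, n = m + 2 := by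
    rcases n with _ | _ | n <;> simp
  · simpa [dl] using (hB E).2.2.2.2.2.1 id 1 {p} ∅
  · let ev : Co E →ₗ[K7] K7 := LinearMap.proj [p]
    have h1 : Ze id 1 ({p} : Set E) ∅ 1 = ⊤ := eq_top_iff.2 fun φ _ =>
      mem_ze ⟨nul_empty 0 φ, (nul_pt p 2 _).2 ((dd_rep p 1 φ).trans (by simp))⟩
    have h2 : Bd ({p} : Set E) ∅ 1 = LinearMap.ker ev := by
      refine le_antisymm (sup_le ?_ fun φ h => (nul_pt p 1 φ).1 h)
        (le_sup_of_le_right fun φ h => (nul_pt p 1 φ).2 h)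
      rintro _ ⟨ψ, h, rfl⟩
      exact (dd_rep p 0 ψ).trans (by simpa using nul_zero ψ h)
    have h3 : LinearMap.range ev = ⊤ := LinearMap.range_eq_top.2 fun c => ⟨fun _ => c, rfl⟩
    rw [hd, h1, Submodule.map_top, Submodule.range_mkQ, rank_top,
      ((Submodule.quotEquivOfEq _ _ h2).trans ev.quotKerEquivRange).rank_eq, h3, rank_top,
      Module.rank_self]
    simp [dl]
  · rw [show dl 1 (n + 2) = 0 by simp [dl], Nat.cast_zero]
    refine rank_zero fun φ h => ?_
    by_cases c : Even n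
    · refine Submodule.mem_sup_right ((nul_pt p _ φ).2 ?_)
      have := (dd_rep p (n + 2) φ).symm.trans ((nul_pt p _ _).1 h.1.2)
      rwa [if_pos (c.add even_two)] at this
    · refine Submodule.mem_sup.2 ⟨_, ⟨fun _ => φ (List.replicate (n + 2) p), nul_empty n _, rfl⟩,
        _, (nul_pt p _ _).2 ?_, add_sub_cancel _ _⟩
      exact sub_eq_zero.2 ((dd_rep p (n + 1) fun _ => φ (List.replicate (n + 2) p)).trans
        (if_pos (Nat.even_add_one.2 c))).symm

end ZeroM

open ZeroM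

theorem zeroS (hB : StmtBas) (hH : StmtHtp) : StmtZero := by
  intro E _ ι ε A B hA hB' hBA
  obtain ⟨-, -, -, -, -, -, b7, b8, b9⟩ := hB E
  refine ⟨fun r h hr n => rank_zero fun φ hφ => ?_, fun h hε n => rank_zero fun φ hφ => ?_,
    point hB, fun E' _ Z r s hZ hr hs e1 e2 n => ?_⟩
  · have h1 := hH E E A B A B id r n hA hB' hBA hBA h φ hφ.1
    obtain ⟨H, h2, -, -, h3⟩ := h
    have h4 : ContinuousOn r A := (h2.comp (f := fun x => ((1 : ℝ), x)) (by fun_prop)
      fun x hx => ⟨by simp, hx⟩).congr h3.symm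
    have h5 := (Bd A B n).add_mem h1 (Submodule.mem_sup_right (b7 E A B r n hA h4 hr φ hφ.1.1))
    rwa [sub_add_cancel, pb_id] at h5
  · have h1 := (Bd A B n).sub_mem hφ.2 (hH E E A B A B ι id n hA hB' hBA hBA h φ hφ.1)
    rw [pb_id] at h1
    refine (Submodule.smul_mem_iff _ (sub_ne_zero.2 hε.symm)).1 ?_
    convert h1 using 1
    simp [sub_smul]
  · obtain ⟨-, -, -, -, -, -, -, c8, c9⟩ := hB E'
    have k : Bd B ∅ n ≤ (Bd Z ∅ n).comap (pb s) :=
      (c8 E Z ∅ B ∅ s n hZ isCompact_empty (empty_subset _) hs).2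
    refine le_trans (Submodule.rank_mono ?_) (rank_map_le (Submodule.mapQ _ _ _ k) _)
    rintro _ ⟨φ, hφ, rfl⟩
    refine ⟨_, ⟨pb r φ, ⟨(b8 E' A ∅ Z ∅ r n hA isCompact_empty (empty_subset _) hr).1 φ hφ.1,
      Submodule.mem_sup_right ?_⟩, rfl⟩, ?_⟩
    · simpa [pb_pb] using b9 E' A _ _ n φ e1
    · rw [Submodule.mkQ_apply, Submodule.mapQ_apply, Submodule.mkQ_apply, Submodule.Quotient.eq,
        pb_pb]
      exact Submodule.mem_sup_right (by simpa [pb_id] using c9 E' Z _ _ n φ e2)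

end Vale.Agent.P265
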