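import Vale.Agent.P265.Coh

namespace Vale.Agent.P265

namespace ArithM

def RP : ℕ → ℕ := fun n => [0, 1, 1, 7, 7, 7, 7, 1, 1].getD n 0
def RM : ℕ → ℕ := fun n => [0, 0, 2, 2, 12, 12, 2, 2, 0].getD n 0

theorem zP_eq (n : ℕ) : zP n = RP n + sh RP n := by
  rcases n with _ | _ | _ | _ | _ | _ | _ | _ | _ | _ | n <;> simp [zP, RP, sh]

theorem zM_eq (n : ℕ) : zM n = RM n + sh RM n := by
  rcases n with _ | _ | _ | _ | _ | _ | _ | _ | _ | _ | n <;> simp [zM, RM, sh]

theorem it_eq {z R : ℕ → ℕ} (h : ∀ n, z n = R n + sh R n) (s : ℕ) :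
    ∀ n, sh^[s] z n = sh^[s] R n + sh (sh^[s] R) n := by
  induction s with
  | zero => simpa using h
  | succ s ih =>
    intro n
    simp only [Function.iterate_succ_apply']
    rcases n with _ | n
    · simp [sh]
    · have := ih n
      simp only [sh] at this ⊢
      exact this

theorem it_add (c : ℕ → ℕ) (s k : ℕ) : sh^[s] c (s + k) = c k := by
  induction s with
  | zero => simp
  | succ s ih =>
    rw [Function.iterate_succ_apply', show s + 1 + k = (s + k) + 1 by ring]
    exact ih

theorem uniq {r r' : ℕ → ℕ} (h : ∀ n, r n + sh r n = r' n + sh r' n) (n : ℕ) : r n = r' n := by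
  induction n with
  | zero => simpa [sh] using h 0
  | succ n ih =>
    have := h (n + 1)
    simp only [sh] at this
    omega

theorem sh_add (a b : ℕ → ℕ) (n : ℕ) : sh (fun m => a m + b m) n = sh a n + sh b n := by
  rcases n with _ | n <;> simp [sh]

end ArithM

open ArithM in
theorem arithS : StmtArith := by
  intro W C ind s q q' h h'
  classical
  set r : ℕ → ℕ := fun m => sh^[s] RP m + q m with hr
  set r' : ℕ → ℕ := fun m => sh^[s] RM m + q' m with hr'
  have e1 : ∀ n, (C.filter fun w => ind w + 1 = n).card = r n + sh r n := by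
    intro n
    rw [h n, it_eq zP_eq s n, hr, sh_add]
    ring
  have e2 : ∀ n, (C.filter fun w => ind w + 1 = n).card = r' n + sh r' n := by
    intro n
    rw [h' n, it_eq zM_eq s n, hr', sh_add]
    ring
  have e3 : ∀ n, r n = r' n := uniq fun n => (e1 n).symm.trans (e2 n)
  have a1 : ∀ k, RP k ≤ r (s + k) := fun k => by
    simp only [hr, it_add]; omega
  have a2 : ∀ k, RM k ≤ r (s + k) := fun k => by
    rw [e3]; simp only [hr', it_add]; omega
  have hc : ∑ j ∈ Finset.Ico s (s + 10), (C.filter fun w => ind w + 1 = j).card ≤ C.card := by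
    rw [Finset.sum_card_fiberwise_eq_card_filter]
    exact Finset.card_filter_le _ _
  rw [Finset.sum_Ico_eq_sum_range, show s + 10 - s = 10 by omega] at hc
  simp only [e1, Finset.sum_range_succ, Finset.sum_range_zero] at hc
  have s1 : ∀ k, sh r (s + (k + 1)) = r (s + k) := fun k => rfl
  have t1 := s1 0
  have t2 := s1 1
  have t3 := s1 2
  have t4 := s1 3
  have t5 := s1 4
  have t6 := s1 5
  have t7 := s1 6
  have t8 := s1 7
  have t9 := s1 8
  have b1 : 1 ≤ r (s + 1) := a1 1
  have b2 : 2 ≤ r (s + 2) := a2 2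
  have b3 : 7 ≤ r (s + 3) := a1 3
  have b4 : 12 ≤ r (s + 4) := a2 4
  have b5 : 12 ≤ r (s + 5) := a2 5
  have b6 : 7 ≤ r (s + 6) := a1 6
  have b7 : 2 ≤ r (s + 7) := a2 7
  have b8 : 1 ≤ r (s + 8) := a1 8
  norm_num at t1 t2 t3 t4 t5 t6 t7 t8 t9 hc
  omega

end Vale.Agent.P265
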