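import Vale.Agent.P265.Ex

namespace Vale.Agent.P265

open Set Topology Complex
open scoped ContDiff ComplexConjugate

namespace F1M

theorem ca_mk (a b : ℂ) (x : ℝ) (α β : ℂ) : ca (a, b, x, α, β) = a := rfl
theorem cb_mk (a b : ℂ) (x : ℝ) (α β : ℂ) : cb (a, b, x, α, β) = b := rfl
theorem cx_mk (a b : ℂ) (x : ℝ) (α β : ℂ) : cx (a, b, x, α, β) = x := rfl
theorem cal_mk (a b : ℂ) (x : ℝ) (α β : ℂ) : cal (a, b, x, α, β) = α := rfl
theorem cbe_mk (a b : ℂ) (x : ℝ) (α β : ℂ) : cbe (a, b, x, α, β) = β := rfl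

theorem line {V : Type} [NormedAddCommGroup V] [NormedSpace ℝ V] (p u : V) :
    HasDerivAt (fun t : ℝ => p + t • u) u 0 := by
  simpa using ((hasDerivAt_id (0 : ℝ)).smul_const u).const_add p

theorem fd_eq {f : VX → ℝ} {p u : VX} {c : ℝ} (hf : DifferentiableAt ℝ f p)
    (h : HasDerivAt (fun t : ℝ => f (p + t • u)) c 0) : fderiv ℝ f p u = c := by
  have h1 : HasFDerivAt f (fderiv ℝ f p) (p + (0 : ℝ) • u) := by
    rw [zero_smul, add_zero]; exact hf.hasFDerivAt
  exact (h1.comp_hasDerivAt (0 : ℝ) (line p u)).unique h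

theorem hre {f : ℝ → ℂ} {f' : ℂ} {t : ℝ} (h : HasDerivAt f f' t) :
    HasDerivAt (fun s => (f s).re) f'.re t :=
  reCLM.hasFDerivAt.comp_hasDerivAt t h

theorem him {f : ℝ → ℂ} {f' : ℂ} {t : ℝ} (h : HasDerivAt f f' t) :
    HasDerivAt (fun s => (f s).im) f'.im t :=
  imCLM.hasFDerivAt.comp_hasDerivAt t h

theorem hns (z w : ℂ) :
    HasDerivAt (fun t : ℝ => normSq (z + t • w)) (2 * (conj z * w).re) 0 := by
  have h := ((hre (line z w)).mul (hre (line z w))).add ((him (line z w)).mul (him (line z w)))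
  refine HasDerivAt.congr_deriv (f := fun t : ℝ => normSq (z + t • w)) h ?_
  simp
  ring

theorem fX_fderiv {p : VX} (hn : 0 < nr p) (hf : DifferentiableAt ℝ fX p) (u : VX) :
    fderiv ℝ fX p u = ((ca u).re + (cb u).re) / nr p - ((ca p).re + (cb p).re) *
      ((conj (ca p) * ca u).re + (conj (cb p) * cb u).re) / nr p ^ 3 := by
  refine fd_eq hf ?_
  have hpos : 0 < normSq (ca p) + normSq (cb p) := Real.sqrt_pos.1 hn
  have h1 := ((hns (ca p) (ca u)).add (hns (cb p) (cb u))).sqrt (by simpa using hpos.ne')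
  have h2 := ((hre (line (ca p) (ca u))).add (hre (line (cb p) (cb u)))).div h1
    (by simpa [nr] using hn.ne')
  refine HasDerivAt.congr_deriv (f := fun t : ℝ => fX (p + t • u)) h2 ?_
  have e : √(normSq (ca p) + normSq (cb p)) = nr p := rfl
  simp only [Pi.add_apply, zero_smul, add_zero, e]
  field_simp

theorem cc_re (p : VX) : (cc p).re = ((xi p).re + 1 / 2) / (2 * normSq (xi p + 1 / 2)) -
    ((xi p).re - 1 / 2) / (3 * normSq (xi p - 1 / 2)) := by
  have e2 : normSq (2 : ℂ) = 4 := by simp [normSq_apply]; norm_num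
  have e3 : normSq (3 : ℂ) = 9 := by simp [normSq_apply]; norm_num
  simp only [cc, one_div, sub_re, inv_re, map_mul, e2, e3]
  simp
  ring

theorem cc_im (p : VX) : (cc p).im = -(xi p).im / (2 * normSq (xi p + 1 / 2)) +
    (xi p).im / (3 * normSq (xi p - 1 / 2)) := by
  have e2 : normSq (2 : ℂ) = 4 := by simp [normSq_apply]; norm_num
  have e3 : normSq (3 : ℂ) = 9 := by simp [normSq_apply]; norm_num
  simp only [cc, one_div, sub_im, inv_im, map_mul, e2, e3]
  simp
  ring

theorem xicc_im (p : VX) : (xi p * cc p).im =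
    (xi p).im * (1 / (4 * normSq (xi p + 1 / 2)) + 1 / (6 * normSq (xi p - 1 / 2))) := by
  rw [mul_im, cc_re, cc_im]
  ring

theorem N_ne {α N a : ℂ} {k : ℕ} (h : α * N = a ^ k) (ha : a ≠ 0) : N ≠ 0 := by
  rintro rfl
  exact pow_ne_zero k ha (by rw [← h, mul_zero])

theorem lft_a {p : VX} (h : cal p * (xi p + 1 / 2) = ca p ^ 2) (ha : ca p ≠ 0) (δ : ℂ) (d : ℝ) :
    ca (lft p δ d) = ca p * (δ / (2 * (xi p + 1 / 2))) := by
  have hN := N_ne h ha
  show cal p * δ / (2 * ca p) = _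
  generalize xi p + 1 / 2 = N at h hN
  field_simp
  linear_combination δ * h

theorem lft_b {p : VX} (h : cbe p * (xi p - 1 / 2) = cb p ^ 3) (hb : cb p ≠ 0) (δ : ℂ) (d : ℝ) :
    cb (lft p δ d) = cb p * (δ / (3 * (xi p - 1 / 2))) := by
  have hN := N_ne h hb
  show cbe p * δ / (3 * cb p ^ 2) = _
  generalize xi p - 1 / 2 = N at h hN
  field_simp
  linear_combination δ * h

theorem inj {α a dα da : ℂ} {k : ℝ} (hk : k ≠ 0) (hα : normSq α = 1) (ha : a ≠ 0) (hai : a.im = 0)
    (h1 : (conj α * dα).re = 0) (h2 : conj dα * a + k * conj α * da = 0) (h3 : da.im = 0) :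
    da = 0 ∧ dα = 0 := by
  have h4 : conj (conj α * dα) * a + k * da = 0 := by
    have : α * conj α = 1 := by rw [mul_conj, hα, ofReal_one]
    rw [map_mul, conj_conj]
    linear_combination α * h2 - k * da * this
  have h5 := congrArg Complex.re h4
  rw [add_re, mul_re, conj_re, h1, hai, re_ofReal_mul] at h5
  have h6 : da.re = 0 := by simpa [hk] using h5
  have h7 : da = 0 := Complex.ext h6 h3
  refine ⟨h7, ?_⟩
  rw [h7] at h2
  simpa [ha] using h2

end F1M

open F1M

theorem f1S (h0 : StmtF0) : StmtF1 := by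
  intro p hp
  obtain ⟨hn, -, hsm, -, -, -, -, hal, hbe⟩ := h0.1 p hp
  obtain ⟨hα, hβ, -, hs⟩ := hp
  have hα' : conj (cal p) * cal p = 1 := by rw [conj_mul', ← ofReal_pow, ← normSq_eq_norm_sq, hα, ofReal_one]
  have hβ' : conj (cbe p) * cbe p = 1 := by rw [conj_mul', ← ofReal_pow, ← normSq_eq_norm_sq, hβ, ofReal_one]
  have hd := fX_fderiv hn (hsm.differentiableAt (by simp))
  have d1 : dxi p (e1 p) = 0 := by
    simp only [dxi, e1, ca_mk, cb_mk, cx_mk, cal_mk, cbe_mk, map_mul, conj_I, map_ofNat]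
    ring
  have d2 : dxi p (e2 p) = 0 := by simp [dxi, e2, ca_mk, cb_mk, cx_mk, cal_mk, cbe_mk]
  have t1 : tanX p (e1 p) := by
    refine ⟨?_, by simp [e1, ca_mk, cb_mk, cx_mk, cal_mk, cbe_mk], by rw [d1]; simp [e1, ca_mk, cb_mk, cx_mk, cal_mk, cbe_mk], by rw [d1]; simp [e1, ca_mk, cb_mk, cx_mk, cal_mk, cbe_mk]⟩
    simp [e1, ca_mk, cb_mk, cx_mk, cal_mk, cbe_mk]
    ring
  have t2 : tanX p (e2 p) := by
    refine ⟨by simp [e2, ca_mk, cb_mk, cx_mk, cal_mk, cbe_mk], ?_, ?_, by rw [d2]; simp [e2, ca_mk, cb_mk, cx_mk, cal_mk, cbe_mk]⟩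
    · simp [e2, ca_mk, cb_mk, cx_mk, cal_mk, cbe_mk]
      ring
    · rw [d2]
      simp only [e2, ca_mk, cb_mk, cx_mk, cal_mk, cbe_mk, map_mul, conj_I, map_ofNat]
      ring
  have f1 : fderiv ℝ fX p (e1 p) = -(ca p).im / nr p := by
    rw [hd]
    simp only [e1, ca_mk, cb_mk, cx_mk, cal_mk, cbe_mk, mul_re, mul_im, I_re, I_im, conj_re, conj_im,
      zero_re, zero_im]
    ring
  have f2 : fderiv ℝ fX p (e2 p) = -(cb p).im / nr p := by
    rw [hd]
    simp only [e2, ca_mk, cb_mk, cx_mk, cal_mk, cbe_mk, mul_re, mul_im, I_re, I_im, conj_re, conj_im,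
      zero_re, zero_im]
    ring
  have hl : ∀ (δ : ℂ) (d : ℝ), ca p ≠ 0 → cb p ≠ 0 → (conj (xi p) * δ).re + cx p * d = 0 →
      tanX p (lft p δ d) ∧ dxi p (lft p δ d) = δ ∧
      ((ca p).im = 0 → (cb p).im = 0 → fderiv ℝ fX p (lft p δ d) =
        ((cb p).re - (ca p).re) * (ca p).re * (cb p).re / nr p ^ 3 * (δ * cc p).re) := by
    intro δ d ha hb h
    have e : dxi p (lft p δ d) = δ := by
      show conj (0 : ℂ) * ca p ^ 2 + 2 * conj (cal p) * ca p * (cal p * δ / (2 * ca p)) = δ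
      field_simp
      rw [map_zero]
      linear_combination δ * hα'
    refine ⟨⟨by simp [lft, ca_mk, cb_mk, cx_mk, cal_mk, cbe_mk], by simp [lft, ca_mk, cb_mk, cx_mk, cal_mk, cbe_mk], ?_, by rw [e]; exact h⟩, e, fun hai hbi => ?_⟩
    · rw [e]
      show δ = conj (0 : ℂ) * cb p ^ 3 + 3 * conj (cbe p) * cb p ^ 2 * (cbe p * δ / (3 * cb p ^ 2))
      field_simp
      rw [map_zero]
      linear_combination (-1) * δ * hβ'
    · have e2 : δ * cc p = δ / (2 * (xi p + 1 / 2)) - δ / (3 * (xi p - 1 / 2)) := by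
        simp only [cc]
        ring
      have e3 : nr p ^ 2 = (ca p).re ^ 2 + (cb p).re ^ 2 := by
        rw [nr, Real.sq_sqrt (add_nonneg (normSq_nonneg _) (normSq_nonneg _)), normSq_apply,
          normSq_apply, hai, hbi]
        ring
      rw [hd, lft_a hal ha, lft_b hbe hb, e2, sub_re]
      generalize δ / (2 * (xi p + 1 / 2)) = A
      generalize δ / (3 * (xi p - 1 / 2)) = B
      simp only [mul_re, mul_im, conj_re, conj_im, hai, hbi]
      field_simp
      rw [e3]
      ring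
  have h10 : ca p ≠ 0 → cb p ≠ 0 → (∀ (δ : ℂ) (d : ℝ), (conj (xi p) * δ).re + cx p * d = 0 →
      (δ * cc p).re = 0) → cx p = 0 ∧ (xi p).im = 0 := by
    intro ha hb h
    have n1 := N_ne hal ha
    have n2 := N_ne hbe hb
    have hx : cx p = 0 := by
      by_contra hx
      have h1 := h (conj (cc p)) (-(conj (xi p) * conj (cc p)).re / cx p) (by field_simp; ring)
      rw [conj_mul', ← ofReal_pow, ofReal_re] at h1
      have h2 : cc p = 0 := by simpa using h1
      rw [cc, sub_eq_zero, div_eq_div_iff (mul_ne_zero two_ne_zero n1)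
        (mul_ne_zero three_ne_zero n2)] at h2
      have h3 : xi p = ((5 / 2 : ℝ) : ℂ) := by
        push_cast
        linear_combination h2
      rw [h3, normSq_ofReal] at hs
      nlinarith [sq_nonneg (cx p)]
    refine ⟨hx, ?_⟩
    have h1 := h (I * xi p) 0 (by simp; ring)
    rw [mul_assoc, I_mul_re, xicc_im, neg_eq_zero, mul_eq_zero] at h1
    refine h1.resolve_right (ne_of_gt ?_)
    have := normSq_pos.2 n1
    have := normSq_pos.2 n2
    positivity
  refine ⟨hd, t1, t2, d1, d2, f1, f2, hl, ?_, h10, ?_⟩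
  · intro u ha hb hai hbi ht hz hx hau hbu
    obtain ⟨u1, u2, u3, -⟩ := ht
    rw [hz] at u3
    have a1 := inj (k := 2) two_ne_zero hα ha hai u1 (by
      apply mul_left_cancel₀ ha
      rw [dxi] at hz
      push_cast
      linear_combination hz) hau
    have a2 := inj (k := 3) three_ne_zero hβ hb hbi u2 (by
      apply mul_left_cancel₀ (pow_ne_zero 2 hb)
      push_cast
      linear_combination -u3) hbu
    exact Prod.ext a1.1 (Prod.ext a2.1 (Prod.ext hx (Prod.ext a1.2 a2.2)))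
  · intro h
    have hai : (ca p).im = 0 := by
      have := h _ t1
      rw [f1] at this
      simpa [hn.ne'] using this
    have hbi : (cb p).im = 0 := by
      have := h _ t2
      rw [f2] at this
      simpa [hn.ne'] using this
    have ha : ca p ≠ 0 := by
      intro ha
      have := h (1, 0, 0, 0, 0) ⟨by simp [cal_mk], by simp [cbe_mk],
        by simp [dxi, ha, ca_mk, cb_mk, cx_mk, cal_mk, cbe_mk], by simp [dxi, ha, ca_mk, cb_mk, cx_mk, cal_mk, cbe_mk]⟩
      rw [hd] at this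
      simp [ha, hn.ne', ca_mk, cb_mk] at this
    have hb : cb p ≠ 0 := by
      intro hb
      have := h (0, 1, 0, 0, 0) ⟨by simp [cal_mk], by simp [cbe_mk],
        by simp [dxi, hb, ca_mk, cb_mk, cx_mk, cal_mk, cbe_mk], by simp [dxi, ca_mk, cb_mk, cx_mk, cal_mk, cbe_mk]⟩
      rw [hd] at this
      simp [hb, hn.ne', ca_mk, cb_mk] at this
    refine ⟨hai, hbi, ha, hb, ?_⟩
    by_cases hab : ca p = cb p
    · exact Or.inl hab
    · refine Or.inr (h10 ha hb fun δ d hδ => ?_)
      obtain ⟨l1, -, l3⟩ := hl δ d ha hb hδ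
      have h1 := h _ l1
      rw [l3 hai hbi, mul_eq_zero] at h1
      refine h1.resolve_left ?_
      have r1 : (ca p).re ≠ 0 := fun h => ha (Complex.ext h hai)
      have r2 : (cb p).re ≠ 0 := fun h => hb (Complex.ext h hbi)
      have r3 : (cb p).re - (ca p).re ≠ 0 := fun h =>
        hab (Complex.ext (by linarith) (by rw [hai, hbi]))
      have := hn.ne'
      positivity

end Vale.Agent.P265
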