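import Vale.Agent.P265.Mor

namespace Vale.Agent.P265

open Set

theorem lowerS (hA : StmtStabA) (hB : StmtStabB) (hM : StmtMorse) (hR : StmtArith) :
    StmtLower := by
  intro n M E _ _ _ _ _ _ _ π ι hc h1 h3
  refine le_sInf ?_
  rintro _ ⟨k, F, hF, rfl⟩
  by_cases hf : (critSet n F).Finite
  · obtain ⟨c1, l, μ, T, ρ', ρ, a, b, ind, p1, p2, p3, p4, md, e1, e2⟩ :=
      hA n k M E π ι F hf.toFinset hc hF hf.coe_toFinset
    have g : Good ι (univ : Set E) :=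
      ⟨isCompact_univ, mapsTo_univ _ _, hc.2.1.continuousOn, fun x _ => hc.2.2.2.1 x⟩
    have key : ∀ (ε : K7) (z : ℕ → ℕ), ε ≠ 0 → ε ^ 6 = 1 → HasDim ι ε univ ∅ z → ∃ q : ℕ → ℕ,
        ∀ j, (hf.toFinset.filter fun w => ind w + 1 = j).card = sh^[l] z j + q j + sh q j := by
      intro ε z h0 h6 hz
      obtain ⟨g1, g2⟩ := hB E ι ε k l μ T ρ' ρ a z h0 g p1 p2 p3 p4 hz
      obtain ⟨bb, q, d1, d2⟩ := hM _ _ _ _ _ 6 ε _ _ F a b _ ind c1 g1 h0 h6 md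
      rw [e1, e2] at d1
      refine ⟨q, fun j => ?_⟩
      rw [d2 j, Nat.cast_injective ((d1 j).symm.trans (g2 j))]
    obtain ⟨q, hq⟩ := key 1 zP one_ne_zero (one_pow _) h1
    obtain ⟨q', hq'⟩ := key 3 zM (by decide) (by decide) h3
    rw [hf.encard_eq_coe_toFinset_card]
    exact_mod_cast hR _ _ ind l q q' hq hq'
  · rw [Set.Infinite.encard_eq hf]
    exact le_top

end Vale.Agent.P265
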