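import Vale.Agent.P265.Mor

/-! Milnor's modification at the lowest critical point. -/

namespace Vale.Agent.P265

open Set Topology Filter

namespace Step2M

theorem exg {η : ℝ} (hη : 0 < η) : ∃ g φ : ℝ → ℝ, Continuous φ ∧ (∀ t, HasDerivAt g (-φ t) t) ∧
    (∀ t, 0 ≤ φ t ∧ φ t < 1) ∧ η < g 0 ∧ ∀ t, 2 * η ≤ t → g t = 0 := by
  set φ : ℝ → ℝ := fun t => 9 / 10 * max 0 (min 1 (4 - 2 * t / η)) with hφ
  have hc : Continuous φ := by fun_prop
  have h0 : ∀ t, 0 ≤ φ t := fun t => by positivity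
  refine ⟨fun t => ∫ x in t..2 * η, φ x, φ, hc, fun t => intervalIntegral.integral_hasDerivAt_left
    (hc.intervalIntegrable _ _) (hc.stronglyMeasurableAtFilter _ _) hc.continuousAt,
    fun t => ⟨h0 t, ?_⟩, ?_, fun t ht => ?_⟩
  · have : max 0 (min 1 (4 - 2 * t / η)) ≤ 1 := max_le zero_le_one (min_le_left _ _)
    simp only [hφ]; linarith
  · have e : ∫ x in (0 : ℝ)..3 / 2 * η, φ x = ∫ _ in (0 : ℝ)..3 / 2 * η, (9 / 10 : ℝ) :=
      intervalIntegral.integral_congr fun x hx => by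
        rw [uIcc_of_le (by positivity)] at hx
        have : 2 * x / η ≤ 3 := by rw [div_le_iff₀ hη]; linarith [hx.2]
        simp only [hφ]
        rw [min_eq_left (by linarith), max_eq_right zero_le_one, mul_one]
    have := intervalIntegral.integral_nonneg (μ := MeasureTheory.volume) (f := φ)
      (show 3 / 2 * η ≤ 2 * η by linarith) fun x _ => h0 x
    simp only
    rw [← intervalIntegral.integral_add_adjacent_intervals (b := 3 / 2 * η) (hc.intervalIntegrable _ _)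
      (hc.intervalIntegrable _ _), e, intervalIntegral.integral_const, smul_eq_mul]
    linarith
  · simp only
    rw [intervalIntegral.integral_congr (g := fun _ => 0) fun x hx => ?_, intervalIntegral.integral_zero]
    rw [uIcc_of_ge ht] at hx
    have : 4 ≤ 2 * x / η := by rw [le_div_iff₀ hη]; linarith [hx.1]
    simp only [hφ]
    rw [max_eq_left ((min_le_right _ _).trans (by linarith)), mul_zero]

theorem dne {l μ : ℕ} {g φ : ℝ → ℝ} (hg : ∀ t, HasDerivAt g (-φ t) t) (h : ∀ t, 0 ≤ φ t ∧ φ t < 1)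
    (a : ℝ) (u : Eu l × Eu μ)
    (h0 : fderiv ℝ (fun v : Eu l × Eu μ => a + qf v - g (‖v.1‖ ^ 2 + 2 * ‖v.2‖ ^ 2)) u = 0) :
    u = 0 := by
  have h1 := (hasStrictFDerivAt_norm_sq u.1).hasFDerivAt.comp u (hasFDerivAt_fst (𝕜 := ℝ))
  have h2 := (hasStrictFDerivAt_norm_sq u.2).hasFDerivAt.comp u (hasFDerivAt_snd (𝕜 := ℝ))
  have h3 := (((h1.neg.add h2).const_add a).sub
    ((hg (‖u.1‖ ^ 2 + 2 * ‖u.2‖ ^ 2)).comp_hasFDerivAt u (h1.add (h2.const_mul 2)))).fderiv
  have h4 := h3.symm.trans h0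
  have e1 := congrArg (fun L => L (u.1, 0)) h4
  have e2 := congrArg (fun L => L (0, u.2)) h4
  obtain ⟨p0, p1⟩ := h (‖u.1‖ ^ 2 + 2 * ‖u.2‖ ^ 2)
  simp at e1 e2
  have k1 : ‖u.1‖ ^ 2 = 0 := by nlinarith [sq_nonneg ‖u.1‖]
  have k2 : ‖u.2‖ ^ 2 = 0 := by nlinarith [sq_nonneg ‖u.2‖]
  exact Prod.ext (by simpa using k1) (by simpa using k2)

theorem big {l μ : ℕ} {R : ℝ} (hR : 0 < R) {u : Eu l × Eu μ} (h : u ∉ Metric.closedBall 0 (R / 2)) :
    R ^ 2 / 4 ≤ ‖u.1‖ ^ 2 + 2 * ‖u.2‖ ^ 2 := by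
  rw [mem_closedBall_zero_iff, not_le, Prod.norm_def, lt_max_iff] at h
  rcases h with h | h <;> nlinarith [sq_nonneg ‖u.1‖, sq_nonneg ‖u.2‖]

end Step2M

open Step2M in
theorem step2S (hP : StmtPushC) : StmtStep2 := by
  intro E W D _ _ _ _ _ _ _ π ι m c K f a b C ind p hC _ hM hp hmin ⟨μ, c0, R0, r0, ps, p0, tg, hq⟩
  classical
  obtain ⟨U, s, pU, hU⟩ := hC.2.2.2.2.2.2 p
  have it : ∀ (j : ℕ) e, π (ι^[j] e) = π e := fun j e => by
    induction j with
    | zero => rfl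
    | succ j ih => rw [Function.iterate_succ_apply', hC.2.2.1, ih]
  have n1 : ∀ᶠ w in 𝓝 p, w ∈ U ∧ (∀ j ∈ Finset.range m, ι^[j] (s w) ∈ interior K) ∧
      w ∉ (C.erase p : Set W) := by
    refine (hU.1.eventually_mem pU).and (.and ((eventually_all_finset _).2 fun j _ => ?_) ?_)
    · exact ((hC.2.1.iterate j).continuousAt.comp (hU.2.1.continuousAt (hU.1.mem_nhds pU))).eventually
        (isOpen_interior.eventually_mem (hM.int p hp _ (by rw [Function.comp, it, hU.2.2.1 p pU])))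
    · exact (C.erase p).finite_toSet.isClosed.isOpen_compl.eventually_mem (by simp)
  have s0 : c0.symm 0 = p := by rw [← p0, c0.left_inv ps]
  have n0 := (c0.continuousAt_symm (tg (Metric.mem_closedBall_self r0.le))).tendsto
  rw [s0] at n0
  have n2 := n0.eventually n1
  obtain ⟨R1, r1, n3⟩ := Metric.nhds_basis_closedBall.eventually_iff.1 n2
  obtain ⟨R, hR, a1, a2⟩ : ∃ R, 0 < R ∧ R ≤ R0 ∧ R ≤ R1 :=
    ⟨min R0 R1, lt_min r0 r1, min_le_left _ _, min_le_right _ _⟩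
  have b0 := Metric.closedBall_subset_closedBall (x := (0 : Eu (ind p) × Eu μ)) a1
  have b1 := Metric.closedBall_subset_closedBall (x := (0 : Eu (ind p) × Eu μ)) a2
  have b2 := Metric.closedBall_subset_closedBall (x := (0 : Eu (ind p) × Eu μ)) (half_le_self hR.le)
  obtain ⟨v1, v2⟩ := hM.val p hp
  obtain ⟨η, hη, e1, e2, e3⟩ : ∃ η, 0 < η ∧ η ≤ R ^ 2 / 8 ∧ η ≤ (f p - a) / 2 ∧ η ≤ (b - f p) / 2 :=
    ⟨min (R ^ 2 / 8) (min ((f p - a) / 2) ((b - f p) / 2)),
      lt_min (by positivity) (lt_min (by linarith) (by linarith)), min_le_left _ _,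
      (min_le_right _ _).trans (min_le_left _ _), (min_le_right _ _).trans (min_le_right _ _)⟩
  obtain ⟨g, φ, cφ, dg, hφ, g0, g1⟩ := exg hη
  have gd : Differentiable ℝ g := fun t => (dg t).differentiableAt
  have ga : Antitone g := antitone_of_deriv_nonpos gd fun t => by
    rw [(dg t).deriv]; linarith [(hφ t).1]
  have gc : ContDiff ℝ 1 g := contDiff_one_iff_deriv.2 ⟨gd, by
    rw [show deriv g = fun t => -φ t from funext fun t => (dg t).deriv]; exact cφ.neg⟩
  have gp : ∀ t, 0 ≤ g t := fun t => (g1 _ (le_max_right t _)).symm.trans_le (ga (le_max_left _ _))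
  set f' : W → ℝ := fun w => f w - if w ∈ c0.source then g (‖(c0 w).1‖ ^ 2 + 2 * ‖(c0 w).2‖ ^ 2) else 0
    with hf'
  set S := c0.symm '' Metric.closedBall 0 (R / 2) with hS
  have cS : IsClosed S := ((isCompact_closedBall _ _).image_of_continuousOn
    (c0.continuousOn_symm.mono (b2.trans (b0.trans tg)))).isClosed
  have out : ∀ w, w ∉ S → f' w = f w := fun w hw => by
    simp only [hf']
    split_ifs with k
    · rw [g1 _ (le_trans (by linarith) (big hR fun k' => hw ⟨_, k', c0.left_inv k⟩)), sub_zero]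
    · exact sub_zero _
  have out' : ∀ w, w ∉ S → f' =ᶠ[𝓝 w] f := fun w hw =>
    (cS.isOpen_compl.eventually_mem hw).mono out
  have inn : ∀ u ∈ Metric.closedBall 0 R,
      f' (c0.symm u) = f p + qf u - g (‖u.1‖ ^ 2 + 2 * ‖u.2‖ ^ 2) := fun u hu => by
    simp only [hf']
    rw [if_pos (c0.map_target (tg (b0 hu))), c0.right_inv (tg (b0 hu)), hq u (b0 hu)]
  have nC : ∀ w ∈ C.erase p, w ∉ S := fun w hw ⟨u, hu, k⟩ => (n3 (b1 (b2 hu))).2.2 (k ▸ hw)
  have iK : ∀ e, π e ∈ c0.symm '' Metric.closedBall 0 R → e ∈ interior K := fun e ⟨u, hu, k⟩ => by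
    obtain ⟨k1, k2, -⟩ := n3 (b1 hu)
    rw [k] at k1 k2
    obtain ⟨j, hj, k3⟩ := hU.2.2.2.1 e k1
    exact k3 ▸ k2 j (Finset.mem_range.2 hj)
  refine ⟨f', η, by linarith, ⟨continuous_iff_continuousAt.2 fun w => ?_, by linarith,
    fun e he k1 k2 k3 => ?_, fun w hw => ?_, fun w hw => hM.int w (Finset.mem_of_mem_erase hw),
    fun w hw => ?_⟩, ?_, μ, c0, R, g, U, s, hR, hη, by linarith, ps, p0, b0.trans tg, gd.continuous, ga,
    monotone_of_deriv_nonneg (differentiable_id.add gd) fun t => ?_, g0, g1,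
    fun u hu => ⟨hq u (b0 hu), inn u hu⟩, fun w hw => out w fun k => hw (image_mono b2 k),
    fun e he => interior_subset (iK e he), hU, fun w ⟨u, hu, k⟩ => k ▸ (n3 (b1 hu)).1⟩
  · by_cases k : w ∈ c0.source
    · have k1 := c0.continuousAt k
      refine ContinuousAt.congr (f := fun w => f w - g (‖(c0 w).1‖ ^ 2 + 2 * ‖(c0 w).2‖ ^ 2))
        (hM.cont.continuousAt.sub (gd.continuous.continuousAt.comp (by fun_prop))) ?_
      exact (c0.open_source.eventually_mem k).mono fun x hx => by simp only [hf', if_pos hx]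
    · exact hM.cont.continuousAt.congr (out' w fun ⟨u, hu, k'⟩ =>
        k (k' ▸ c0.map_target (tg (b0 (b2 hu))))).symm
  · by_cases k : π e ∈ S
    · obtain ⟨u, hu, k⟩ := k
      have t1 := tg (b0 (b2 hu))
      have t2 : c0 (π e) = u := by rw [← k, c0.right_inv t1]
      have t3 : f' ∘ c0.symm =ᶠ[𝓝 u] fun v => f p + qf v - g (‖v.1‖ ^ 2 + 2 * ‖v.2‖ ^ 2) :=
        mem_of_superset (Metric.closedBall_mem_nhds_of_mem (Metric.closedBall_subset_ball
          (half_lt_self hR) hu)) inn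
      have q1 : ContDiff ℝ 1 fun v : Eu (ind p) × Eu μ => ‖v.1‖ ^ 2 := contDiff_fst.norm_sq ℝ
      have q2 : ContDiff ℝ 1 fun v : Eu (ind p) × Eu μ => ‖v.2‖ ^ 2 := contDiff_snd.norm_sq ℝ
      refine hP E W _ π ι m c0 K f' e hC (iK e ⟨u, b2 hu, k⟩) (k ▸ c0.map_target t1) ?_ ?_ <;> rw [t2]
      · exact ((contDiff_const.add (q1.neg.add q2)).sub
          (gc.comp (q1.add (contDiff_const.mul q2)))).contDiffAt.congr_of_eventuallyEq t3
      · rw [t3.fderiv_eq]
        intro k4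
        have k5 := inn u (b2 hu)
        rw [k, dne dg hφ _ u k4] at k5
        simp [qf] at k5
        linarith
    · have k4 := out _ k
      intro N hN
      obtain ⟨h, h1, h2, h3, h4⟩ := hM.push e he (by linarith) (by linarith) (fun k5 => k3
        (Finset.mem_erase.2 ⟨fun k6 => k ⟨0, Metric.mem_closedBall_self (by positivity),
          s0.trans k6.symm⟩, k5⟩)) (N ∩ π ⁻¹' Sᶜ)
        (inter_mem hN ((cS.isOpen_compl.preimage hC.1).mem_nhds k))
      have h5 : ∀ t ∈ Icc (0 : ℝ) 1, ∀ x ∈ K, h t x ∈ K ∧ (h t x = x ∨ (x ∈ N ∧ h t x ∈ N ∧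
          (f' ∘ π) (h t x) < (f' ∘ π) x)) := fun t ht x hx => ⟨(h3 t ht x hx).1,
        (h3 t ht x hx).2.imp_right fun ⟨i1, i2, i3⟩ => ⟨i1.1, i2.1, by
          simp only [Function.comp]; rwa [out _ i1.2, out _ i2.2]⟩⟩
      refine ⟨h, h1, h2, h5, ?_⟩
      rcases (h5 1 (by simp) e he).2 with i | i
      · rw [i] at h4; exact absurd h4 (lt_irrefl _)
      · exact i.2.2
  · have := hmin w (Finset.mem_of_mem_erase hw)
    rw [out w (nC w hw)]
    exact ⟨by linarith, (hM.val w (Finset.mem_of_mem_erase hw)).2⟩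
  · obtain ⟨k0, O, o1, o2, o3, o4, o5, ν, T, o6⟩ := hM.crit w hw
    have k1 : c w w ∈ (c w).target ∩ (c w).symm ⁻¹' Sᶜ :=
      ⟨o3 o2, by rw [mem_preimage, (c w).left_inv k0]; exact nC w hw⟩
    have k2 := (c w).symm.isOpen_inter_preimage cS.isOpen_compl
    have k3 : f' ∘ (c w).symm =ᶠ[𝓝 (c w w)] f ∘ (c w).symm :=
      (k2.eventually_mem k1).mono fun x hx => out _ hx.2
    exact ⟨k0, O ∩ _, o1.inter k2, ⟨o2, k1⟩, inter_subset_left.trans o3,
      (o4.mono inter_subset_left).congr fun x hx => out _ hx.2.2, k3.fderiv_eq.trans o5, ν, T,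
      fun u => by rw [k3.fderiv.fderiv_eq, o6]⟩
  · ext e
    refine and_congr_right fun _ => ⟨fun (k : f' (π e) ≤ b) => ?_, fun (k : f (π e) ≤ b) => ?_⟩
    · show f (π e) ≤ b
      by_cases k1 : π e ∈ S
      · obtain ⟨u, hu, k1⟩ := k1
        rw [← k1, inn u (b2 hu)] at k
        rw [← k1, hq u (b0 (b2 hu))]
        by_cases k2 : 2 * η ≤ ‖u.1‖ ^ 2 + 2 * ‖u.2‖ ^ 2
        · rwa [g1 _ k2, sub_zero] at k
        · simp only [qf]; nlinarith [sq_nonneg ‖u.1‖]
      · rwa [out _ k1] at k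
    · show f' (π e) ≤ b
      refine le_trans (sub_le_self _ ?_) k
      split_ifs
      · exact gp _
      · exact le_rfl
  · rw [((hasDerivAt_id' t).fun_add (dg t)).deriv]; linarith [(hφ t).2]

end Vale.Agent.P265
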