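import Vale.Agent.P265.Ex

namespace Vale.Agent.P265

open Set Topology Complex
open scoped ContDiff ComplexConjugate

namespace XAtlM

noncomputable def gX (p : VX) : ℝ × ℝ × ℂ × ℝ :=
  (normSq (cal p) - 1, normSq (cbe p) - 1,
    conj (cal p) * ca p ^ 2 - conj (cbe p) * cb p ^ 3 - 1, normSq (xi p) + cx p ^ 2 - 1)

theorem XX_eq : XX = {p | gX p = 0} := by
  ext p
  simp only [XX, gX, mem_setOf_eq, Prod.mk_eq_zero, sub_eq_zero]

theorem cd_nsq {f : VX → ℂ} (hf : ContDiff ℝ ∞ f) : ContDiff ℝ ∞ fun q => normSq (f q) := by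
  have h1 : ContDiff ℝ ∞ fun q => (f q).re := Complex.reCLM.contDiff.comp hf
  have h2 : ContDiff ℝ ∞ fun q => (f q).im := Complex.imCLM.contDiff.comp hf
  simp only [normSq_apply]
  exact (h1.mul h1).add (h2.mul h2)

theorem cd_conj {f : VX → ℂ} (hf : ContDiff ℝ ∞ f) : ContDiff ℝ ∞ fun q => conj (f q) :=
  Complex.conjCLE.contDiff.comp hf

theorem cd_gX : ContDiff ℝ ∞ gX := by
  have ha : ContDiff ℝ ∞ fun q : VX => ca q := by fun_prop
  have hb : ContDiff ℝ ∞ fun q : VX => cb q := by fun_prop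
  have hx : ContDiff ℝ ∞ fun q : VX => cx q := by fun_prop
  have hal : ContDiff ℝ ∞ fun q : VX => cal q := by fun_prop
  have hbe : ContDiff ℝ ∞ fun q : VX => cbe q := by fun_prop
  have hxi : ContDiff ℝ ∞ xi := ((cd_conj hal).mul (ha.pow 2)).sub contDiff_const
  exact ((cd_nsq hal).sub contDiff_const).prodMk (((cd_nsq hbe).sub contDiff_const).prodMk
    (((((cd_conj hal).mul (ha.pow 2)).sub ((cd_conj hbe).mul (hb.pow 3))).sub
      contDiff_const).prodMk (((cd_nsq hxi).add (hx.pow 2)).sub contDiff_const)))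

theorem hd_nsq {f : VX → ℂ} {A : VX →L[ℝ] ℂ} {p : VX} (hf : HasFDerivAt f A p) :
    ∃ B : VX →L[ℝ] ℝ, HasFDerivAt (fun q => normSq (f q)) B p ∧
      ∀ u, B u = 2 * (conj (f p) * A u).re := by
  have h1 : HasFDerivAt (fun q => (f q).re) _ p := Complex.reCLM.hasFDerivAt.comp p hf
  have h2 : HasFDerivAt (fun q => (f q).im) _ p := Complex.imCLM.hasFDerivAt.comp p hf
  have h3 := (h1.mul h1).add (h2.mul h2)
  refine ⟨_, h3, fun u => ?_⟩
  simp
  ring

theorem hd_mon {f g : VX → ℂ} {A B : VX →L[ℝ] ℂ} {p : VX} (n : ℕ) (hf : HasFDerivAt f A p)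
    (hg : HasFDerivAt g B p) :
    ∃ C : VX →L[ℝ] ℂ, HasFDerivAt (fun q => conj (f q) * g q ^ (n + 1)) C p ∧
      ∀ u, C u = conj (A u) * g p ^ (n + 1) + (n + 1) * conj (f p) * g p ^ n * B u := by
  have h1 : HasFDerivAt (fun q => conj (f q)) _ p :=
    Complex.conjCLE.toContinuousLinearMap.hasFDerivAt.comp p hf
  have h3 := h1.mul (hg.pow (n + 1))
  refine ⟨_, h3, fun u => ?_⟩
  simp
  ring

theorem fd_gX (p u : VX) : fderiv ℝ gX p u =
    (2 * (conj (cal p) * cal u).re, 2 * (conj (cbe p) * cbe u).re,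
      dxi p u - (conj (cbe u) * cb p ^ 3 + 3 * conj (cbe p) * cb p ^ 2 * cb u),
      2 * (conj (xi p) * dxi p u).re + 2 * (cx p * cx u)) := by
  have ha : HasFDerivAt (fun q : VX => ca q) _ p := (hasFDerivAt_id (𝕜 := ℝ) p).fst
  have hb : HasFDerivAt (fun q : VX => cb q) _ p := (hasFDerivAt_id (𝕜 := ℝ) p).snd.fst
  have hx : HasFDerivAt (fun q : VX => cx q) _ p := (hasFDerivAt_id (𝕜 := ℝ) p).snd.snd.fst
  have hal : HasFDerivAt (fun q : VX => cal q) _ p := (hasFDerivAt_id (𝕜 := ℝ) p).snd.snd.snd.fst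
  have hbe : HasFDerivAt (fun q : VX => cbe q) _ p := (hasFDerivAt_id (𝕜 := ℝ) p).snd.snd.snd.snd
  obtain ⟨B1, h1, e1⟩ := hd_nsq hal
  obtain ⟨B2, h2, e2⟩ := hd_nsq hbe
  obtain ⟨C1, h3, e3⟩ := hd_mon 1 hal ha
  obtain ⟨C2, h4, e4⟩ := hd_mon 2 hbe hb
  have hxi : HasFDerivAt xi C1 p := h3.sub_const (1 / 2)
  obtain ⟨B5, h5, e5⟩ := hd_nsq hxi
  have h6 := hx.pow 2
  have h : HasFDerivAt gX _ p := (h1.sub_const 1).prodMk ((h2.sub_const 1).prodMk
    (((h3.sub h4).sub_const 1).prodMk ((h5.add h6).sub_const 1)))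
  have e3' : C1 u = dxi p u := by
    rw [e3, dxi]
    simp
    norm_num
  rw [h.fderiv]
  simp only [ContinuousLinearMap.prod_apply, ContinuousLinearMap.sub_apply,
    ContinuousLinearMap.add_apply, e1, e2, e3', e4, e5]
  simp
  norm_num
  ring

theorem sol_a (p : VX) (hal : normSq (cal p) = 1) (ha : ca p ≠ 0) (c δ : ℂ) :
    ∃ da : ℂ, c + 2 * conj (cal p) * ca p * da = δ := by
  have h0 : conj (cal p) ≠ 0 := by
    intro h
    have : cal p = 0 := by simpa using h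
    rw [this] at hal
    simp at hal
  refine ⟨(δ - c) / (2 * conj (cal p) * ca p), ?_⟩
  field_simp
  ring

theorem sol_b (p : VX) (hbe : normSq (cbe p) = 1) (hb : cb p ≠ 0) (c δ : ℂ) :
    ∃ db : ℂ, c + 3 * conj (cbe p) * cb p ^ 2 * db = δ := by
  have h0 : conj (cbe p) ≠ 0 := by
    intro h
    have : cbe p = 0 := by simpa using h
    rw [this] at hbe
    simp at hbe
  refine ⟨(δ - c) / (3 * conj (cbe p) * cb p ^ 2), ?_⟩
  field_simp
  ring

theorem re_sc (z : ℂ) (hz : normSq z = 1) (r : ℝ) : 2 * (conj z * ((r / 2 : ℝ) * z)).re = r := by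
  have : conj z * (((r / 2 : ℝ) : ℂ) * z) = ((r / 2 * normSq z : ℝ) : ℂ) := by
    rw [ofReal_mul, normSq_eq_conj_mul_self]
    ring
  rw [this, hz, ofReal_re]
  ring

theorem surj (p : VX) (hp : p ∈ XX) : Function.Surjective (fderiv ℝ gX p) := by
  obtain ⟨hal, hbe, heq, hs⟩ := hp
  rintro ⟨r1, r2, c, r4⟩
  have key : ∃ (da db : ℂ) (dx : ℝ) (δ : ℂ),
      conj (((r1 / 2 : ℝ) : ℂ) * cal p) * ca p ^ 2 + 2 * conj (cal p) * ca p * da = δ ∧
      conj (((r2 / 2 : ℝ) : ℂ) * cbe p) * cb p ^ 3 + 3 * conj (cbe p) * cb p ^ 2 * db = δ - c ∧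
      2 * (conj (xi p) * δ).re + 2 * (cx p * dx) = r4 := by
    by_cases hx : cx p = 0
    · have hxi : normSq (xi p) = 1 := by rw [hx] at hs; linarith
      have ha : ca p ≠ 0 := by
        intro h
        have : xi p = -(1 / 2) := by rw [xi, h]; ring
        rw [this] at hxi
        norm_num [normSq_apply] at hxi
      have hb : cb p ≠ 0 := by
        intro h
        have : xi p = 1 / 2 := by
          rw [h] at heq
          rw [xi]
          linear_combination heq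
        rw [this] at hxi
        norm_num [normSq_apply] at hxi
      obtain ⟨da, hda⟩ := sol_a p hal ha (conj (((r1 / 2 : ℝ) : ℂ) * cal p) * ca p ^ 2)
        (((r4 / 2 : ℝ) : ℂ) * xi p)
      obtain ⟨db, hdb⟩ := sol_b p hbe hb (conj (((r2 / 2 : ℝ) : ℂ) * cbe p) * cb p ^ 3)
        (((r4 / 2 : ℝ) : ℂ) * xi p - c)
      refine ⟨da, db, 0, _, hda, hdb, ?_⟩
      rw [re_sc _ hxi]
      ring
    · have fin : ∀ δ : ℂ, ∃ dx : ℝ, 2 * (conj (xi p) * δ).re + 2 * (cx p * dx) = r4 := by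
        intro δ
        refine ⟨(r4 - 2 * (conj (xi p) * δ).re) / (2 * cx p), ?_⟩
        field_simp
        ring
      by_cases ha : ca p = 0
      · have hb : cb p ≠ 0 := by
          intro h
          rw [ha, h] at heq
          norm_num at heq
        obtain ⟨db, hdb⟩ := sol_b p hbe hb (conj (((r2 / 2 : ℝ) : ℂ) * cbe p) * cb p ^ 3) (0 - c)
        obtain ⟨dx, hdx⟩ := fin 0
        refine ⟨0, db, dx, 0, ?_, hdb, hdx⟩
        rw [ha]
        ring
      · obtain ⟨da, hda⟩ := sol_a p hal ha (conj (((r1 / 2 : ℝ) : ℂ) * cal p) * ca p ^ 2)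
          (conj (((r2 / 2 : ℝ) : ℂ) * cbe p) * cb p ^ 3 + c)
        obtain ⟨dx, hdx⟩ := fin (conj (((r2 / 2 : ℝ) : ℂ) * cbe p) * cb p ^ 3 + c)
        refine ⟨da, 0, dx, _, hda, ?_, hdx⟩
        ring
  obtain ⟨da, db, dx, δ, k1, k2, k3⟩ := key
  refine ⟨(da, db, dx, ((r1 / 2 : ℝ) : ℂ) * cal p, ((r2 / 2 : ℝ) : ℂ) * cbe p), ?_⟩
  have hd : dxi p (da, db, dx, ((r1 / 2 : ℝ) : ℂ) * cal p, ((r2 / 2 : ℝ) : ℂ) * cbe p) = δ := k1
  rw [fd_gX, hd]
  refine Prod.ext (re_sc _ hal r1) (Prod.ext (re_sc _ hbe r2) (Prod.ext ?_ k3))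
  show δ - (conj (((r2 / 2 : ℝ) : ℂ) * cbe p) * cb p ^ 3 + 3 * conj (cbe p) * cb p ^ 2 * db) = c
  rw [k2]
  ring

theorem norm_one {z : ℂ} (h : normSq z = 1) : ‖z‖ = 1 := by
  rw [Complex.normSq_eq_norm_sq] at h
  have := norm_nonneg z
  nlinarith

theorem bdd (p : VX) (hp : p ∈ XX) : ‖p‖ ≤ 2 := by
  obtain ⟨hal, hbe, heq, hs⟩ := hp
  have h1 := norm_one hal
  have h2 := norm_one hbe
  have hn := normSq_nonneg (xi p)
  have h3 : ‖xi p‖ ≤ 1 := by
    rw [Complex.normSq_eq_norm_sq] at hs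
    have := norm_nonneg (xi p)
    nlinarith [sq_nonneg (cx p)]
  have h4 : ‖cx p‖ ≤ 2 := by
    rw [Real.norm_eq_abs, abs_le]
    constructor <;> nlinarith
  have hh : ‖(1 / 2 : ℂ)‖ = 1 / 2 := by simp
  have h5 : ‖ca p‖ ≤ 2 := by
    have e : conj (cal p) * ca p ^ 2 = xi p + 1 / 2 := by rw [xi]; ring
    have h := congrArg norm e
    rw [norm_mul, norm_pow, RCLike.norm_conj, h1, one_mul] at h
    have h' := norm_add_le (xi p) (1 / 2)
    have := norm_nonneg (ca p)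
    nlinarith
  have h6 : ‖cb p‖ ≤ 2 := by
    have e : conj (cbe p) * cb p ^ 3 = xi p - 1 / 2 := by rw [xi]; linear_combination -heq
    have h := congrArg norm e
    rw [norm_mul, norm_pow, RCLike.norm_conj, h2, one_mul] at h
    have h' := norm_sub_le (xi p) (1 / 2)
    by_contra hc
    have hc' : 2 < ‖cb p‖ := not_le.1 hc
    have : (2 : ℝ) ^ 3 < ‖cb p‖ ^ 3 := pow_lt_pow_left₀ hc' (by norm_num) (by norm_num)
    linarith
  refine norm_prod_le_iff.2 ⟨h5, norm_prod_le_iff.2 ⟨h6, norm_prod_le_iff.2 ⟨h4,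
    norm_prod_le_iff.2 ⟨?_, ?_⟩⟩⟩⟩
  · exact h1.le.trans (by norm_num)
  · exact h2.le.trans (by norm_num)

end XAtlM

open XAtlM in
theorem xAtlS (hL : StmtLev) : StmtXAtl := by
  have hrk : Module.finrank ℝ VX = Module.finrank ℝ (Eu 4) + Module.finrank ℝ (ℝ × ℝ × ℂ × ℝ) := by
    simp [Module.finrank_prod]
  have key : ∀ p ∈ XX, (∃ q : Patch (Eu 4) XX, p ∈ q.O) ∧ Tan XX p = {u | fderiv ℝ gX p u = 0} :=
    fun p hp => hL VX (Eu 4) (ℝ × ℝ × ℂ × ℝ) gX XX p XX_eq hp cd_gX (surj p hp) hrk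
  refine ⟨?_, fun p hp => (key p hp).1, fun p hp => ?_⟩
  · refine Metric.isCompact_of_isClosed_isBounded ?_ ?_
    · rw [XX_eq]
      exact isClosed_eq cd_gX.continuous continuous_const
    · refine (Metric.isBounded_closedBall (x := (0 : VX)) (r := 2)).subset fun p hp => ?_
      rw [mem_closedBall_zero_iff]
      exact bdd p hp
  · rw [(key p hp).2]
    ext u
    simp only [mem_setOf_eq, fd_gX, tanX, Prod.mk_eq_zero, sub_eq_zero]
    constructor
    · rintro ⟨h1, h2, h3, h4⟩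
      exact ⟨by linarith, by linarith, h3, by linarith⟩
    · rintro ⟨h1, h2, h3, h4⟩
      exact ⟨by linarith, by linarith, h3, by linarith⟩

end Vale.Agent.P265
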