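import Vale.Agent.P265.M.XAtl

namespace Vale.Agent.P265

open Set Topology Complex
open scoped ContDiff ComplexConjugate

namespace XNbM

theorem fre {f : VX → ℂ} {A : VX →L[ℝ] ℂ} {p : VX} (hf : HasFDerivAt f A p) (u : VX) :
    fderiv ℝ (fun q => (f q).re) p u = (A u).re := by
  have h1 : HasFDerivAt (fun q => (f q).re) _ p := Complex.reCLM.hasFDerivAt.comp p hf
  rw [h1.fderiv]
  rfl

theorem fim {f : VX → ℂ} {A : VX →L[ℝ] ℂ} {p : VX} (hf : HasFDerivAt f A p) (u : VX) :
    fderiv ℝ (fun q => (f q).im) p u = (A u).im := by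
  have h1 : HasFDerivAt (fun q => (f q).im) _ p := Complex.imCLM.hasFDerivAt.comp p hf
  rw [h1.fderiv]
  rfl

noncomputable def tha (p u : VX) : ℝ := (conj (cal p) * cal u).im
noncomputable def thb (p u : VX) : ℝ := (conj (cbe p) * cbe u).im

theorem frm_eq (p u v : VX) : frm lX p u v =
    cx p * ((dxi p u).re * (dxi p v).im - (dxi p v).re * (dxi p u).im) +
    (xi p).re * ((dxi p u).im * cx v - (dxi p v).im * cx u) +
    (xi p).im * (cx u * (dxi p v).re - cx v * (dxi p u).re) +
    cx p * (conj (ca u) * ca v).im -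
    cx p / 2 * ((conj (ca p) * ca u).re * tha p v - (conj (ca p) * ca v).re * tha p u) +
    cx p * (conj (cb u) * cb v).im -
    cx p / 3 * ((conj (cb p) * cb u).re * thb p v - (conj (cb p) * cb v).re * thb p u) +
    (tha p u * thb p v - tha p v * thb p u) := by
  have ha : HasFDerivAt (fun q : VX => ca q) _ p := (hasFDerivAt_id (𝕜 := ℝ) p).fst
  have hb : HasFDerivAt (fun q : VX => cb q) _ p := (hasFDerivAt_id (𝕜 := ℝ) p).snd.fst
  have hx : HasFDerivAt (fun q : VX => cx q) _ p := (hasFDerivAt_id (𝕜 := ℝ) p).snd.snd.fst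
  have hal : HasFDerivAt (fun q : VX => cal q) _ p := (hasFDerivAt_id (𝕜 := ℝ) p).snd.snd.snd.fst
  have hbe : HasFDerivAt (fun q : VX => cbe q) _ p := (hasFDerivAt_id (𝕜 := ℝ) p).snd.snd.snd.snd
  obtain ⟨B1, h1, e1⟩ := XAtlM.hd_nsq ha
  obtain ⟨B2, h2, e2⟩ := XAtlM.hd_nsq hb
  obtain ⟨C1, h3, e3⟩ := XAtlM.hd_mon 1 hal ha
  have hxi : HasFDerivAt xi C1 p := h3.sub_const (1 / 2)
  have e3' : ∀ u, C1 u = dxi p u := by
    intro u
    rw [e3, dxi]
    simp
    norm_num
  have d1 : ∀ u, fderiv ℝ (fun q => (xi q).re) p u = (dxi p u).re := fun u => by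
    rw [fre hxi, e3']
  have d2 : ∀ u, fderiv ℝ (fun q => (xi q).im) p u = (dxi p u).im := fun u => by
    rw [fim hxi, e3']
  have d3 : ∀ u, fderiv ℝ cx p u = cx u := fun u => by
    have : fderiv ℝ cx p = _ := hx.fderiv
    rw [this]
    rfl
  have d4 : ∀ u, fderiv ℝ (fun q => (ca q).re) p u = (ca u).re := fun u => fre ha u
  have d5 : ∀ u, fderiv ℝ (fun q => (ca q).im) p u = (ca u).im := fun u => fim ha u
  have d6 : ∀ u, fderiv ℝ (fun q => (cb q).re) p u = (cb u).re := fun u => fre hb u
  have d7 : ∀ u, fderiv ℝ (fun q => (cb q).im) p u = (cb u).im := fun u => fim hb u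
  have d8 : ∀ u, fderiv ℝ (fun q => (cal q).re) p u = (cal u).re := fun u => fre hal u
  have d9 : ∀ u, fderiv ℝ (fun q => (cal q).im) p u = (cal u).im := fun u => fim hal u
  have d10 : ∀ u, fderiv ℝ (fun q => (cbe q).re) p u = (cbe u).re := fun u => fre hbe u
  have d11 : ∀ u, fderiv ℝ (fun q => (cbe q).im) p u = (cbe u).im := fun u => fim hbe u
  have d12 : ∀ u, fderiv ℝ (fun q => normSq (ca q)) p u = 2 * (conj (ca p) * ca u).re :=
    fun u => by rw [h1.fderiv, e1]; rfl
  have d13 : ∀ u, fderiv ℝ (fun q => normSq (cb q)) p u = 2 * (conj (cb p) * cb u).re :=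
    fun u => by rw [h2.fderiv, e2]; rfl
  simp only [frm, lX, List.map_cons, List.map_nil, List.sum_cons, List.sum_nil, w2, d1, d2, d3, d4,
    d5, d6, d7, d8, d9, d10, d11, d12, d13, tha, thb, mul_re, mul_im, conj_re, conj_im]
  ring

theorem zero_of (z w : ℂ) (hz : normSq z = 1) (h1 : (conj z * w).re = 0) (h2 : (conj z * w).im = 0) :
    w = 0 := by
  have h : conj z * w = 0 := Complex.ext h1 h2
  rcases mul_eq_zero.1 h with h | h
  · have : z = 0 := by simpa using h
    rw [this] at hz
    simp at hz
  · exact h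

theorem im_sc (c a b : ℂ) : (conj (c * a) * (c * b)).im = normSq c * (conj a * b).im := by
  simp only [normSq_apply, mul_re, mul_im, conj_re, conj_im, map_mul]
  ring

theorem conj_ne {z : ℂ} (hz : normSq z = 1) : conj z ≠ 0 := by
  intro h
  have : z = 0 := by simpa using h
  rw [this] at hz
  simp at hz

theorem sq3 (a b c : ℝ) (h : a ^ 2 + b ^ 2 + c ^ 2 ≤ 0) : a = 0 ∧ b = 0 ∧ c = 0 := by
  have h1 := sq_nonneg a
  have h2 := sq_nonneg b
  have h3 := sq_nonneg c
  exact ⟨pow_eq_zero_iff (two_ne_zero) |>.1 (by linarith), pow_eq_zero_iff (two_ne_zero) |>.1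
    (by linarith), pow_eq_zero_iff (two_ne_zero) |>.1 (by linarith)⟩

end XNbM

open XNbM in
theorem xNS : StmtXN := by
  rintro ⟨a, b, x, al, be⟩ hp ⟨da, db, dx, dal, dbe⟩ hv H
  obtain ⟨hal, hbe, heq, hs⟩ := hp
  obtain ⟨t1, t2, t3, t4⟩ := hv
  have hal' := hal
  have hbe' := hbe
  simp only [normSq_apply] at hal' hbe'
  simp only [ca, cb, cx, cal, cbe] at *
  have z1 : dxi (a, b, x, al, be) (I * a, 0, 0, 2 * I * al, 0) = 0 := by
    simp only [dxi, ca, cal, map_mul, conj_I, map_ofNat]
    ring
  have k1 : tanX (a, b, x, al, be) (I * a, 0, 0, 2 * I * al, 0) := by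
    refine ⟨?_, ?_, ?_, ?_⟩
    · simp [cal]
      ring
    · simp [cbe]
    · rw [z1]
      simp [cb, cbe]
    · rw [z1]
      simp [cx]
  have z2 : dxi (a, b, x, al, be) (0, I * b, 0, 0, 3 * I * be) = 0 := by
    simp [dxi, ca, cal]
  have k2 : tanX (a, b, x, al, be) (0, I * b, 0, 0, 3 * I * be) := by
    refine ⟨?_, ?_, ?_, ?_⟩
    · simp [cal]
    · simp [cbe]
      ring
    · rw [z2]
      simp only [cb, cbe, map_mul, conj_I, map_ofNat]
      ring
    · rw [z2]
      simp [cx]
  have g1 := H _ k1
  have g2 := H _ k2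
  rw [frm_eq, z1] at g1
  rw [frm_eq, z2] at g2
  simp only [tha, thb, ca, cb, cx, cal, cbe, mul_re, mul_im, conj_re, conj_im, I_re, I_im, zero_re,
    zero_im, re_ofNat, im_ofNat] at g1 g2 t1 t2
  have hdbe : dbe = 0 := by
    refine zero_of be dbe hbe (by simpa using t2) ?_
    simp only [mul_im, conj_re, conj_im]
    linear_combination (-1 / 2) * g1 - ((be.re * dbe.im + -be.im * dbe.re) +
      x / 2 * (a.re * da.re + a.im * da.im)) * hal'
  have hdal : dal = 0 := by
    refine zero_of al dal hal (by simpa using t1) ?_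
    simp only [mul_im, conj_re, conj_im]
    linear_combination (1 / 3) * g2 - ((al.re * dal.im + -al.im * dal.re) -
      x / 3 * (b.re * db.re + b.im * db.im)) * hbe'
  subst hdbe hdal
  have hH : ∀ (da' db' δ : ℂ) (dx' : ℝ), 2 * conj al * a * da' = δ → 3 * conj be * b ^ 2 * db' = δ →
      (conj (xi (a, b, x, al, be)) * δ).re + x * dx' = 0 →
      x * ((dxi (a, b, x, al, be) (da, db, dx, 0, 0)).re * δ.im -
        δ.re * (dxi (a, b, x, al, be) (da, db, dx, 0, 0)).im) +
      (xi (a, b, x, al, be)).re * ((dxi (a, b, x, al, be) (da, db, dx, 0, 0)).im * dx' - δ.im * dx) +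
      (xi (a, b, x, al, be)).im * (dx * δ.re - dx' * (dxi (a, b, x, al, be) (da, db, dx, 0, 0)).re) +
      x * (conj da * da').im + x * (conj db * db').im = 0 := by
    intro da' db' δ dx' q1 q2 q3
    have z : dxi (a, b, x, al, be) (da', db', dx', 0, 0) = δ := by
      rw [← q1]
      simp [dxi, ca, cal]
    have k : tanX (a, b, x, al, be) (da', db', dx', 0, 0) := by
      refine ⟨by simp [cal], by simp [cbe], ?_, ?_⟩
      · rw [z, ← q2]
        simp [cb, cbe]
      · rw [z]
        exact q3
    have g := H _ k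
    rw [frm_eq, z] at g
    simp only [tha, thb, ca, cb, cx, cal, cbe, mul_zero, zero_im, sub_zero, add_zero] at g
    exact g
  have hd1 : dxi (a, b, x, al, be) (da, db, dx, 0, 0) = 2 * conj al * a * da := by
    simp [dxi, ca, cal]
  have hd2 : dxi (a, b, x, al, be) (da, db, dx, 0, 0) = 3 * conj be * b ^ 2 * db := by
    rw [t3]
    simp
  have hxi1 : xi (a, b, x, al, be) = conj al * a ^ 2 - 1 / 2 := rfl
  generalize dxi (a, b, x, al, be) (da, db, dx, 0, 0) = d at *
  generalize xi (a, b, x, al, be) = ξ at *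
  have hca := conj_ne hal
  have hcb := conj_ne hbe
  have fin : da = 0 ∧ db = 0 ∧ dx = 0 := by
    by_cases ha : a = 0
    · subst ha
      have hb : b ≠ 0 := by
        rintro rfl
        norm_num at heq
      have hd : d = 0 := by rw [hd1]; ring
      have hdb : db = 0 := by
        rw [hd] at hd2
        exact (mul_eq_zero.1 hd2.symm).resolve_left
          (mul_ne_zero (mul_ne_zero (by norm_num) hcb) (pow_ne_zero _ hb))
      have hx : x ≠ 0 := by
        rintro rfl
        rw [hxi1] at hs
        norm_num [normSq_apply] at hs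
      have hdx : dx = 0 := by
        rw [hd] at t4
        simpa [hx] using t4
      have g := hH (I * da) 0 0 0 (by ring) (by ring) (by simp)
      subst hd hdb hdx
      simp only [zero_re, zero_im, mul_zero, sub_zero, add_zero, zero_add, mul_im, mul_re, conj_re,
        conj_im, I_re, I_im] at g
      have g' : normSq da = 0 := by
        have := (mul_eq_zero.1 g).resolve_left hx
        rw [normSq_apply]
        linarith
      exact ⟨normSq_eq_zero.1 g', rfl, rfl⟩
    · by_cases hb : b = 0
      · subst hb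
        have hd : d = 0 := by rw [hd2]; ring
        have hda : da = 0 := by
          rw [hd] at hd1
          exact (mul_eq_zero.1 hd1.symm).resolve_left
            (mul_ne_zero (mul_ne_zero (by norm_num) hca) ha)
        have hx : x ≠ 0 := by
          rintro rfl
          have : ξ = 1 / 2 := by rw [hxi1]; linear_combination heq
          rw [this] at hs
          norm_num [normSq_apply] at hs
        have hdx : dx = 0 := by
          rw [hd] at t4
          simpa [hx] using t4
        have g := hH 0 (I * db) 0 0 (by ring) (by ring) (by simp)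
        subst hd hda hdx
        simp only [zero_re, zero_im, mul_zero, sub_zero, add_zero, zero_add, mul_im, mul_re,
          conj_re, conj_im, I_re, I_im] at g
        have g' : normSq db = 0 := by
          have := (mul_eq_zero.1 g).resolve_left hx
          rw [normSq_apply]
          linarith
        exact ⟨rfl, normSq_eq_zero.1 g', rfl⟩
      · have n1 : 2 * conj al * a ≠ 0 := mul_ne_zero (mul_ne_zero (by norm_num) hca) ha
        have n2 : 3 * conj be * b ^ 2 ≠ 0 :=
          mul_ne_zero (mul_ne_zero (by norm_num) hcb) (pow_ne_zero _ hb)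
        obtain ⟨δ, hδ⟩ : ∃ δ : ℂ, δ = x * I * d - I * ξ * dx := ⟨_, rfl⟩
        have hδ1 : δ.re = -(x * d.im) + ξ.im * dx := by
          rw [hδ]; simp
        have hδ2 : δ.im = x * d.re - ξ.re * dx := by
          rw [hδ]; simp
        obtain ⟨da', q1⟩ : ∃ da' : ℂ, 2 * conj al * a * da' = δ :=
          ⟨δ / (2 * conj al * a), by field_simp⟩
        obtain ⟨db', q2⟩ : ∃ db' : ℂ, 3 * conj be * b ^ 2 * db' = δ :=
          ⟨δ / (3 * conj be * b ^ 2), by field_simp⟩
        have t4' : ξ.re * d.re + ξ.im * d.im + x * dx = 0 := by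
          simp only [mul_re, conj_re, conj_im] at t4
          linarith
        have hs' : ξ.re * ξ.re + ξ.im * ξ.im + x ^ 2 = 1 := by
          rw [normSq_apply] at hs
          exact hs
        have g := hH da' db' δ (ξ.re * d.im - ξ.im * d.re) q1 q2 (by
          simp only [mul_re, conj_re, conj_im, hδ1, hδ2]
          ring)
        have hN : (conj d * δ).im = x * (d.re ^ 2 + d.im ^ 2 + dx ^ 2) := by
          simp only [mul_im, conj_re, conj_im, hδ1, hδ2]
          linear_combination (-dx) * t4'
        have p1 : 0 ≤ x * (conj da * da').im := by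
          have h := im_sc (2 * conj al * a) da da'
          rw [← hd1, q1, hN] at h
          have hp := normSq_pos.2 n1
          have : 0 ≤ normSq (2 * conj al * a) * (x * (conj da * da').im) := by
            have e : normSq (2 * conj al * a) * (x * (conj da * da').im) =
                x ^ 2 * (d.re ^ 2 + d.im ^ 2 + dx ^ 2) := by linear_combination (-x) * h
            rw [e]
            positivity
          exact (mul_nonneg_iff_of_pos_left hp).1 this
        have p2 : 0 ≤ x * (conj db * db').im := by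
          have h := im_sc (3 * conj be * b ^ 2) db db'
          rw [← hd2, q2, hN] at h
          have hp := normSq_pos.2 n2
          have : 0 ≤ normSq (3 * conj be * b ^ 2) * (x * (conj db * db').im) := by
            have e : normSq (3 * conj be * b ^ 2) * (x * (conj db * db').im) =
                x ^ 2 * (d.re ^ 2 + d.im ^ 2 + dx ^ 2) := by linear_combination (-x) * h
            rw [e]
            positivity
          exact (mul_nonneg_iff_of_pos_left hp).1 this
        have hdet : x * (d.re * δ.im - δ.re * d.im) +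
            ξ.re * (d.im * (ξ.re * d.im - ξ.im * d.re) - δ.im * dx) +
            ξ.im * (dx * δ.re - (ξ.re * d.im - ξ.im * d.re) * d.re) =
            d.re ^ 2 + d.im ^ 2 + dx ^ 2 := by
          rw [hδ1, hδ2]
          linear_combination (d.re ^ 2 + d.im ^ 2 + dx ^ 2) * hs' -
            (ξ.re * d.re + ξ.im * d.im + x * dx) * t4'
        have hsum : d.re ^ 2 + d.im ^ 2 + dx ^ 2 ≤ 0 := by linarith only [g, hdet, p1, p2]
        obtain ⟨r1, r2, r3⟩ := sq3 _ _ _ hsum
        have hd : d = 0 := Complex.ext r1 r2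
        rw [hd] at hd1 hd2
        exact ⟨(mul_eq_zero.1 hd1.symm).resolve_left n1, (mul_eq_zero.1 hd2.symm).resolve_left n2,
          r3⟩
  obtain ⟨rfl, rfl, rfl⟩ := fin
  rfl

end Vale.Agent.P265
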